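import Vale.Agent.P244C.Reg

open Set MeasureTheory Filter Topology
open scoped ContDiff

noncomputable section

namespace Vale.Agent.P244

theorem Boot_abs {Φ : ℝ × ℝ → ℝ} {t1 : ℝ}
    (hc : ContinuousOn Φ (Icc 0 t1 ×ˢ univ)) (hi : ∀ x ∈ Ioo 0 Real.pi, Φ (0, x) ≤ 0)
    (hs : ∀ t ∈ Icc 0 t1, (∀ p ∈ Rg t, Φ p ≤ 0) → ∀ x ∈ Icc 0 Real.pi, Φ (t, x) < 0) :
    ∀ p ∈ Rg t1, Φ p ≤ 0 := by
  have key : Icc 0 t1 ⊆ {t | ∀ x ∈ Ioo 0 Real.pi, Φ (t, x) ≤ 0} := by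
    refine IsClosed.Icc_subset_of_forall_mem_nhdsGT_of_Icc_subset ?_ hi fun t ht hsub => ?_
    · refine isClosed_of_closure_subset fun t ht => ?_
      have ht' : t ∈ Icc 0 t1 :=
        isClosed_Icc.closure_subset (closure_mono inter_subset_right ht)
      refine ⟨fun x hx => ?_, ht'⟩
      have h1 : ContinuousWithinAt (fun s => Φ (s, x))
          ({t | ∀ x ∈ Ioo 0 Real.pi, Φ (t, x) ≤ 0} ∩ Icc 0 t1) t :=
        ContinuousWithinAt.comp (f := fun s : ℝ => (s, x)) (hc (t, x) ⟨ht', trivial⟩)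
          (by fun_prop) fun s hs => ⟨hs.2, trivial⟩
      exact ContinuousWithinAt.closure_le ht h1 continuousWithinAt_const fun s hs => hs.1 x hx
    · have ht' : t ∈ Icc 0 t1 := ⟨ht.1, ht.2.le⟩
      have h1 := hs t ht' fun p hp => hsub hp.1 p.2 hp.2
      have h2 : ∀ᶠ s in 𝓝 t, ∀ x ∈ Icc 0 Real.pi, s ∈ Icc 0 t1 → Φ (s, x) < 0 := by
        refine isCompact_Icc.eventually_forall_of_forall_eventually fun x hx => ?_
        have h3 := (hc (t, x) ⟨ht', trivial⟩).eventually (gt_mem_nhds (h1 x hx))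
        rw [eventually_nhdsWithin_iff] at h3
        filter_upwards [h3] with z hz hz'
        exact hz ⟨hz', trivial⟩
      filter_upwards [mem_nhdsWithin_of_mem_nhds h2, Ioo_mem_nhdsGT ht.2] with s hs hs' x hx
      exact (hs x (Ioo_subset_Icc_self hx) ⟨ht.1.trans hs'.1.le, hs'.2.le⟩).le
  intro p hp
  exact key hp.1 p.2 hp.2

/-- all bootstrap conditions in one function -/
def Boot_Phi (q : ℕ) (e0 K T : ℝ) (S : Pre) (r0 r1 r2 : ℝ × ℝ → ℝ) (c : ℝ) (p : ℝ × ℝ) : ℝ :=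
  max (max (max (S.k p * |S.Θ p| - c * (((T - p.1) ^ 3 + S.h p ^ 6) / 100))
      (S.f p ^ 2 * |r1 p - r2 p| - c * (10000 + K * S.f p)))
    (max (S.f p ^ 2 * |r0 p - r2 p| - c * (10000 + K * S.f p))
      (S.f p ^ 2 * |r0 p + 2 * r1 p + q * r2 p| - c * (10000 + K * S.f p))))
    (max (min (T - p.1 - S.h p ^ 2)
        (A0 q e0 T * ((T - p.1) / T) ^ 3 - 2 * c * (S.Θ p * S.mono 0 (3 / mm q) p)))
      (S.f p ^ 2 - (2 * S.h p ^ 2 + c * (T - p.1))))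

theorem Boot_iff {q : ℕ} {e0 K T c : ℝ} {S : Pre} {r0 r1 r2 : ℝ × ℝ → ℝ} {p : ℝ × ℝ}
    (h : S.ρ0 q p = r0 p ∧ S.ρ1 q p = r1 p ∧ S.ρ2 q p = r2 p) :
    Boot_Phi q e0 K T S r0 r1 r2 c p ≤ 0 ↔ BS q e0 K T c S p := by
  simp only [Boot_Phi, max_le_iff, min_le_iff, sub_nonpos, ← h.1, ← h.2.1, ← h.2.2]
  constructor
  · rintro ⟨⟨⟨a1, a2⟩, a3, a4⟩, a5, a6⟩
    exact ⟨a1, a2, a3, a4, fun h' => a5.resolve_left (not_le.2 h'), a6⟩
  · rintro ⟨a1, a2, a3, a4, a5, a6⟩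
    exact ⟨⟨⟨a1, a2⟩, a3, a4⟩, (le_or_gt _ _).imp_right a5, a6⟩

theorem Boot_cont {q : ℕ} {T' : ℝ} {S : Pre} (hS : IsSol q T' S) {r0 r1 r2 : ℝ × ℝ → ℝ}
    (h0 : ContinuousOn r0 (Ico 0 T' ×ˢ univ)) (h1 : ContinuousOn r1 (Ico 0 T' ×ˢ univ))
    (h2 : ContinuousOn r2 (Ico 0 T' ×ˢ univ)) (e0 K T c : ℝ) :
    ContinuousOn (Boot_Phi q e0 K T S r0 r1 r2 c) (Ico 0 T' ×ˢ univ) := by
  have hF : ContinuousOn S.F (Ico 0 T' ×ˢ univ) := hS.smF.continuousOn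
  have hη : ContinuousOn S.η (Ico 0 T' ×ˢ univ) := hS.smη.continuousOn
  have hl : ContinuousOn (fun p : ℝ × ℝ => S.ℓ p.1) (Ico 0 T' ×ˢ univ) :=
    hS.smℓ.continuousOn.comp continuousOn_fst fun p hp => hp.1
  have hh : ContinuousOn S.h (Ico 0 T' ×ˢ univ) :=
    (hl.mul (by fun_prop : ContinuousOn (fun p : ℝ × ℝ => Real.sin p.2) _)).mul hη
  have hf : ContinuousOn S.f (Ico 0 T' ×ˢ univ) := hF.rexp
  have hk : ContinuousOn S.k (Ico 0 T' ×ˢ univ) := hh.sqrt.sqrt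
  have hΘ : ContinuousOn S.Θ (Ico 0 T' ×ˢ univ) := (hf.pow 2).sub (hh.pow 2)
  have hm : ContinuousOn (S.mono 0 (3 / mm q)) (Ico 0 T' ×ˢ univ) :=
    ((continuousOn_const (c := 3 / mm q)).mul hF).rexp.congr fun p _ => by simp [Pre.mono]
  have hτ : ContinuousOn (fun p : ℝ × ℝ => T - p.1) (Ico 0 T' ×ˢ univ) := by fun_prop
  have hb : ContinuousOn (fun p => c * (10000 + K * S.f p)) (Ico 0 T' ×ˢ univ) :=
    continuousOn_const.mul (continuousOn_const.add (continuousOn_const.mul hf))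
  refine ContinuousOn.sup (ContinuousOn.sup (ContinuousOn.sup ?_ ?_) (ContinuousOn.sup ?_ ?_))
    (ContinuousOn.sup (ContinuousOn.inf ?_ ?_) ?_)
  · exact (hk.mul hΘ.abs).sub
      (continuousOn_const.mul (((hτ.pow 3).add (hh.pow 6)).div_const 100))
  · exact ((hf.pow 2).mul (h1.sub h2).abs).sub hb
  · exact ((hf.pow 2).mul (h0.sub h2).abs).sub hb
  · exact ((hf.pow 2).mul ((h0.add (continuousOn_const.mul h1)).add
      (continuousOn_const.mul h2)).abs).sub hb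
  · exact hτ.sub (hh.pow 2)
  · exact (continuousOn_const.mul ((hτ.div_const T).pow 3)).sub
      (continuousOn_const.mul (hΘ.mul hm))
  · exact (hf.pow 2).sub ((continuousOn_const.mul (hh.pow 2)).add (continuousOn_const.mul hτ))

theorem Boot_strict {q : ℕ} {e0 K T : ℝ} {S : Pre} {r0 r1 r2 : ℝ × ℝ → ℝ} {p : ℝ × ℝ}
    (hT0 : 0 < T) (hK : 0 ≤ K) (hA : 0 < A0 q e0 T) (hτ : 0 < T - p.1)
    (h : Boot_Phi q e0 K T S r0 r1 r2 (1 / 2) p ≤ 0)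
    (h' : S.h p ^ 2 = T - p.1 →
      A0 q e0 T * ((T - p.1) / T) ^ 3 ≤ S.Θ p * S.mono 0 (3 / mm q) p) :
    Boot_Phi q e0 K T S r0 r1 r2 1 p < 0 := by
  simp only [Boot_Phi, max_le_iff, min_le_iff, sub_nonpos] at h
  simp only [Boot_Phi, max_lt_iff, min_lt_iff, sub_neg]
  obtain ⟨⟨⟨a1, a2⟩, a3, a4⟩, a5, a6⟩ := h
  have b1 : 0 < ((T - p.1) ^ 3 + S.h p ^ 6) / 100 := by positivity
  have b2 : 0 < 10000 + K * S.f p := by
    have : 0 < S.f p := Real.exp_pos _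
    positivity
  have b3 : 0 < A0 q e0 T * ((T - p.1) / T) ^ 3 := by positivity
  refine ⟨⟨⟨by linarith, by linarith⟩, by linarith, by linarith⟩, ?_, by linarith⟩
  rcases lt_trichotomy (T - p.1) (S.h p ^ 2) with h1 | h1 | h1
  · exact Or.inl h1
  · have := h' h1.symm
    exact Or.inr (by linarith)
  · have := a5.resolve_left (not_le.2 h1)
    exact Or.inr (by linarith)

/-- the continuity method -/
theorem boot {q : ℕ} {e0 K T T' t1 : ℝ} {S : Pre} (hS : IsSol q T' S) (hT0 : 0 < T) (hT : T' ≤ T)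
    (hK : 0 ≤ K) (h0 : 0 ≤ t1) (h1 : t1 < T') (hA : 0 < A0 q e0 T)
    (hi : ∀ x ∈ Ioo 0 Real.pi, BS q e0 K T 1 S (0, x))
    (himp : ∀ t2 ∈ Icc 0 t1, (∀ p ∈ Rg t2, BS q e0 K T 1 S p) →
      ∀ p ∈ Rg t2, BS q e0 K T (1 / 2) S p ∧ (S.h p ^ 2 ≤ T - p.1 →
        A0 q e0 T * ((T - p.1) / T) ^ 3 ≤ S.Θ p * S.mono 0 (3 / mm q) p)) :
    ∀ p ∈ Rg t1, BS q e0 K T 1 S p := by
  obtain ⟨r0, r1, r2, c0, c1, c2, hr⟩ := reg_ext hS
  have hsub : Icc 0 t1 ×ˢ (univ : Set ℝ) ⊆ Ico 0 T' ×ˢ univ :=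
    prod_mono (Icc_subset_Ico_right h1) Subset.rfl
  have hW : ∀ t ∈ Icc 0 t1, ∀ p ∈ Rg t, p ∈ Wd T' := fun t ht p hp =>
    ⟨⟨hp.1.1, hp.1.2.trans_lt (ht.2.trans_lt h1)⟩, hp.2⟩
  have key := Boot_abs ((Boot_cont hS c0 c1 c2 e0 K T 1).mono hsub)
    (fun x hx => (Boot_iff (hr (0, x) ⟨⟨le_rfl, h0.trans_lt h1⟩, hx⟩)).2 (hi x hx))
    fun t ht hp x hx => ?_
  · intro p hp
    exact (Boot_iff (hr p (hW t1 ⟨h0, le_rfl⟩ p hp))).1 (key p hp)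
  have h2 := himp t ht fun p hp' => (Boot_iff (hr p (hW t ht p hp'))).1 (hp p hp')
  have hτ : 0 < T - t := by linarith [ht.2]
  have h3 : ∀ y ∈ Ioo 0 Real.pi, (t, y) ∈ Rg t := fun y hy => ⟨⟨ht.1, le_rfl⟩, hy⟩
  refine Boot_strict hT0 hK hA hτ ?_ fun h4 => ?_
  · have h5 : ContinuousWithinAt (fun y => Boot_Phi q e0 K T S r0 r1 r2 (1 / 2) (t, y))
        (Ioo 0 Real.pi) x :=
      ContinuousWithinAt.comp (f := fun y : ℝ => (t, y))
        (Boot_cont hS c0 c1 c2 e0 K T (1 / 2) (t, x) (hsub ⟨ht, trivial⟩))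
        (by fun_prop) fun s _ => hsub ⟨ht, trivial⟩
    refine ContinuousWithinAt.closure_le ?_ h5 continuousWithinAt_const fun y hy => ?_
    · rwa [closure_Ioo Real.pi_pos.ne]
    · exact (Boot_iff (hr _ (hW t ht _ (h3 y hy)))).2 (h2 _ (h3 y hy)).1
  · have h5 : Real.sin x ≠ 0 := by
      intro h6
      simp only [Pre.h, h6, mul_zero, zero_mul] at h4
      linarith
    have h6 : x ∈ Ioo 0 Real.pi := by
      refine ⟨hx.1.lt_of_ne ?_, hx.2.lt_of_ne ?_⟩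
      · rintro rfl
        exact h5 Real.sin_zero
      · rintro rfl
        exact h5 Real.sin_pi
    exact (h2 _ (h3 x h6)).2 h4.le

end Vale.Agent.P244
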