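import Vale.Agent.P244C.Bas

open Set MeasureTheory Filter Topology
open scoped ContDiff

noncomputable section

namespace Vale.Agent.P244

variable {q : ℕ} {e0 Ci K T T' t1 : ℝ} {S : Pre}

theorem near_q (q : ℕ) : (q : ℝ) = mm q + 1 := by
  unfold mm
  ring

theorem near_E {p : ℝ × ℝ} (hb : Bas q e0 K T S p) :
    S.h p ^ 2 = S.EE p * S.f p ^ 2 ∧ 0 < S.EE p ∧ S.EE p ≤ 1.03 := by
  have f0 := pow_pos hb.fpos 2
  exact ⟨(div_mul_cancel₀ _ f0.ne').symm, div_pos (pow_pos hb.hpos 2) f0,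
    (div_le_iff₀ f0).2 hb.E1⟩

/-- curvature bounds in the near region -/
theorem Hyp.near_cv (H : Hyp q e0 Ci K T T' t1 S) {p : ℝ × ℝ} (hp : p ∈ Rg t1)
    (hh : S.h p ≤ 2 / K) : S.f p ^ 2 * |S.σ q p| ≤ 10003 ∧ S.f p ^ 2 * |S.kt q p| ≤ 10003 ∧
      S.f p ^ 2 * |S.R q p| ≤ 10003 ∧ |S.f p ^ 2 * S.ρ1 q p| ≤ 10004 ∧
      |S.f p ^ 2 * S.ρ0 q p| ≤ 10004 ∧
      S.f p ^ 2 * (2 * S.ρ1 q p + q * S.ρ2 q p - S.ρ0 q p) ≤ 30011 := by
  have hb := H.bas p hp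
  have bs := H.bs p hp
  have hm := H.dim.hq
  have K0 : 0 < K := by linarith [H.hK]
  have h1 : K * S.f p ≤ 3 := by
    rw [le_div_iff₀ K0] at hh
    have h2 := pow_le_pow_left₀ (mul_pos hb.hpos K0).le hh 2
    have h3 := mul_le_mul_of_nonneg_right (bs.b4.trans (add_le_add le_rfl
      ((one_mul _).trans_le hb.τT))) (sq_nonneg K)
    exact le_of_sq_le_sq (by nlinarith [H.hTK]) (by norm_num)
  have c1 : S.f p ^ 2 * |S.σ q p| ≤ 10003 := by linarith [bs.bσ]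
  have c2 : S.f p ^ 2 * |S.kt q p| ≤ 10003 := by linarith [bs.bk]
  have c3 : S.f p ^ 2 * |S.R q p| ≤ 10003 := by linarith [bs.bR]
  refine ⟨c1, c2, c3, ?_⟩
  rw [← abs_of_nonneg (sq_nonneg (S.f p)), ← abs_mul, abs_le] at c1 c2 c3
  have e : S.f p ^ 2 * S.ρ2 q p * (mm q + 4) =
      S.f p ^ 2 * S.R q p - 2 * (S.f p ^ 2 * S.σ q p) - S.f p ^ 2 * S.kt q p := by
    rw [ρ2_tr (by linarith), mul_assoc, div_mul_cancel₀ _ (by linarith)]
    ring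
  have c4 : S.f p ^ 2 * S.ρ2 q p ≤ 1 := by nlinarith
  have c5 : -1 ≤ S.f p ^ 2 * S.ρ2 q p := by nlinarith
  unfold Pre.σ at c1
  unfold Pre.kt at c2
  unfold Pre.R at c3
  exact ⟨abs_le.2 ⟨by linarith, by linarith⟩, abs_le.2 ⟨by linarith, by linarith⟩, by linarith⟩

theorem Hyp.z_near (H : Hyp q e0 Ci K T T' t1 S) :
    ∀ p ∈ Rg t1, S.h p ≤ 2 / K → 0.99 ≤ S.z p := by
  intro p hp hh
  have hb := H.bas p hp
  have hm := H.dim.hq
  obtain ⟨e, E0, E1⟩ := near_E hb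
  have c := constraint H.sol (rg_sub_wd H.ht1 hp)
  have h1 := mul_le_mul_of_nonneg_left (H.near_cv hp hh).2.2.2.2.2 E0.le
  have h2 := hb.hX2
  have h3 : |S.hX p| ≤ mm q / 1000 := abs_le_of_sq_le_sq (by nlinarith) (by linarith)
  have h4 : |S.a p| ≤ 1 := (sq_le_one_iff_abs_le_one _).1 hb.glob.z1
  have h5 : S.hX p * S.a p ≤ mm q / 1000 := (le_abs_self _).trans (by
    rw [abs_mul]
    exact (mul_le_of_le_one_right (abs_nonneg _) h4).trans h3)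
  have h6 := mul_le_mul_of_nonneg_left h5 (by linarith : 0 ≤ mm q + 1)
  have h7 : 0 < mm q * S.EE p := by positivity
  rw [e, near_q] at c
  rw [near_q] at h1
  have h8 : (mm q + 1) * mm q * (1 - S.z p) ≤ (mm q + 1) * mm q * 0.01 := by nlinarith
  linarith [le_of_mul_le_mul_left h8 (by positivity)]

theorem near_cont {u : ℝ × ℝ → ℝ} (hu : ContDiffOn ℝ ∞ u (Ico 0 T' ×ˢ univ)) {t : ℝ}
    (ht : t ∈ Ico 0 T') : Continuous fun x => u (t, x) :=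
  hu.continuousOn.comp_continuous (by fun_prop) fun x => ⟨ht, mem_univ x⟩

theorem near_mono (hS : IsSol q T' S) {u : ℝ × ℝ → ℝ} {t a b : ℝ} (ht : t ∈ Ico 0 T')
    (hab : a ≤ b) (hc : Continuous fun x => u (t, x))
    (h : ∀ x ∈ Ioo a b, XA u (t, x) ∧ 0 ≤ S.Ds u (t, x)) : u (t, a) ≤ u (t, b) := by
  refine monotoneOn_of_deriv_nonneg (convex_Icc a b) hc.continuousOn (fun x hx => ?_)
    (fun x hx => ?_) (left_mem_Icc.2 hab) (right_mem_Icc.2 hab) hab <;> rw [interior_Icc] at hx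
  · exact (h x hx).1.hasDerivAt.differentiableAt.differentiableWithinAt
  · exact (mul_nonneg (hS.posℓ t ht).le (h x hx).2).trans_eq
      (dx_eq_Ds (p := (t, x)) hS ht).symm

theorem near_h0 (S : Pre) (t : ℝ) : S.h (t, 0) = 0 := by simp [Pre.h]

theorem Hyp.near_half (H : Hyp q e0 Ci K T T' t1 S) {t : ℝ} (ht : t ∈ Icc 0 t1) :
    ∃ x1 ∈ Ioo 0 (Real.pi / 2), S.h (t, x1) = 2 / K ∧
      (∀ x ∈ Ioc 0 x1, S.h (t, x) ≤ 2 / K ∧ 0.9 ≤ S.a (t, x)) ∧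
      ∀ x ∈ Ioc x1 (Real.pi / 2), 2 / K < S.h (t, x) := by
  have pi := Real.pi_pos
  have K0 : 0 < 2 / K := div_pos two_pos (by linarith [H.hK])
  have ht' : t ∈ Ico 0 T' := ⟨ht.1, ht.2.trans_lt H.ht1⟩
  have ch := near_cont (h_smooth H.sol) ht'
  have ca := near_cont (a_smooth H.sol) ht'
  have hz : ∀ x, 0 < x → x ≤ Real.pi / 2 → S.h (t, x) ≤ 2 / K → 0.99 ≤ S.a (t, x) ^ 2 :=
    fun x p1 p2 => H.z_near (t, x) ⟨ht, p1, by linarith⟩
  have top : 2 / K < S.h (t, Real.pi / 2) := not_le.1 fun h => by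
    have h1 := hz _ (by linarith) le_rfl h
    rw [a_half H.sol] at h1
    norm_num at h1
  obtain ⟨x1, ⟨m1, m2⟩, hl⟩ := (isCompact_Icc.inter_right
    (isClosed_le (continuous_const (y := 2 / K)) ch)).exists_isLeast
      ⟨Real.pi / 2, right_mem_Icc.2 (by linarith : 0 ≤ Real.pi / 2), top.le⟩
  have e : S.h (t, x1) = 2 / K := by
    obtain ⟨y, hy, e⟩ := intermediate_value_Icc m1.1 ch.continuousOn
      ⟨(near_h0 S t).trans_le K0.le, m2⟩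
    rwa [← le_antisymm hy.2 (hl ⟨⟨hy.1, hy.2.trans m1.2⟩, e.ge⟩)]
  have lo : ∀ x ∈ Ioc 0 x1, S.h (t, x) ≤ 2 / K := fun x hx => not_lt.1 fun h =>
    h.ne' (by rw [le_antisymm hx.2 (hl ⟨⟨hx.1.le, hx.2.trans m1.2⟩, h.le⟩), e])
  refine ⟨x1, ⟨m1.1.lt_of_ne fun h => K0.ne ((near_h0 S t).symm.trans (h ▸ e)),
    m1.2.lt_of_ne fun h => top.ne' (h ▸ e)⟩, e, fun x hx => ⟨lo x hx, not_lt.1 fun h => ?_⟩,
    fun x hx => not_le.1 fun h => ?_⟩
  · have a0 := a_zero H.sol ht'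
    obtain ⟨y, hy, e1⟩ := intermediate_value_Icc' hx.1.le ca.continuousOn
      ⟨h.le, show (0.9 : ℝ) ≤ S.a (t, 0) by rw [a0]; norm_num⟩
    have e1 : S.a (t, y) = 0.9 := e1
    have y0 : 0 < y := hy.1.lt_of_ne fun h => by
      rw [← h, a0] at e1
      norm_num at e1
    have h1 := hz y y0 (hy.2.trans (hx.2.trans m1.2)) (lo y ⟨y0, hy.2.trans hx.2⟩)
    rw [e1] at h1
    norm_num at h1
  · obtain ⟨y, hy, h1, h2⟩ : ∃ y ∈ Ioc x1 (Real.pi / 2), S.h (t, y) ≤ 2 / K ∧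
        IsMinOn (fun x => S.h (t, x)) (Icc x1 (Real.pi / 2)) y := by
      obtain ⟨y, hy, h1⟩ := isCompact_Icc.exists_isMinOn (nonempty_Icc.2 m1.2) ch.continuousOn
      rcases hy.1.eq_or_lt with h2 | h2
      · exact ⟨x, hx, h, fun w hw => (h.trans_eq (h2 ▸ e).symm).trans (h1 hw)⟩
      · exact ⟨y, ⟨h2, hy.2⟩, (h1 (Ioc_subset_Icc_self hx)).trans h, h1⟩
    have h3 := (h2.isLocalMin (Icc_mem_nhds hy.1
      (hy.2.lt_of_ne fun h => top.not_ge (h ▸ h1)))).deriv_eq_zero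
    have h4 : S.a (t, y) = 0 := (congrArg (· / S.ℓ t) h3).trans (zero_div _)
    have h5 := hz y (m1.1.trans_lt hy.1) hy.2 h1
    rw [h4] at h5
    norm_num at h5

theorem Hyp.slice (H : Hyp q e0 Ci K T T' t1 S) : ∀ t ∈ Icc 0 t1, Slice K S t := fun _ ht => by
  obtain ⟨x1, h1, h2, h3, h4⟩ := H.near_half ht
  exact ⟨x1, h1, h2, fun x hx => (h3 x hx).2, h4⟩

/-- integration of the flux identity from the pole -/
theorem near_flux (hS : IsSol q T' S) (hq : 1 ≤ q) {t x : ℝ} (ht : t ∈ Ico 0 T')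
    (hx : x ∈ Ioo 0 Real.pi) (s c : ℝ) (h : ∀ y ∈ Ioo 0 x,
      0 ≤ s * (mm q - S.f (t, y) ^ 2 * S.ρ1 q (t, y)) - c * ((mm q + 2) * S.a (t, y))) :
    c * S.h (t, x) ≤ s * (S.f (t, x) * S.fs (t, x)) := by
  have ch := near_cont (h_smooth hS) ht
  have cF := near_cont hS.smF ht
  have cX := near_cont (X_smooth hS) ht
  have key := near_mono hS (u := fun p => s * (S.h p ^ q * (S.f p * S.fs p)) - c * S.h p ^ (q + 1))
    ht hx.1.le (by unfold Pre.fs Pre.f; fun_prop) fun y hy => by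
      have hp : (t, y) ∈ Wd T' := ⟨ht, hy.1, hy.2.trans hx.2⟩
      have s1 := (sm_const s).mul (((sm_h hS).pow q).mul ((sm_f hS).mul (sm_fs hS)))
      have s2 := (sm_const c).mul ((sm_h hS).pow (q + 1))
      refine ⟨(s1.sub s2).xa hp, ?_⟩
      rw [Ds_sub (s1.xa hp) (s2.xa hp), Ds_cmul, Ds_cmul, flux hS hq hp,
        Ds_comp ((sm_h hS).xa hp) (hasDerivAt_pow (q + 1) _)]
      refine (mul_nonneg (pow_nonneg (h_pos hS hp).le q) (h y hy)).trans_eq ?_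
      rw [Nat.add_sub_cancel, Nat.cast_succ, near_q, ← Pre.a]
      ring
  have h0 := pow_pos (h_pos hS (p := (t, x)) ⟨ht, hx⟩) q
  rw [near_h0, zero_pow (by omega), zero_pow (by omega), pow_succ] at key
  exact le_of_mul_le_mul_left (by linarith) h0

theorem Hyp.near_z (H : Hyp q e0 Ci K T T' t1 S) {p : ℝ × ℝ} (hp : p ∈ Rg t1)
    (hh : S.h p ≤ 2 / K) (h1 : S.fs p ^ 2 ≤ 1.1 * S.EE p) (h2 : q * S.J p ≤ 1.03 * mm q) :
    mm q * (1 - S.z p) ≤ 2.15 * S.EE p := by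
  have hb := H.bas p hp
  have hm := H.dim.hq
  have hw := rg_sub_wd H.ht1 hp
  obtain ⟨e, E0, E1⟩ := near_E hb
  have c := constraint H.sol hw
  have h3 := mul_le_mul_of_nonneg_left (H.near_cv hp hh).2.2.2.2.2 E0.le
  rw [e, mul_assoc (4 * (q : ℝ)), hXa_eq H.sol hw, hX_sq] at c
  have h4 := mul_le_mul_of_nonneg_left h2 E0.le
  have h5 := mul_le_mul_of_nonneg_left (h1.trans (by linarith : _ ≤ (2 : ℝ))) E0.le
  have h6 := mul_le_mul_of_nonneg_left hm E0.le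
  have h7 : q * (mm q * (1 - S.z p)) ≤ q * (2.15 * S.EE p) := by
    rw [near_q] at *
    linarith
  exact le_of_mul_le_mul_left h7 (by rw [near_q]; linarith)

theorem Hyp.near_j (H : Hyp q e0 Ci K T T' t1 S) {t x1 : ℝ} (ht : t ∈ Icc 0 t1)
    (hx1 : x1 < Real.pi) (hx : ∀ x ∈ Ioc 0 x1, S.h (t, x) ≤ 2 / K ∧ 0.9 ≤ S.a (t, x)) :
    ∀ x ∈ Ioc 0 x1, 0 ≤ S.fs (t, x) ∧ S.fs (t, x) ^ 2 ≤ 1.1 * S.EE (t, x) ∧
      |q * S.J (t, x) - mm q| ≤ 40000 := by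
  have hm := H.dim.hq
  have e := near_q q
  have q0 : (0 : ℝ) < q := by linarith
  have hq : 1 ≤ q := Nat.one_le_cast.1 (by linarith : (1 : ℝ) ≤ q)
  have ht' : t ∈ Ico 0 T' := ⟨ht.1, ht.2.trans_lt H.ht1⟩
  have io : ∀ x ∈ Ioc 0 x1, x ∈ Ioo 0 Real.pi := fun x hx => ⟨hx.1, hx.2.trans_lt hx1⟩
  have rg : ∀ x ∈ Ioc 0 x1, (t, x) ∈ Rg t1 := fun x hx => ⟨ht, io x hx⟩
  have sub : ∀ x ∈ Ioc 0 x1, ∀ y ∈ Ioo 0 x, y ∈ Ioc 0 x1 := fun x hx y hy =>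
    ⟨hy.1, hy.2.le.trans hx.2⟩
  have r1 := fun x h => abs_le.1 (H.near_cv (rg x h) (hx x h).1).2.2.2.1
  have az : ∀ x ∈ Ioc 0 x1, S.a (t, x) ≤ 1 ∧ S.z (t, x) ≤ S.a (t, x) := fun x h => by
    have h1 := (abs_le.1 ((sq_le_one_iff_abs_le_one _).1 (H.bas _ (rg x h)).glob.z1)).2
    exact ⟨h1, (sq _).trans_le (mul_le_of_le_one_right (by linarith [(hx x h).2]) h1)⟩
  have jj : ∀ x ∈ Ioc 0 x1, ∃ j, S.f (t, x) * S.fs (t, x) = j * S.h (t, x) ∧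
      S.J (t, x) = j * S.a (t, x) ∧ S.fs (t, x) ^ 2 = S.EE (t, x) * j ^ 2 := fun x h => by
    have hb := H.bas _ (rg x h)
    have h1 := hb.hpos.ne'
    have h2 := hb.fpos.ne'
    refine ⟨S.f (t, x) * S.fs (t, x) / S.h (t, x), by field_simp, ?_, ?_⟩
    · rw [Pre.J, Y_eq H.sol (rg_sub_wd H.ht1 (rg x h)), Pre.fs]
      field_simp
    · rw [Pre.EE]
      field_simp
  have first : ∀ x ∈ Ioc 0 x1, ∀ j, S.f (t, x) * S.fs (t, x) = j * S.h (t, x) →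
      mm q - 20000 ≤ q * j ∧ j ≤ 1.02 := fun x h j hj => by
    have h0 := (H.bas _ (rg x h)).hpos
    have h1 := near_flux H.sol hq ht' (io x h) q (mm q - 20000) fun y hy => by
      have h1 := mul_le_mul_of_nonneg_left (r1 y (sub x h y hy)).2 q0.le
      have h2 := mul_le_mul_of_nonneg_left (az y (sub x h y hy)).1
        (by nlinarith : 0 ≤ (mm q - 20000) * (mm q + 2))
      rw [e] at h1 ⊢
      nlinarith
    have h2 := near_flux H.sol hq ht' (io x h) (-1) (-1.02) fun y hy => by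
      have h1 := (H.z_near _ (rg y (sub x h y hy)) (hx y (sub x h y hy)).1).trans
        (az y (sub x h y hy)).2
      nlinarith [(r1 y (sub x h y hy)).1]
    rw [hj] at h1 h2
    exact ⟨le_of_mul_le_mul_right (by linarith) h0, le_of_mul_le_mul_right (by linarith) h0⟩
  have second : ∀ x ∈ Ioc 0 x1, 0 ≤ S.fs (t, x) ∧ S.fs (t, x) ^ 2 ≤ 1.1 * S.EE (t, x) ∧
      mm q * (1 - S.a (t, x)) ≤ 3 := fun x h => by
    obtain ⟨j, j1, j2, j3⟩ := jj x h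
    obtain ⟨h1, h2⟩ := first x h j j1
    have hb := H.bas _ (rg x h)
    obtain ⟨-, E0, E1⟩ := near_E hb
    have j0 : 0 ≤ j := ((mul_pos_iff_of_pos_left q0).1 (by linarith : 0 < q * j)).le
    have h3 : S.fs (t, x) ^ 2 ≤ 1.1 * S.EE (t, x) := by
      rw [j3, mul_comm]
      exact mul_le_mul_of_nonneg_right (by nlinarith) E0.le
    have h4 : S.J (t, x) ≤ 1.02 := j2.trans_le ((mul_le_of_le_one_right j0 (az x h).1).trans h2)
    have h5 := H.near_z (rg x h) (hx x h).1 h3 (by nlinarith)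
    refine ⟨le_of_mul_le_mul_left ?_ hb.fpos, h3, ?_⟩
    · rw [j1, mul_zero]
      exact mul_nonneg j0 hb.hpos.le
    · nlinarith [(az x h).2]
  intro x h
  obtain ⟨j, j1, j2, -⟩ := jj x h
  obtain ⟨h1, h2⟩ := first x h j j1
  obtain ⟨h3, h4, h5⟩ := second x h
  have h6 := near_flux H.sol hq ht' (io x h) (-q) (-(mm q + 40000)) fun y hy => by
    have h1 := mul_le_mul_of_nonneg_left (r1 y (sub x h y hy)).1 q0.le
    have h2 := (second y (sub x h y hy)).2.2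
    have h3 := (hx y (sub x h y hy)).2
    have h4 := mul_le_mul_of_nonneg_left h2 (by linarith : 0 ≤ mm q + 40002)
    rw [e] at h1 ⊢
    nlinarith
  rw [j1] at h6
  have h7 : q * j ≤ mm q + 40000 :=
    le_of_mul_le_mul_right (by linarith) (H.bas _ (rg x h)).hpos
  have h8 := (az x h).1
  have h9 := (hx x h).2
  rw [j2, ← mul_assoc]
  exact ⟨h3, h4, abs_le.2 ⟨by nlinarith, by nlinarith⟩⟩

theorem near_refl (hS : IsSol q T' S) (t x : ℝ) : S.f (t, Real.pi - x) = S.f (t, x) ∧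
    S.fs (t, Real.pi - x) = -S.fs (t, x) ∧ S.EE (t, Real.pi - x) = S.EE (t, x) ∧
    S.J (t, Real.pi - x) = S.J (t, x) := by
  have h1 : S.f (t, Real.pi - x) = S.f (t, x) := congrArg Real.exp (hS.reflF t x)
  have h2 : S.X (t, Real.pi - x) = -S.X (t, x) := Ds_refl (hS.reflF t) x
  have h3 : S.Y (t, Real.pi - x) = -S.Y (t, x) :=
    Ds_refl (fun x => congrArg Real.log (h_refl hS t x)) x
  refine ⟨h1, ?_, ?_, ?_⟩
  · rw [Pre.fs, Pre.fs, h1, h2, mul_neg]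
  · rw [Pre.EE, Pre.EE, h1, h_refl hS]
  · rw [Pre.J, Pre.J, h1, h2, h3]
    ring

theorem near_wlog {P : ℝ → Prop} (h1 : ∀ x, P (Real.pi - x) → P x)
    (h2 : ∀ x ∈ Ioc 0 (Real.pi / 2), P x) : ∀ x ∈ Ioo 0 Real.pi, P x := fun x hx =>
  (le_total x (Real.pi / 2)).elim (fun h => h2 x ⟨hx.1, h⟩)
    fun h => h1 x (h2 _ ⟨sub_pos.2 hx.2, by linarith⟩)

theorem Hyp.nr (H : Hyp q e0 Ci K T T' t1 S) : ∀ p ∈ Rg t1, S.h p ≤ 2 / K → Nr q S p := by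
  intro p hp hh
  have core : S.fs p ^ 2 ≤ 1.1 * S.EE p ∧ |q * S.J p - mm q| ≤ 40000 := by
    obtain ⟨x1, h1, -, h3, h4⟩ := H.near_half hp.1
    refine near_wlog (P := fun x => S.h (p.1, x) ≤ 2 / K → S.fs (p.1, x) ^ 2 ≤
      1.1 * S.EE (p.1, x) ∧ |q * S.J (p.1, x) - mm q| ≤ 40000) (fun x h => ?_)
      (fun x hx h => ?_) p.2 hp.2 hh
    · obtain ⟨-, e1, e2, e3⟩ := near_refl H.sol p.1 x
      rwa [h_refl H.sol, e1, e2, e3, neg_sq] at h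
    · exact (H.near_j hp.1 (by linarith [h1.2, Real.pi_pos]) h3 x
        ⟨hx.1, not_lt.1 fun h5 => (h4 x ⟨h5, hx.2⟩).not_ge h⟩).2
  obtain ⟨h1, h2⟩ := core
  obtain ⟨c1, c2, c3, c4, c5, -⟩ := H.near_cv hp hh
  have hb := H.bas p hp
  have hm := H.dim.hq
  have hw := rg_sub_wd H.ht1 hp
  have e := near_q q
  obtain ⟨e1, E0, E1⟩ := near_E hb
  obtain ⟨h3, h4⟩ := abs_le.1 h2
  have h5 := H.near_z hp hh h1 (by linarith)
  have f0 := hb.fpos.ne'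
  have h0 := hb.hpos.ne'
  have e2 : S.f p ^ 2 * S.Ds S.X p =
      -(q * S.J p - mm q) - S.f p ^ 2 * S.ρ1 q p - 2 * S.fs p ^ 2 := by
    rw [ρ1_eq H.sol hw, Pre.J, Pre.fs]
    field_simp
    ring
  have h6 : |S.f p ^ 2 * S.Ds S.X p| ≤ 80000 := by
    obtain ⟨h6, h7⟩ := abs_le.1 c4
    rw [e2]
    exact abs_le.2 ⟨by linarith, by linarith [sq_nonneg (S.fs p)]⟩
  have e3 : q * (S.h p * S.Ds S.a p) = S.EE p * (-(S.f p ^ 2 * S.ρ0 q p)
      - 2 * (S.f p ^ 2 * S.Ds S.X p) - 2 * S.fs p ^ 2) := by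
    rw [Pre.ρ0, Ds_Y H.sol hw, Pre.EE, Pre.fs]
    field_simp
    ring
  have h7 : |q * (S.h p * S.Ds S.a p)| ≤ 1.03 * 200000 := by
    obtain ⟨h7, h8⟩ := abs_le.1 c5
    obtain ⟨h9, h10⟩ := abs_le.1 h6
    rw [e3, abs_mul, abs_of_pos E0]
    exact mul_le_mul E1 (abs_le.2 ⟨by linarith, by linarith [sq_nonneg (S.fs p)]⟩) (abs_nonneg _)
      (by norm_num)
  rw [abs_mul, Nat.abs_cast] at h7
  rw [abs_mul, abs_sq] at h6
  rw [e] at h3 h4 h7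
  refine ⟨?_, by nlinarith, by nlinarith, h2, h1, by linarith, by linarith, by linarith, h6,
    by nlinarith⟩
  rw [sub_le_comm, le_div_iff₀ (by linarith)]
  linarith

theorem Hyp.near_out (H : Hyp q e0 Ci K T T' t1 S) {p : ℝ × ℝ} (hp : p ∈ Rg t1)
    (h : T - p.1 ≤ S.h p) : S.f p ^ 2 ≤ S.h p ^ 2 + (T - p.1 + S.h p ^ 2) / 100 := by
  have hb := H.bas p hp
  have h1 := (H.bs p hp).b1
  have h2 := hb.glob.h1
  have k1 : S.k p ≤ 1 := (pow_le_one_iff_of_nonneg hb.kpos.le (by norm_num)).1 (hb.hk ▸ h2)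
  have h3 : S.h p ≤ S.k p := hb.hk.trans_le (pow_le_of_le_one hb.kpos.le k1 (by norm_num))
  have h4 : (T - p.1) ^ 3 ≤ S.k p * (T - p.1) :=
    (pow_le_pow_of_le_one hb.τ0.le (h.trans h2) (by norm_num : 2 ≤ 3)).trans
      ((sq _).trans_le (mul_le_mul_of_nonneg_right (h.trans h3) hb.τ0.le))
  have h5 : S.h p ^ 6 ≤ S.k p * S.h p ^ 2 :=
    (pow_le_pow_of_le_one hb.hpos.le h2 (by norm_num : 3 ≤ 6)).trans
      ((pow_succ' _ _).trans_le (mul_le_mul_of_nonneg_right h3 (sq_nonneg _)))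
  have h6 := mul_le_mul_of_nonneg_left (le_abs_self (S.Θ p)) hb.kpos.le
  have h7 : S.Θ p ≤ (T - p.1 + S.h p ^ 2) / 100 :=
    le_of_mul_le_mul_left (by linarith) hb.kpos
  unfold Pre.Θ at h7
  linarith

theorem Hyp.b4 (H : Hyp q e0 Ci K T T' t1 S) :
    ∀ p ∈ Rg t1, S.f p ^ 2 ≤ 2 * S.h p ^ 2 + 1 / 2 * (T - p.1) := by
  intro p hp
  have hb := H.bas p hp
  have τ0 := hb.τ0
  have τ1 := hb.τT.trans H.T_le
  rcases le_total (T - p.1) (S.h p) with h | h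
  · linarith [H.near_out hp h, sq_nonneg (S.h p)]
  refine le_add_of_nonneg_of_le (by positivity) ?_
  obtain ⟨x1, h1, h2, h3, h4⟩ := H.near_half hp.1
  have x2 : x1 < Real.pi := by linarith [h1.2, Real.pi_pos]
  have ht : p.1 ∈ Ico 0 T' := ⟨hp.1.1, hp.1.2.trans_lt H.ht1⟩
  have hK := H.hK
  have τ2 : T - p.1 ≤ 2 / K := by
    rw [le_div_iff₀ (by linarith)]
    nlinarith [H.hTK, hb.τT, mul_le_mul_of_nonneg_right hb.τT (sq_nonneg K)]
  refine near_wlog (P := fun x => S.h (p.1, x) ≤ T - p.1 → S.f (p.1, x) ^ 2 ≤ 1 / 2 * (T - p.1))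
    (fun x h => ?_) (fun x hx h => ?_) p.2 hp.2 h
  · rwa [h_refl H.sol, (near_refl H.sol p.1 x).1] at h
  have h5 : x ≤ x1 := not_lt.1 fun h5 => (h4 x ⟨h5, hx.2⟩).not_ge (h.trans τ2)
  obtain ⟨y, hy, e⟩ := intermediate_value_Icc h5 (near_cont (h_smooth H.sol) ht).continuousOn
    ⟨h, τ2.trans_eq h2.symm⟩
  have e : S.h (p.1, y) = T - p.1 := e
  have h6 := near_mono H.sol (u := S.f) ht hy.1 (near_cont H.sol.smF ht).rexp fun w hw => by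
    have hw1 : w ∈ Ioc 0 x1 := ⟨hx.1.trans hw.1, hw.2.le.trans hy.2⟩
    have hw2 : (p.1, w) ∈ Wd T' := ⟨ht, hw1.1, hw1.2.trans_lt x2⟩
    exact ⟨(sm_f H.sol).xa hw2, (H.near_j hp.1 x2 h3 w hw1).1.trans_eq (Ds_f H.sol hw2).symm⟩
  have h7 := H.near_out (p := (p.1, y)) ⟨hp.1, hx.1.trans_le hy.1, hy.2.trans_lt x2⟩ e.ge
  rw [e] at h7
  have h8 := pow_le_pow_left₀ (f_pos S _).le h6 2
  nlinarith

end Vale.Agent.P244
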