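import Vale.Agent.P244C.IdC
import Vale.Agent.P244C.Near

open Set MeasureTheory Filter Topology
open scoped ContDiff

noncomputable section

namespace Vale.Agent.P244

variable {q : ℕ} {e0 K K1 K2 T T' : ℝ} {S : Pre} {p : ℝ × ℝ}

theorem BoxW_τ : Sm T' fun p => T - p.1 := (sm_const T).sub sm_fst

theorem BoxW_r : Sm T' fun p => 1 + p.1 / T := (sm_const 1).add (sm_fst.div_const T)

theorem sm_W1 (hS : IsSol q T' S) : Sm T' (S.W1 K1 T) :=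
  ((sm_const (1000 * K1)).mul (BoxW_τ.pow 2)).div ((sm_φ hS).pow 9)
    fun p _ => (pow_pos (φ_pos S p) 9).ne'
theorem sm_W2 (hS : IsSol q T' S) : Sm T' (S.W2 e0 T) :=
  ((sm_const (1000 * lam2 e0 T)).mul ((BoxW_τ.div_const T).pow 5)).div ((sm_f hS).pow 4)
    fun p _ => (pow_pos (f_pos S p) 4).ne'
theorem sm_W3 (hS : IsSol q T' S) : Sm T' (S.W3 K1 T) :=
  ((sm_const K1).mul BoxW_r).mul ((sm_φ hS).pow 7)
theorem sm_W4 (hS : IsSol q T' S) : Sm T' (S.W4 K2 T) :=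
  ((sm_const K2).mul BoxW_r).div ((sm_φ hS).pow 2) fun p _ => (pow_pos (φ_pos S p) 2).ne'
theorem sm_WW (hS : IsSol q T' S) : Sm T' (S.WW e0 K1 T) :=
  ((sm_W1 hS).add (sm_W2 hS)).add (sm_W3 hS)

theorem BoxW_pos (S : Pre) (n : ℕ) (p : ℝ × ℝ) : S.φ p ^ n = S.mono 0 (n / 4) p := by
  rw [Pre.mono, Pre.φ, ← Real.exp_nat_mul]
  congr 1
  ring

theorem BoxW_neg (S : Pre) (n : ℕ) (p : ℝ × ℝ) : (S.φ p ^ n)⁻¹ = S.mono 0 (-(n / 4)) p := by
  rw [Pre.mono, Pre.φ, ← Real.exp_nat_mul, ← Real.exp_neg]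
  congr 1
  ring

theorem BoxW_tm (hS : IsSol q T' S) (hp : p ∈ Om T') {g : ℝ → ℝ} {g' : ℝ} (δ : ℝ)
    (hg : HasDerivAt g g' p.1) : S.box q (fun p => g p.1 * S.mono 0 δ p) p =
      S.mono 0 δ p * (g' - g p.1 * ((δ * mm q + δ ^ 2 * S.fs p ^ 2) / S.f p ^ 2)) := by
  have := (f_pos S p).ne'
  rw [box_tmul hS hp ((sm_mono hS 0 δ).ca hp) hg, box_mono hS hp, Pre.fs]
  field_simp
  ring

theorem box_W1 (hS : IsSol q T' S) (hp : p ∈ Om T') (hτ : 0 < T - p.1) :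
    S.box q (S.W1 K1 T) p = S.W1 K1 T p *
      ((9 / 4 * mm q - 81 / 16 * S.fs p ^ 2) / S.f p ^ 2 - 2 / (T - p.1)) := by
  have e : S.W1 K1 T = fun p => 1000 * K1 * (T - p.1) ^ 2 * S.mono 0 (-((9 : ℕ) / 4)) p :=
    funext fun p => by rw [← BoxW_neg, Pre.W1, div_eq_mul_inv]
  have hg : HasDerivAt (fun t => 1000 * K1 * (T - t) ^ 2) (-(2000 * K1 * (T - p.1))) p.1 := by
    refine ((((hasDerivAt_id' p.1).const_sub T).fun_pow 2).const_mul _).congr_deriv ?_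
    simp only [Nat.cast_ofNat, Nat.add_one_sub_one, pow_one]
    ring
  have := (f_pos S p).ne'
  have := hτ.ne'
  rw [e, BoxW_tm hS hp _ hg]
  field_simp
  ring
theorem box_W2 (hS : IsSol q T' S) (hp : p ∈ Om T') (hτ : 0 < T - p.1) :
    S.box q (S.W2 e0 T) p = S.W2 e0 T p *
      ((4 * mm q - 16 * S.fs p ^ 2) / S.f p ^ 2 - 5 / (T - p.1)) := by
  have e : S.W2 e0 T =
      fun p => 1000 * lam2 e0 T * ((T - p.1) / T) ^ 5 * S.mono 0 (-((16 : ℕ) / 4)) p :=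
    funext fun p => by rw [← BoxW_neg, Pre.W2, div_eq_mul_inv, ← φ_pow, ← pow_mul]
  have hg : HasDerivAt (fun t => 1000 * lam2 e0 T * ((T - t) / T) ^ 5)
      (-(5000 * lam2 e0 T * ((T - p.1) / T) ^ 4 / T)) p.1 := by
    refine (((((hasDerivAt_id' p.1).const_sub T).div_const T).fun_pow 5).const_mul _).congr_deriv ?_
    simp only [Nat.cast_ofNat, Nat.add_one_sub_one]
    ring
  have hT : T ≠ 0 := fun h => by
    have := hp.1.1
    rw [h] at hτ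
    linarith
  have := (f_pos S p).ne'
  have := hτ.ne'
  rw [e, BoxW_tm hS hp _ hg]
  field_simp
  ring
theorem box_W3 (hS : IsSol q T' S) (hp : p ∈ Om T') :
    S.box q (S.W3 K1 T) p = K1 * S.φ p ^ 7 / T -
      S.W3 K1 T p * ((7 / 4 * mm q + 49 / 16 * S.fs p ^ 2) / S.f p ^ 2) := by
  have e : S.W3 K1 T = fun p => K1 * (1 + p.1 / T) * S.mono 0 ((7 : ℕ) / 4) p :=
    funext fun p => by rw [← BoxW_pos, Pre.W3]
  have hg : HasDerivAt (fun t => K1 * (1 + t / T)) (K1 * (1 / T)) p.1 :=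
    (((hasDerivAt_id' p.1).div_const T).const_add 1).const_mul _
  rw [e, BoxW_tm hS hp _ hg, BoxW_pos]
  ring
theorem box_W4 (hS : IsSol q T' S) (hp : p ∈ Om T') :
    S.box q (S.W4 K2 T) p = K2 / S.φ p ^ 2 / T +
      S.W4 K2 T p * ((mm q / 2 - S.fs p ^ 2 / 4) / S.f p ^ 2) := by
  have e : S.W4 K2 T = fun p => K2 * (1 + p.1 / T) * S.mono 0 (-((2 : ℕ) / 4)) p :=
    funext fun p => by rw [← BoxW_neg, Pre.W4, div_eq_mul_inv]
  have hg : HasDerivAt (fun t => K2 * (1 + t / T)) (K2 * (1 / T)) p.1 :=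
    (((hasDerivAt_id' p.1).div_const T).const_add 1).const_mul _
  rw [e, BoxW_tm hS hp _ hg, div_eq_mul_inv K2, BoxW_neg]
  ring

theorem BoxW_sum (hS : IsSol q T' S) (hp : p ∈ Om T') (hτ : 0 < T - p.1) :
    S.f p ^ 2 * S.box q (S.WW e0 K1 T) p =
      S.W1 K1 T p * (9 / 4 * mm q - 81 / 16 * S.fs p ^ 2) -
        2 * (S.f p ^ 2 * S.W1 K1 T p / (T - p.1)) +
      (S.W2 e0 T p * (4 * mm q - 16 * S.fs p ^ 2) - 5 * (S.f p ^ 2 * S.W2 e0 T p / (T - p.1))) +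
      (S.f p ^ 2 * (K1 * S.φ p ^ 7 / T) - S.W3 K1 T p * (7 / 4 * mm q + 49 / 16 * S.fs p ^ 2)) := by
  have e : S.WW e0 K1 T = fun p => (fun p => S.W1 K1 T p + S.W2 e0 T p) p + S.W3 K1 T p := rfl
  have := (f_pos S p).ne'
  have := hτ.ne'
  rw [e, box_add hS hp (((sm_W1 hS).add (sm_W2 hS)).ca hp) ((sm_W3 hS).ca hp),
    box_add hS hp ((sm_W1 hS).ca hp) ((sm_W2 hS).ca hp), box_W1 hS hp hτ, box_W2 hS hp hτ,
    box_W3 hS hp]
  generalize K1 * S.φ p ^ 7 / T = A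
  field_simp

theorem BoxW_lam (hT : 0 < T) : 0 < lam2 e0 T := div_pos (Real.rpow_pos_of_pos hT _) four_pos

theorem BoxW_nn (hb : Bas q e0 K T S p) (hK1 : 1 ≤ K1) (hT : 0 < T) :
    0 ≤ S.W1 K1 T p ∧ 0 ≤ S.W2 e0 T p ∧ K1 * S.φ p ^ 7 ≤ S.W3 K1 T p ∧
      S.W3 K1 T p ≤ 2 * (K1 * S.φ p ^ 7) ∧ 0 < K1 * S.φ p ^ 7 := by
  have h1 := hb.τ0
  have h2 := hb.φpos
  have h3 := hb.fpos
  have h4 := BoxW_lam (e0 := e0) hT
  have h5 : 0 < K1 * S.φ p ^ 7 := by positivity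
  have h6 : 0 ≤ p.1 / T := div_nonneg (by linarith [hb.τT]) hT.le
  have h7 : p.1 / T ≤ 1 := (div_le_one hT).2 (by linarith)
  refine ⟨by unfold Pre.W1; positivity, by unfold Pre.W2; positivity, ?_, ?_, h5⟩ <;>
    unfold Pre.W3 <;> nlinarith

theorem BoxW_fs (hb : Bas q e0 K T S p) (hn : Nr q S p) : S.fs p ^ 2 ≤ 1.14 := by
  have h1 : S.EE p ≤ 1.03 := (div_le_iff₀ (pow_pos hb.fpos 2)).2 hb.E1
  linarith [hn.fs]

/-- in the inner region the barrier beats the bad potential -/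
theorem WW_inner (hd : Dim q e0) (hS : IsSol q T' S) (hp : p ∈ Om T') (hb : Bas q e0 K T S p)
    (hn : Nr q S p) (hK1 : 1 ≤ K1) (hT : 0 < T) (hin : S.h p ^ 2 < T - p.1) :
    (2 * mm q + 300000) * S.WW e0 K1 T p ≤ S.f p ^ 2 * S.box q (S.WW e0 K1 T) p := by
  obtain ⟨w1, w2, w3, w4, w5⟩ := BoxW_nn hb hK1 hT
  have hτ := hb.τ0
  have hφ := hb.φpos
  have hf := hb.inf hin.le
  have hs := BoxW_fs hb hn
  have hm := hd.hq
  have a1 : S.f p ^ 2 * S.W1 K1 T p / (T - p.1) ≤ 3 * S.W1 K1 T p := by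
    rw [div_le_iff₀ hτ]
    nlinarith
  have a2 : S.f p ^ 2 * S.W2 e0 T p / (T - p.1) ≤ 3 * S.W2 e0 T p := by
    rw [div_le_iff₀ hτ]
    nlinarith
  have a3 : K1 * S.φ p ^ 7 ≤ 0.009 * S.W1 K1 T p := by
    have b1 : (S.f p ^ 2) ^ 2 ≤ (3 * (T - p.1)) ^ 2 := by gcongr
    rw [Pre.W1, ← mul_div_assoc, le_div_iff₀ (by positivity)]
    calc _ = K1 * (S.f p ^ 2) ^ 2 := by rw [hb.fφ]; ring
      _ ≤ K1 * (3 * (T - p.1)) ^ 2 := by gcongr
      _ = _ := by ring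
  have a4 : 0 ≤ S.f p ^ 2 * (K1 * S.φ p ^ 7 / T) := by positivity
  have a5 : S.W3 K1 T p ≤ 0.018 * S.W1 K1 T p := by linarith
  have w3' : 0 ≤ S.W3 K1 T p := w5.le.trans w3
  rw [BoxW_sum hS hp hτ, Pre.WW]
  have c1 := mul_le_mul_of_nonneg_left hs w1
  have c2 := mul_le_mul_of_nonneg_left hs w2
  have c3 := mul_le_mul_of_nonneg_left hs w3'
  have c4 := mul_le_mul_of_nonneg_left hm w1
  have c5 := mul_le_mul_of_nonneg_left hm w2
  have c6 := mul_le_mul_of_nonneg_right a5 (show 0 ≤ mm q by linarith)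
  linarith

theorem BoxW_W2 (hd : Dim q e0) (hb : Bas q e0 K T S p) (hT : 0 < T) (hT1 : T ≤ 1)
    (h : T - p.1 ≤ S.f p ^ 2) : S.f p ^ 2 * S.W2 e0 T p / (T - p.1) ≤ 250 * S.φ p ^ 7 := by
  have hτ := hb.τ0
  have hφ := hb.φpos
  have hl := lam2_hi hd hT hT1
  obtain ⟨s, hs0, hs⟩ : ∃ s : ℝ, 0 < s ∧ s ^ 8 = T - p.1 :=
    ⟨(T - p.1) ^ ((8 : ℕ)⁻¹ : ℝ), by positivity, Real.rpow_inv_natCast_pow hτ.le (by norm_num)⟩
  obtain ⟨σ, hσ0, hσ⟩ : ∃ σ : ℝ, 0 < σ ∧ σ ^ 8 = T :=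
    ⟨T ^ ((8 : ℕ)⁻¹ : ℝ), by positivity, Real.rpow_inv_natCast_pow hT.le (by norm_num)⟩
  have e1 : T ^ (23 / 8 : ℝ) = σ ^ 23 := by
    rw [← hσ, ← Real.rpow_natCast, ← Real.rpow_mul hσ0.le, ← Real.rpow_natCast]
    norm_num
  have h1 : s ≤ σ := le_of_pow_le_pow_left₀ (n := 8) (by norm_num) hσ0.le (by
    rw [hs, hσ]
    exact hb.τT)
  have h2 : s ≤ S.φ p := le_of_pow_le_pow_left₀ (n := 8) (by norm_num) hφ.le (by
    rw [hs]
    exact h.trans_eq (by rw [hb.fφ]; ring))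
  rw [e1] at hl
  rw [Pre.W2, hb.fφ, ← hs]
  nth_rw 2 [← hσ]
  calc _ = 1000 * lam2 e0 T * (s ^ 17 * s ^ 15) / (σ ^ 40 * S.φ p ^ 8) := by field_simp
    _ ≤ 1000 * (σ ^ 23 / 4) * (σ ^ 17 * S.φ p ^ 15) / (σ ^ 40 * S.φ p ^ 8) := by gcongr
    _ = _ := by
      field_simp
      norm_num

/-- in the near region the damping beats the barrier -/
theorem WW_near (hd : Dim q e0) (hS : IsSol q T' S) (hp : p ∈ Om T') (hb : Bas q e0 K T S p)
    (hn : Nr q S p) (hK1 : 1 ≤ K1) (hT : 0 < T) (hT1 : T ≤ 1 / 100) :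
    -(1.9 * mm q) * S.WW e0 K1 T p ≤ S.f p ^ 2 * S.box q (S.WW e0 K1 T) p := by
  obtain ⟨w1, w2, w3, w4, w5⟩ := BoxW_nn hb hK1 hT
  have hτ := hb.τ0
  have hφ := hb.φpos
  have hs := BoxW_fs hb hn
  have hm := hd.hq
  have hm0 : 0 ≤ mm q := by linarith
  have a1 : S.f p ^ 2 * S.W1 K1 T p / (T - p.1) ≤
      2 * (S.W1 K1 T p * mm q) + 1000 * (K1 * S.φ p ^ 7) := by
    rcases le_total (S.f p ^ 2) (T - p.1) with h | h
    · have : S.f p ^ 2 * S.W1 K1 T p / (T - p.1) ≤ S.W1 K1 T p := by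
        rw [div_le_iff₀ hτ]
        nlinarith
      nlinarith
    · have : S.f p ^ 2 * S.W1 K1 T p / (T - p.1) ≤ 1000 * (K1 * S.φ p ^ 7) := by
        rw [hb.fφ] at h
        rw [Pre.W1, hb.fφ]
        calc _ = 1000 * K1 * (T - p.1) / S.φ p := by field_simp
          _ ≤ 1000 * K1 * (S.φ p ^ 4) ^ 2 / S.φ p := by gcongr
          _ = _ := by field_simp
      nlinarith [mul_nonneg w1 hm0]
  have a2 : S.f p ^ 2 * S.W2 e0 T p / (T - p.1) ≤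
      S.W2 e0 T p * mm q + 250 * (K1 * S.φ p ^ 7) := by
    rcases le_total (S.f p ^ 2) (T - p.1) with h | h
    · have : S.f p ^ 2 * S.W2 e0 T p / (T - p.1) ≤ S.W2 e0 T p := by
        rw [div_le_iff₀ hτ]
        nlinarith
      nlinarith
    · have := BoxW_W2 hd hb hT (by linarith) h
      nlinarith [mul_nonneg w2 hm0, pow_pos hφ 7]
  have a4 : 0 ≤ S.f p ^ 2 * (K1 * S.φ p ^ 7 / T) := by positivity
  have w3' : 0 ≤ S.W3 K1 T p := w5.le.trans w3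
  rw [BoxW_sum hS hp hτ, Pre.WW]
  have c1 := mul_le_mul_of_nonneg_left hs w1
  have c2 := mul_le_mul_of_nonneg_left hs w2
  have c3 := mul_le_mul_of_nonneg_left hs w3'
  have c4 := mul_le_mul_of_nonneg_left hm w1
  have c5 := mul_le_mul_of_nonneg_left hm w2
  have c6 := mul_le_mul_of_nonneg_left hm w3'
  linarith

/-- in the far region the growth in time beats any constant -/
theorem WW_far (q : ℕ) (K K1 L : ℝ) : ∃ τ1 > (0 : ℝ), ∀ (e0 T T' : ℝ) (S : Pre) (p : ℝ × ℝ),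
    Dim q e0 → 10 ≤ K → 1 ≤ K1 → 0 < T → T ≤ τ1 → IsSol q T' S → p ∈ Om T' →
      Bas q e0 K T S p → 1 / K ≤ S.h p → L * S.WW e0 K1 T p ≤ S.box q (S.WW e0 K1 T) p := by
  refine ⟨1 / (K ^ 2 + 1 + 2000 * (|K| ^ 31 * (16 * |mm q| + 2 * |L| + 4))), by positivity,
    fun e0 T T' S p hd hK hK1 hT hT1 hS hp hb hh => ?_⟩
  obtain ⟨w1, w2, w3, w4, w5⟩ := BoxW_nn hb hK1 hT
  have hτ := hb.τ0
  have hφ := hb.φpos
  have hf := hb.fpos
  have hm := hd.hq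
  have hm0 : 0 ≤ mm q := by linarith
  have hK0 : 0 < K := by linarith
  have hs := hb.glob.fs
  rw [abs_of_pos hK0, abs_of_nonneg hm0, le_div_iff₀ (by positivity)] at hT1
  obtain ⟨M, hM⟩ : ∃ M, M = 16 * mm q + 2 * |L| + 4 := ⟨_, rfl⟩
  rw [← hM] at hT1
  have hM0 : 2 ≤ M := by linarith [abs_nonneg L]
  have t0 : 0 ≤ T * K ^ 2 := by positivity
  have t1 : 0 ≤ T * (K ^ 31 * M) := by positivity
  have t2 : T ≤ 1 := by linarith
  have t3 : T - p.1 ≤ 1 := hb.τT.trans t2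
  have h1 : 1 ≤ K * S.h p := by rwa [div_le_iff₀' hK0] at hh
  have h2 : 1 ≤ K ^ 2 * S.h p ^ 2 := by nlinarith
  have h3 : T - p.1 ≤ S.h p ^ 2 := by
    have : T * K ^ 2 ≤ S.h p ^ 2 * K ^ 2 := by linarith
    exact hb.τT.trans (le_of_mul_le_mul_right this (by positivity))
  have h4 : 1 ≤ K * S.φ p := by
    refine le_of_pow_le_pow_left₀ (n := 8) (by norm_num) (by positivity) ?_
    have b1 : (10 : ℝ) ^ 6 ≤ K ^ 6 := by gcongr
    have b2 : 0.98 ≤ K ^ 2 * S.f p ^ 2 := by nlinarith [(hb.outf h3).1]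
    calc (1 : ℝ) ^ 8 ≤ 10 ^ 6 * 0.98 := by norm_num
      _ ≤ K ^ 6 * (K ^ 2 * S.f p ^ 2) := by gcongr
      _ = _ := by rw [hb.fφ]; ring
  have h5 : ∀ n : ℕ, 1 ≤ K ^ n * S.φ p ^ n := fun n => by
    rw [← mul_pow]
    exact one_le_pow₀ h4
  have hK1' : 1 ≤ K := by linarith
  have f2 : S.f p ^ 2 ≤ 2 := by nlinarith [hb.f1]
  obtain ⟨A, hA⟩ : ∃ A, A = K1 * S.φ p ^ 7 := ⟨_, rfl⟩
  rw [← hA] at w3 w4 w5
  have a0 : S.W1 K1 T p / (T - p.1) ≤ 1000 * (K ^ 23 * A) := by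
    rw [Pre.W1, hA]
    calc _ = 1000 * K1 * (T - p.1) * 1 * 1 / S.φ p ^ 9 := by field_simp
      _ ≤ 1000 * K1 * 1 * (K ^ 16 * S.φ p ^ 16) * K ^ 7 / S.φ p ^ 9 := by
        gcongr
        exacts [h5 16, one_le_pow₀ hK1']
      _ = _ := by field_simp
  have a1 : S.W2 e0 T p / (T - p.1) ≤ 250 * (K ^ 23 * A) := by
    have b1 : lam2 e0 T ≤ T / 4 := by
      refine (lam2_hi hd hT t2).trans (div_le_div_of_nonneg_right ?_ four_pos.le)
      simpa using Real.rpow_le_rpow_of_exponent_ge hT t2 (show (1 : ℝ) ≤ 23 / 8 by norm_num)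
    have b2 : (T - p.1) / T ≤ 1 := (div_le_one hT).2 hb.τT
    rw [Pre.W2, hA, hb.fφ]
    calc _ = 1000 * lam2 e0 T * ((T - p.1) / T) ^ 4 * 1 * 1 / (T * S.φ p ^ 16) := by field_simp
      _ ≤ 1000 * (T / 4) * 1 ^ 4 * (K ^ 23 * S.φ p ^ 23) * K1 / (T * S.φ p ^ 16) := by
        gcongr
        exact h5 23
      _ = _ := by
        field_simp
        norm_num
  obtain ⟨B, hB⟩ : ∃ B, B = K ^ 23 * A := ⟨_, rfl⟩
  have hAB : A ≤ B := hB ▸ le_mul_of_one_le_left w5.le (one_le_pow₀ hK1')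
  rw [← hB] at a0 a1
  have a2 : S.W1 K1 T p ≤ 1000 * B :=
    (le_div_self w1 hτ t3).trans a0
  have a3 : S.W2 e0 T p ≤ 250 * B :=
    (le_div_self w2 hτ t3).trans a1
  have a4 : S.f p ^ 2 * S.W1 K1 T p / (T - p.1) ≤ 2 * (1000 * B) := by
    rw [mul_div_assoc]
    exact mul_le_mul f2 a0 (div_nonneg w1 hτ.le) two_pos.le
  have a5 : S.f p ^ 2 * S.W2 e0 T p / (T - p.1) ≤ 2 * (250 * B) := by
    rw [mul_div_assoc]
    exact mul_le_mul f2 a1 (div_nonneg w2 hτ.le) two_pos.le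
  have a6 : 2000 * (B * M) ≤ S.f p ^ 2 * (A / T) := by
    rw [← mul_div_assoc, le_div_iff₀ hT, hB, hb.fφ]
    calc _ = 2000 * (T * (K ^ 23 * M)) * 1 * A := by ring
      _ ≤ 2000 * (T * (K ^ 23 * M)) * (K ^ 8 * S.φ p ^ 8) * A := by
        gcongr
        exact h5 8
      _ = 2000 * (T * (K ^ 31 * M)) * (S.φ p ^ 8 * A) := by ring
      _ ≤ 1 * (S.φ p ^ 8 * A) := by
        gcongr
        linarith
      _ = _ := by ring
  have w3' : 0 ≤ S.W3 K1 T p := w5.le.trans w3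
  have hB0 : 0 ≤ B := w5.le.trans hAB
  have a7 : S.f p ^ 2 * (L * S.WW e0 K1 T p) ≤ 2 * (|L| * (1252 * B)) := by
    have b1 : 0 ≤ S.WW e0 K1 T p := add_nonneg (add_nonneg w1 w2) w3'
    have b2 : S.WW e0 K1 T p ≤ 1252 * B := by
      rw [Pre.WW]
      linarith
    calc _ ≤ S.f p ^ 2 * (|L| * S.WW e0 K1 T p) := by
          gcongr
          exact le_abs_self L
      _ ≤ _ := by gcongr
  refine le_of_mul_le_mul_left (a7.trans ?_) (pow_pos hf 2)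
  rw [BoxW_sum hS hp hτ, ← hA]
  rw [hM] at a6
  have c1 := mul_le_mul_of_nonneg_left hs w1
  have c2 := mul_le_mul_of_nonneg_left hs w2
  have c3 := mul_le_mul_of_nonneg_left hs w3'
  have c4 := mul_le_mul_of_nonneg_right a2 hm0
  have c5 := mul_le_mul_of_nonneg_right a3 hm0
  have c6 := mul_le_mul_of_nonneg_right (w4.trans (mul_le_mul_of_nonneg_left hAB two_pos.le)) hm0
  have c7 := mul_nonneg hB0 hm0
  have c8 := mul_nonneg hB0 (abs_nonneg L)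
  have c9 := mul_nonneg w1 hm0
  have c10 := mul_nonneg w2 hm0
  linarith

end Vale.Agent.P244
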