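import Vale.Agent.P244C.CurvA
import Vale.Agent.P244C.BoxW

open Set MeasureTheory Filter Topology
open scoped ContDiff

noncomputable section

namespace Vale.Agent.P244

section
variable {q : ℕ} {e0 K K1 T T' : ℝ} {S : Pre} {p : ℝ × ℝ}

theorem Curv_W1 (hK1 : 0 ≤ K1) : 0 ≤ S.W1 K1 T p := by
  have := φ_pos S p
  unfold Pre.W1
  positivity

theorem Curv_W2 (hT : 0 < T) (hτ : 0 ≤ T - p.1) : 0 ≤ S.W2 e0 T p := by
  have := f_pos S p
  unfold Pre.W2 lam2
  positivity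

theorem Curv_W3 (hK1 : 0 ≤ K1) (hT : 0 < T) (ht : 0 ≤ p.1) : K1 * S.φ p ^ 7 ≤ S.W3 K1 T p := by
  have h1 := pow_pos (φ_pos S p) 7
  have h2 : 0 ≤ K1 * (p.1 / T) * S.φ p ^ 7 := by positivity
  unfold Pre.W3
  linarith

theorem Curv_σ' (hm : 0 < mm q) : |S.σ' q p| ≤ |S.σ q p| + |S.kt q p| / 2 := by
  have h3 : |S.kt q p / (mm q + 2)| ≤ |S.kt q p| / 2 := by
    rw [abs_div, abs_of_pos (by linarith : 0 < mm q + 2)]
    exact div_le_div_of_nonneg_left (abs_nonneg _) (by norm_num) (by linarith)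
  unfold Pre.σ'
  linarith [abs_sub (S.σ q p) (S.kt q p / (mm q + 2))]

theorem Curv_out {M : ℝ} (hb : Bas q e0 K T S p) (hy : S.y2 q p ^ 2 ≤ M * S.b2 T p)
    (ho : T - p.1 ≤ S.h p ^ 2) (hK1 : 1 ≤ K1) (hM : 10 * |M| ≤ K1) :
    2 * |S.σ q p| ≤ K1 * S.φ p ^ 7 := by
  have hk := hb.kpos
  have hφ := hb.φpos
  have hτ := hb.τ0
  have h8 : T - p.1 ≤ S.k p ^ 8 := by
    rw [hb.hk] at ho
    linarith
  have b0 : 0 ≤ S.b2 T p := by
    unfold Pre.b2
    positivity
  have b1 : S.b2 T p ≤ 2 * S.k p ^ 30 := by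
    have h1 : (T - p.1) ^ 6 / S.k p ^ 18 ≤ S.k p ^ 30 := by
      rw [div_le_iff₀ (by positivity)]
      calc (T - p.1) ^ 6 ≤ (S.k p ^ 8) ^ 6 := pow_le_pow_left₀ hτ.le h8 6
        _ = S.k p ^ 30 * S.k p ^ 18 := by ring
    unfold Pre.b2
    linarith
  have y1 : S.k p ^ 16 * S.σ q p ^ 2 ≤ S.k p ^ 16 * (2 * |M| * S.k p ^ 14) := by
    have e : S.y2 q p ^ 2 = S.k p ^ 16 * S.σ q p ^ 2 := by
      unfold Pre.y2
      rw [hb.hk]
      ring
    have h1 : M * S.b2 T p ≤ |M| * (2 * S.k p ^ 30) :=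
      mul_le_mul (le_abs_self M) b1 b0 (abs_nonneg M)
    rw [← e]
    linarith
  have y2 : S.σ q p ^ 2 ≤ 2 * |M| * S.k p ^ 14 := le_of_mul_le_mul_left y1 (by positivity)
  have k14 : S.k p ^ 14 ≤ 1.2 * S.φ p ^ 14 := by
    calc S.k p ^ 14 ≤ (1.01 * S.φ p) ^ 14 := pow_le_pow_left₀ hk.le hb.kφ 14
      _ = 1.01 ^ 14 * S.φ p ^ 14 := by ring
      _ ≤ 1.2 * S.φ p ^ 14 := mul_le_mul_of_nonneg_right (by norm_num) (by positivity)
  refine (pow_le_pow_iff_left₀ (by positivity) (by positivity) two_ne_zero).1 ?_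
  have hM0 := abs_nonneg M
  have p14 : 0 < S.φ p ^ 14 := by positivity
  have k2 : 10 * |M| ≤ K1 ^ 2 := by nlinarith
  calc (2 * |S.σ q p|) ^ 2 = 4 * S.σ q p ^ 2 := by rw [mul_pow, sq_abs]; ring
    _ ≤ 8 * |M| * (1.2 * S.φ p ^ 14) := by
      nlinarith [mul_le_mul_of_nonneg_left k14 (by positivity : 0 ≤ 8 * |M|)]
    _ ≤ 10 * |M| * S.φ p ^ 14 := by nlinarith [mul_nonneg hM0 p14.le]
    _ ≤ K1 ^ 2 * S.φ p ^ 14 := mul_le_mul_of_nonneg_right k2 p14.le
    _ = (K1 * S.φ p ^ 7) ^ 2 := by ring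

end

theorem curv (q : ℕ) (e0 Ci M : ℝ) : ∃ K1 : ℝ, 1 ≤ K1 ∧ ∀ K : ℝ, ∃ τ1 > (0 : ℝ),
    ∀ (T T' t1 : ℝ) (S : Pre), T ≤ τ1 → Hyp q e0 Ci K T T' t1 S →
      (∀ p ∈ Rg t1, S.y2 q p ^ 2 ≤ M * S.b2 T p) →
      ∀ p ∈ Rg t1, |S.σ' q p| ≤ S.WW e0 K1 T p ∧ |S.kt q p| ≤ S.WW e0 K1 T p := by
  have hK1 : 1 ≤ 10 * |M| + 2 * |Ci| + 1 := by linarith [abs_nonneg M, abs_nonneg Ci]
  have hK1M : 10 * |M| ≤ 10 * |M| + 2 * |Ci| + 1 := by linarith [abs_nonneg Ci]
  have hK1C : 2 * Ci ≤ 10 * |M| + 2 * |Ci| + 1 := by linarith [abs_nonneg M, le_abs_self Ci]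
  generalize 10 * |M| + 2 * |Ci| + 1 = K1 at hK1 hK1M hK1C
  refine ⟨K1, hK1, fun K => ?_⟩
  obtain ⟨L, hL, hfar⟩ := curv_far q K
  obtain ⟨τ1, hτ1, hWf⟩ := WW_far q K K1 L
  refine ⟨τ1, hτ1, fun T T' t1 S hT1 H hy => ?_⟩
  have hS := H.sol
  have hd := H.dim
  have hm := hd.hq
  have hm0 : 0 < mm q := by linarith
  have hT := H.hT
  have hK := H.hK
  obtain ⟨C, hC1, hC⟩ := reg_bd' hS H.ht0 H.ht1
  have hW : ∀ p ∈ Rg t1, K1 * S.φ p ^ 7 ≤ S.WW e0 K1 T p := fun p hp => by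
    have h1 : 0 ≤ S.W1 K1 T p := Curv_W1 (by linarith)
    have h2 : 0 ≤ S.W2 e0 T p := Curv_W2 hT (H.bas p hp).τ0.le
    have h3 : K1 * S.φ p ^ 7 ≤ S.W3 K1 T p := Curv_W3 (by linarith) hT hp.1.1
    unfold Pre.WW
    linarith
  have hW0 : ∀ p ∈ Rg t1, 0 ≤ S.WW e0 K1 T p := fun p hp =>
    (mul_nonneg (by linarith) (pow_pos (φ_pos S p) 7).le).trans (hW p hp)
  let sg : Bool → ℝ := fun b => if b then 1 else -1
  let v : Bool → ℝ × ℝ → ℝ := fun b => if b then S.σ' q else S.kt q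
  have hsg : ∀ b, sg b = 1 ∨ sg b = -1 := fun b => by cases b <;> simp [sg]
  have hv : ∀ b, Sm T' (v b) := fun b => by
    cases b
    · exact sm_kt hS
    · exact sm_σ' hS
  have hle : ∀ b x, sg b * x ≤ |x| := fun b x => (le_abs_self _).trans (CurvA_abs (hsg b)).le
  have main := mpF hS (by linarith) H.ht0 H.ht1
    (fun i : Bool × Bool => fun p => sg i.1 * v i.2 p - S.WW e0 K1 T p)
    (fun i => ((sm_const _).mul (hv _)).sub (sm_WW hS))
    (fun i => ⟨C, fun p hp => by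
      have h1 : |v i.2 p| ≤ C := by
        rcases i with ⟨_, _ | _⟩
        · exact (hC p hp).2.1
        · exact (hC p hp).2.2.1
      linarith [hle i.1 (v i.2 p), hW0 p hp]⟩)
    (fun i x hx => by
      have hi := H.ini x hx
      have h1 : |v i.2 (0, x)| ≤ |S.σ q (0, x)| + |S.kt q (0, x)| := by
        rcases i with ⟨_, _ | _⟩
        · show |S.kt q (0, x)| ≤ _
          linarith [abs_nonneg (S.σ q (0, x))]
        · show |S.σ' q (0, x)| ≤ _
          linarith [Curv_σ' (S := S) (p := (0, x)) hm0, abs_nonneg (S.kt q (0, x))]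
      have h2 : S.W2 e0 T (0, x) = 2 * (500 * lam2 e0 T / S.f (0, x) ^ 4) := by
        unfold Pre.W2
        simp only [sub_zero, div_self hT.ne', one_pow]
        ring
      have h3 : K1 * S.φ (0, x) ^ 7 ≤ S.W3 K1 T (0, x) := Curv_W3 (by linarith) hT le_rfl
      have h4 : 0 ≤ S.W1 K1 T (0, x) := Curv_W1 (by linarith)
      have h5 := mul_le_mul_of_nonneg_right hK1C (pow_pos (φ_pos S (0, x)) 7).le
      have h6 := hle i.1 (v i.2 (0, x))
      show sg i.1 * v i.2 (0, x) - S.WW e0 K1 T (0, x) ≤ 0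
      unfold Pre.WW
      linarith [hi.cσ, hi.ck])
    ((2 * mm q + 300000) * C + L)
    (fun i p hp h0 hQ hmax => by
      have hom := rg_om H.ht1 hp h0
      have hb := H.bas p hp
      have hf := pow_pos hb.fpos 2
      have hh := hb.hpos
      obtain ⟨B, hB⟩ : ∃ B, B = sg i.1 * v i.2 p := ⟨_, rfl⟩
      have hQ' : 0 < B - S.WW e0 K1 T p := hB ▸ hQ
      have hB0 : 0 ≤ B := by linarith [hW0 p hp]
      have ha : ∀ b, |v b p| ≤ B := fun b => by
        have h1 : 1 * v b p - S.WW e0 K1 T p ≤ sg i.1 * v i.2 p - S.WW e0 K1 T p := hmax (true, b)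
        have h2 : -1 * v b p - S.WW e0 K1 T p ≤ sg i.1 * v i.2 p - S.WW e0 K1 T p :=
          hmax (false, b)
        exact abs_le.2 ⟨by linarith, by linarith⟩
      have hσ : |S.σ' q p| ≤ B := ha true
      have hk : |S.kt q p| ≤ B := ha false
      have hbox : S.box q (fun p => sg i.1 * v i.2 p - S.WW e0 K1 T p) p =
          sg i.1 * S.box q (v i.2) p - S.box q (S.WW e0 K1 T) p := by
        rw [box_sub hS hom (((sm_const _).mul (hv _)).ca hom) ((sm_WW hS).ca hom), box_cmul]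
      have hP : 0 ≤ (2 * mm q + 300000) * C * (B - S.WW e0 K1 T p) := by positivity
      have hP' : 0 ≤ L * (B - S.WW e0 K1 T p) := by positivity
      have key : sg i.1 * S.box q (v i.2) p - S.box q (S.WW e0 K1 T) p ≤
          ((2 * mm q + 300000) * C + L) * (B - S.WW e0 K1 T p) := by
        rcases i with ⟨s, _ | _⟩
        · have hB' : sg s * S.kt q p = B := hB.symm
          show sg s * S.box q (S.kt q) p - _ ≤ _
          rcases le_total (S.h p) (2 / K) with hn | hn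
          · have h1 := curv_kt hd hS hom hb (H.nr p hp hn) (hsg s) hB' hB0 hσ
            have h2 := WW_near hd hS hom hb (H.nr p hp hn) hK1 hT H.T_le
            have h3 : S.f p ^ 2 * (sg s * S.box q (S.kt q) p - S.box q (S.WW e0 K1 T) p) ≤
                S.f p ^ 2 * 0 := by nlinarith [mul_pos hm0 hQ']
            linarith [le_of_mul_le_mul_left h3 hf]
          · have hn' : 1 / K ≤ S.h p :=
              (div_le_div_of_nonneg_right (by norm_num) (by linarith)).trans hn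
            have h1 := hfar e0 T T' B S p hd hK hS hom hb hn' hk hσ
            have h2 := hWf e0 T T' S p hd hK hK1 hT hT1 hS hom hb hn'
            linarith [hle s (S.box q (S.kt q) p)]
        · have hB' : sg s * S.σ' q p = B := hB.symm
          show sg s * S.box q (S.σ' q) p - _ ≤ _
          rcases le_or_gt (T - p.1) (S.h p ^ 2) with ho | hin
          · exfalso
            have h1 := Curv_out hb (hy p hp) ho hK1 hK1M
            have h2 := Curv_σ' (S := S) (p := p) hm0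
            linarith [hle s (S.σ' q p), hW p hp]
          · have hn : S.h p ≤ 2 / K := by
              rw [le_div_iff₀ (by linarith)]
              have h1 : (S.h p * K) ^ 2 ≤ 1 := by
                nlinarith [mul_le_mul_of_nonneg_right (hin.le.trans hb.τT) (sq_nonneg K), H.hTK]
              nlinarith
            have h1 := curv_σ' hd hS hom hb (H.nr p hp hn) (hsg s) hB' hB0 hk
            have h2 := WW_inner hd hS hom hb (H.nr p hp hn) hK1 hT hin
            have h4 : 1 ≤ C * S.f p ^ 2 := (div_le_iff₀ hf).1 (hC p hp).2.2.2.2.2.2.2.2.2.1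
            have h5 := mul_le_mul_of_nonneg_left h4
              (by positivity : 0 ≤ (2 * mm q + 300000) * (B - S.WW e0 K1 T p))
            have h3 : S.f p ^ 2 * (sg s * S.box q (S.σ' q) p - S.box q (S.WW e0 K1 T) p) ≤
                S.f p ^ 2 * ((2 * mm q + 300000) * C * (B - S.WW e0 K1 T p)) := by linarith
            linarith [le_of_mul_le_mul_left h3 hf]
      have e1 : 0 ≤ mm q / 4 / S.h p ^ 2 * (B - S.WW e0 K1 T p) := by positivity
      have e2 : 0 ≤ ((2 * mm q + 300000) * C + L + mm q / 4 / S.h p) *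
          |S.Ds (fun p => sg i.1 * v i.2 p - S.WW e0 K1 T p) p| := by positivity
      show S.box q (fun p => sg i.1 * v i.2 p - S.WW e0 K1 T p) p ≤
        _ * (sg i.1 * v i.2 p - S.WW e0 K1 T p) + _
      rw [hbox, ← hB]
      linarith)
  intro p hp
  have h1 : 1 * S.σ' q p - S.WW e0 K1 T p ≤ 0 := main (true, true) p hp
  have h2 : -1 * S.σ' q p - S.WW e0 K1 T p ≤ 0 := main (false, true) p hp
  have h3 : 1 * S.kt q p - S.WW e0 K1 T p ≤ 0 := main (true, false) p hp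
  have h4 : -1 * S.kt q p - S.WW e0 K1 T p ≤ 0 := main (false, false) p hp
  exact ⟨abs_le.2 ⟨by linarith, by linarith⟩, abs_le.2 ⟨by linarith, by linarith⟩⟩

end Vale.Agent.P244
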