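import Vale.Agent.P244C.Bas

open Set MeasureTheory Filter Topology
open scoped ContDiff

noncomputable section

namespace Vale.Agent.P244

theorem InitC_lin {c1 c2 c3 B1 B2 B3 : ℝ} (t a y : ℝ) (h1 : |c1| ≤ B1) (h2 : |c2| ≤ B2)
    (h3 : |c3| ≤ B3) : |c1 * t + c2 * a + c3 * y| ≤ B1 * |t| + B2 * |a| + B3 * |y| := by
  refine (abs_add_three _ _ _).trans ?_
  rw [abs_mul, abs_mul, abs_mul]
  gcongr

theorem InitC_mul {x y a b : ℝ} (x0 : 0 ≤ x) (xa : x ≤ a) (y0 : 0 ≤ y) (yb : y ≤ b) :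
    0 ≤ x * y ∧ x * y ≤ a * b :=
  ⟨mul_nonneg x0 y0, mul_le_mul xa yb y0 (x0.trans xa)⟩

theorem InitC_s {m κ r w E Z1 Z D : ℝ} (t a y : ℝ) (hm : 10 ^ 8 ≤ m) (k0 : 0 ≤ κ) (k1 : κ ≤ 1 / 10)
    (r0 : 0 ≤ r) (r1 : r ≤ 1) (w0 : 0 ≤ w) (E0 : 0 ≤ E) (E1 : E ≤ 1.03) (z0 : 0 ≤ Z1) (z1 : Z1 ≤ 1)
    (Z0 : 0 ≤ Z) (Z1' : Z ≤ 1) (D1 : |D| ≤ 1 / 2) :
    |(-2 - (m + 1) * w * Z1 - D + 2 * κ) * t + -(m * Z - r * Z1 - E * D) * a + -2 * Z * y|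
      ≤ (5 + 2 * m * w) * |t| + 2 * m * |a| + 3 * |y| := by
  obtain ⟨d0, d1⟩ := abs_le.1 D1
  have ED : |E * D| ≤ 1 := by
    rw [abs_mul, abs_of_nonneg E0]
    linarith [(InitC_mul E0 E1 (abs_nonneg D) D1).2]
  obtain ⟨ed0, ed1⟩ := abs_le.1 ED
  obtain ⟨p0, p1⟩ := InitC_mul r0 r1 z0 z1
  obtain ⟨p2, p3⟩ := InitC_mul (by linarith : 0 ≤ m + 1) (by linarith : m + 1 ≤ 2 * m) w0 le_rfl
  obtain ⟨p4, p5⟩ := InitC_mul p2 p3 z0 z1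
  obtain ⟨p6, p7⟩ := InitC_mul (by linarith : 0 ≤ m) le_rfl Z0 Z1'
  exact InitC_lin t a y (abs_le.2 ⟨by linarith, by linarith⟩) (abs_le.2 ⟨by linarith, by linarith⟩)
    (abs_le.2 ⟨by linarith, by linarith⟩)

theorem InitC_k {κ r E Z1 Z G a : ℝ} (t y : ℝ) (k0 : 0 ≤ κ) (k1 : κ ≤ 1 / 10)
    (r0 : 0 ≤ r) (r1 : r ≤ 1) (E0 : 0 ≤ E) (E1 : E ≤ 1.03) (z0 : 0 ≤ Z1) (z1 : Z1 ≤ 1)
    (Z0 : 0 ≤ Z) (Z1' : Z ≤ 1) (G0 : 0 ≤ G) (G1 : G ≤ 3) (ha : |a| ≤ 1 / 10) :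
    |(-2 * Z + 2 * κ + (1 - r) * G) * t + (2 * E * Z * (2 + a) + 2 * r * Z1 - (1 - r) * E * G) * a
      + -4 * Z * y| ≤ 20 * (|t| + |a| + |y|) := by
  obtain ⟨a0, a1⟩ := abs_le.1 ha
  obtain ⟨p0, p1⟩ := InitC_mul r0 r1 z0 z1
  obtain ⟨p2, p3⟩ := InitC_mul (by linarith : 0 ≤ 1 - r) (by linarith : 1 - r ≤ 1) G0 G1
  obtain ⟨p4, p5⟩ := InitC_mul p2 p3 E0 E1
  obtain ⟨p6, p7⟩ := InitC_mul E0 E1 Z0 Z1'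
  obtain ⟨p8, p9⟩ := InitC_mul p6 p7 (by linarith : 0 ≤ 2 + a) (by linarith : 2 + a ≤ 3)
  rw [mul_add 20, mul_add 20]
  exact InitC_lin t a y (abs_le.2 ⟨by linarith, by linarith⟩) (abs_le.2 ⟨by linarith, by linarith⟩)
    (abs_le.2 ⟨by linarith, by linarith⟩)

theorem InitC_r {m r E Z L : ℝ} (t a y : ℝ) (hm : 10 ^ 8 ≤ m)
    (r0 : 0 ≤ r) (r1 : r ≤ 1) (E0 : 0 ≤ E) (E1 : E ≤ 1.03)
    (Z0 : 0 ≤ Z) (Z1' : Z ≤ 1) (L0 : 0 ≤ L) (L1 : L ≤ 3) :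
    |(-2 * L + (1 - r) * L) * t + (-((1 - r) * L * E) - 2 * (m * Z) - 8 * Z) * a + 0 * y|
      ≤ 6 * |t| + 3 * m * |a| + 0 * |y| := by
  obtain ⟨p2, p3⟩ := InitC_mul (by linarith : 0 ≤ 1 - r) (by linarith : 1 - r ≤ 1) L0 L1
  obtain ⟨p4, p5⟩ := InitC_mul p2 p3 E0 E1
  obtain ⟨p6, p7⟩ := InitC_mul (by linarith : 0 ≤ m) le_rfl Z0 Z1'
  exact InitC_lin t a y (abs_le.2 ⟨by linarith, by linarith⟩) (abs_le.2 ⟨by linarith, by linarith⟩)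
    (by simp)

theorem InitC_p {m r w Z1 : ℝ} (hm : 10 ^ 8 ≤ m) (r0 : 0 ≤ r) (w0 : 0 ≤ w) (hrw : r ≤ 1.03 * w)
    (z0 : 0 ≤ Z1) (z1 : Z1 ≤ 1) : 0 ≤ (m + 4) * (2 * r * Z1 + (m + 1) * w * Z1) ∧
      (m + 4) * (2 * r * Z1 + (m + 1) * w * Z1) ≤ 3 * m ^ 2 * w := by
  have m0 : 0 ≤ m := by linarith
  obtain ⟨p0, p1⟩ := InitC_mul r0 hrw z0 z1
  obtain ⟨p2, p3⟩ := InitC_mul (by positivity : 0 ≤ (m + 1) * w) le_rfl z0 z1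
  have q2 : (m + 4) * (m + 4) ≤ 3 * m ^ 2 := by nlinarith
  refine ⟨by positivity, ?_⟩
  calc _ ≤ (m + 4) * ((m + 4) * w) := mul_le_mul_of_nonneg_left (by linarith) (by linarith)
    _ = (m + 4) * (m + 4) * w := by ring
    _ ≤ _ := mul_le_mul_of_nonneg_right q2 w0

theorem InitC_fin {m w t a y sσ sk p s : ℝ} (hm : 10 ^ 8 ≤ m)
    (b1 : |sσ| ≤ (5 + 2 * m * w) * |t| + 2 * m * |a| + 3 * |y|) (b2 : |sk| ≤ 20 * (|t| + |a| + |y|))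
    (b3 : |s| ≤ 6 * |t| + 3 * m * |a| + 0 * |y|) (hp : 0 ≤ p ∧ p ≤ 3 * m ^ 2 * w) :
    |sk + 2 * sσ + (p + s)| ≤ 3 * m ^ 2 * w + (60 + 4 * m * w) * |t| + 8 * m * |a| + 30 * |y| := by
  obtain ⟨c1, c2⟩ := abs_le.1 b1
  obtain ⟨c3, c4⟩ := abs_le.1 b2
  obtain ⟨c5, c6⟩ := abs_le.1 b3
  have n1 := abs_nonneg t
  have n2 := abs_nonneg y
  have n3 : 20 * |a| ≤ m * |a| := mul_le_mul_of_nonneg_right (by linarith) (abs_nonneg a)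
  exact abs_le.2 ⟨by linarith [hp.1, hp.2], by linarith [hp.1, hp.2]⟩

theorem InitC_abs {m κ r w E t a : ℝ} (y : ℝ) (hm : 10 ^ 8 ≤ m) (hκ : κ * (m + 2) = 2) (hr : 0 < r)
    (hr1 : r ≤ 1) (hw : 0 < w) (hrw : r ≤ 1.03 * w) (E0 : 0 ≤ E) (E1 : E ≤ 1.03) (ht : |t| ≤ 1)
    (ha : |a| ≤ 1 / 10) {Z1 Z D : ℝ} (hZ1 : Z1 = 1 - κ * E) (hZ : Z = (1 - r) * Z1)
    (hD : D = (1 - r) * κ * (t - E * a)) : ∀ {sσ sk r2 : ℝ},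
    sσ = (-2 - (m + 1) * w * Z1 - D + 2 * κ) * t + -(m * Z - r * Z1 - E * D) * a + -2 * Z * y →
    sk = (-2 * Z + 2 * κ + (1 - r) * (κ * (2 * E * (1 + a) + m))) * t
      + (2 * E * Z * (2 + a) + 2 * r * Z1 - (1 - r) * E * (κ * (2 * E * (1 + a) + m))) * a
      + -4 * Z * y →
    r2 = 2 * r * Z1 + (m + 1) * w * Z1 + ((-2 * κ + (1 - r) * κ) * t
      + (-(1 - r) * κ * E - 2 * Z) * a) →
    0 ≤ Z ∧ Z ≤ 1 ∧ |sσ| ≤ (5 + 2 * m * w) * |t| + 2 * m * |a| + 3 * |y| ∧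
      |sk| ≤ 20 * (|t| + |a| + |y|) ∧
      |sk + 2 * sσ + (m + 4) * r2| ≤ 3 * m ^ 2 * w + (60 + 4 * m * w) * |t| + 8 * m * |a|
        + 30 * |y| := by
  obtain ⟨a0, a1⟩ := abs_le.1 ha
  have k0 : 0 ≤ κ := nonneg_of_mul_nonneg_left (by rw [hκ]; norm_num) (by linarith : 0 < m + 2)
  have k1 : κ ≤ 1 / 10 := by nlinarith
  obtain ⟨kE0, kE1⟩ := InitC_mul k0 k1 E0 E1
  have z0 : 0 ≤ Z1 := by linarith
  have z1 : Z1 ≤ 1 := by linarith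
  have r0 : 0 ≤ 1 - r := by linarith
  have r1 : 1 - r ≤ 1 := by linarith
  obtain ⟨Z0, Z1'⟩ := InitC_mul r0 r1 z0 z1
  rw [← hZ] at Z0 Z1'
  rw [one_mul] at Z1'
  have D1 : |D| ≤ 1 / 2 := by
    have u1 : |t - E * a| ≤ 2 := by
      refine (abs_sub _ _).trans ?_
      rw [abs_mul, abs_of_nonneg E0]
      linarith [(InitC_mul E0 E1 (abs_nonneg a) ha).2]
    obtain ⟨u2, u3⟩ := InitC_mul r0 r1 k0 k1
    rw [hD, abs_mul, abs_of_nonneg u2]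
    linarith [(InitC_mul u2 u3 (abs_nonneg _) u1).2]
  obtain ⟨Ea0, Ea1⟩ := InitC_mul E0 E1 (by linarith : 0 ≤ 1 + a) (by linarith : 1 + a ≤ 2)
  have G0 : 0 ≤ κ * (2 * E * (1 + a) + m) := mul_nonneg k0 (by linarith)
  have G1 : κ * (2 * E * (1 + a) + m) ≤ 3 := by
    linarith [(InitC_mul k0 k1 Ea0 Ea1).2]
  have L0 : 0 ≤ (m + 4) * κ := mul_nonneg (by linarith) k0
  have L1 : (m + 4) * κ ≤ 3 := by linarith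
  rintro _ _ _ rfl rfl rfl
  have b1 := InitC_s t a y hm k0 k1 hr.le hr1 hw.le E0 E1 z0 z1 Z0 Z1' D1
  have b2 := InitC_k t y k0 k1 hr.le hr1 E0 E1 z0 z1 Z0 Z1' G0 G1 ha
  have b3 := InitC_fin hm b1 b2 (InitC_r t a y hm hr.le hr1 E0 E1 Z0 Z1' L0 L1)
    (InitC_p hm hr.le hw.le hrw z0 z1)
  refine ⟨Z0, Z1', b1, b2, le_trans (le_of_eq ?_) b3⟩
  congr 1
  ring

/-- algebraic bounds for the initial curvature -/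
theorem ini_alg {q : ℕ} {e0 r θ θ1 θ2 : ℝ} (hd : Dim q e0) (hr : 0 < r) (hr1 : r ≤ 1)
    (hw : 0.98 * r ≤ r + θ) (hw1 : r + θ ≤ 1.1) (h1 : |θ1| ≤ 1 / 10) :
    let Z := iZ q r θ
    let Z' := iZ' q r θ θ1
    let t0 := |θ| / (r + θ)
    let sσ := iρ1 q r θ1 θ2 Z Z' - iρ2 q r θ θ1 Z Z'
    let sk := iρ0 q r θ θ1 θ2 Z Z' - iρ2 q r θ θ1 Z Z'
    let sR := iρ0 q r θ θ1 θ2 Z Z' + 2 * iρ1 q r θ1 θ2 Z Z' + q * iρ2 q r θ θ1 Z Z'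
    0 ≤ Z ∧ Z ≤ 1 ∧
    |sσ| ≤ (5 + 2 * mm q * (r + θ)) * t0 + 2 * mm q * |θ1| + 3 * |r * θ2| ∧
    |sk| ≤ 20 * (t0 + |θ1| + |r * θ2|) ∧
    |sR| ≤ 3 * mm q ^ 2 * (r + θ) + (60 + 4 * mm q * (r + θ)) * t0 + 8 * mm q * |θ1| +
      30 * |r * θ2| := by
  intro Z Z' t0 sσ sk sR
  have hm := hd.hq
  have w0 : 0 < r + θ := by linarith
  have m2 : mm q + 2 ≠ 0 := by linarith
  have hq : (q : ℝ) = mm q + 1 := by simp [mm]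
  have E1 : r / (r + θ) ≤ 1.03 := by
    rw [div_le_iff₀ w0]
    linarith
  have et : t0 = |θ / (r + θ)| := by rw [abs_div, abs_of_pos w0]
  have eR : sR = sk + 2 * sσ + (mm q + 4) * iρ2 q r θ θ1 Z Z' := by
    simp only [sR, sk, sσ]
    rw [hq]
    ring
  have ht : |θ / (r + θ)| ≤ 1 := by
    rw [abs_div, abs_of_pos w0, div_le_one w0]
    exact abs_le.2 ⟨by linarith, by linarith⟩
  rw [et, eR]
  refine InitC_abs (κ := 2 / (mm q + 2)) (E := r / (r + θ)) _ hm (by field_simp) hr hr1 w0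
    (by linarith) (by positivity) E1 ht h1 rfl rfl rfl ?_ ?_ ?_
  · simp only [sσ, Z, Z', iρ1, iρ2, iZ, iZ']
    rw [hq]
    field_simp
    ring
  · simp only [sk, Z, Z', iρ0, iρ2, iZ, iZ']
    rw [hq]
    field_simp
    ring
  · simp only [Z, Z', iρ2, iZ, iZ']
    field_simp
    ring

end Vale.Agent.P244
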