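import Vale.Agent.P244C.Glob

open Set MeasureTheory Filter Topology
open scoped ContDiff

noncomputable section

namespace Vale.Agent.P244

variable {q : ℕ} {e0 Ci K T T' t1 : ℝ} {S : Pre}

theorem bas_m (h : Dim q e0) : 100000000 ≤ mm q := by
  have := h.hq
  norm_num at this ⊢
  exact this

theorem Dim.e0_pos (h : Dim q e0) : 0 < e0 := by
  have h1 := bas_m h
  have h2 := h.lo
  by_contra h3
  nlinarith

theorem Dim.e0_le (h : Dim q e0) : e0 ≤ 1 / 10 ^ 7 := by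
  have h1 := bas_m h
  have h2 := h.hi
  have h3 := h.e0_pos
  nlinarith

theorem Dim.z0_lo (h : Dim q e0) : 0.99 ≤ z0 q := by
  have h1 := bas_m h
  unfold z0
  rw [le_div_iff₀ (by linarith)]
  linarith

theorem Dim.z0_hi (h : Dim q e0) : z0 q < 1 := by
  have h1 := bas_m h
  unfold z0
  rw [div_lt_one (by linarith)]
  linarith

theorem Dim.al_lo (h : Dim q e0) : 0.49 * mm q ≤ al q e0 := by
  have h1 := bas_m h
  have h2 := h.e0_le
  unfold al
  linarith

theorem Dim.al_hi (h : Dim q e0) : al q e0 ≤ mm q / 2 := by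
  have h2 := h.e0_pos
  unfold al
  linarith

theorem exists_dim : ∃ (q : ℕ) (e0 : ℝ), Dim q e0 := by
  have hm : mm 100000001 = 100000000 := by unfold mm; norm_num
  have h1 := intermediate_value_Icc (f := fun e : ℝ => e * (100000000 - 2 - e))
    (show (4 / 100000000 : ℝ) ≤ 5 / 100000000 by norm_num) (by fun_prop)
  obtain ⟨e, he, h2⟩ := h1 (show (4 : ℝ) ∈ _ from ⟨by norm_num, by norm_num⟩)
  refine ⟨100000001, e, ?_, ?_, ?_, ?_⟩ <;> rw [hm]
  · norm_num
  · exact h2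
  · linarith [he.1]
  · linarith [he.2]

theorem lam2_lo (h : Dim q e0) (hT : 0 < T) (hT1 : T ≤ 1) : T ^ 3 / 4 ≤ lam2 e0 T := by
  have h1 := Real.rpow_le_rpow_of_exponent_ge hT hT1 (show 3 - e0 ≤ ((3 : ℕ) : ℝ) by
    have := h.e0_pos
    push_cast
    linarith)
  rw [Real.rpow_natCast] at h1
  unfold lam2
  linarith

theorem lam2_hi (h : Dim q e0) (hT : 0 < T) (hT1 : T ≤ 1) :
    lam2 e0 T ≤ T ^ (23 / 8 : ℝ) / 4 := by
  have h1 := Real.rpow_le_rpow_of_exponent_ge hT hT1 (show (23 / 8 : ℝ) ≤ 3 - e0 by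
    have := h.e0_le
    linarith)
  unfold lam2
  linarith

theorem bas_lam2 (hT : 0 < T) : 0 < lam2 e0 T := by
  unfold lam2
  positivity

theorem A0_pos (hT : 0 < T) : 0 < A0 q e0 T := Real.rpow_pos_of_pos (bas_lam2 hT) _

theorem A0_le (h : Dim q e0) (hT : 0 < T) (hT1 : T ≤ 1) :
    A0 q e0 T ≤ T ^ (3 + (3 / mm q - e0) / 2) / 4 := by
  have h1 := bas_m h
  have h2 := h.e0_le
  have h3 := h.e0_pos
  have h4 : e0 ≤ 5 * (1 / mm q) := by
    rw [mul_one_div, le_div_iff₀ (by linarith)]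
    linarith [h.hi]
  have h5 : 0 < 1 / mm q := by positivity
  have e1 : 3 / (2 * mm q) = 3 / 2 * (1 / mm q) := by field_simp
  have e2 : 3 / mm q = 3 * (1 / mm q) := by field_simp
  unfold A0 lam2
  rw [Real.div_rpow (by positivity) (by norm_num), ← Real.rpow_mul hT.le, e1, e2]
  refine div_le_div₀ (by positivity) (Real.rpow_le_rpow_of_exponent_ge hT hT1 (by nlinarith))
    (by norm_num) ?_
  exact Real.self_le_rpow_of_one_le (by norm_num) (by linarith)

theorem Hyp.T_le (H : Hyp q e0 Ci K T T' t1 S) : T ≤ 1 / 100 := by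
  have h1 := H.hK
  have h2 := H.hT
  have h3 := H.hTK
  have h4 : 100 ≤ K ^ 2 := by nlinarith
  nlinarith

theorem Hyp.mono (H : Hyp q e0 Ci K T T' t1 S) {t2 : ℝ} (h0 : 0 ≤ t2) (h : t2 ≤ t1) :
    Hyp q e0 Ci K T T' t2 S :=
  ⟨H.dim, H.hK, H.hT, H.hTK, H.hT', h0, h.trans_lt H.ht1, H.sol, H.ini,
    fun p hp => H.bs p ⟨⟨hp.1.1, hp.1.2.trans h⟩, hp.2⟩⟩

theorem bas_inl {L s f ε : ℝ} (hL : 0 < L) (hs : 0 < s) (hs1 : s ≤ 1) (hf : 0 < f) (hε : 0 ≤ ε)
    (h : L ^ (1 + ε / 2) * s ≤ f ^ 2 * f ^ ε) : L * s ≤ f ^ 2 := by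
  have e1 : f ^ 2 * f ^ ε = (f ^ 2) ^ (1 + ε / 2) := by
    rw [← Real.rpow_natCast, ← Real.rpow_add hf, ← Real.rpow_mul hf.le]
    congr 1
    push_cast
    ring
  have h1 : s ^ (1 + ε / 2) ≤ s := Real.rpow_le_self_of_le_one hs.le hs1 (by linarith)
  refine (Real.rpow_le_rpow_iff (by positivity) (by positivity)
    (show 0 < 1 + ε / 2 by linarith)).1 ?_
  rw [Real.mul_rpow hL.le hs.le, ← e1]
  exact (mul_le_mul_of_nonneg_left h1 (by positivity)).trans h

theorem bas_log {E : ℝ} (h0 : 0 < E) (h1 : E ≤ 1.03) : |1 - E| ≤ 1.05 * |Real.log E| := by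
  have h2 := Real.log_le_sub_one_of_pos h0
  have h3 := Real.one_sub_inv_le_log_of_pos h0
  have h4 : E - 1 ≤ E * Real.log E := by
    have := mul_le_mul_of_nonneg_left h3 h0.le
    rwa [mul_sub, mul_one, mul_inv_cancel₀ h0.ne'] at this
  have h5 := mul_le_mul_of_nonneg_left (le_abs_self (Real.log E)) h0.le
  have h6 := neg_abs_le (Real.log E)
  have h7 := abs_nonneg (Real.log E)
  refine abs_le.2 ⟨by nlinarith, by linarith⟩

theorem bas_log2 {a b : ℝ} (ha : 0 < a) (hb : 0 < b) (h : a ≤ 1.03 * b) :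
    |Real.log (a / b)| ≤ 2 * (|b - a| / a) := by
  have h0 : 0 < a / b := by positivity
  have h2 := Real.log_le_sub_one_of_pos h0
  have h3 := Real.one_sub_inv_le_log_of_pos h0
  have h4 := abs_nonneg (b - a)
  have h5 : 0 ≤ |b - a| / a := by positivity
  refine abs_le.2 ⟨?_, ?_⟩
  · have h6 : (b - a) / a ≤ |b - a| / a := div_le_div_of_nonneg_right (le_abs_self _) ha.le
    have e : 1 - (a / b)⁻¹ = -((b - a) / a) := by field_simp; ring
    linarith
  · have e : a / b - 1 = -(b - a) / b := by field_simp; ring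
    have h6 : -(b - a) / b ≤ |b - a| / b := div_le_div_of_nonneg_right (neg_le_abs _) hb.le
    have h7 : |b - a| / b ≤ 2 * (|b - a| / a) := by
      rw [← mul_div_assoc, div_le_div_iff₀ hb ha]
      nlinarith
    linarith

theorem Hyp.bas (H : Hyp q e0 Ci K T T' t1 S) : ∀ p ∈ Rg t1, Bas q e0 K T S p := by
  intro p hp
  have hm := bas_m H.dim
  have hw : p ∈ Wd T' := rg_sub_wd H.ht1 hp
  have hg := glob H.sol (by linarith) H.ht0 H.ht1 (fun x hx => (H.ini x hx).glob) p hp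
  have hB := H.bs p hp
  have hT := H.hT
  have hT1 := H.T_le
  have hK := H.hK
  have τ0 : 0 < T - p.1 := by linarith [hp.1.2, H.ht1, H.hT']
  have τT : T - p.1 ≤ T := by linarith [hp.1.1]
  have hh := h_pos H.sol hw
  have hk := k_pos H.sol hw
  have ek := (k_pow H.sol hw).symm
  have hf := f_pos S p
  have hφ := φ_pos S p
  have eφ := (φ_pow S p).symm
  have hL : 0 < lam2 e0 T := bas_lam2 hT
  have eΘ : S.Θ p = S.f p ^ 2 - S.h p ^ 2 := rfl
  have hs0 : 0 < (T - p.1) / T := by positivity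
  have hs1 : (T - p.1) / T ≤ 1 := (div_le_one hT).2 τT
  have hk1 : S.k p ≤ 1 := by
    have h1 := hg.h1
    rw [ek] at h1
    exact (pow_le_one_iff_of_nonneg hk.le (by norm_num)).1 h1
  have hh2 : S.h p ^ 2 ≤ 1 := pow_le_one₀ hh.le hg.h1
  have b1 : S.k p * |S.Θ p| ≤ ((T - p.1) ^ 3 + S.h p ^ 6) / 100 := by simpa using hB.b1
  have b4 : S.f p ^ 2 ≤ 2 * S.h p ^ 2 + (T - p.1) := by simpa using hB.b4
  have inΘ : S.h p ^ 2 < T - p.1 → 0 < S.Θ p := fun h => by
    have h1 := hB.b3 h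
    have h2 : 0 < A0 q e0 T * ((T - p.1) / T) ^ 3 := mul_pos (A0_pos hT) (by positivity)
    exact (mul_pos_iff_of_pos_right (mono_pos S 0 (3 / mm q) p)).1 (by linarith)
  have inl : S.h p ^ 2 < T - p.1 → lam2 e0 T * ((T - p.1) / T) ^ 3 ≤ 2 * S.f p ^ 2 := fun h => by
    have h1 := hB.b3 h
    have h2 : ((T - p.1) / T) ^ 3 ≤ 1 := pow_le_one₀ hs0.le hs1
    rw [mono_rpow H.sol hw, Real.rpow_zero, one_mul] at h1
    have h3 : S.Θ p * S.f p ^ (3 / mm q) ≤ S.f p ^ 2 * S.f p ^ (3 / mm q) :=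
      mul_le_mul_of_nonneg_right (by nlinarith) (by positivity)
    have h4 := bas_inl (s := ((T - p.1) / T) ^ 3 / 2) (ε := 3 / mm q) hL (by positivity)
      (by linarith) hf (by positivity) (by
        have e : 3 / mm q / 2 = 3 / (2 * mm q) := by field_simp
        rw [e]
        have h5 : lam2 e0 T ^ (1 + 3 / (2 * mm q)) = A0 q e0 T := rfl
        rw [h5]
        linarith)
    linarith
  have outΘ : T - p.1 ≤ S.h p ^ 2 → |S.Θ p| ≤ S.k p ^ 23 / 50 := fun h => by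
    have h1 : (T - p.1) ^ 3 ≤ (S.h p ^ 2) ^ 3 := pow_le_pow_left₀ τ0.le h 3
    refine le_of_mul_le_mul_left (b1.trans ?_) hk
    have e : S.k p * (S.k p ^ 23 / 50) = (S.h p ^ 6 + S.h p ^ 6) / 100 := by rw [ek]; ring
    rw [e]
    linarith
  have outf : T - p.1 ≤ S.h p ^ 2 →
      0.98 * S.h p ^ 2 ≤ S.f p ^ 2 ∧ S.f p ^ 2 ≤ 1.02 * S.h p ^ 2 := fun h => by
    have h1 := abs_le.1 (outΘ h)
    have h2 : S.k p ^ 23 ≤ S.k p ^ 8 := pow_le_pow_of_le_one hk.le hk1 (by norm_num)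
    have e : S.h p ^ 2 = S.k p ^ 8 := by rw [ek]; ring
    constructor <;> linarith [h1.1, h1.2]
  have hf2 : 0 < S.f p ^ 2 := by positivity
  have E1 : S.h p ^ 2 ≤ 1.03 * S.f p ^ 2 := by
    rcases lt_or_ge (S.h p ^ 2) (T - p.1) with h | h
    · linarith [inΘ h]
    · linarith [(outf h).1]
  have f1 : S.f p ≤ 1.1 := by
    refine (pow_le_pow_iff_left₀ hf.le (by norm_num) two_ne_zero).1 ?_
    rcases lt_or_ge (S.h p ^ 2) (T - p.1) with h | h
    · linarith
    · linarith [(outf h).2]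
  have hEE : S.EE p ≤ 1.03 := (div_le_iff₀ hf2).2 E1
  have hE0 : 0 < S.EE p := div_pos (by positivity) hf2
  have eu : Real.log (S.EE p) = -2 * S.u p := by
    have e1 : Real.log (S.f p) = S.F p := Real.log_exp _
    unfold Pre.EE Pre.u Pre.G
    rw [Real.log_div (by positivity) hf2.ne', Real.log_pow, Real.log_pow, e1]
    push_cast
    ring
  have eu' : |Real.log (S.EE p)| = 2 * |S.u p| := by
    rw [eu, abs_mul, abs_neg, abs_two]
  have Θb : |S.Θ p| ≤ S.h p ^ 2 * S.bb T p / 100 := by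
    refine le_of_mul_le_mul_left (b1.trans_eq ?_) hk
    unfold Pre.bb
    rw [ek]
    field_simp
  have cc : ∀ x : ℝ, x ≤ 1 * (10000 + K * S.f p) → x ≤ 10000 + 2 * K := fun x hx => by
    nlinarith
  refine ⟨hg, τ0, τT, hh, hk, ek, hf, hφ, eφ, E1, f1, ?_, inΘ, fun h => by linarith, inl, outΘ,
    outf, ?_, Θb, ?_, ?_, ?_, ?_, cc _ hB.bσ, cc _ hB.bk, cc _ hB.bR⟩
  · refine (pow_le_pow_iff_left₀ hk.le (by positivity) (show 8 ≠ 0 by norm_num)).1 ?_
    rw [ek, eφ] at E1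
    have h1 : 0 < S.φ p ^ 8 := by positivity
    nlinarith
  · rcases lt_or_ge (S.h p ^ 2) (T - p.1) with h | h
    · have h1 := mul_le_mul_of_nonneg_right (lam2_lo H.dim hT (by linarith))
        (show 0 ≤ ((T - p.1) / T) ^ 3 by positivity)
      have e : T ^ 3 / 4 * ((T - p.1) / T) ^ 3 = (T - p.1) ^ 3 / 4 := by field_simp
      linarith [inl h]
    · have h1 : (T - p.1) ^ 3 ≤ T - p.1 := pow_le_of_le_one τ0.le (by linarith) (by norm_num)
      linarith
  · have h1 : |Real.log (S.EE p)| ≤ 2 * (|S.Θ p| / S.h p ^ 2) := bas_log2 (by positivity) hf2 E1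
    have h2 : |S.Θ p| / S.h p ^ 2 ≤ S.bb T p / 100 := by
      rw [div_le_iff₀ (by positivity)]
      linarith
    have h3 : |S.u p| ≤ S.bb T p / 100 := by linarith
    have h4 := pow_le_pow_left₀ (abs_nonneg _) h3 2
    rw [sq_abs] at h4
    have e : S.b2 T p = ((T - p.1) ^ 3 / S.k p ^ 9) ^ 2 + (S.k p ^ 15) ^ 2 := by
      unfold Pre.b2
      ring
    rw [e]
    unfold Pre.bb at h4
    generalize (T - p.1) ^ 3 / S.k p ^ 9 = x at h4 ⊢
    generalize S.k p ^ 15 = y at h4 ⊢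
    nlinarith [sq_nonneg (x - y), sq_nonneg x, sq_nonneg y]
  · have h1 := bas_log hE0 hEE
    linarith
  · have e : S.hX p ^ 2 = S.EE p * S.fs p ^ 2 := by
      unfold Pre.hX Pre.EE Pre.fs
      field_simp
    rw [e]
    exact mul_le_mul hEE hg.fs (sq_nonneg _) (by norm_num)
  · have h1 : lam2 e0 T * ((T - p.1) / T) ^ 5 ≤ 2 * S.f p ^ 2 := by
      rcases lt_or_ge (S.h p ^ 2) (T - p.1) with h | h
      · exact (mul_le_mul_of_nonneg_left (pow_le_pow_of_le_one hs0.le hs1 (by norm_num))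
          hL.le).trans (inl h)
      · have h2 : ((T - p.1) / T) ^ 5 ≤ (T - p.1) / T := pow_le_of_le_one hs0.le hs1 (by norm_num)
        have h3 : T ^ (23 / 8 : ℝ) ≤ T :=
          Real.rpow_le_self_of_le_one hT.le (by linarith) (by norm_num)
        have h4 := lam2_hi H.dim hT (by linarith)
        have h5 := mul_le_mul (show lam2 e0 T ≤ T by linarith) h2 (by positivity) hT.le
        rw [mul_div_cancel₀ _ hT.ne'] at h5
        linarith
    have e : S.f p ^ 2 * S.W2 e0 T p = 1000 * (lam2 e0 T * ((T - p.1) / T) ^ 5) / S.f p ^ 2 := by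
      unfold Pre.W2
      field_simp
    rw [e, div_le_iff₀ hf2]
    linarith

end Vale.Agent.P244
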