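import Vale.Agent.P244C.LagA
import Vale.Agent.P244C.Bas

open Set MeasureTheory Filter Topology
open scoped ContDiff

noncomputable section

namespace Vale.Agent.P244

theorem initA_psi {b e r : ℝ} (hr : 0 < r + b) :
    HasDerivAt (fun r => (r + b) ^ (-e)) (-e * ((r + b) ^ (-e) / (r + b))) r := by
  have h1 : HasDerivAt (fun r : ℝ => r + b) 1 r := (hasDerivAt_id r).add_const b
  have h2 := h1.rpow_const (p := -e) (Or.inl hr.ne')
  refine h2.congr_deriv ?_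
  rw [Real.rpow_sub_one hr.ne']
  ring

theorem initA_der {P P1 P2 : ℝ → ℝ} (hP : ∀ x, HasDerivAt P (P1 x) x)
    (hP1 : ∀ x, HasDerivAt P1 (P2 x) x) {b e r : ℝ} (hr : 0 < r + b) :
    deriv (fun r => P r * (r + b) ^ (-e)) r =
        P1 r * (r + b) ^ (-e) - e * (P r * ((r + b) ^ (-e) / (r + b))) ∧
      deriv (deriv fun r => P r * (r + b) ^ (-e)) r =
        P2 r * (r + b) ^ (-e) - 2 * e * (P1 r * ((r + b) ^ (-e) / (r + b))) +
          e * (e + 1) * (P r * ((r + b) ^ (-e) / (r + b) / (r + b))) := by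
  have h1 : ∀ x, 0 < x + b → deriv (fun r => P r * (r + b) ^ (-e)) x =
      P1 x * (x + b) ^ (-e) - e * (P x * ((x + b) ^ (-e) / (x + b))) := by
    intro x hx
    have h := ((hP x).mul (initA_psi (e := e) hx)).deriv
    refine Eq.trans h ?_
    ring
  refine ⟨h1 r hr, ?_⟩
  have hev : (deriv fun r => P r * (r + b) ^ (-e)) =ᶠ[𝓝 r]
      fun x => P1 x * (x + b) ^ (-e) - e * (P x * ((x + b) ^ (-e) / (x + b))) := by
    have ho : ∀ᶠ x in 𝓝 r, -b < x := lt_mem_nhds (by linarith)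
    filter_upwards [ho] with x hx
    exact h1 x (by linarith)
  rw [hev.deriv_eq]
  have hb : HasDerivAt (fun r : ℝ => r + b) 1 r := (hasDerivAt_id r).add_const b
  have h2 := ((hP1 r).mul (initA_psi (e := e) hr)).sub
    (((hP r).mul ((initA_psi (e := e) hr).div hb hr.ne')).const_mul e)
  refine Eq.trans h2.deriv ?_
  simp only [Pi.div_apply]
  field_simp
  ring

theorem initA_comb {L L1 : Fin 4 → ℝ → ℝ} (hL : ∀ j x, HasDerivAt (L j) (L1 j x) x)
    (A B c : ℝ) (δ : Fin 3 → ℝ) (r : ℝ) :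
    HasDerivAt (fun r => A * (L 3 (r / c) + B * ∑ j : Fin 3, δ j * L j.castSucc (r / c)))
      (A / c * (L1 3 (r / c) + B * ∑ j : Fin 3, δ j * L1 j.castSucc (r / c))) r := by
  have h0 : HasDerivAt (fun r : ℝ => r / c) (1 / c) r := (hasDerivAt_id r).div_const c
  have h1 : ∀ j, HasDerivAt (fun r => L j (r / c)) (L1 j (r / c) * (1 / c)) r := fun j =>
    (hL j (r / c)).comp r h0
  have h2 : HasDerivAt (fun r => ∑ j : Fin 3, δ j * L j.castSucc (r / c))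
      (∑ j : Fin 3, δ j * (L1 j.castSucc (r / c) * (1 / c))) r :=
    HasDerivAt.fun_sum fun j _ => (h1 j.castSucc).const_mul (δ j)
  have h3 := ((h1 3).add (h2.const_mul B)).const_mul A
  refine h3.congr_deriv ?_
  simp only [Fin.sum_univ_three]
  ring

theorem initA_sum {l : Fin 4 → ℝ} {M B : ℝ} {δ : Fin 3 → ℝ} (hl : ∀ j, |l j| ≤ M) (hB : 0 ≤ B)
    (hB1 : B ≤ 1 / 100) (hδ : ∀ j, |δ j| ≤ 3) :
    |B * ∑ j : Fin 3, δ j * l j.castSucc| ≤ 0.09 * M := by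
  have hM : 0 ≤ M := (abs_nonneg _).trans (hl 0)
  have h1 : |∑ j : Fin 3, δ j * l j.castSucc| ≤ 9 * M := by
    refine (Finset.abs_sum_le_sum_abs _ _).trans ?_
    have h2 : ∀ j : Fin 3, |δ j * l j.castSucc| ≤ 3 * M := by
      intro j
      rw [abs_mul]
      exact mul_le_mul (hδ j) (hl _) (abs_nonneg _) (by norm_num)
    rw [Fin.sum_univ_three]
    linarith [h2 0, h2 1, h2 2]
  rw [abs_mul, abs_of_nonneg hB]
  calc B * |∑ j : Fin 3, δ j * l j.castSucc| ≤ 1 / 100 * (9 * M) :=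
        mul_le_mul hB1 h1 (abs_nonneg _) (by norm_num)
    _ = 0.09 * M := by ring

theorem initA_bd {l : Fin 4 → ℝ} {M B A : ℝ} {δ : Fin 3 → ℝ} (hl : ∀ j, |l j| ≤ M) (hB : 0 ≤ B)
    (hB1 : B ≤ 1 / 100) (hδ : ∀ j, |δ j| ≤ 3) (hA : 0 ≤ A) :
    |A * (l 3 + B * ∑ j : Fin 3, δ j * l j.castSucc)| ≤ 1.09 * (A * M) := by
  have h1 := initA_sum hl hB hB1 hδ
  have h2 := abs_add_le (l 3) (B * ∑ j : Fin 3, δ j * l j.castSucc)
  have h3 := hl 3
  rw [abs_mul, abs_of_nonneg hA]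
  calc A * |l 3 + B * ∑ j : Fin 3, δ j * l j.castSucc| ≤ A * (1.09 * M) :=
        mul_le_mul_of_nonneg_left (by linarith) hA
    _ = 1.09 * (A * M) := by ring

theorem initA_T {T : ℝ} (hT : 0 < T) (hT1 : T ≤ 1 / 10 ^ 8) : T ^ (1 / 4 : ℝ) ≤ 1 / 100 := by
  have h1 : (T ^ (1 / 4 : ℝ)) ^ 4 = T := by
    rw [← Real.rpow_natCast, ← Real.rpow_mul hT.le]
    norm_num
  have h2 : (T ^ (1 / 4 : ℝ)) ^ 4 ≤ (1 / 100 : ℝ) ^ 4 := by
    rw [h1]
    refine hT1.trans (le_of_eq ?_)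
    norm_num
  exact le_of_pow_le_pow_left₀ (by norm_num) (by norm_num) h2

theorem initA_alg {m e N r s ψ w P P1 P2 : ℝ} (hm : 0 < m) (he : 0 ≤ e) (he1 : e ≤ 1 / 10)
    (hme : m * e ≤ 5 / 2) (hN : 1.94 * m ≤ N) (hr : 0 ≤ r) (hrs : r / N ≤ s) (hψ : 0 < ψ)
    (hw : 0 < w) (hrw : r ≤ w) (h0 : |P| ≤ 1.09 * s ^ 3) (h1 : |P1| ≤ 1.09 * (3 * s ^ 2 / N))
    (h2 : |P2| ≤ 1.09 * (6 * s / N / N)) :
    |P * ψ| ≤ 1.1 * s ^ 3 * ψ ∧
      m * |P1 * ψ - e * (P * (ψ / w))| ≤ 2 * s ^ 2 * ψ + 3 * s ^ 3 * ψ / w ∧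
      m * |r * (P2 * ψ - 2 * e * (P1 * (ψ / w)) + e * (e + 1) * (P * (ψ / w / w)))| ≤
        5 * s ^ 2 * ψ + 6 * s ^ 3 * ψ / w := by
  have hN0 : 0 < N := by linarith
  have hs : 0 ≤ s := (div_nonneg hr hN0.le).trans hrs
  have hs2 : 0 ≤ s ^ 2 := by positivity
  have hs3 : 0 ≤ s ^ 3 := by positivity
  have hmN : m / N ≤ 0.52 := by
    rw [div_le_iff₀ hN0]
    linarith
  have hmN0 : 0 ≤ m / N := by positivity
  have hρ : r / w ≤ 1 := (div_le_one hw).2 hrw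
  have hρ0 : 0 ≤ r / w := by positivity
  have hv : 0 < ψ / w := by positivity
  have a1 : m * |P1| ≤ 1.8 * s ^ 2 := by
    calc m * |P1| ≤ m * (1.09 * (3 * s ^ 2 / N)) := mul_le_mul_of_nonneg_left h1 hm.le
      _ = m / N * (3.27 * s ^ 2) := by ring
      _ ≤ 0.52 * (3.27 * s ^ 2) := mul_le_mul_of_nonneg_right hmN (by positivity)
      _ ≤ 1.8 * s ^ 2 := by linarith
  have a2 : m * (r * |P2|) ≤ 3.5 * s ^ 2 := by
    calc m * (r * |P2|) ≤ m * (r * (1.09 * (6 * s / N / N))) := by gcongr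
      _ = m / N * (6.54 * s * (r / N)) := by ring
      _ ≤ 0.52 * (6.54 * s * s) := by gcongr
      _ ≤ 3.5 * s ^ 2 := by nlinarith
  have a0 : m * e * |P| ≤ 2.8 * s ^ 3 := by
    calc m * e * |P| ≤ 5 / 2 * (1.09 * s ^ 3) := mul_le_mul hme h0 (abs_nonneg _) (by norm_num)
      _ ≤ 2.8 * s ^ 3 := by linarith
  refine ⟨?_, ?_, ?_⟩
  · rw [abs_mul, abs_of_pos hψ]
    exact mul_le_mul_of_nonneg_right (by linarith) hψ.le
  · have b1 : |P1 * ψ - e * (P * (ψ / w))| ≤ |P1| * ψ + e * (|P| * (ψ / w)) := by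
      refine (abs_sub _ _).trans (le_of_eq ?_)
      rw [abs_mul, abs_mul, abs_mul, abs_of_pos hψ, abs_of_pos hv, abs_of_nonneg he]
    have b2 := mul_le_mul_of_nonneg_right a1 hψ.le
    have b3 := mul_le_mul_of_nonneg_right a0 hv.le
    have b4 := mul_nonneg hs2 hψ.le
    have b5 := mul_nonneg hs3 hv.le
    calc m * |P1 * ψ - e * (P * (ψ / w))| ≤ m * (|P1| * ψ + e * (|P| * (ψ / w))) :=
          mul_le_mul_of_nonneg_left b1 hm.le
      _ = m * |P1| * ψ + m * e * |P| * (ψ / w) := by ring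
      _ ≤ 2 * (s ^ 2 * ψ) + 3 * (s ^ 3 * (ψ / w)) := by linarith
      _ = 2 * s ^ 2 * ψ + 3 * s ^ 3 * ψ / w := by ring
  · have hv2 : 0 < ψ / w / w := by positivity
    have b1 : |P2 * ψ - 2 * e * (P1 * (ψ / w)) + e * (e + 1) * (P * (ψ / w / w))| ≤
        |P2| * ψ + 2 * e * (|P1| * (ψ / w)) + e * (e + 1) * (|P| * (ψ / w / w)) := by
      refine (abs_add_le _ _).trans (add_le_add ((abs_sub _ _).trans (le_of_eq ?_)) (le_of_eq ?_))
      · rw [abs_mul, abs_mul (2 * e), abs_mul P1, abs_of_pos hψ, abs_of_pos hv,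
          abs_of_nonneg (by positivity : 0 ≤ 2 * e)]
      · rw [abs_mul, abs_mul P, abs_of_pos hv2, abs_of_nonneg (by positivity : 0 ≤ e * (e + 1))]
    have b2 := mul_le_mul_of_nonneg_right a2 hψ.le
    have b3 : 2 * e * (r / w) * (m * |P1|) ≤ 1 / 5 * (1.8 * s ^ 2) := by
      refine mul_le_mul ?_ a1 (by positivity) (by norm_num)
      nlinarith
    have b3' := mul_le_mul_of_nonneg_right b3 hψ.le
    have b6 : (e + 1) * (r / w) * (m * e * |P|) ≤ 2 * (2.8 * s ^ 3) := by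
      refine mul_le_mul ?_ a0 (by positivity) (by norm_num)
      nlinarith
    have b6' := mul_le_mul_of_nonneg_right b6 hv.le
    have b4 := mul_nonneg hs2 hψ.le
    have b5 := mul_nonneg hs3 hv.le
    rw [abs_mul, abs_of_nonneg hr]
    calc m * (r * |P2 * ψ - 2 * e * (P1 * (ψ / w)) + e * (e + 1) * (P * (ψ / w / w))|)
        ≤ m * (r * (|P2| * ψ + 2 * e * (|P1| * (ψ / w)) + e * (e + 1) * (|P| * (ψ / w / w)))) := by
          gcongr
      _ = m * (r * |P2|) * ψ + 2 * e * (r / w) * (m * |P1|) * ψ +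
          (e + 1) * (r / w) * (m * e * |P|) * (ψ / w) := by ring
      _ ≤ 5 * (s ^ 2 * ψ) + 6 * (s ^ 3 * (ψ / w)) := by linarith
      _ = 5 * s ^ 2 * ψ + 6 * s ^ 3 * ψ / w := by ring

variable {q : ℕ} {e0 T : ℝ} {δ : Fin 3 → ℝ}

theorem Th0_smooth (hT : 0 < T) {r : ℝ} (hr : 0 ≤ r) : ContDiffAt ℝ ∞ (Th0 q e0 T δ) r := by
  have h0 : ∀ j, ContDiff ℝ ∞ fun r : ℝ => lag (al q e0) j (r / (4 * z0 q * T)) := fun j =>
    (lag_smooth j).comp (contDiff_id.div_const _)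
  have h1 : ContDiff ℝ ∞ (Ph q e0 T δ) :=
    contDiff_const.mul ((h0 3).add (contDiff_const.mul
      (ContDiff.sum fun j _ => contDiff_const.mul (h0 j.castSucc))))
  have h2 : ContDiffAt ℝ ∞ (fun r : ℝ => (r + T ^ 2) ^ (-(e0 / 2))) r :=
    (contDiffAt_id.add contDiffAt_const).rpow_const_of_ne (by positivity)
  exact h1.contDiffAt.mul h2

/-- basic bounds in terms of `s = T + r / N` and `ψ = (r + T²) ^ (-e0 / 2)` -/
theorem th0_basic (hd : Dim q e0) (hT : 0 < T) (hT1 : T ≤ 1 / 10 ^ 8) (hδ : ∀ j, |δ j| ≤ 3)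
    {r s ψ : ℝ} (hr : 0 ≤ r) (hs : s = T + r / (4 * z0 q * al q e0))
    (hψ : ψ = (r + T ^ 2) ^ (-(e0 / 2))) :
    |Th0 q e0 T δ r| ≤ 1.1 * s ^ 3 * ψ ∧
      mm q * |deriv (Th0 q e0 T δ) r| ≤ 2 * s ^ 2 * ψ + 3 * s ^ 3 * ψ / (r + T ^ 2) ∧
      mm q * |r * deriv (deriv (Th0 q e0 T δ)) r| ≤ 5 * s ^ 2 * ψ + 6 * s ^ 3 * ψ / (r + T ^ 2) ∧
      (r ≤ T → 0.85 * T ^ 3 * ψ ≤ Th0 q e0 T δ r) := by
  have hm := hd.hq
  have hz := hd.z0_lo
  have ha := hd.al_lo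
  have he := hd.e0_pos
  have he1 := hd.e0_le
  have hme := hd.hi
  have hz0 : 0 < z0 q := by linarith
  have ha100 : 100 ≤ al q e0 := by linarith
  have ha10 : 10 ≤ al q e0 := by linarith
  have ha0 : 0 < al q e0 := by linarith
  have hw : 0 < r + T ^ 2 := by positivity
  have hψ0 : 0 < ψ := hψ ▸ Real.rpow_pos_of_pos hw _
  have hB0 : 0 ≤ T ^ (1 / 4 : ℝ) := by positivity
  have hB1 := initA_T hT hT1
  have hc : 0 < 4 * z0 q * T := by positivity
  have hξ : 0 ≤ r / (4 * z0 q * T) := by positivity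
  have d1 : ∀ j x, HasDerivAt (lag (al q e0) j) (deriv (lag (al q e0) j) x) x := fun j x =>
    (((lag_smooth j).differentiable (by simp)) x).hasDerivAt
  have d2 : ∀ j x, HasDerivAt (deriv (lag (al q e0) j)) (deriv (deriv (lag (al q e0) j)) x) x :=
    fun j x => (((contDiff_infty_iff_deriv.1 (lag_smooth j)).2.differentiable (by simp))
      x).hasDerivAt
  have e1 := initA_comb d1 (T ^ 3) (T ^ (1 / 4 : ℝ)) (4 * z0 q * T) δ
  have e2 := initA_comb (L := fun j => deriv (lag (al q e0) j))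
    (L1 := fun j => deriv (deriv (lag (al q e0) j))) d2 (T ^ 3 / (4 * z0 q * T))
    (T ^ (1 / 4 : ℝ)) (4 * z0 q * T) δ
  obtain ⟨g1, g2⟩ := initA_der e1 e2 (e := e0 / 2) hw
  have hL := fun j => lag_abs ha10 j hξ
  have hsT : 1 + r / (4 * z0 q * T) / al q e0 = s / T := by
    rw [hs]
    field_simp
  rw [hsT] at hL
  have b0 := initA_bd (l := fun j => lag (al q e0) j (r / (4 * z0 q * T))) (A := T ^ 3)
    (fun j => (hL j).1) hB0 hB1 hδ (by positivity)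
  have b1 := initA_bd (l := fun j => deriv (lag (al q e0) j) (r / (4 * z0 q * T)))
    (A := T ^ 3 / (4 * z0 q * T)) (fun j => (hL j).2.1) hB0 hB1 hδ (by positivity)
  have b2 := initA_bd (l := fun j => deriv (deriv (lag (al q e0) j)) (r / (4 * z0 q * T)))
    (A := T ^ 3 / (4 * z0 q * T) / (4 * z0 q * T)) (fun j => (hL j).2.2) hB0 hB1 hδ
    (by positivity)
  have c0 : T ^ 3 * (s / T) ^ 3 = s ^ 3 := by field_simp
  have c1 : T ^ 3 / (4 * z0 q * T) * (3 / al q e0 * (s / T) ^ 2) =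
      3 * s ^ 2 / (4 * z0 q * al q e0) := by field_simp
  have c2 : T ^ 3 / (4 * z0 q * T) / (4 * z0 q * T) * (6 / al q e0 ^ 2 * (s / T)) =
      6 * s / (4 * z0 q * al q e0) / (4 * z0 q * al q e0) := by field_simp
  rw [c0] at b0
  rw [c1] at b1
  rw [c2] at b2
  have hN : 1.94 * mm q ≤ 4 * z0 q * al q e0 := by
    have := mul_le_mul_of_nonneg_right hz ha0.le
    linarith
  obtain ⟨k0, k1, k2⟩ := initA_alg (m := mm q) (e := e0 / 2) (r := r) (s := s) (ψ := ψ)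
    (w := r + T ^ 2) (by linarith) (by linarith) (by linarith) (by linarith) hN hr
    (by linarith) hψ0 hw (le_add_of_nonneg_right (sq_nonneg T)) b0 b1 b2
  rw [← hψ] at g1 g2
  have t0 : Th0 q e0 T δ r = T ^ 3 * (lag (al q e0) 3 (r / (4 * z0 q * T)) +
      T ^ (1 / 4 : ℝ) * ∑ j : Fin 3, δ j * lag (al q e0) j.castSucc (r / (4 * z0 q * T))) * ψ := by
    rw [hψ]
    rfl
  refine ⟨t0 ▸ k0, ?_, ?_, ?_⟩
  · rw [← g1] at k1
    exact k1
  · rw [← g2] at k2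
    exact k2
  · intro hrT
    have hξ1 : r / (4 * z0 q * T) ≤ 1 / 3 := by
      rw [div_le_iff₀ hc]
      have := mul_le_mul_of_nonneg_right hz hT.le
      linarith
    have l1 := lag_three_lo ha100 hξ hξ1
    have l2 := initA_sum (l := fun j => lag (al q e0) j (r / (4 * z0 q * T)))
      (fun j => (hL j).1) hB0 hB1 hδ
    have l3 : s / T ≤ 1.01 := by
      rw [← hsT]
      have : r / (4 * z0 q * T) / al q e0 ≤ 1 / 100 := by
        rw [div_le_iff₀ ha0]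
        linarith
      linarith
    have l4 : 0 ≤ s / T := by
      rw [← hsT]
      positivity
    have l5 : (s / T) ^ 3 ≤ 1.01 ^ 3 := pow_le_pow_left₀ l4 l3 3
    have l6 := (abs_le.1 l2).1
    rw [t0]
    refine mul_le_mul_of_nonneg_right ?_ hψ0.le
    rw [mul_comm]
    refine mul_le_mul_of_nonneg_left ?_ (by positivity)
    norm_num at l5
    linarith

end Vale.Agent.P244
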