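import Vale.Agent.P244C.IdS
import Vale.Agent.P244C.InitA

open Set MeasureTheory Filter Topology
open scoped ContDiff

noncomputable section

namespace Vale.Agent.P244

section aux

variable {q : ℕ} {e0 T T' : ℝ} {δ : Fin 3 → ℝ} {S : Pre}

theorem initD_d1 (hT : 0 < T) {r : ℝ} (hr : 0 ≤ r) :
    HasDerivAt (Th0 q e0 T δ) (deriv (Th0 q e0 T δ) r) r :=
  ((Th0_smooth hT hr).differentiableAt (by simp)).hasDerivAt

theorem initD_d2 (hT : 0 < T) {r : ℝ} (hr : 0 ≤ r) :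
    HasDerivAt (deriv (Th0 q e0 T δ)) (deriv (deriv (Th0 q e0 T δ)) r) r :=
  (((Th0_smooth hT hr).derivWithin (m := ∞) (by simp)).differentiableAt (by simp)).hasDerivAt

theorem initD_xa {u : ℝ × ℝ → ℝ} {p : ℝ × ℝ} (hu : XA u p) : XA (fun p => u p ^ 2) p :=
  ContDiffAt.pow hu 2

theorem initD_X (hS : IsSol q T' S) (hT : 0 < T) (hT' : 0 < T')
    (hi : Init S (Z0 q e0 T δ) (F0 q e0 T δ))
    (hw : ∀ r ∈ Icc (0 : ℝ) 1, 0 < r + Th0 q e0 T δ r) {x : ℝ} (hx : x ∈ Ioo 0 Real.pi) :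
    S.X (0, x) = S.h (0, x) * S.a (0, x) * ((1 + deriv (Th0 q e0 T δ) (S.h (0, x) ^ 2)) /
      (S.h (0, x) ^ 2 + Th0 q e0 T δ (S.h (0, x) ^ 2))) := by
  have hp : ((0 : ℝ), x) ∈ Wd T' := ⟨⟨le_rfl, hT'⟩, hx⟩
  have hh := (sm_h hS).xa hp
  have h0 := sq_nonneg (S.h (0, x))
  have hd := (((hasDerivAt_id' _).add (initD_d1 (q := q) (e0 := e0) (δ := δ) hT h0)).log
    (hw _ ⟨h0, (hi x).2.2.2.1⟩).ne').div_const 2
  have e : S.X (0, x) = S.Ds (fun p => F0 q e0 T δ (S.h p ^ 2)) (0, x) :=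
    Ds_congr (Eventually.of_forall fun y => (hi y).1)
  rw [e, Ds_comp (g := F0 q e0 T δ) (initD_xa hh) hd, Ds_sq hh]
  simp only [Pre.a, Pi.add_apply]
  ring

end aux

/-- the geometric quantities at the initial time -/
theorem ini_id {q : ℕ} {e0 T T' : ℝ} {δ : Fin 3 → ℝ} {S : Pre} (hS : IsSol q T' S)
    (hT : 0 < T) (hT' : 0 < T') (hq : 0 < mm q) (hi : Init S (Z0 q e0 T δ) (F0 q e0 T δ))
    (hw : ∀ r ∈ Icc (0 : ℝ) 1, 0 < r + Th0 q e0 T δ r) {x : ℝ} (hx : x ∈ Ioo 0 Real.pi) :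
    let r := S.h (0, x) ^ 2
    let θ := Th0 q e0 T δ r
    let θ1 := deriv (Th0 q e0 T δ) r
    let θ2 := deriv (deriv (Th0 q e0 T δ)) r
    let Z := iZ q r θ
    let Z' := iZ' q r θ θ1
    S.f (0, x) ^ 2 = r + θ ∧ S.Θ (0, x) = θ ∧ S.z (0, x) = Z ∧
    S.fs (0, x) ^ 2 = r / (r + θ) * Z * (1 + θ1) ^ 2 ∧
    S.y1 (0, x) = S.a (0, x) * (r * θ1 - θ) / (r + θ) ∧
    S.f (0, x) ^ 2 * S.ρ0 q (0, x) = iρ0 q r θ θ1 θ2 Z Z' ∧
    S.f (0, x) ^ 2 * S.ρ1 q (0, x) = iρ1 q r θ1 θ2 Z Z' ∧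
    S.f (0, x) ^ 2 * S.ρ2 q (0, x) = iρ2 q r θ θ1 Z Z' := by
  intro r θ θ1 θ2 Z Z'
  have hp : ((0 : ℝ), x) ∈ Wd T' := ⟨⟨le_rfl, hT'⟩, hx⟩
  have hh := (sm_h hS).xa hp
  have ha := (sm_a hS).xa hp
  have h0 : 0 ≤ r := sq_nonneg _
  have hw0 : 0 < r + θ := hw _ ⟨h0, (hi x).2.2.2.1⟩
  have hpos := h_pos hS hp
  have d1 : HasDerivAt (Th0 q e0 T δ) θ1 r := initD_d1 hT h0
  have d2 : HasDerivAt (deriv (Th0 q e0 T δ)) θ2 r := initD_d2 hT h0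
  have dw : HasDerivAt (fun r => r + Th0 q e0 T δ r) (1 + θ1) r := (hasDerivAt_id' _).add d1
  have e1 : S.f (0, x) ^ 2 = r + θ := by
    rw [Pre.f, (hi x).1, F0, ← Real.exp_nat_mul, Nat.cast_ofNat, mul_div_cancel₀ _ two_ne_zero]
    exact Real.exp_log hw0
  have e2 : S.a (0, x) ^ 2 = Z := (hi x).2.1
  have e3 : S.Ds S.a (0, x) = S.h (0, x) * Z' := by
    have dz : HasDerivAt (fun r => (1 - r) * Z0 q e0 T δ r) _ r :=
      ((hasDerivAt_id' r).const_sub 1).mul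
        ((((hasDerivAt_id' r).div dw hw0.ne').const_mul (2 / (mm q + 2))).const_sub 1)
    rw [(hi x).2.2.1, dz.deriv]
    simp only [Z', iZ', Z0, θ]
    ring
  have e4 : S.X (0, x) = S.h (0, x) * S.a (0, x) * ((1 + θ1) / (r + θ)) :=
    initD_X hS hT hT' hi hw hx
  have e5 : S.Ds S.X (0, x) = S.h (0, x) * S.a (0, x) * ((θ2 * (r + θ) - (1 + θ1) * (1 + θ1)) /
      (r + θ) ^ 2 * (2 * S.h (0, x) * S.a (0, x))) +
      (1 + θ1) / (r + θ) * (S.h (0, x) * (S.h (0, x) * Z') + S.a (0, x) * S.a (0, x)) := by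
    let g : ℝ → ℝ := fun r => (1 + deriv (Th0 q e0 T δ) r) / (r + Th0 q e0 T δ r)
    have dg : HasDerivAt g ((θ2 * (r + θ) - (1 + θ1) * (1 + θ1)) / (r + θ) ^ 2) r :=
      (d2.const_add 1).div dw hw0.ne'
    have cg : ContDiffAt ℝ ∞ g r :=
      (contDiffAt_const.add ((Th0_smooth hT h0).derivWithin (m := ∞) (by simp))).div
        (contDiffAt_id.add (Th0_smooth hT h0)) hw0.ne'
    have e : S.Ds S.X (0, x) = S.Ds (fun p => S.h p * S.a p * g (S.h p ^ 2)) (0, x) :=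
      Ds_congr (mem_of_superset (Ioo_mem_nhds hx.1 hx.2) fun y hy => initD_X hS hT hT' hi hw hy)
    have x1 : XA (fun p => S.h p * S.a p) (0, x) := ContDiffAt.mul hh ha
    have x2 : XA (fun p => g (S.h p ^ 2)) (0, x) :=
      ContDiffAt.comp (g := g) (f := fun y => S.h (0, y) ^ 2) x cg (initD_xa hh)
    rw [e, Ds_mul x1 x2, Ds_comp (initD_xa hh) dg, Ds_sq hh, Ds_mul hh ha, e3]
    rfl
  have e6 := Y_eq hS hp
  have e7 := Ds_Y hS hp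
  have hr : r = S.h (0, x) ^ 2 := rfl
  have hq1 : mm q = q - 1 := rfl
  rw [ρ1_eq hS hp, ρ2_eq hS hp, Pre.ρ0, Pre.Θ, Pre.z, Pre.fs, Pre.y1, mul_pow, e7, e1, e5, e4, e6,
    e3, iρ0, iρ1, iρ2, ← e2, hq1]
  clear_value Z' θ2 θ1 θ
  generalize S.a (0, x) = a
  have hne := hw0.ne'
  rw [hr] at hne ⊢
  generalize S.h (0, x) = h at hne hpos ⊢
  refine ⟨rfl, by ring, rfl, ?_, ?_, ?_, ?_, ?_⟩ <;> field_simp <;> ring

end Vale.Agent.P244
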