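import Vale.Agent.P244C.InitB
import Vale.Agent.P244C.InitC
import Vale.Agent.P244C.InitD

open Set MeasureTheory Filter Topology
open scoped ContDiff

noncomputable section

namespace Vale.Agent.P244

theorem initE_gen {m w t a b β : ℝ} (hm : 10 ^ 8 ≤ m) (hw : w ≤ 1.1) (hβ : 0 ≤ β) (ht0 : 0 ≤ t)
    (ht : t ≤ 5.2 * β) (ha : a ≤ 5 * β) (hb : b ≤ 5 * β) :
    (5 + 2 * m * w) * t + 2 * m * a + 3 * b ≤ 22 * m * β ∧ 20 * (t + a + b) ≤ 304 * β ∧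
      (60 + 4 * m * w) * t + 8 * m * a + 30 * b ≤ 64 * m * β := by
  have hm0 : 0 ≤ m := le_trans (by norm_num) hm
  have h1 : m * w * t ≤ m * 1.1 * (5.2 * β) :=
    mul_le_mul (mul_le_mul_of_nonneg_left hw hm0) ht ht0 (by positivity)
  have h2 : m * a ≤ m * (5 * β) := mul_le_mul_of_nonneg_left ha hm0
  have h3 : 10 ^ 8 * β ≤ m * β := mul_le_mul_of_nonneg_right hm hβ
  refine ⟨?_, ?_, ?_⟩ <;> nlinarith

theorem initE_in {m w t a b L : ℝ} (hm : 10 ^ 8 ≤ m) (hw0 : 0 < w) (hw : 2 * m * w ≤ 1)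
    (ht0 : 0 ≤ t) (ha0 : 0 ≤ a) (hb0 : 0 ≤ b) (ht : t * w ≤ 5 * L) (ha : m * a * w ≤ 22 * L)
    (hb : m * b * w ≤ 50 * L) :
    (5 + 2 * m * w) * t + 2 * m * a + 3 * b ≤ 500 * L / w ∧ 20 * (t + a + b) ≤ 500 * L / w ∧
      (60 + 4 * m * w) * t + 8 * m * a + 30 * b ≤ 1000 * L / w := by
  have h0 : 0 ≤ t * w := by positivity
  have h1 : 2 * m * w * (t * w) ≤ 1 * (t * w) := mul_le_mul_of_nonneg_right hw h0
  have h2 : 10 ^ 8 * (a * w) ≤ m * (a * w) := mul_le_mul_of_nonneg_right hm (by positivity)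
  have h3 : 10 ^ 8 * (b * w) ≤ m * (b * w) := mul_le_mul_of_nonneg_right hm (by positivity)
  refine ⟨?_, ?_, ?_⟩ <;> rw [le_div_iff₀ hw0] <;> nlinarith

theorem initE_out {T k φ : ℝ} (hT : 0 < T) (hk : 0 < k) (hφ : 0 < φ) (hr : T ≤ k ^ 8)
    (hw : 0.98 * k ^ 8 ≤ φ ^ 8) : T ^ 3 / k ^ 9 + k ^ 15 ≤ 4 * φ ^ 15 := by
  have h1 : T ^ 3 / k ^ 9 ≤ k ^ 15 := by
    rw [div_le_iff₀ (by positivity)]
    calc T ^ 3 ≤ (k ^ 8) ^ 3 := pow_le_pow_left₀ hT.le hr 3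
      _ = k ^ 15 * k ^ 9 := by ring
  have h2 : k ≤ 1.01 * φ := by
    refine le_of_pow_le_pow_left₀ (n := 8) (by norm_num) (by positivity) ?_
    have : 0 < φ ^ 8 := by positivity
    rw [mul_pow]
    nlinarith
  have h3 : k ^ 15 ≤ (1.01 * φ) ^ 15 := pow_le_pow_left₀ hk.le h2 15
  have h4 : 0 < φ ^ 15 := by positivity
  rw [mul_pow] at h3
  nlinarith

theorem initE_phi {φ : ℝ} (hw : φ ^ 8 ≤ 1.1) : φ ≤ 1.02 := by
  refine le_of_pow_le_pow_left₀ (n := 8) (by norm_num) (by norm_num) (hw.trans ?_)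
  norm_num

theorem initE_all {m T L k φ t a b : ℝ} (hm : 10 ^ 8 ≤ m) (hT : 0 < T) (hmT : 4 * m * T ≤ 1)
    (hL : 0 ≤ L) (hk : 0 < k) (hφ : 0 < φ) (hw : 0.98 * k ^ 8 ≤ φ ^ 8) (hw1 : φ ^ 8 ≤ 1.1)
    (ht0 : 0 ≤ t) (ha0 : 0 ≤ a) (hb0 : 0 ≤ b) (ht : t ≤ 5.2 * (T ^ 3 / k ^ 9 + k ^ 15))
    (ha : a ≤ 5 * (T ^ 3 / k ^ 9 + k ^ 15)) (hb : b ≤ 5 * (T ^ 3 / k ^ 9 + k ^ 15))
    (hi : k ^ 8 ≤ T → φ ^ 8 ≤ 2 * T ∧ t * φ ^ 8 ≤ 5 * L ∧ m * a * φ ^ 8 ≤ 22 * L ∧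
      m * b * φ ^ 8 ≤ 50 * L) :
    (5 + 2 * m * φ ^ 8) * t + 2 * m * a + 3 * b ≤ 500 * L / φ ^ 8 + m ^ 2 * φ ^ 15 ∧
      20 * (t + a + b) ≤ 500 * L / φ ^ 8 + m ^ 2 * φ ^ 15 ∧
      3 * m ^ 2 * φ ^ 8 + (60 + 4 * m * φ ^ 8) * t + 8 * m * a + 30 * b ≤
        1000 * L / φ ^ 8 + 7 * m ^ 2 * φ ^ 6 := by
  have hm0 : 0 < m := lt_of_lt_of_le (by norm_num) hm
  have hφ1 := initE_phi hw1
  have h15 : 0 < φ ^ 15 := by positivity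
  have h6 : 0 < φ ^ 6 := by positivity
  have h8 : φ ^ 8 ≤ 2 * φ ^ 6 := by
    have : φ ^ 2 ≤ 2 := (pow_le_pow_left₀ hφ.le hφ1 2).trans (by norm_num)
    calc φ ^ 8 = φ ^ 2 * φ ^ 6 := by ring
      _ ≤ 2 * φ ^ 6 := mul_le_mul_of_nonneg_right this h6.le
  have h8' : m ^ 2 * φ ^ 8 ≤ m ^ 2 * (2 * φ ^ 6) := mul_le_mul_of_nonneg_left h8 (by positivity)
  have p1 : 0 ≤ m ^ 2 * φ ^ 15 := by positivity
  have p2 : 0 ≤ m ^ 2 * φ ^ 6 := by positivity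
  rcases le_total (k ^ 8) T with h | h
  · obtain ⟨i0, i1, i2, i3⟩ := hi h
    have h2 : 2 * m * φ ^ 8 ≤ 1 := by
      have := mul_le_mul_of_nonneg_left i0 hm0.le
      linarith
    obtain ⟨c1, c2, c3⟩ := initE_in hm (by positivity) h2 ht0 ha0 hb0 i1 i2 i3
    refine ⟨?_, ?_, ?_⟩ <;> linarith
  · obtain ⟨c1, c2, c3⟩ := initE_gen hm hw1 (by positivity) ht0 ht ha hb
    have h1 := initE_out hT hk hφ h hw
    have h2 := mul_le_mul_of_nonneg_left h1 hm0.le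
    have h3 : φ ^ 15 ≤ 2 * φ ^ 6 := by
      have : φ ^ 9 ≤ 2 := (pow_le_pow_left₀ hφ.le hφ1 9).trans (by norm_num)
      calc φ ^ 15 = φ ^ 9 * φ ^ 6 := by ring
        _ ≤ 2 * φ ^ 6 := mul_le_mul_of_nonneg_right this h6.le
    have h4 := mul_le_mul_of_nonneg_left h3 hm0.le
    have h5 : 10 ^ 8 * (m * φ ^ 15) ≤ m * (m * φ ^ 15) :=
      mul_le_mul_of_nonneg_right hm (by positivity)
    have h7 : 10 ^ 8 * (m * φ ^ 6) ≤ m * (m * φ ^ 6) :=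
      mul_le_mul_of_nonneg_right hm (by positivity)
    have h9 : 10 ^ 8 * φ ^ 15 ≤ m * φ ^ 15 := mul_le_mul_of_nonneg_right hm h15.le
    have p3 : 0 ≤ 500 * L / φ ^ 8 := by positivity
    have p4 : 0 ≤ 1000 * L / φ ^ 8 := by positivity
    have p5 : 0 ≤ m * φ ^ 6 := by positivity
    refine ⟨?_, ?_, ?_⟩ <;> nlinarith

theorem initE_div {φ s c A B : ℝ} (hφ : 0 < φ) (h : |φ ^ 8 * s| ≤ c / φ ^ 8 + A)
    (hA : A ≤ φ ^ 8 * B) : |s| ≤ c / (φ ^ 4) ^ 4 + B := by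
  have h8 : 0 < φ ^ 8 := by positivity
  rw [abs_mul, abs_of_pos h8] at h
  refine le_of_mul_le_mul_left ?_ h8
  have e : φ ^ 8 * (c / (φ ^ 4) ^ 4 + B) = c / φ ^ 8 + φ ^ 8 * B := by
    field_simp
  rw [e]
  linarith

theorem initE_sq {y c T k : ℝ} (h : |y| ≤ c * (T ^ 3 / k ^ 9 + k ^ 15)) :
    y ^ 2 ≤ 2 * c ^ 2 * (T ^ 6 / k ^ 18 + k ^ 30) := by
  have h1 := pow_le_pow_left₀ (abs_nonneg y) h 2
  rw [sq_abs, mul_pow] at h1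
  have e1 : T ^ 6 / k ^ 18 = (T ^ 3 / k ^ 9) ^ 2 := by
    rw [div_pow, ← pow_mul, ← pow_mul]
  have e2 : k ^ 30 = (k ^ 15) ^ 2 := by ring
  rw [e1, e2]
  generalize T ^ 3 / k ^ 9 = u at h1
  generalize k ^ 15 = v at h1
  have h2 : (u + v) ^ 2 ≤ 2 * (u ^ 2 + v ^ 2) := by nlinarith [sq_nonneg (u - v)]
  have h3 := mul_le_mul_of_nonneg_left h2 (sq_nonneg c)
  linarith

theorem initE_mono {q : ℕ} {T' : ℝ} {S : Pre} {p : ℝ × ℝ} (hS : IsSol q T' S) (hp : p ∈ Wd T') :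
    S.mono 0 (3 / mm q) p = (S.f p ^ 2) ^ (3 / (2 * mm q)) := by
  rw [mono_rpow hS hp, Real.rpow_zero, one_mul, ← Real.rpow_natCast,
    ← Real.rpow_mul (f_pos S p).le]
  congr 1
  push_cast
  ring

theorem initE_t {r w θ β : ℝ} (hw0 : 0 < w) (hw : 0.98 * r ≤ w) (hβ : 0 ≤ β)
    (h : |θ| ≤ 5 * r * β) : |θ| / w ≤ 5.2 * β := by
  rw [div_le_iff₀ hw0]
  have := mul_le_mul_of_nonneg_right hw hβ
  have := mul_nonneg hw0.le hβ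
  nlinarith

theorem initE_fs {m r w z θ1 : ℝ} (hm : 10 ^ 8 ≤ m) (hw0 : 0 < w) (hw : 0.98 * r ≤ w)
    (hz0 : 0 ≤ z) (hz : z ≤ 1) (h : |θ1| ≤ 1 / 10) : r / w * z * (1 + θ1) ^ 2 ≤ m := by
  have hrw : r / w ≤ 1.04 := by
    rw [div_le_iff₀ hw0]
    linarith
  have h1 : (1 + θ1) ^ 2 ≤ 2 := by
    have := abs_le.1 h
    nlinarith
  have h2 : r / w * z ≤ 1.04 * 1 := mul_le_mul hrw hz hz0 (by norm_num)
  have h3 := mul_le_mul h2 h1 (sq_nonneg _) (by norm_num)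
  linarith

theorem initE_y1 {r w θ θ1 a β : ℝ} (hr0 : 0 < r) (hw0 : 0 < w) (hw : 0.98 * r ≤ w) (hβ : 0 ≤ β)
    (ha : a ^ 2 ≤ 1) (h : |θ| ≤ 5 * r * β) (h' : |θ1| ≤ 5 * β) :
    |a * (r * θ1 - θ) / w| ≤ 11 * β := by
  have h1 : |a| ≤ 1 := (sq_le_one_iff_abs_le_one _).1 ha
  have h2 : |r * θ1 - θ| ≤ 10 * r * β := by
    refine (abs_sub _ _).trans ?_
    rw [abs_mul, abs_of_pos hr0]
    have := mul_le_mul_of_nonneg_left h' hr0.le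
    linarith
  rw [abs_div, abs_mul, abs_of_pos hw0, div_le_iff₀ hw0]
  have h4 := mul_le_mul h1 h2 (abs_nonneg _) zero_le_one
  have := mul_le_mul_of_nonneg_right hw hβ
  have := mul_nonneg hw0.le hβ
  nlinarith

theorem initE_y2 {m r w s β : ℝ} (hm : 0 ≤ m) (hr0 : 0 < r) (hw0 : 0 < w) (hw : 0.98 * r ≤ w)
    (hβ : 0 ≤ β) (h : |w * s| ≤ 22 * m * β) : |r * s| ≤ 23 * m * β := by
  rw [abs_mul, abs_of_pos hw0] at h
  rw [abs_mul, abs_of_pos hr0]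
  have := mul_le_mul_of_nonneg_right hw (abs_nonneg s)
  have := mul_nonneg hm hβ
  nlinarith

theorem initE_c {m φ : ℝ} (hm : 1 ≤ m) (hφ : 0 < φ) :
    m ^ 2 * φ ^ 15 ≤ φ ^ 8 * ((2000 * m ^ 2 + 1) * φ ^ 7) ∧
      7 * m ^ 2 * φ ^ 6 ≤ φ ^ 8 * ((2000 * m ^ 2 + 1) / φ ^ 2) ∧
      2 * 11 ^ 2 ≤ 2000 * m ^ 2 + 1 ∧ 2 * (23 * m) ^ 2 ≤ 2000 * m ^ 2 + 1 := by
  have p7 : 0 ≤ φ ^ 15 := by positivity
  have p6 : 0 ≤ φ ^ 6 := by positivity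
  refine ⟨?_, ?_, ?_, ?_⟩
  · have := mul_nonneg (sq_nonneg m) p7
    nlinarith
  · have e : φ ^ 8 * ((2000 * m ^ 2 + 1) / φ ^ 2) = (2000 * m ^ 2 + 1) * φ ^ 6 := by
      field_simp
    rw [e]
    have := mul_nonneg (sq_nonneg m) p6
    nlinarith
  · nlinarith
  · nlinarith

theorem initE_T {m T : ℝ} (hm : 1 ≤ m) (hT : 0 < T) (h : T ≤ 1 / (4 * m ^ 2 + 10)) :
    4 * m * T ≤ 1 ∧ T ≤ 1 / 10 := by
  have hm2 : m ≤ m ^ 2 := by nlinarith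
  rw [le_div_iff₀ (by positivity)] at h
  exact ⟨by nlinarith [mul_le_mul_of_nonneg_left hm2 hT.le],
    by nlinarith [mul_nonneg hT.le (sq_nonneg m)]⟩

theorem ini_facts (q : ℕ) : ∃ Ci : ℝ, 1 ≤ Ci ∧ ∃ τ1 > (0 : ℝ),
    ∀ (e0 T T' : ℝ) (δ : Fin 3 → ℝ) (S : Pre), Dim q e0 → 0 < T → T ≤ τ1 → 0 < T' →
      (∀ j, |δ j| ≤ 3) → IsSol q T' S → Init S (Z0 q e0 T δ) (F0 q e0 T δ) →
      ∀ x ∈ Ioo 0 Real.pi, IniF q e0 Ci T S (0, x) := by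
  obtain ⟨τ, hτ, hB⟩ := th0_bd q
  refine ⟨2000 * mm q ^ 2 + 1, le_add_of_nonneg_left (by positivity),
    min τ (1 / (4 * mm q ^ 2 + 10)), lt_min hτ (by positivity), ?_⟩
  intro e0 T T' δ S hd hT hT1 hT' hδ hS hi x hx
  have hm := hd.hq
  have hm0 : 0 < mm q := lt_of_lt_of_le (by norm_num) hm
  have hm1 : 1 ≤ mm q := le_trans (by norm_num) hm
  obtain ⟨hmT, hT3⟩ := initE_T hm1 hT (hT1.trans (min_le_right _ _))
  have hB' := hB e0 T δ hd hT (hT1.trans (min_le_left _ _)) hδ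
  have hp : ((0 : ℝ), x) ∈ Wd T' := ⟨⟨le_rfl, hT'⟩, hx⟩
  have hh := h_pos hS hp
  have hk := k_pos hS hp
  have hφ := φ_pos S (0, x)
  have hr1 : S.h (0, x) ^ 2 ≤ 1 := (hi x).2.2.2.1
  have hr0 : 0 < S.h (0, x) ^ 2 := by positivity
  have hkr : S.k (0, x) ^ 8 = S.h (0, x) ^ 2 := by
    rw [← k_pow hS hp]
    ring
  have hφf : S.φ (0, x) ^ 8 = S.f (0, x) ^ 2 := by
    rw [← φ_pow S]
    ring
  have B := hB' _ ⟨hr0.le, hr1⟩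
  obtain ⟨ef, eΘ, ez, efs, ey, e0', e1, e2⟩ := ini_id hS hT hT' hm0 hi
    (fun r hr => (hB' r hr).wpos) hx
  have hw1 : S.h (0, x) ^ 2 + Th0 q e0 T δ (S.h (0, x) ^ 2) ≤ 1.1 := by linarith [B.whi]
  obtain ⟨Z0', Z1, aσ, ak, aR⟩ := ini_alg (θ2 := deriv (deriv (Th0 q e0 T δ)) (S.h (0, x) ^ 2))
    hd hr0 hr1 B.wlo hw1 B.s1
  rw [← e1, ← e2] at aσ
  rw [← e0', ← e2] at ak
  rw [← e0', ← e1, ← e2] at aR
  rw [← ez] at Z0' Z1 efs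
  have hL : 0 < lam2 e0 T := by
    unfold lam2
    positivity
  have hmono := initE_mono hS hp
  obtain ⟨g1, g2, g3⟩ := B.g0 _ hk hkr
  have bup := B.up _ hk hkr
  have bout := B.out _ hk hkr
  have ball := B.all _ hk hkr
  obtain ⟨wlo, wpos, whi, s1, i0, i1, i2, -, -, blo, -, -⟩ := B
  generalize deriv (deriv (Th0 q e0 T δ)) (S.h (0, x) ^ 2) = θ2 at *
  generalize deriv (Th0 q e0 T δ) (S.h (0, x) ^ 2) = θ1 at *
  generalize Th0 q e0 T δ (S.h (0, x) ^ 2) = θ at *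
  rw [← ef] at aσ ak aR efs ey wlo wpos whi i0 i1 i2 blo hw1
  have hβ : 0 ≤ T ^ 3 / S.k (0, x) ^ 9 + S.k (0, x) ^ 15 := by positivity
  have hb2 : 0 ≤ T ^ 6 / S.k (0, x) ^ 18 + S.k (0, x) ^ 30 := by positivity
  have ht := initE_t wpos wlo hβ g1
  have ht0 : 0 ≤ |θ| / S.f (0, x) ^ 2 := by positivity
  obtain ⟨c1, -, -⟩ := initE_gen hm hw1 hβ ht0 ht g2 g3
  obtain ⟨d1, d2, d3⟩ := initE_all (φ := S.φ (0, x)) hm hT hmT hL.le hk hφ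
    (by rw [hkr, hφf]; exact wlo) (by rw [hφf]; exact hw1) ht0 (abs_nonneg θ1) (abs_nonneg _)
    ht g2 g3 (by
      rw [hkr, hφf]
      intro h
      refine ⟨(i0 h).2.2, ?_, i1 h, i2 h⟩
      rw [div_mul_cancel₀ _ wpos.ne', abs_of_pos (i0 h).1]
      exact (i0 h).2.1)
  obtain ⟨hA, hA', hA1, hA2⟩ := initE_c hm1 hφ
  refine ⟨⟨?_, Z1, ?_⟩, ?_, ?_, ?_, ?_, ?_, ?_, ?_, ?_, ?_, ?_⟩
  · exact (pow_le_one_iff_of_nonneg hh.le two_ne_zero).1 hr1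
  · rw [efs]
    exact initE_fs hm wpos wlo Z0' Z1 s1
  · rw [ey]
    refine (initE_sq (initE_y1 hr0 wpos wlo hβ Z1 g1 g2)).trans ?_
    simp only [Pre.b2, sub_zero]
    exact mul_le_mul_of_nonneg_right hA1 hb2
  · have h1 : |S.f (0, x) ^ 2 * S.σ q (0, x)| ≤
        22 * mm q * (T ^ 3 / S.k (0, x) ^ 9 + S.k (0, x) ^ 15) := by
      rw [Pre.σ, mul_sub]
      exact aσ.trans c1
    refine (initE_sq (initE_y2 hm0.le hr0 wpos wlo hβ h1)).trans ?_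
    simp only [Pre.b2, sub_zero]
    exact mul_le_mul_of_nonneg_right hA2 hb2
  · rw [← φ_pow S]
    refine initE_div hφ ?_ hA
    refine le_trans ?_ d1
    rw [Pre.σ, mul_sub, hφf]
    exact aσ
  · rw [← φ_pow S]
    refine initE_div hφ ?_ hA
    refine le_trans ?_ d2
    rw [Pre.kt, mul_sub, hφf]
    exact ak
  · rw [← φ_pow S]
    refine initE_div hφ ?_ hA'
    refine le_trans ?_ d3
    rw [Pre.R, hφf]
    refine le_trans (le_of_eq ?_) aR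
    congr 1
    ring
  · rw [eΘ]
    exact bup
  · rw [eΘ, hmono]
    exact blo
  · rw [eΘ]
    exact bout
  · rw [eΘ, show S.h (0, x) ^ 6 = (S.h (0, x) ^ 2) ^ 3 by ring]
    exact ball
  · linarith

theorem initE_f {q : ℕ} {e0 Ci T T' : ℝ} {S : Pre} (hd : Dim q e0) (hS : IsSol q T' S)
    (hT : 0 < T) (hT1 : T ≤ 1 / 100) (hT' : 0 < T') {x : ℝ}
    (hx : x ∈ Ioo 0 Real.pi) (h : IniF q e0 Ci T S (0, x)) :
    lam2 e0 T ≤ S.f (0, x) ^ 2 ∧ S.f (0, x) ^ 2 ≤ 1.1 := by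
  have hp : ((0 : ℝ), x) ∈ Wd T' := ⟨⟨le_rfl, hT'⟩, hx⟩
  have hh := h_pos hS hp
  have hk := k_pos hS hp
  have hf := f_pos S (0, x)
  have hm0 : 0 < mm q := lt_of_lt_of_le (by norm_num) hd.hq
  have hL : 0 < lam2 e0 T := by
    unfold lam2
    positivity
  have eΘ : S.Θ (0, x) = S.f (0, x) ^ 2 - S.h (0, x) ^ 2 := rfl
  rcases le_total (S.h (0, x) ^ 2) T with hr | hr
  · refine ⟨?_, by linarith [h.fup]⟩
    have h1 := h.lo hr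
    rw [initE_mono hS hp, A0] at h1
    have he : 0 < 3 / (2 * mm q) := by positivity
    have h2 : S.Θ (0, x) * (S.f (0, x) ^ 2) ^ (3 / (2 * mm q)) ≤
        (S.f (0, x) ^ 2) ^ (1 + 3 / (2 * mm q)) := by
      rw [Real.rpow_add (by positivity), Real.rpow_one]
      refine mul_le_mul_of_nonneg_right ?_ (by positivity)
      rw [eΘ]
      exact sub_le_self _ (sq_nonneg _)
    exact (Real.rpow_le_rpow_iff hL.le (by positivity) (by positivity)).1 (h1.trans h2)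
  · have hk1 : S.k (0, x) ≤ 1 := by
      refine le_of_pow_le_pow_left₀ (n := 4) (by norm_num) zero_le_one ?_
      rw [k_pow hS hp, one_pow]
      exact h.glob.h1
    have h1 : T ^ 3 ≤ S.h (0, x) ^ 6 := by
      calc T ^ 3 ≤ (S.h (0, x) ^ 2) ^ 3 := pow_le_pow_left₀ hT.le hr 3
        _ = S.h (0, x) ^ 6 := by ring
    have h2 : S.h (0, x) ^ 6 ≤ S.k (0, x) * S.h (0, x) ^ 2 := by
      rw [← k_pow hS hp]
      calc (S.k (0, x) ^ 4) ^ 6 = S.k (0, x) ^ 24 := by ring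
        _ ≤ S.k (0, x) ^ 9 := pow_le_pow_of_le_one hk.le hk1 (by norm_num)
        _ = S.k (0, x) * (S.k (0, x) ^ 4) ^ 2 := by ring
    have h3 : |S.Θ (0, x)| ≤ S.h (0, x) ^ 2 / 100 := by
      refine le_of_mul_le_mul_left ?_ hk
      linarith [h.all]
    have h4 : S.h (0, x) ^ 2 ≤ 1 := pow_le_one₀ hh.le h.glob.h1
    have h5 : T ^ (23 / 8 : ℝ) ≤ T := by
      calc T ^ (23 / 8 : ℝ) ≤ T ^ (1 : ℝ) :=
            Real.rpow_le_rpow_of_exponent_ge hT (by linarith) (by norm_num)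
        _ = T := Real.rpow_one T
    have h6 := lam2_hi hd hT (by linarith)
    rw [eΘ] at h3
    have h7 := abs_le.1 h3
    constructor <;> linarith [h7.1, h7.2]

theorem initE_mul {φ s c L B D : ℝ} (hφ : 0 < φ) (hc : 0 ≤ c) (hc1 : c ≤ 10000) (hL : L ≤ φ ^ 8)
    (h : s ≤ c * L / (φ ^ 4) ^ 4 + B) (hB : φ ^ 8 * B ≤ D) :
    (φ ^ 4) ^ 2 * s ≤ 1 * (10000 + D) := by
  have h8 : 0 < φ ^ 8 := by positivity
  have h1 := mul_le_mul_of_nonneg_left h h8.le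
  have e : φ ^ 8 * (c * L / (φ ^ 4) ^ 4 + B) = c * (L / φ ^ 8) + φ ^ 8 * B := by
    field_simp
  have h2 : c * (L / φ ^ 8) ≤ c * 1 := mul_le_mul_of_nonneg_left ((div_le_one h8).2 hL) hc
  rw [show (φ ^ 4) ^ 2 = φ ^ 8 by ring]
  linarith

theorem ini_bs {q : ℕ} {e0 Ci K T T' : ℝ} {S : Pre} (hd : Dim q e0) (hS : IsSol q T' S)
    (hT : 0 < T) (hT1 : T ≤ 1 / 100) (hT' : 0 < T') (hC : 1 ≤ Ci) (hK : 2 * Ci ≤ K) {x : ℝ}
    (hx : x ∈ Ioo 0 Real.pi) (h : IniF q e0 Ci T S (0, x)) : BS q e0 K T 1 S (0, x) := by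
  obtain ⟨f1, f2⟩ := initE_f hd hS hT hT1 hT' hx h
  have hφ := φ_pos S (0, x)
  have hφf : S.f (0, x) ^ 2 = S.φ (0, x) ^ 8 := by
    rw [← φ_pow S]
    ring
  rw [hφf] at f1 f2
  have hφ1 := initE_phi f2
  have hC0 : 0 ≤ Ci := zero_le_one.trans hC
  have p4 : 0 ≤ S.φ (0, x) ^ 4 := by positivity
  have hK' : Ci * 2 * S.φ (0, x) ^ 4 ≤ K * S.φ (0, x) ^ 4 :=
    mul_le_mul_of_nonneg_right (by linarith) p4
  have hB : S.φ (0, x) ^ 8 * (Ci * S.φ (0, x) ^ 7) ≤ K * S.φ (0, x) ^ 4 := by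
    have h1 : S.φ (0, x) ^ 11 ≤ 2 := (pow_le_pow_left₀ hφ.le hφ1 11).trans (by norm_num)
    refine le_trans (le_of_eq (by ring)) ((mul_le_mul_of_nonneg_right
      (mul_le_mul_of_nonneg_left h1 hC0) p4).trans hK')
  have hB' : S.φ (0, x) ^ 8 * (Ci / S.φ (0, x) ^ 2) ≤ K * S.φ (0, x) ^ 4 := by
    have h1 : S.φ (0, x) ^ 2 ≤ 2 := (pow_le_pow_left₀ hφ.le hφ1 2).trans (by norm_num)
    refine le_trans (le_of_eq (by field_simp)) ((mul_le_mul_of_nonneg_right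
      (mul_le_mul_of_nonneg_left h1 hC0) p4).trans hK')
  have cσ := h.cσ
  have ck := h.ck
  have cR := h.cR
  rw [← φ_pow S] at cσ ck cR
  refine ⟨?_, ?_, ?_, ?_, fun hr => ?_, ?_⟩
  · have h1 := h.all
    have h2 : 0 ≤ T ^ 3 + S.h (0, x) ^ 6 := by positivity
    simp only [sub_zero]
    linarith
  · rw [← φ_pow S]
    exact initE_mul hφ (by norm_num) (by norm_num) f1 cσ hB
  · rw [← φ_pow S]
    exact initE_mul hφ (by norm_num) (by norm_num) f1 ck hB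
  · rw [← φ_pow S]
    exact initE_mul hφ (by norm_num) (by norm_num) f1 cR hB'
  · simp only [sub_zero] at hr ⊢
    have h1 := h.lo hr.le
    have h2 : 0 < A0 q e0 T := A0_pos hT
    rw [div_self hT.ne']
    linarith
  · have h1 := h.fup
    simp only [sub_zero]
    linarith

end Vale.Agent.P244
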