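import Vale.Agent.P244C.LagA

open Set MeasureTheory Filter Topology
open scoped ContDiff

noncomputable section

namespace Vale.Agent.P244

/-- multiplicative growth weight -/
def gapM (a b : ℕ) (ξ : ℝ) : ℝ := max ξ⁻¹ 1 ^ a * max ξ 1 ^ b

theorem gapM_pos (a b : ℕ) (ξ : ℝ) : 0 < gapM a b ξ :=
  mul_pos (pow_pos (lt_max_of_lt_right one_pos) _) (pow_pos (lt_max_of_lt_right one_pos) _)

theorem gapM_le (a b : ℕ) {ξ : ℝ} (h : 0 < ξ) : gapM a b ξ ≤ ξ⁻¹ ^ a + ξ ^ b := by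
  rcases le_total ξ 1 with h1 | h1
  · rw [gapM, max_eq_right h1, max_eq_left ((one_le_inv₀ h).2 h1), one_pow, mul_one]
    exact le_add_of_nonneg_right (by positivity)
  · rw [gapM, max_eq_left h1, max_eq_right (inv_le_one_of_one_le₀ h1), one_pow, one_mul]
    exact le_add_of_nonneg_left (by positivity)

theorem le_gapM (a b : ℕ) {ξ : ℝ} (h : 0 < ξ) : ξ⁻¹ ^ a ≤ gapM a b ξ ∧ ξ ^ b ≤ gapM a b ξ :=
  ⟨(pow_le_pow_left₀ (by positivity) (le_max_left _ _) _).trans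
      (le_mul_of_one_le_right (by positivity) (one_le_pow₀ (le_max_right _ _))),
    (pow_le_pow_left₀ h.le (le_max_left _ _) _).trans
      (le_mul_of_one_le_left (by positivity) (one_le_pow₀ (le_max_right _ _)))⟩

/-- continuous functions on the half line with power growth at both ends -/
structure GapGr (a b : ℕ) (f : ℝ → ℝ) : Prop where
  cont : ContinuousOn f (Ioi 0)
  bd : ∃ C : ℝ, 0 ≤ C ∧ ∀ ξ > (0 : ℝ), |f ξ| ≤ C * gapM a b ξ

variable {a b a' b' : ℕ} {f g : ℝ → ℝ}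

theorem GapGr.of (hc : ContinuousOn f (Ioi 0)) {C : ℝ}
    (h : ∀ ξ > (0 : ℝ), |f ξ| ≤ C * (ξ⁻¹ ^ a + ξ ^ b)) : GapGr a b f := by
  refine ⟨hc, 2 * |C|, by positivity, fun ξ hξ => (h ξ hξ).trans ?_⟩
  have h1 := le_gapM a b hξ
  calc C * (ξ⁻¹ ^ a + ξ ^ b) ≤ |C| * (2 * gapM a b ξ) :=
        mul_le_mul (le_abs_self C) (by linarith [h1.1, h1.2]) (by positivity) (abs_nonneg C)
    _ = _ := by ring

theorem GapGr.out (h : GapGr a b f) :
    ∃ C : ℝ, 0 ≤ C ∧ ∀ ξ > (0 : ℝ), |f ξ| ≤ C * (ξ⁻¹ ^ a + ξ ^ b) :=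
  h.bd.imp fun _ hC => ⟨hC.1, fun ξ hξ =>
    (hC.2 ξ hξ).trans (mul_le_mul_of_nonneg_left (gapM_le a b hξ) hC.1)⟩

theorem GapGr.mono (h : GapGr a b f) (ha : a ≤ a') (hb : b ≤ b') : GapGr a' b' f :=
  ⟨h.cont, h.bd.imp fun _ hC => ⟨hC.1, fun ξ hξ => (hC.2 ξ hξ).trans (mul_le_mul_of_nonneg_left
    (mul_le_mul (pow_le_pow_right₀ (le_max_right _ _) ha) (pow_le_pow_right₀ (le_max_right _ _) hb)
      (by positivity) (by positivity)) hC.1)⟩⟩

theorem GapGr.mul (h : GapGr a b f) (h' : GapGr a' b' g) :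
    GapGr (a + a') (b + b') fun ξ => f ξ * g ξ := by
  obtain ⟨C, hC, h1⟩ := h.bd
  obtain ⟨D, hD, h2⟩ := h'.bd
  refine ⟨h.cont.mul h'.cont, C * D, by positivity, fun ξ hξ => ?_⟩
  rw [abs_mul]
  refine (mul_le_mul (h1 ξ hξ) (h2 ξ hξ) (abs_nonneg _)
    (mul_nonneg hC (gapM_pos _ _ _).le)).trans (le_of_eq ?_)
  simp only [gapM]
  ring

theorem GapGr.add (h : GapGr a b f) (h' : GapGr a b g) : GapGr a b fun ξ => f ξ + g ξ := by
  obtain ⟨C, hC, h1⟩ := h.bd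
  obtain ⟨D, hD, h2⟩ := h'.bd
  refine ⟨h.cont.add h'.cont, C + D, by positivity, fun ξ hξ => (abs_add_le _ _).trans ?_⟩
  linarith [h1 ξ hξ, h2 ξ hξ]

theorem GapGr.neg (h : GapGr a b f) : GapGr a b fun ξ => -f ξ :=
  ⟨h.cont.neg, h.bd.imp fun _ hC => ⟨hC.1, fun ξ hξ => by rw [abs_neg]; exact hC.2 ξ hξ⟩⟩

theorem GapGr.congr (h : GapGr a b f) (e : ∀ ξ > (0 : ℝ), g ξ = f ξ) : GapGr a b g :=
  ⟨h.cont.congr e, h.bd.imp fun _ hC => ⟨hC.1, fun ξ hξ => by rw [e ξ hξ]; exact hC.2 ξ hξ⟩⟩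

theorem gapGr_const (c : ℝ) : GapGr 0 0 fun _ => c :=
  ⟨continuousOn_const, |c|, abs_nonneg c, fun ξ _ => by simp [gapM]⟩

theorem gapGr_pow (n : ℕ) : GapGr 0 n fun ξ => ξ ^ n :=
  ⟨by fun_prop, 1, zero_le_one, fun ξ hξ => by
    rw [one_mul, abs_of_pos (pow_pos hξ n)]
    exact (le_gapM 0 n hξ).2⟩

theorem gapGr_id : GapGr 0 1 fun ξ => ξ := (gapGr_pow 1).congr fun ξ _ => (pow_one ξ).symm

theorem gapGr_inv : GapGr 1 0 fun ξ => ξ⁻¹ :=
  ⟨continuousOn_id.inv₀ fun _ h => ne_of_gt h, 1, zero_le_one, fun ξ hξ => by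
    rw [one_mul, abs_of_pos (inv_pos.2 hξ)]
    simpa using (le_gapM 1 0 hξ).1⟩

theorem gapGr_sub (α : ℝ) : GapGr 0 1 fun ξ => α - ξ :=
  (((gapGr_const α).mono le_rfl zero_le_one).add gapGr_id.neg).congr fun _ _ => sub_eq_add_neg _ _

theorem Cls.gr {v : ℝ → ℝ} (hv : Cls v) : GapGr 1 4 v ∧ GapGr 2 4 (deriv v) := by
  obtain ⟨C, hC⟩ := hv.bd
  have h1 : ContinuousOn (deriv v) (Ioi 0) := hv.sm.continuousOn_deriv_of_isOpen isOpen_Ioi le_rfl
  refine ⟨GapGr.of hv.sm.continuousOn (C := C) fun ξ hξ => by simpa using (hC ξ hξ).1, ?_⟩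
  have h2 : GapGr 1 4 fun ξ => ξ * deriv v ξ :=
    GapGr.of (continuousOn_id.mul h1) (C := C) fun ξ hξ => by simpa using (hC ξ hξ).2
  exact (gapGr_inv.mul h2).congr fun ξ hξ => (inv_mul_cancel_left₀ hξ.ne' _).symm

theorem Cls.hasDerivAt {v : ℝ → ℝ} (hv : Cls v) {ξ : ℝ} (hξ : 0 < ξ) :
    HasDerivAt v (deriv v ξ) ξ :=
  ((hv.sm.differentiableOn one_ne_zero).differentiableAt (Ioi_mem_nhds hξ)).hasDerivAt

theorem gap_int {α : ℝ} (hα : 10 ≤ α) (h : GapGr a b f) (h' : GapGr a' b' g) (ha : a + a' ≤ 8)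
    (hb : b + b' ≤ 12) : IntegrableOn (fun ξ => f ξ * g ξ * wt α ξ) (Ioi 0) := by
  obtain ⟨C, -, hC⟩ := ((h.mul h').mono ha hb).out
  exact intg_wt hα (h.mul h').cont hC

theorem gap_ibp {α : ℝ} (hα : 10 ≤ α) (hd : ∀ ξ > (0 : ℝ), HasDerivAt f (g ξ) ξ)
    (h : GapGr 8 11 f) (h' : GapGr 8 11 g) :
    ∫ ξ in Ioi (0 : ℝ), (ξ * g ξ + (α - ξ) * f ξ) * wt α ξ = 0 := by
  obtain ⟨C, hC, h1⟩ := h.out
  obtain ⟨D, hD, h2⟩ := (gapGr_id.mul h').out
  refine ibp hα hd h'.cont (C := C + D) fun ξ hξ => ⟨(h1 ξ hξ).trans ?_, (h2 ξ hξ).trans ?_⟩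
  · exact mul_le_mul_of_nonneg_right (by linarith) (by positivity)
  · exact mul_le_mul_of_nonneg_right (by linarith) (by positivity)

theorem gap_cont_wt {α : ℝ} : ContinuousOn (wt α) (Ioi 0) := fun ξ hξ => by
  have h := (hasDerivAt_wt (α := α - 1) hξ).continuousAt
  rw [sub_add_cancel] at h
  exact h.continuousWithinAt

theorem gap_near {α C R ξ : ℝ} (hα : 10 ≤ α) {v : ℝ → ℝ} (hC : 0 ≤ C)
    (h : ∀ s > (0 : ℝ), |v s| ≤ C * (s⁻¹ ^ 1 + s ^ 4)) (h0 : 0 < ξ) (hR : ξ ≤ R) :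
    |∫ s in (0 : ℝ)..ξ, v s * wt α s| ≤ C * (1 + R ^ 5) * Real.exp R * ξ⁻¹ * wt (α + 1) ξ := by
  have hR0 : 0 < R := h0.trans_le hR
  have h1 := intervalIntegral.norm_integral_le_of_norm_le_const (a := 0) (b := ξ)
    (f := fun s => v s * wt α s) (C := C * (1 + R ^ 5) * ξ ^ (α - 2)) fun s hs => by
      rw [uIoc_of_le h0.le] at hs
      have h2 : s⁻¹ ^ 1 + s ^ 4 ≤ (1 + R ^ 5) * s⁻¹ := by
        have h3 : s ^ 4 = s ^ 5 * s⁻¹ := by field_simp [hs.1.ne']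
        rw [h3, pow_one, add_mul, one_mul]
        exact add_le_add le_rfl (mul_le_mul_of_nonneg_right
          (pow_le_pow_left₀ hs.1.le (hs.2.trans hR) 5) (inv_pos.2 hs.1).le)
      have h3 : wt α s ≤ s ^ (α - 2) * s := by
        rw [← Real.rpow_add_one hs.1.ne', show α - 2 + 1 = α - 1 by ring]
        exact mul_le_of_le_one_right (Real.rpow_nonneg hs.1.le _)
          (Real.exp_le_one_iff.2 (by linarith [hs.1]))
      have h4 : s ^ (α - 2) ≤ ξ ^ (α - 2) := Real.rpow_le_rpow hs.1.le hs.2 (by linarith)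
      have h5 := hs.1
      rw [Real.norm_eq_abs, abs_mul, abs_of_pos (wt_pos hs.1)]
      calc |v s| * wt α s ≤ C * ((1 + R ^ 5) * s⁻¹) * (s ^ (α - 2) * s) :=
            mul_le_mul ((h s hs.1).trans (mul_le_mul_of_nonneg_left h2 hC)) h3 (wt_pos hs.1).le
              (by positivity)
        _ = C * (1 + R ^ 5) * s ^ (α - 2) := by field_simp
        _ ≤ _ := mul_le_mul_of_nonneg_left h4 (by positivity)
  rw [sub_zero, abs_of_pos h0, Real.norm_eq_abs] at h1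
  refine h1.trans ?_
  have h2 : ξ ^ (α + 1 - 1) = ξ ^ (α - 2) * ξ * ξ := by
    rw [← Real.rpow_add_one h0.ne', ← Real.rpow_add_one h0.ne']
    congr 1
    ring
  have h3 : 1 ≤ Real.exp R * Real.exp (-ξ) := by
    rw [← Real.exp_add]
    exact Real.one_le_exp (by linarith)
  rw [wt, h2]
  calc C * (1 + R ^ 5) * ξ ^ (α - 2) * ξ ≤
        C * (1 + R ^ 5) * ξ ^ (α - 2) * ξ * (Real.exp R * Real.exp (-ξ)) :=
        le_mul_of_one_le_right (by positivity) h3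
    _ = _ := by field_simp

theorem gap_far {α C ξ : ℝ} (hα : 10 ≤ α) {v : ℝ → ℝ} (hC : 0 ≤ C)
    (h : ∀ s > (0 : ℝ), |v s| ≤ C * (s⁻¹ ^ 1 + s ^ 4)) (hR : 2 * (α + 3) ≤ ξ) :
    |∫ s in Ioi ξ, v s * wt α s| ≤ 4 * C * ξ ^ 3 * wt (α + 1) ξ := by
  have h0 : 0 < ξ := by linarith
  have hd : ∀ s ∈ Ici ξ, HasDerivAt (fun s => -(4 * C) * wt (α + 3 + 1) s)
      (-(4 * C) * ((α + 3 - s) * wt (α + 3) s)) s := fun s hs =>
    (hasDerivAt_wt (h0.trans_le hs)).const_mul _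
  have hb : ∀ s ∈ Ioi ξ, ‖v s * wt α s‖ ≤ -(4 * C) * ((α + 3 - s) * wt (α + 3) s) := by
    intro s hs
    have hs' : ξ < s := hs
    have h1 : 0 < s := h0.trans hs
    have h2 : wt (α + 3) s = s ^ 3 * wt α s := by
      rw [show α + 3 = α + 1 + 1 + 1 by ring, wt_succ h1, wt_succ h1, wt_succ h1]
      ring
    have h3 : s⁻¹ ≤ s ^ 4 := (inv_le_one_of_one_le₀ (by linarith)).trans (one_le_pow₀ (by linarith))
    have h4 := wt_pos (α := α) h1
    rw [Real.norm_eq_abs, abs_mul, abs_of_pos h4, h2]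
    calc |v s| * wt α s ≤ C * (2 * s ^ 4) * wt α s :=
          mul_le_mul_of_nonneg_right ((h s h1).trans
            (mul_le_mul_of_nonneg_left (by linarith) hC)) h4.le
      _ = (4 * C * s ^ 3 * wt α s) * (s / 2) := by ring
      _ ≤ (4 * C * s ^ 3 * wt α s) * (s - (α + 3)) :=
          mul_le_mul_of_nonneg_left (by linarith) (by positivity)
      _ = _ := by ring
  have hp : ∀ s ∈ Ioi ξ, 0 ≤ -(4 * C) * ((α + 3 - s) * wt (α + 3) s) := fun s hs =>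
    (norm_nonneg _).trans (hb s hs)
  have ht : Tendsto (fun s => -(4 * C) * wt (α + 3 + 1) s) atTop (𝓝 0) := by
    have h1 := (tendsto_rpow_mul_exp_neg_mul_atTop_nhds_zero (α + 3 + 1 - 1) 1 one_pos).const_mul
      (-(4 * C))
    simpa only [wt, mul_zero, neg_mul, one_mul] using h1
  have h1 := norm_integral_le_of_norm_le (integrableOn_Ioi_deriv_of_nonneg' hd hp ht)
    ((ae_restrict_mem measurableSet_Ioi).mono hb)
  rw [integral_Ioi_of_hasDerivAt_of_nonneg' hd hp ht, Real.norm_eq_abs] at h1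
  refine h1.trans (le_of_eq ?_)
  rw [show α + 3 + 1 = α + 1 + 1 + 1 + 1 by ring, wt_succ (α := α + 1 + 1 + 1) h0,
    wt_succ (α := α + 1 + 1) h0, wt_succ (α := α + 1) h0]
  ring

/-- the primitive used in the induction -/
theorem gap_prim {α : ℝ} (hα : 10 ≤ α) {v : ℝ → ℝ} (hv : Cls v) (h : ip α v (fun _ => 1) = 0) :
    ∃ G : ℝ → ℝ, Cls G ∧ ContDiffOn ℝ 2 G (Ioi 0) ∧
      ∀ ξ > (0 : ℝ), ξ * deriv G ξ + (α - ξ) * G ξ = -v ξ := by
  obtain ⟨C, hC, hb⟩ := hv.gr.1.out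
  have hi : IntegrableOn (fun ξ => v ξ * wt α ξ) (Ioi 0) := by
    simpa using gap_int hα hv.gr.1 (gapGr_const 1) (by norm_num) (by norm_num)
  have hc : ContinuousOn (fun ξ => v ξ * wt α ξ) (Ioi 0) := hv.gr.1.cont.mul gap_cont_wt
  let A : ℝ → ℝ := fun ξ => ∫ s in (0 : ℝ)..ξ, v s * wt α s
  have hA : ∀ ξ > (0 : ℝ), HasDerivAt A (v ξ * wt α ξ) ξ := fun ξ hξ =>
    intervalIntegral.integral_hasDerivAt_right
      ((intervalIntegrable_iff_integrableOn_Ioc_of_le hξ.le).2 (hi.mono_set Ioc_subset_Ioi_self))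
      (hc.stronglyMeasurableAtFilter isOpen_Ioi ξ hξ) (hc.continuousAt (Ioi_mem_nhds hξ))
  have hA' : ∀ ξ > (0 : ℝ), A ξ = -∫ s in Ioi ξ, v s * wt α s := fun ξ hξ => by
    have h1 := setIntegral_union (μ := volume) (f := fun ξ => v ξ * wt α ξ)
      (Ioc_disjoint_Ioi_same (a := 0) (b := ξ)) measurableSet_Ioi
      (hi.mono_set Ioc_subset_Ioi_self) (hi.mono_set (Ioi_subset_Ioi hξ.le))
    simp only [ip, mul_one] at h
    rw [Ioc_union_Ioi_eq_Ioi hξ.le, h, ← intervalIntegral.integral_of_le hξ.le] at h1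
    exact eq_neg_of_add_eq_zero_left h1.symm
  let G : ℝ → ℝ := fun ξ => -A ξ / wt (α + 1) ξ
  have hG : ∀ ξ > (0 : ℝ), HasDerivAt G (ξ⁻¹ * (-v ξ + -((α - ξ) * G ξ))) ξ := fun ξ hξ => by
    refine ((hA ξ hξ).neg.div (hasDerivAt_wt hξ) (wt_pos hξ).ne').congr_deriv ?_
    have h1 := (wt_pos (α := α) hξ).ne'
    simp only [G, Pi.neg_apply, wt_succ hξ]
    field_simp
    ring
  have hGd : DifferentiableOn ℝ G (Ioi 0) := fun ξ hξ =>
    (hG ξ hξ).differentiableAt.differentiableWithinAt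
  have hstep : ∀ n : ℕ, n ≤ 1 → ContDiffOn ℝ n G (Ioi 0) → ContDiffOn ℝ (n + 1) G (Ioi 0) := by
    intro n hn h1
    refine (contDiffOn_succ_iff_deriv_of_isOpen isOpen_Ioi).2 ⟨hGd, by simp, ?_⟩
    refine ContDiffOn.congr ?_ fun ξ hξ => (hG ξ hξ).deriv
    exact (contDiffOn_id.inv fun _ h => ne_of_gt h).mul
      ((hv.sm.of_le (by exact_mod_cast hn)).neg.add
        ((contDiffOn_const.sub contDiffOn_id).mul h1).neg)
  have hG1 : ContDiffOn ℝ 1 G (Ioi 0) := by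
    simpa using hstep 0 zero_le_one (by simpa using hGd.continuousOn)
  have hG2 : ContDiffOn ℝ 2 G (Ioi 0) := hstep 1 le_rfl hG1
  have hGb : GapGr 1 3 G := by
    refine GapGr.of hGd.continuousOn
      (C := C * (1 + (2 * (α + 3)) ^ 5) * Real.exp (2 * (α + 3)) + 4 * C) fun ξ hξ => ?_
    have h1 := wt_pos (α := α + 1) hξ
    have h2 : 0 ≤ C * (1 + (2 * (α + 3)) ^ 5) * Real.exp (2 * (α + 3)) := by positivity
    have h3 := inv_pos.2 hξ
    have h4 := pow_pos hξ 3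
    simp only [G]
    rw [abs_div, abs_neg, abs_of_pos h1, div_le_iff₀ h1, pow_one]
    rcases le_total ξ (2 * (α + 3)) with h5 | h5
    · refine (gap_near hα hC hb hξ h5).trans (mul_le_mul_of_nonneg_right ?_ h1.le)
      exact mul_le_mul (by linarith) (by linarith) h3.le (by linarith)
    · rw [hA' ξ hξ, abs_neg]
      refine (gap_far hα hC hb h5).trans (mul_le_mul_of_nonneg_right ?_ h1.le)
      exact mul_le_mul (by linarith) (by linarith) h4.le (by linarith)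
  have he : ∀ ξ > (0 : ℝ), ξ * deriv G ξ = -v ξ + -((α - ξ) * G ξ) := fun ξ hξ => by
    rw [(hG ξ hξ).deriv, mul_inv_cancel_left₀ hξ.ne']
  obtain ⟨C1, hC1, h1⟩ := (hGb.mono (a' := 1) (b' := 4) le_rfl (by norm_num)).out
  obtain ⟨C2, hC2, h2⟩ := ((hv.gr.1.neg.add ((gapGr_sub α).mul hGb).neg).congr he).out
  refine ⟨G, ⟨hG1, C1 + C2, fun ξ hξ => ⟨(h1 ξ hξ).trans ?_, (h2 ξ hξ).trans ?_⟩⟩, hG2,
    fun ξ hξ => by rw [he ξ hξ]; ring⟩
  · rw [pow_one]
    exact mul_le_mul_of_nonneg_right (by linarith) (by positivity)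
  · rw [pow_one]
    exact mul_le_mul_of_nonneg_right (by linarith) (by positivity)

/-- spectral gap of the Laguerre operator -/
theorem gap (k : ℕ) (hk : k ≤ 4) : ∀ α : ℝ, 10 ≤ α → ∀ v : ℝ → ℝ, Cls v →
    (∀ i < k, ip α v (fun ξ => ξ ^ i) = 0) →
      k * ip α v v ≤ ip (α + 1) (deriv v) (deriv v) := by
  induction k with
  | zero =>
    intro α _ v _ _
    simpa using ip_self_nonneg
  | succ k ih =>
    intro α hα v hv ho
    obtain ⟨G, hG, -, he⟩ := gap_prim hα hv (by simpa using ho 0 (Nat.succ_pos k))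
    obtain ⟨v0, v1⟩ := hv.gr
    obtain ⟨G0, G1⟩ := hG.gr
    have hα1 : 10 ≤ α + 1 := by linarith
    have hα2 : 10 ≤ α + 1 + 1 := by linarith
    have hv' : ∀ ξ > (0 : ℝ), v ξ = -(ξ * deriv G ξ + (α - ξ) * G ξ) := fun ξ hξ => by
      rw [he ξ hξ, neg_neg]
    have ivv := gap_int hα v0 v0 (by norm_num) (by norm_num)
    have iGG := gap_int hα1 G0 G0 (by norm_num) (by norm_num)
    have iG' := gap_int hα2 G1 G1 (by norm_num) (by norm_num)
    have iGv := gap_int hα1 G0 v1 (by norm_num) (by norm_num)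
    have iv' := gap_int hα1 v1 v1 (by norm_num) (by norm_num)
    have ha : ∀ i < k, ip (α + 1) G (fun ξ => ξ ^ i) = 0 := by
      intro i hi
      have h1 := gap_ibp hα (f := fun ξ => G ξ * ξ ^ (i + 1))
        (g := fun ξ => deriv G ξ * ξ ^ (i + 1) + G ξ * (((i + 1 : ℕ) : ℝ) * ξ ^ i))
        (fun ξ hξ => (hG.hasDerivAt hξ).mul (hasDerivAt_pow (i + 1) ξ))
        ((G0.mul (gapGr_pow _)).mono (by norm_num) (by omega))
        (((G1.mul (gapGr_pow _)).mono (by norm_num) (by omega)).add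
          ((G0.mul ((gapGr_const _).mul (gapGr_pow _))).mono (by norm_num) (by omega)))
      rw [setIntegral_congr_fun measurableSet_Ioi (g := fun ξ =>
        ((i + 1 : ℕ) : ℝ) * (G ξ * ξ ^ i * wt (α + 1) ξ) - v ξ * ξ ^ (i + 1) * wt α ξ)
        (fun ξ hξ => by simp only; rw [hv' ξ hξ, wt_succ hξ]; ring),
        integral_sub ((gap_int hα1 G0 (gapGr_pow i) (by norm_num) (by omega)).const_mul _)
          (gap_int hα v0 (gapGr_pow (i + 1)) (by norm_num) (by omega)), integral_const_mul] at h1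
      have h2 : ∫ ξ in Ioi (0 : ℝ), v ξ * ξ ^ (i + 1) * wt α ξ = 0 := ho (i + 1) (by omega)
      rw [h2, sub_zero] at h1
      exact (mul_eq_zero.1 h1).resolve_left (by positivity)
    have hih := ih (by omega) (α + 1) hα1 G hG ha
    have hb := gap_ibp hα (f := fun ξ => (α - ξ) * (G ξ * G ξ))
      (g := fun ξ => -1 * (G ξ * G ξ) + (α - ξ) * (deriv G ξ * G ξ + G ξ * deriv G ξ))
      (fun ξ hξ => ((hasDerivAt_id' ξ).const_sub α).mul
        ((hG.hasDerivAt hξ).mul (hG.hasDerivAt hξ)))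
      (((gapGr_sub α).mul (G0.mul G0)).mono (by norm_num) (by norm_num))
      ((((gapGr_const _).mul (G0.mul G0)).mono (by norm_num) (by norm_num)).add
        (((gapGr_sub α).mul ((G1.mul G0).add (G0.mul G1))).mono (by norm_num) (by norm_num)))
    rw [setIntegral_congr_fun measurableSet_Ioi (g := fun ξ =>
      v ξ * v ξ * wt α ξ - deriv G ξ * deriv G ξ * wt (α + 1 + 1) ξ - G ξ * G ξ * wt (α + 1) ξ)
      (fun ξ hξ => by simp only; rw [hv' ξ hξ, wt_succ hξ, wt_succ hξ]; ring),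
      integral_sub (Integrable.sub' ivv iG') iGG, integral_sub ivv iG'] at hb
    have hc := gap_ibp hα (f := fun ξ => G ξ * v ξ)
      (g := fun ξ => deriv G ξ * v ξ + G ξ * deriv v ξ)
      (fun ξ hξ => (hG.hasDerivAt hξ).mul (hv.hasDerivAt hξ))
      ((G0.mul v0).mono (by norm_num) (by norm_num))
      (((G1.mul v0).add (G0.mul v1)).mono (by norm_num) (by norm_num))
    rw [setIntegral_congr_fun measurableSet_Ioi (g := fun ξ =>
      G ξ * deriv v ξ * wt (α + 1) ξ - v ξ * v ξ * wt α ξ)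
      (fun ξ hξ => by
        simp only
        rw [wt_succ hξ]
        linear_combination (v ξ * wt α ξ) * he ξ hξ),
      integral_sub iGv ivv] at hc
    have hd : 0 ≤ ∫ ξ in Ioi (0 : ℝ), (((k : ℝ) + 1) ^ 2 * (G ξ * G ξ * wt (α + 1) ξ) -
        2 * ((k : ℝ) + 1) * (G ξ * deriv v ξ * wt (α + 1) ξ) +
          deriv v ξ * deriv v ξ * wt (α + 1) ξ) :=
      setIntegral_nonneg measurableSet_Ioi fun ξ hξ => by
        have h1 := mul_nonneg (sq_nonneg (((k : ℝ) + 1) * G ξ - deriv v ξ))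
          (wt_pos (α := α + 1) hξ).le
        linarith
    rw [integral_add ((iGG.const_mul _).sub' (iGv.const_mul _)) iv',
      integral_sub (iGG.const_mul _) (iGv.const_mul _), integral_const_mul,
      integral_const_mul] at hd
    unfold ip at hih ⊢
    push_cast
    have hk0 : (0 : ℝ) ≤ (k : ℝ) + 1 := by positivity
    have h1 := mul_le_mul_of_nonneg_left hih hk0
    have h2 := congrArg (fun x => ((k : ℝ) + 1) * x) hb
    have h3 := congrArg (fun x => ((k : ℝ) + 1) * x) hc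
    linarith

end Vale.Agent.P244
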