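import Vale.Agent.P244C.LagW
import Vale.Agent.P244C.Gap

open Set MeasureTheory Filter Topology
open scoped ContDiff

noncomputable section

namespace Vale.Agent.P244

section aux

variable {α : ℝ} {u w : ℝ → ℝ}

/-- functions of class `C²` with controlled growth -/
structure Cl2 (u : ℝ → ℝ) : Prop where
  sm : ContDiffOn ℝ 2 u (Ioi 0)
  cls : Cls u
  g : Gw 2 4 fun ξ => ξ * deriv (deriv u) ξ

theorem lagD_d1 (h : ContDiffOn ℝ 2 u (Ioi 0)) : ContDiffOn ℝ 1 (deriv u) (Ioi 0) :=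
  h.deriv_of_isOpen isOpen_Ioi (by norm_num)

theorem lagD_c2 (h : ContDiffOn ℝ 2 u (Ioi 0)) : ContinuousOn (deriv (deriv u)) (Ioi 0) :=
  (lagD_d1 h).continuousOn_deriv_of_isOpen isOpen_Ioi le_rfl

theorem Cl2.LL (h : Cl2 u) : Gw 4 6 (LL α u) :=
  (h.g.add (((Gw.const α).sub Gw.id).mul h.cls.g2)).mono (by norm_num) (by norm_num)

theorem Prof.cl2 {C τ : ℝ} {er : ℝ → ℝ} (h : Prof C τ u er) : Cl2 u :=
  ⟨h.sm, h.cls', (Gw.div (a := 1) (b := 2) (continuousOn_id.fun_mul (lagD_c2 h.sm))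
    (Gw.of (continuousOn_id.fun_mul (continuousOn_id.fun_mul (lagD_c2 h.sm))) fun ξ h0 => by
      simpa only [← mul_assoc, ← pow_two, pow_one, id] using h.b2 ξ h0)).mono le_rfl (by norm_num)⟩

theorem lag_cl2 (hα : 10 ≤ α) (j : Fin 4) : Cl2 (lag α j) := by
  have h1 : ContDiffOn ℝ 2 (lag α j) (Ioi 0) := ((lag_smooth j).of_le (by norm_cast)).contDiffOn
  refine ⟨h1, lag_cls hα j, (Gw.id.mul (Gw.of (a := 0) (b := 1) (lagD_c2 h1) (C := 6 / α ^ 2)
    fun ξ h0 => (lag_abs hα j h0.le).2.2.trans ?_)).mono (by norm_num) (by norm_num)⟩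
  rw [pow_zero, pow_one]
  exact mul_le_mul_of_nonneg_left (add_le_add_right (div_le_self h0.le (by linarith)) 1)
    (by positivity)

/-- Green identity -/
theorem green (hα : 10 ≤ α) (hw : Cls w) (hu : Cl2 u) :
    ip α w (LL α u) = -ip (α + 1) (deriv w) (deriv u) := by
  have g1 : Gw 8 11 fun ξ => w ξ * deriv u ξ := (hw.g0.mul hu.cls.g2).mono (by norm_num) (by norm_num)
  have g2 : Gw 8 12 fun ξ => ξ * (deriv w ξ * deriv u ξ + w ξ * deriv (deriv u) ξ) :=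
    (((hw.g1.mul hu.cls.g2).mono (c := 8) (d := 12) (by norm_num) (by norm_num)).add
      ((hw.g0.mul hu.g).mono (by norm_num) (by norm_num))).congr fun _ _ => by ring
  obtain ⟨C, c0, b⟩ := g1.bd
  obtain ⟨C', c0', b'⟩ := g2.bd
  have h := ibp hα (g := fun ξ => w ξ * deriv u ξ)
    (g' := fun ξ => deriv w ξ * deriv u ξ + w ξ * deriv (deriv u) ξ)
    (fun ξ h0 => (hw.hd h0).mul (((lagD_d1 hu.sm).differentiableOn one_ne_zero).differentiableAt
      (Ioi_mem_nhds h0)).hasDerivAt)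
    ((hw.cd.mul hu.cls.cd).add (hw.sm.continuousOn.mul (lagD_c2 hu.sm))) (C := C + C')
    fun ξ h0 => ⟨(b ξ h0).trans (mul_le_mul_of_nonneg_right (by linarith) (by positivity)),
      (b' ξ h0).trans (mul_le_mul_of_nonneg_right (by linarith) (by positivity))⟩
  rw [eq_neg_iff_add_eq_zero, ← h]
  unfold ip
  rw [← integral_add (hw.gw.int hα hu.LL) (hw.gw'.int (by linarith) hu.cls.gw')]
  refine setIntegral_congr_fun measurableSet_Ioi fun ξ h0 => ?_
  simp only [wt_succ h0, LL]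
  ring

theorem ip_LL_lag (hα : 10 ≤ α) (j : Fin 4) :
    ip α w (LL α (lag α j)) = -(j : ℝ) * ip α w (lag α j) := by
  rw [← ip_cmul]
  exact ip_congr fun ξ _ => LL_lag hα j ξ

theorem lag_LL (hα : 10 ≤ α) (hu : Cl2 u) (j : Fin 4) :
    ip α (lag α j) (LL α u) = -(j : ℝ) * ip α u (lag α j) := by
  rw [green hα (lag_cls hα j) hu, ip_comm, ← green hα hu.cls (lag_cl2 hα j), ip_LL_lag hα]

theorem rem_self (hα : 10 ≤ α) (hu : Cls u) :
    ip α (rem α u) (rem α u) = ip α (rem α u) u := by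
  rw [ip_rem hα (hu.rem hα).gw hu]
  simp only [rem_orth hα hu, mul_zero, Finset.sum_const_zero, sub_zero]

theorem rem_LL (hα : 10 ≤ α) (hu : Cl2 u) :
    ip α (rem α u) (LL α u) ≤ -4 * ip α (rem α u) (rem α u) := by
  have hw := hu.cls.rem hα
  have hα' : 10 ≤ α + 1 := by linarith
  have h1 := gap 4 le_rfl α hα _ hw (orth_pow hα hw (rem_orth hα hu.cls))
  have h2 : ∀ j, ip (α + 1) (deriv (rem α u)) (deriv (lag α j)) = 0 := fun j => by
    rw [← neg_eq_zero, ← green hα hw (lag_cl2 hα j), ip_LL_lag hα, rem_orth hα hu.cls, mul_zero]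
  rw [ip_congr (f := deriv (rem α u)) fun ξ h0 => deriv_rem hα hu.cls h0,
    ip_sub hα' hw.gw' hu.cls.gw' (Gw.sum (fun j => (lag_cls hα j).gw') _),
    ip_sum hα' hw.gw' fun j => (lag_cls hα j).gw'] at h1
  simp only [h2, mul_zero, Finset.sum_const_zero, sub_zero, Nat.cast_ofNat] at h1
  rw [green hα hw hu]
  linarith

theorem two_ip_le (hα : 10 ≤ α) (hw : Gw 4 6 w) (hu : Gw 4 6 u) :
    2 * ip α w u ≤ ip α w w + ip α u u := by
  have h := ip_self_nonneg (α := α) (v := fun ξ => w ξ - u ξ)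
  rw [ip_sub hα (hw.sub hu) hw hu, ip_comm, ip_sub hα hw hw hu,
    ip_comm (v := fun ξ => w ξ - u ξ), ip_sub hα hu hw hu, ip_comm (v := u) (w := w)] at h
  linarith

theorem lag_gB (hα : 10 ≤ α) (j : Fin 4) {ξ : ℝ} (h0 : 0 < ξ) : |lag α j ξ| ≤ 8 * gB 3 4 ξ := by
  have h1 : 1 + ξ / α ≤ 2 * gB 0 1 ξ := by
    have := le_gB (a := 0) (b := 1) h0
    rw [pow_zero, pow_one] at this
    linarith [div_le_self h0.le (by linarith : 1 ≤ α)]
  have h2 : (1 + ξ / α) ^ 3 ≤ (2 * gB 0 1 ξ) ^ 3 := pow_le_pow_left₀ (by positivity) h1 3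
  have h3 : (2 * gB 0 1 ξ) ^ 3 = 8 * gB 0 3 ξ := by
    rw [show gB 0 3 ξ = gB 0 1 ξ * gB 0 1 ξ * gB 0 1 ξ by rw [gB_mul, gB_mul]]
    ring
  linarith [(lag_abs hα j h0.le).1, gB_mono (a := 0) (b := 3) (c := 3) (d := 4) h0 (by norm_num)
    (by norm_num)]

theorem ip_bd (hα : 10 ≤ α) : ∃ L : ℝ, 0 ≤ L ∧ ∀ (f g : ℝ → ℝ) (A B : ℝ), 0 ≤ A → 0 ≤ B →
    (∀ ξ > (0 : ℝ), |f ξ| ≤ A * gB 3 4 ξ) → (∀ ξ > (0 : ℝ), |g ξ| ≤ B * gB 3 4 ξ) →
    |ip α f g| ≤ L * (A * B) := by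
  obtain ⟨L, h0, h⟩ := intg_bd hα
  refine ⟨L, h0, fun f g A B hA hB hf hg => h (fun ξ => f ξ * g ξ) _ (by positivity) fun ξ h1 => ?_⟩
  rw [abs_mul]
  refine (mul_le_mul (hf ξ h1) (hg ξ h1) (abs_nonneg _) ((abs_nonneg _).trans (hf ξ h1))).trans ?_
  rw [mul_mul_mul_comm, gB_mul]
  exact mul_le_mul_of_nonneg_left ((gB_mono h1 (by norm_num) (by norm_num)).trans (gB_le h1))
    (by positivity)

end aux

theorem Prof.cls {C τ : ℝ} {v er : ℝ → ℝ} (h : Prof C τ v er) : Cls v := h.cls'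

theorem rem_nrm {α : ℝ} (hα : 10 ≤ α) {v : ℝ → ℝ} (hv : Cls v) :
    ip α (rem α v) (rem α v) =
      ip α v v - ∑ j, ip α (lag α j) (lag α j) * co α j v ^ 2 := by
  rw [rem_self hα hv, ip_comm, ip_rem hα hv.gw hv]
  congr 1
  refine Finset.sum_congr rfl fun j _ => ?_
  rw [← nrm_co hα j v]
  ring

/-- differential inequalities for the modes and the remainder -/
theorem lagD (α C : ℝ) (hα : 10 ≤ α) (hC : 0 ≤ C) : ∃ C' : ℝ, 0 ≤ C' ∧
    ∀ (τ : ℝ) (v er : ℝ → ℝ), 0 < τ → Prof C τ v er →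
      (∀ j : Fin 4, |co α j (fun ξ => LL α v ξ + 3 * v ξ + er ξ) - (3 - (j : ℝ)) * co α j v| ≤
        C' * τ ^ (3 / 8 : ℝ)) ∧
      2 * ip α v (fun ξ => LL α v ξ + 3 * v ξ + er ξ) -
          2 * ∑ j, ip α (lag α j) (lag α j) * co α j v *
            co α j (fun ξ => LL α v ξ + 3 * v ξ + er ξ) ≤
        -ip α (rem α v) (rem α v) + C' * τ ^ (3 / 4 : ℝ) := by
  obtain ⟨L, hL, hb⟩ := ip_bd hα
  have hn := lag_nrm hα
  have hS : 0 ≤ ∑ j, 16 * L * C / ip α (lag α j) (lag α j) :=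
    Finset.sum_nonneg fun j _ => div_nonneg (by positivity) (hn j).le
  refine ⟨∑ j, 16 * L * C / ip α (lag α j) (lag α j) + 4 * L * C ^ 2, by positivity,
    fun τ v er hτ h => ?_⟩
  have hu := h.cl2
  have t0 : 0 < τ ^ (3 / 8 : ℝ) := by positivity
  have e0 : ∀ ξ > (0 : ℝ), |er ξ| ≤ 2 * C * τ ^ (3 / 8 : ℝ) * gB 3 4 ξ := fun ξ h0 =>
    (h.be ξ h0).trans ((mul_le_mul_of_nonneg_left (le_gB h0) (by positivity)).trans_eq (by ring))
  have ge : Gw 4 6 er := (Gw.of h.ce h.be).mono (by norm_num) (by norm_num)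
  have gF := (hu.LL (α := α)).add (hu.cls.gw.cmul 3)
  have hF : ∀ {w}, Gw 4 6 w → ip α w (fun ξ => LL α v ξ + 3 * v ξ + er ξ)
      = ip α w (LL α v) + 3 * ip α w v + ip α w er := fun hw => by
    rw [ip_add hα hw gF ge, ip_add hα hw hu.LL (hu.cls.gw.cmul 3), ip_cmul]
  refine ⟨fun j => ?_, ?_⟩
  · have e1 : co α j (fun ξ => LL α v ξ + 3 * v ξ + er ξ) - (3 - (j : ℝ)) * co α j v
        = ip α (lag α j) er / ip α (lag α j) (lag α j) := by
      unfold co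
      rw [ip_comm, hF (lag_cls hα j).gw, lag_LL hα hu, ip_comm (w := v)]
      ring
    have e2 := hb _ _ _ _ (by norm_num) (by positivity) (fun ξ h0 => lag_gB hα j h0) e0
    have e3 : 16 * L * C / ip α (lag α j) (lag α j) ≤ ∑ j, 16 * L * C / ip α (lag α j) (lag α j) :=
      Finset.single_le_sum (f := fun j => 16 * L * C / ip α (lag α j) (lag α j))
        (fun j _ => div_nonneg (by positivity) (hn j).le) (Finset.mem_univ j)
    rw [e1, abs_div, abs_of_pos (hn j)]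
    refine le_trans ?_ (mul_le_mul_of_nonneg_right
      (e3.trans (le_add_of_nonneg_right (by positivity))) t0.le)
    rw [div_mul_eq_mul_div]
    exact div_le_div_of_nonneg_right (e2.trans_eq (by ring)) (hn j).le
  · have hw := hu.cls.rem hα
    have e1 : ip α (rem α v) (fun ξ => LL α v ξ + 3 * v ξ + er ξ)
        = ip α v (fun ξ => LL α v ξ + 3 * v ξ + er ξ) - ∑ j, ip α (lag α j) (lag α j) * co α j v *
          co α j (fun ξ => LL α v ξ + 3 * v ξ + er ξ) := by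
      rw [ip_comm, ip_rem hα (gF.add ge) hu.cls, ip_comm]
      congr 1
      refine Finset.sum_congr rfl fun j _ => ?_
      rw [← nrm_co hα j]
      ring
    have e2 := (le_abs_self _).trans (hb _ _ _ _ (by positivity) (by positivity) e0 e0)
    have e3 : τ ^ (3 / 4 : ℝ) = τ ^ (3 / 8 : ℝ) * τ ^ (3 / 8 : ℝ) := by
      rw [← Real.rpow_add hτ]
      norm_num
    rw [hF hw.gw, ← rem_self hα hu.cls] at e1
    have e4 := rem_LL hα hu
    have e5 := two_ip_le hα hw.gw ge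
    have e6 := mul_nonneg hS (mul_pos t0 t0).le
    rw [e3]
    nlinarith

end Vale.Agent.P244
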