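import Vale.Agent.P244C.InitB
import Vale.Agent.P244C.InitD
import Vale.Agent.P244C.LagD

open Set MeasureTheory Filter Topology
open scoped ContDiff

noncomputable section

namespace Vale.Agent.P244

/-- the initial profile -/
def v0 (q : ℕ) (e0 K T : ℝ) (δ : Fin 3 → ℝ) (y : ℝ) : ℝ :=
  cut K √(4 * z0 q * T * y) * (4 * z0 q * T * y) ^ (e0 / 2) * Th0 q e0 T δ (4 * z0 q * T * y) / T ^ 3

theorem InitM_dim {q : ℕ} {e0 : ℝ} (hd : Dim q e0) :
    1 / 4 ≤ z0 q ∧ z0 q ≤ 1 ∧ 0 ≤ e0 ∧ e0 ≤ 1 ∧ 10 ≤ al q e0 := by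
  have h1 := hd.hq
  have h2 := hd.lo
  have h3 := hd.hi
  have h4 : e0 ≤ 1 := by nlinarith
  refine ⟨?_, ?_, by nlinarith, h4, ?_⟩
  · rw [z0, le_div_iff₀ (by linarith)]
    linarith
  · rw [z0, div_le_one (by linarith)]
    linarith
  · rw [al]
    linarith

theorem InitM_sub {q : ℕ} {T T' : ℝ} {S : Pre} {Z F : ℝ → ℝ} (hz : 0 < z0 q) (hS : IsSol q T' S)
    (hT : 0 < T) (hT' : 0 < T') (hi : Init S Z F) {G g : ℝ → ℝ}
    (hG : ∀ x ∈ Ioo 0 (Real.pi / 2), G x = g (S.xi q T (0, x)) * S.xix q T (0, x))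
    (hg : ∀ y, 1 ≤ 4 * z0 q * T * y → g y = 0) :
    ∫ x in (0 : ℝ)..Real.pi / 2, G x = ∫ y in Ioi (0 : ℝ), g y := by
  have hN : 0 < 4 * z0 q * T := by positivity
  have hπ : (0 : ℝ) < Real.pi / 2 := by positivity
  have h0 : (0 : ℝ) ∈ Ico 0 T' := ⟨le_rfl, hT'⟩
  have h1 : ContDiff ℝ ∞ fun x => S.h (0, x) :=
    (h_smooth hS).comp_contDiff (f := fun x : ℝ => ((0 : ℝ), x)) (by fun_prop)
      fun x => ⟨h0, trivial⟩
  have h2 : ∀ x, HasDerivAt (fun x => S.xi q T (0, x)) (S.xix q T (0, x)) x := by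
    intro x
    have h3 := ((h1.differentiable (by simp) x).hasDerivAt.pow 2).div_const
      (4 * z0 q * (T - 0))
    refine h3.congr_deriv ?_
    have h4 := (hS.posℓ 0 h0).ne'
    simp only [Pre.xix, Pre.a, Pre.Ds, dx]
    congr 1
    field_simp
    simp only [Nat.cast_ofNat, Nat.add_one_sub_one, pow_one]
    ring
  have h3 := intervalIntegral.integral_comp_mul_deriv_of_deriv_nonneg (a := 0) (b := Real.pi / 2)
    (g := g) (fun x _ => (h2 x).continuousAt.continuousWithinAt) (fun x _ => h2 x) (by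
      intro x hx
      rw [min_eq_left hπ.le, max_eq_right hπ.le] at hx
      have a1 := h_pos hS (p := (0, x)) ⟨h0, hx.1, by linarith [hx.2]⟩
      have a2 := (hi x).2.2.2.2.1 ⟨hx.1.le, hx.2⟩
      have a3 := hS.posℓ 0 h0
      simp only [Pre.xix, sub_zero]
      positivity)
  have h4 : S.xi q T (0, 0) = 0 := by simp [Pre.xi, Pre.h]
  have h5 : S.xi q T (0, Real.pi / 2) = 1 / (4 * z0 q * T) := by
    simp only [Pre.xi, (hi 0).2.2.2.2.2, sub_zero, one_pow]
  rw [h4, h5, intervalIntegral.integral_of_le (by positivity : 0 ≤ 1 / (4 * z0 q * T))] at h3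
  rw [setIntegral_eq_of_subset_of_forall_sdiff_eq_zero measurableSet_Ioi
    (Ioc_subset_Ioi_self : Ioc 0 (1 / (4 * z0 q * T)) ⊆ Ioi 0) fun y hy => hg y (by
      have a1 : 1 / (4 * z0 q * T) < y := not_le.1 fun h => hy.2 ⟨hy.1, h⟩
      rw [div_lt_iff₀ hN] at a1
      linarith), ← h3, intervalIntegral.integral_of_le hπ.le, intervalIntegral.integral_of_le hπ.le,
    integral_Ioc_eq_integral_Ioo, integral_Ioc_eq_integral_Ioo]
  exact setIntegral_congr_fun measurableSet_Ioo hG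

theorem v0_link {q : ℕ} {e0 K T T' : ℝ} {δ : Fin 3 → ℝ} {S : Pre} (hd : Dim q e0)
    (hS : IsSol q T' S) (hT : 0 < T) (hT' : 0 < T') (hK : 10 ≤ K)
    (hi : Init S (Z0 q e0 T δ) (F0 q e0 T δ))
    (hw : ∀ r ∈ Icc (0 : ℝ) 1, 0 < r + Th0 q e0 T δ r) :
    (∀ j, S.cm q e0 K T j 0 = co (al q e0) j (v0 q e0 K T δ)) ∧
      S.en q e0 K T 0 = ip (al q e0) (v0 q e0 K T δ) (v0 q e0 K T δ) := by
  have hz : 0 < z0 q := by linarith [(InitM_dim hd).1]
  have hN : 0 < 4 * z0 q * T := by positivity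
  have h1 : ∀ y, 1 ≤ 4 * z0 q * T * y → v0 q e0 K T δ y = 0 := by
    intro y hy
    rw [v0, cut, Real.sq_sqrt (by linarith), Real.smoothTransition.zero_of_nonpos (by nlinarith)]
    simp
  have h2 : ∀ x ∈ Ioo 0 (Real.pi / 2), 0 < S.xi q T (0, x) ∧ v0 q e0 K T δ (S.xi q T (0, x)) =
      S.NN q e0 K T (0, x) * S.xi q T (0, x) ^ (e0 / 2) := by
    intro x hx
    have a1 := h_pos hS (p := (0, x)) ⟨⟨le_rfl, hT'⟩, hx.1, by linarith [hx.2, Real.pi_pos]⟩
    have a2 : 0 < S.xi q T (0, x) := by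
      simp only [Pre.xi, sub_zero]
      positivity
    have a3 : 4 * z0 q * T * S.xi q T (0, x) = S.h (0, x) ^ 2 := by
      simp only [Pre.xi, sub_zero]
      field_simp
    have a4 := ((ini_id hS hT hT' (by linarith [hd.hq]) hi hw
      (x := x) ⟨hx.1, by linarith [hx.2, Real.pi_pos]⟩).2.1)
    refine ⟨a2, ?_⟩
    rw [v0, Real.mul_rpow hN.le a2.le, a3, Real.sqrt_sq a1.le, Pre.NN, a4]
    simp only [sub_zero]
    ring
  refine ⟨fun j => ?_, ?_⟩
  · rw [Pre.cm, co]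
    congr 1
    refine InitM_sub hz hS hT hT' hi (fun x hx => ?_) fun y hy => by simp [h1 y hy]
    obtain ⟨a1, a2⟩ := h2 x hx
    rw [a2, wt, Real.rpow_add a1]
    ring
  · refine InitM_sub hz hS hT hT' hi (fun x hx => ?_) fun y hy => by simp [h1 y hy]
    obtain ⟨a1, a2⟩ := h2 x hx
    rw [a2, wt, show al q e0 - 1 + e0 = al q e0 - 1 + e0 / 2 + e0 / 2 by ring, Real.rpow_add a1,
      Real.rpow_add a1]
    ring

theorem InitM_lag {α : ℝ} (hα : 10 ≤ α) (j : Fin 4) {y : ℝ} (hy : 0 ≤ y) :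
    |lag α j y| ≤ (1 + y) ^ 3 := by
  refine (lag_abs hα j hy).1.trans (pow_le_pow_left₀ (by positivity) ?_ 3)
  linarith [div_le_self hy (by linarith : 1 ≤ α)]

theorem InitM_Ph {q : ℕ} {e0 T : ℝ} {δ : Fin 3 → ℝ} (hd : Dim q e0) (hT : 0 < T) (y : ℝ) :
    Ph q e0 T δ (4 * z0 q * T * y) / T ^ 3 = lag (al q e0) 3 y +
      T ^ (1 / 4 : ℝ) * ∑ j : Fin 3, δ j * lag (al q e0) j.castSucc y := by
  have hz : 0 < z0 q := by linarith [(InitM_dim hd).1]
  rw [Ph, mul_div_cancel_left₀ _ (by positivity), mul_div_cancel_left₀ _ (by positivity)]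

/-- the initial profile is close to the polynomial -/
theorem v0_close {q : ℕ} {e0 K T : ℝ} {δ : Fin 3 → ℝ} (hd : Dim q e0) (hT : 0 < T) (hT1 : T ≤ 1)
    (hδ : ∀ j, |δ j| ≤ 3) {y : ℝ} (hy : 0 < y) :
    |v0 q e0 K T δ y - Ph q e0 T δ (4 * z0 q * T * y) / T ^ 3| ≤
      (8 * K ^ 2 + 1) * T * (y + y⁻¹) * (10 * (1 + y) ^ 3) := by
  obtain ⟨hz1, hz2, he1, he2, hα⟩ := InitM_dim hd
  have hz : 0 < z0 q := by linarith
  have h1 : |Ph q e0 T δ (4 * z0 q * T * y) / T ^ 3| ≤ 10 * (1 + y) ^ 3 := by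
    rw [InitM_Ph hd hT]
    have a1 : |∑ j : Fin 3, δ j * lag (al q e0) j.castSucc y| ≤ 9 * (1 + y) ^ 3 := by
      refine (Finset.abs_sum_le_sum_abs _ _).trans ((Finset.sum_le_sum
        (g := fun _ => 3 * (1 + y) ^ 3) fun j _ => ?_).trans_eq ?_)
      · rw [abs_mul]
        exact mul_le_mul (hδ j) (InitM_lag hα _ hy.le) (abs_nonneg _) (by norm_num)
      · simp only [Finset.sum_const, Finset.card_univ, Fintype.card_fin, nsmul_eq_mul]
        push_cast
        ring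
    have a2 := InitM_lag hα 3 hy.le
    refine (abs_add_le _ _).trans ?_
    rw [abs_mul, abs_of_nonneg (by positivity : 0 ≤ T ^ (1 / 4 : ℝ))]
    have a3 := mul_le_mul (Real.rpow_le_one hT.le hT1 (by norm_num : (0 : ℝ) ≤ 1 / 4)) a1
      (abs_nonneg _) zero_le_one
    linarith
  set r := 4 * z0 q * T * y with hr
  have hr0 : 0 < r := by positivity
  have h2 : v0 q e0 K T δ y - Ph q e0 T δ r / T ^ 3 =
      -(1 - cut K √r * (r / (r + T ^ 2)) ^ (e0 / 2)) * (Ph q e0 T δ r / T ^ 3) := by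
    rw [v0, Th0, ← hr, Real.div_rpow hr0.le (by positivity), Real.rpow_neg (by positivity)]
    ring
  have hx0 : 0 < r / (r + T ^ 2) := by positivity
  have hx1 : r / (r + T ^ 2) ≤ 1 := by
    rw [div_le_one (by positivity)]
    nlinarith
  have h3 := Real.rpow_le_one hx0.le hx1 (by linarith : 0 ≤ e0 / 2)
  have h4 := Real.rpow_le_rpow_of_exponent_ge hx0 hx1 (by linarith : e0 / 2 ≤ 1)
  rw [Real.rpow_one] at h4
  have h5 : 0 ≤ cut K √r := Real.smoothTransition.nonneg _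
  have h6 : cut K √r ≤ 1 := Real.smoothTransition.le_one _
  have h7 : 1 - cut K √r ≤ 8 * K ^ 2 * T * y := by
    have a1 : 2 * (K ^ 2 * r) ≤ 8 * K ^ 2 * T * y := by
      have := mul_le_mul_of_nonneg_left hz2 (by positivity : 0 ≤ 8 * K ^ 2 * T * y)
      rw [hr]
      linarith
    rcases le_total (2 * (K ^ 2 * r)) 1 with h | h
    · rw [cut, Real.sq_sqrt hr0.le, Real.smoothTransition.one_of_one_le (by linarith), sub_self]
      positivity
    · linarith
  have h8 : 1 - r / (r + T ^ 2) ≤ T * y⁻¹ := by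
    rw [one_sub_div (by positivity), add_sub_cancel_left, ← div_eq_mul_inv,
      div_le_div_iff₀ (by positivity) hy]
    have a1 := mul_le_mul_of_nonneg_left hz1 (by positivity : 0 ≤ 4 * T ^ 2 * y)
    have a2 : 0 ≤ T ^ 3 := by positivity
    rw [hr]
    linarith
  rw [h2, abs_mul, abs_neg, abs_of_nonneg (by nlinarith)]
  refine mul_le_mul ?_ h1 (abs_nonneg _) (by positivity)
  have a1 : 0 ≤ 8 * K ^ 2 * T * y⁻¹ := by positivity
  have a2 : 0 ≤ T * y := by positivity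
  nlinarith

/-- continuous with the growth of the error -/
def InitM_cl (C : ℝ) (g : ℝ → ℝ) : Prop :=
  0 ≤ C ∧ ContinuousOn g (Ioi 0) ∧ ∀ y > (0 : ℝ), |g y| ≤ C * ((y + y⁻¹) * (1 + y) ^ 3)

theorem InitM_one {y : ℝ} (hy : 0 < y) : 1 ≤ y + y⁻¹ := by
  rcases le_total y 1 with h | h
  · linarith [(one_le_inv₀ hy).2 h]
  · linarith [inv_pos.2 hy]

theorem InitM_B {y : ℝ} (hy : 0 < y) :
    ((y + y⁻¹) * (1 + y) ^ 3) ^ 2 ≤ 256 * (y⁻¹ ^ 8 + y ^ 12) := by
  have hi := inv_pos.2 hy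
  rcases le_total y 1 with h | h
  · have h1 := (one_le_inv₀ hy).2 h
    have h2 : (y + y⁻¹) * (1 + y) ^ 3 ≤ (2 * y⁻¹) * 2 ^ 3 :=
      mul_le_mul (by linarith) (pow_le_pow_left₀ (by positivity) (by linarith) 3) (by positivity)
        (by positivity)
    have h3 := pow_le_pow_left₀ (by positivity) h2 2
    have h4 := pow_le_pow_right₀ h1 (by norm_num : 2 ≤ 8)
    have h5 : 0 ≤ y ^ 12 := by positivity
    linarith
  · have h1 := inv_le_one_of_one_le₀ h
    have h2 : (y + y⁻¹) * (1 + y) ^ 3 ≤ (2 * y) * (2 * y) ^ 3 :=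
      mul_le_mul (by linarith) (pow_le_pow_left₀ (by positivity) (by linarith) 3) (by positivity)
        (by positivity)
    have h3 := pow_le_pow_left₀ (by positivity) h2 2
    have h4 := pow_le_pow_right₀ h (by norm_num : 8 ≤ 12)
    have h5 : 0 ≤ y⁻¹ ^ 8 := by positivity
    linarith

theorem InitM_mul {C D : ℝ} {u w : ℝ → ℝ} (hu : InitM_cl C u) (hw : InitM_cl D w) :
    ∀ y > (0 : ℝ), |u y * w y| ≤ 256 * (C * D) * (y⁻¹ ^ 8 + y ^ 12) := by
  intro y hy
  have h1 := mul_le_mul (hu.2.2 y hy) (hw.2.2 y hy) (abs_nonneg _)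
    ((abs_nonneg _).trans (hu.2.2 y hy))
  have h2 := mul_le_mul_of_nonneg_left (InitM_B hy) (mul_nonneg hu.1 hw.1)
  rw [abs_mul]
  linarith

theorem InitM_int {α C D : ℝ} {u w : ℝ → ℝ} (hα : 10 ≤ α) (hu : InitM_cl C u)
    (hw : InitM_cl D w) : IntegrableOn (fun y => u y * w y * wt α y) (Ioi 0) :=
  intg_wt hα (hu.2.1.mul hw.2.1) (InitM_mul hu hw)

theorem InitM_cl_lag {α : ℝ} (hα : 10 ≤ α) (j : Fin 4) : InitM_cl 1 (lag α j) := by
  refine ⟨zero_le_one, (lag_smooth j).continuous.continuousOn, fun y hy => ?_⟩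
  rw [one_mul]
  exact (InitM_lag hα j hy.le).trans (le_mul_of_one_le_left (by positivity) (InitM_one hy))

theorem InitM_ip {α C D : ℝ} (hα : 10 ≤ α) (p : Fin 4 → ℝ) {E w : ℝ → ℝ} (hE : InitM_cl C E)
    (hw : InitM_cl D w) : ip α (fun y => ∑ j, p j * lag α j y + E y) w =
      ∑ j, p j * ip α (lag α j) w + ip α E w := by
  have h1 : ∀ j, IntegrableOn (fun y => p j * (lag α j y * w y * wt α y)) (Ioi 0) := fun j =>
    (InitM_int hα (InitM_cl_lag hα j) hw).const_mul _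
  simp only [ip, ← integral_const_mul]
  rw [← integral_finsetSum _ fun j _ => h1 j,
    ← integral_add (integrable_finsetSum _ fun j _ => h1 j) (InitM_int hα hE hw)]
  refine integral_congr_ae (Eventually.of_forall fun y => ?_)
  simp only [Fin.sum_univ_four]
  ring

theorem InitM_abs {α : ℝ} (hα : 10 ≤ α) (A : ℝ) (hA : 0 ≤ A) : ∃ Cm, 0 ≤ Cm ∧
    ∀ (T : ℝ) (p : Fin 4 → ℝ) (E v : ℝ → ℝ), 0 ≤ T → InitM_cl (A * T) E →
      (v = fun y => ∑ j, p j * lag α j y + E y) → (∀ j, |co α j v - p j| ≤ Cm * T) ∧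
        ip α v v - ∑ j, ip α (lag α j) (lag α j) * co α j v ^ 2 ≤ Cm * T ^ 2 := by
  obtain ⟨L, hL, hb⟩ := intg_bd hα
  have hn := lag_nrm hα
  have hs : ∀ j, 0 ≤ L * (256 * A) / ip α (lag α j) (lag α j) := fun j => by
    have := hn j
    positivity
  have hs' := Finset.sum_nonneg fun j (_ : j ∈ Finset.univ) => hs j
  refine ⟨∑ j, L * (256 * A) / ip α (lag α j) (lag α j) + L * (256 * A ^ 2), by positivity,
    fun T p E v hT hE hv => ?_⟩
  have hl := InitM_cl_lag hα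
  have h1 : ∀ i, ip α v (lag α i) = p i * ip α (lag α i) (lag α i) + ip α E (lag α i) := by
    intro i
    rw [hv, InitM_ip hα p hE (hl i), Finset.sum_eq_single i
      (fun j _ hj => by rw [lag_orth hα hj, mul_zero]) (by simp)]
  have h2 : ∀ i, co α i v = p i + ip α E (lag α i) / ip α (lag α i) (lag α i) := by
    intro i
    rw [co, h1, add_div, mul_div_cancel_right₀ _ (hn i).ne']
  refine ⟨fun j => ?_, ?_⟩
  · have h3 := hb _ _ (by positivity) (InitM_mul hE (hl j))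
    rw [h2, add_sub_cancel_left, abs_div, abs_of_pos (hn j)]
    refine (div_le_div_of_nonneg_right h3 (hn j).le).trans ?_
    have h4 := mul_le_mul_of_nonneg_right
      (Finset.single_le_sum (fun j (_ : j ∈ Finset.univ) => hs j) (Finset.mem_univ j)) hT
    have h5 : 0 ≤ L * (256 * A ^ 2) * T := by positivity
    calc L * (256 * (A * T * 1)) / ip α (lag α j) (lag α j)
        = L * (256 * A) / ip α (lag α j) (lag α j) * T := by ring
      _ ≤ _ := by linarith
  · have hc : InitM_cl (∑ j, |p j| + A * T) v := by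
      refine ⟨by positivity, hv ▸ (continuousOn_finsetSum _ fun j _ =>
        continuousOn_const.mul (hl j).2.1).add hE.2.1, fun y hy => ?_⟩
      rw [hv, add_mul, Finset.sum_mul]
      refine (abs_add_le _ _).trans (add_le_add ((Finset.abs_sum_le_sum_abs _ _).trans
        (Finset.sum_le_sum fun j _ => ?_)) (hE.2.2 y hy))
      rw [abs_mul]
      exact mul_le_mul_of_nonneg_left (((hl j).2.2 y hy).trans_eq (one_mul _)) (abs_nonneg _)
    have h3 : ip α v v = ∑ j, p j * ip α (lag α j) v + ip α E v := by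
      rw [← InitM_ip hα p hE hc, ← hv]
    have h4 : ip α v E = ∑ j, p j * ip α (lag α j) E + ip α E E := by
      rw [← InitM_ip hα p hE hE, ← hv]
    have h5 : ∀ j, p j * ip α (lag α j) v + p j * ip α (lag α j) E ≤
        ip α (lag α j) (lag α j) * co α j v ^ 2 := by
      intro j
      have a1 := hn j
      rw [ip_comm (w := v), ip_comm (w := E), h1, h2]
      have a2 : 0 ≤ ip α E (lag α j) ^ 2 / ip α (lag α j) (lag α j) := by positivity
      refine (le_add_of_nonneg_right a2).trans_eq ?_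
      field_simp
      ring
    have h6 := Finset.sum_le_sum fun j (_ : j ∈ Finset.univ) => h5 j
    have h7 : ip α E E ≤ _ := (le_abs_self _).trans (hb _ _ (by positivity) (InitM_mul hE hE))
    rw [Finset.sum_add_distrib] at h6
    rw [ip_comm (v := E), h4] at h3
    have h8 := mul_nonneg hs' (sq_nonneg T)
    linarith

theorem ini_modes (q : ℕ) (e0 K : ℝ) : ∃ Cm : ℝ, 0 ≤ Cm ∧ ∃ τ1 > (0 : ℝ),
    ∀ (T T' : ℝ) (δ : Fin 3 → ℝ) (S : Pre), Dim q e0 → 10 ≤ K → 0 < T → T ≤ τ1 → 0 < T' →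
      (∀ j, |δ j| ≤ 3) → IsSol q T' S → Init S (Z0 q e0 T δ) (F0 q e0 T δ) →
      IniM q e0 K T Cm δ S := by
  by_cases hd : Dim q e0
  swap
  · exact ⟨0, le_rfl, 1, one_pos, fun _ _ _ _ h => absurd h hd⟩
  obtain ⟨hz1, -, -, -, hα⟩ := InitM_dim hd
  have hz : 0 < z0 q := by linarith
  obtain ⟨τ, hτ, hb⟩ := th0_bd q
  obtain ⟨Cm, hC, h⟩ := InitM_abs hα (10 * (8 * K ^ 2 + 1)) (by positivity)
  refine ⟨Cm, hC, min τ 1, by positivity, fun T T' δ S _ hK hT hT1 hT' hδ hS hi => ?_⟩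
  obtain ⟨h1, h2⟩ := v0_link hd hS hT hT' hK hi fun r hr =>
    (hb e0 T δ hd hT (hT1.trans (min_le_left _ _)) hδ r hr).wpos
  have hl := fun j => (lag_smooth (α := al q e0) j).continuous
  have hP : Continuous (Ph q e0 T δ) := by
    unfold Ph
    fun_prop
  have hc : ContinuousOn
      (fun y => v0 q e0 K T δ y - Ph q e0 T δ (4 * z0 q * T * y) / T ^ 3) (Ioi 0) := by
    intro y hy
    have hy' : 0 < y := hy
    refine ContinuousAt.continuousWithinAt (ContinuousAt.sub ?_ (by fun_prop))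
    unfold v0 Th0 cut
    have a1 := Real.smoothTransition.continuous
    refine ContinuousAt.div_const (ContinuousAt.mul (ContinuousAt.mul (by fun_prop) ?_)
      (ContinuousAt.mul (by fun_prop) ?_)) _
    · exact ContinuousAt.rpow_const (by fun_prop) (Or.inl (by positivity))
    · exact ContinuousAt.rpow_const (by fun_prop) (Or.inl (by positivity))
  obtain ⟨h3, h4⟩ := h T
    ![T ^ (1 / 4 : ℝ) * δ 0, T ^ (1 / 4 : ℝ) * δ 1, T ^ (1 / 4 : ℝ) * δ 2, 1]
    (fun y => v0 q e0 K T δ y - Ph q e0 T δ (4 * z0 q * T * y) / T ^ 3) (v0 q e0 K T δ) hT.le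
    ⟨by positivity, hc, fun y hy =>
      (v0_close hd hT (hT1.trans (min_le_right _ _)) hδ hy).trans_eq (by ring)⟩ (by
      funext y
      rw [InitM_Ph hd hT]
      simp [Fin.sum_univ_four, Fin.sum_univ_three]
      ring)
  refine ⟨fun j => ?_, by simpa [h1] using h3 3, by simpa only [Pre.om, h1, h2] using h4⟩
  have h5 := h3 j.castSucc
  rw [← h1] at h5
  fin_cases j <;> simpa using h5

end Vale.Agent.P244
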