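import Vale.Agent.P244C.Defs

open Set MeasureTheory Filter Topology
open scoped ContDiff

noncomputable section

namespace Vale.Agent.P244

/-- functions of class `C¹` on the half line with controlled growth -/
structure Cls (v : ℝ → ℝ) : Prop where
  sm : ContDiffOn ℝ 1 v (Ioi 0)
  bd : ∃ C : ℝ, ∀ ξ > (0 : ℝ), |v ξ| ≤ C * (ξ⁻¹ + ξ ^ 4) ∧ |ξ * deriv v ξ| ≤ C * (ξ⁻¹ + ξ ^ 4)

variable {α : ℝ} {v w : ℝ → ℝ}

theorem wt_pos {ξ : ℝ} (h : 0 < ξ) : 0 < wt α ξ :=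
  mul_pos (Real.rpow_pos_of_pos h _) (Real.exp_pos _)
theorem wt_succ {ξ : ℝ} (h : 0 < ξ) : wt (α + 1) ξ = ξ * wt α ξ := by
  rw [wt, wt, add_sub_right_comm, Real.rpow_add_one h.ne']; ring
theorem hasDerivAt_wt {ξ : ℝ} (h : 0 < ξ) :
    HasDerivAt (wt (α + 1)) ((α - ξ) * wt α ξ) ξ := by
  have h1 := (Real.hasDerivAt_rpow_const (p := α + 1 - 1) (Or.inl h.ne')).mul
    (hasDerivAt_neg ξ).exp
  refine HasDerivAt.congr_deriv h1 ?_
  have e := wt_succ (α := α) h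
  rw [wt] at e
  rw [mul_neg_one, mul_neg, e, wt, add_sub_cancel_right]
  ring

theorem LagA_pow {ξ : ℝ} (h : 0 < ξ) (n : ℕ) : ξ ^ n * wt α ξ = wt (α + n) ξ := by
  rw [wt, wt, add_sub_right_comm, Real.rpow_add_natCast h.ne']; ring

theorem LagA_inv {ξ : ℝ} (h : 0 < ξ) (n : ℕ) : ξ⁻¹ ^ n * wt α ξ = wt (α - n) ξ := by
  have e := LagA_pow (α := α - n) h n
  rw [sub_add_cancel] at e
  rw [← e, ← mul_assoc, ← mul_pow, inv_mul_cancel₀ h.ne', one_pow, one_mul]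

theorem LagA_wi (h : 0 < α) : IntegrableOn (wt α) (Ioi 0) := by
  have e : wt α = fun x => Real.exp (-x) * x ^ (α - 1) := funext fun x => mul_comm _ _
  rw [e]
  exact Real.GammaIntegral_convergent h

theorem LagA_wc : ContinuousOn (wt α) (Ioi 0) := fun ξ h =>
  (hasDerivAt_wt (α := α - 1) h).continuousAt.continuousWithinAt.congr
    (fun _ _ => by rw [sub_add_cancel]) (by rw [sub_add_cancel])

theorem LagA_top : Tendsto (wt α) atTop (𝓝 0) := by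
  have h := tendsto_rpow_mul_exp_neg_mul_atTop_nhds_zero (α - 1) 1 one_pos
  simp only [neg_mul, one_mul] at h
  exact h

theorem LagA_zero (h : 1 < α) : Tendsto (wt α) (𝓝[>] 0) (𝓝 0) := by
  have h1 : ContinuousAt (wt α) 0 :=
    (Real.continuousAt_rpow_const 0 (α - 1) (Or.inr (by linarith))).mul (by fun_prop)
  have h2 : wt α 0 = 0 := by rw [wt, Real.zero_rpow (by linarith), zero_mul]
  exact (h2 ▸ h1.tendsto).mono_left nhdsWithin_le_nhds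

theorem LagA_le {ξ : ℝ} (h : 0 < ξ) (a : ℕ) {n b : ℕ} (hn : n ≤ b) : ξ ^ n ≤ ξ⁻¹ ^ a + ξ ^ b := by
  rcases le_total ξ 1 with h1 | h1
  · exact ((pow_le_one₀ h.le h1).trans (one_le_pow₀ ((one_le_inv₀ h).2 h1))).trans
      (le_add_of_nonneg_right (by positivity))
  · exact (pow_le_pow_right₀ h1 hn).trans (le_add_of_nonneg_left (by positivity))

theorem LagA_le' {ξ : ℝ} (h : 0 < ξ) (b : ℕ) {n a : ℕ} (hn : n ≤ a) :
    ξ⁻¹ ^ n ≤ ξ⁻¹ ^ a + ξ ^ b := by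
  simpa [add_comm] using LagA_le (inv_pos.2 h) b hn

theorem LagA_add {ξ : ℝ} (h : 0 < ξ) (a : ℕ) {n b : ℕ} (hn : n ≤ b) :
    (1 + ξ) ^ n ≤ 2 ^ n * (ξ⁻¹ ^ a + ξ ^ b) := by
  rcases le_total ξ 1 with h1 | h1
  · refine (pow_le_pow_left₀ (by positivity) (by linarith : 1 + ξ ≤ 2) n).trans ?_
    exact le_mul_of_one_le_right (by positivity) (by simpa using LagA_le h a (Nat.zero_le b))
  · refine (pow_le_pow_left₀ (by positivity) (by linarith : 1 + ξ ≤ 2 * ξ) n).trans ?_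
    rw [mul_pow]
    exact mul_le_mul_of_nonneg_left (LagA_le h a hn) (by positivity)

theorem LagA_maj (hα : 10 ≤ α) (C : ℝ) :
    IntegrableOn (fun ξ => (wt (α - (8 : ℕ)) ξ + wt (α + (12 : ℕ)) ξ) * C) (Ioi 0) :=
  ((LagA_wi (by push_cast; linarith)).add (LagA_wi (by push_cast; linarith))).mul_const C

theorem LagA_bd {g : ℝ → ℝ} {C β : ℝ} {a b : ℕ} {ξ : ℝ} (h : 0 < ξ)
    (hb : |g ξ| ≤ C * (ξ⁻¹ ^ a + ξ ^ b)) : ‖g ξ * wt β ξ‖ ≤ (wt (β - a) ξ + wt (β + b) ξ) * C := by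
  rw [Real.norm_eq_abs, abs_mul, abs_of_pos (wt_pos h), ← LagA_pow h, ← LagA_inv h]
  exact (mul_le_mul_of_nonneg_right hb (wt_pos h).le).trans_eq (by ring)

/-- integrability against the weight -/
theorem intg_wt (hα : 10 ≤ α) {g : ℝ → ℝ} (hg : ContinuousOn g (Ioi 0)) {C : ℝ}
    (hb : ∀ ξ > (0 : ℝ), |g ξ| ≤ C * (ξ⁻¹ ^ 8 + ξ ^ 12)) :
    IntegrableOn (fun ξ => g ξ * wt α ξ) (Ioi 0) :=
  (LagA_maj hα C).mono' ((hg.mul LagA_wc).aestronglyMeasurable measurableSet_Ioi)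
    ((ae_restrict_mem measurableSet_Ioi).mono fun ξ h => LagA_bd h (hb ξ h))
/-- a uniform bound for such integrals -/
theorem intg_bd (hα : 10 ≤ α) : ∃ L : ℝ, 0 ≤ L ∧ ∀ (g : ℝ → ℝ) (C : ℝ), 0 ≤ C →
    (∀ ξ > (0 : ℝ), |g ξ| ≤ C * (ξ⁻¹ ^ 8 + ξ ^ 12)) →
      |∫ ξ in Ioi (0 : ℝ), g ξ * wt α ξ| ≤ L * C := by
  refine ⟨∫ ξ in Ioi (0 : ℝ), (wt (α - (8 : ℕ)) ξ + wt (α + (12 : ℕ)) ξ),
    setIntegral_nonneg measurableSet_Ioi fun ξ h => (add_pos (wt_pos h) (wt_pos h)).le,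
    fun g C _ hb => ?_⟩
  rw [← integral_mul_const, ← Real.norm_eq_abs]
  exact norm_integral_le_of_norm_le (LagA_maj hα C)
    ((ae_restrict_mem measurableSet_Ioi).mono fun ξ h => LagA_bd h (hb ξ h))
/-- integration by parts: the total derivative of `g · wt (α + 1)` has integral zero -/
theorem ibp (hα : 10 ≤ α) {g g' : ℝ → ℝ} (hg : ∀ ξ > (0 : ℝ), HasDerivAt g (g' ξ) ξ)
    (hc : ContinuousOn g' (Ioi 0)) {C : ℝ}
    (hb : ∀ ξ > (0 : ℝ), |g ξ| ≤ C * (ξ⁻¹ ^ 8 + ξ ^ 11) ∧ |ξ * g' ξ| ≤ C * (ξ⁻¹ ^ 8 + ξ ^ 12)) :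
    ∫ ξ in Ioi (0 : ℝ), (ξ * g' ξ + (α - ξ) * g ξ) * wt α ξ = 0 := by
  have hC : 0 ≤ C := by
    have := (abs_nonneg _).trans (hb 1 one_pos).1
    norm_num at this
    exact this
  have hg0 : ContinuousOn g (Ioi 0) := fun ξ h => (hg ξ h).continuousAt.continuousWithinAt
  have h0 : g 0 * wt (α + 1) 0 = 0 := by
    rw [wt, Real.zero_rpow (by linarith), zero_mul, mul_zero]
  have hl : ∀ l : Filter ℝ, (∀ᶠ ξ in l, 0 < ξ) → (∀ β, 1 < β → Tendsto (wt β) l (𝓝 0)) →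
      Tendsto (fun ξ => g ξ * wt (α + 1) ξ) l (𝓝 0) := fun l h1 h2 =>
    squeeze_zero_norm' (h1.mono fun ξ h => LagA_bd h (hb ξ h).1) (by
      simpa using ((h2 (α + 1 - (8 : ℕ)) (by push_cast; linarith)).add
        (h2 (α + 1 + (11 : ℕ)) (by push_cast; linarith))).mul_const C)
  have key := integral_Ioi_of_hasDerivAt_of_tendsto (f := fun ξ => g ξ * wt (α + 1) ξ)
    (f' := fun ξ => (ξ * g' ξ + (α - ξ) * g ξ) * wt α ξ) (a := 0) (m := 0)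
    (continuousWithinAt_Ioi_iff_Ici.1 (by
      rw [ContinuousWithinAt, h0]
      exact hl _ self_mem_nhdsWithin fun β h => LagA_zero h))
    (fun ξ h => ((hg ξ h).mul (hasDerivAt_wt h)).congr_deriv (by rw [wt_succ h]; ring))
    (intg_wt hα ((continuousOn_id.mul hc).add ((continuousOn_const.sub continuousOn_id).mul hg0))
      (C := C + 2 * α * C + 2 * C) fun ξ h => ?_)
    (hl _ (eventually_gt_atTop 0) fun β _ => LagA_top)
  · rw [key, h0, sub_zero]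
  · obtain ⟨h1, h2⟩ := hb ξ h
    have a1 := LagA_le h 8 (by norm_num : 11 ≤ 12)
    have a2 := LagA_le' h 12 (by norm_num : 7 ≤ 8)
    have a3 : ξ * (ξ⁻¹ ^ 8 + ξ ^ 11) = ξ⁻¹ ^ 7 + ξ ^ 12 := by field_simp
    have a4 : |α - ξ| ≤ α + ξ := abs_le.2 ⟨by linarith, by linarith⟩
    have a5 := mul_le_mul a4 h1 (abs_nonneg _) (by linarith)
    have a6 : (0 : ℝ) ≤ ξ⁻¹ ^ 8 := by positivity
    have a7 : (0 : ℝ) ≤ ξ ^ 12 := by positivity
    have a8 : α * C * (ξ⁻¹ ^ 8 + ξ ^ 11) ≤ α * C * (2 * (ξ⁻¹ ^ 8 + ξ ^ 12)) :=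
      mul_le_mul_of_nonneg_left (by linarith) (by positivity)
    have a9 : C * (ξ⁻¹ ^ 7 + ξ ^ 12) ≤ C * (2 * (ξ⁻¹ ^ 8 + ξ ^ 12)) :=
      mul_le_mul_of_nonneg_left (by linarith) hC
    rw [← a3] at a9
    refine (abs_add_le _ _).trans ?_
    rw [abs_mul (α - ξ)]
    linarith
theorem ip_comm : ip α v w = ip α w v := by
  simp only [ip, mul_comm (v _)]
theorem ip_self_nonneg : 0 ≤ ip α v v :=
  setIntegral_nonneg measurableSet_Ioi fun _ h => mul_nonneg (mul_self_nonneg _) (wt_pos h).le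

/-- coefficients of the Laguerre polynomials -/
def LagA_c (α : ℝ) (j : Fin 4) : ℝ × ℝ × ℝ :=
  ![(0, 0, 0), (-1 / α, 0, 0), (-2 / α, 1 / (α * (α + 1)), 0),
    (-3 / α, 3 / (α * (α + 1)), -1 / (α * (α + 1) * (α + 2)))] j

theorem LagA_eq (j : Fin 4) : lag α j = fun ξ =>
    1 + (LagA_c α j).1 * ξ + (LagA_c α j).2.1 * ξ ^ 2 + (LagA_c α j).2.2 * ξ ^ 3 := by
  ext ξ
  fin_cases j <;> simp [lag, LagA_c, div_eq_mul_inv] <;> ring

theorem LagA_d1 (j : Fin 4) : deriv (lag α j) = fun ξ =>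
    (LagA_c α j).1 + 2 * (LagA_c α j).2.1 * ξ + 3 * (LagA_c α j).2.2 * ξ ^ 2 := by
  ext ξ
  rw [LagA_eq]
  refine HasDerivAt.deriv (HasDerivAt.congr_deriv ((((((hasDerivAt_id' ξ).const_mul _).const_add
    1).add ((hasDerivAt_pow 2 ξ).const_mul _)).add ((hasDerivAt_pow 3 ξ).const_mul _))) ?_)
  norm_num; ring

theorem LagA_d2 (j : Fin 4) : deriv (deriv (lag α j)) = fun ξ =>
    2 * (LagA_c α j).2.1 + 6 * (LagA_c α j).2.2 * ξ := by
  ext ξ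
  rw [LagA_d1]
  refine HasDerivAt.deriv (HasDerivAt.congr_deriv (((((hasDerivAt_id' ξ).const_mul _).const_add
    _).add ((hasDerivAt_pow 2 ξ).const_mul _))) ?_)
  norm_num; ring

theorem LagA_cb (hα : 10 ≤ α) (j : Fin 4) : |(LagA_c α j).1| ≤ 3 / α ∧
    |(LagA_c α j).2.1| ≤ 3 / α ^ 2 ∧ |(LagA_c α j).2.2| ≤ 1 / α ^ 3 := by
  have h0 : 0 < α := by linarith
  have a1 : ∀ k : ℝ, 0 ≤ k → k ≤ 3 → |-k / α| ≤ 3 / α := fun k h1 h2 => by
    rw [neg_div, abs_neg, abs_of_nonneg (by positivity)]; gcongr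
  have a2 : ∀ k : ℝ, 0 ≤ k → k ≤ 3 → |k / (α * (α + 1))| ≤ 3 / α ^ 2 := fun k h1 h2 => by
    rw [abs_of_nonneg (by positivity), sq]; gcongr; linarith
  have a3 : |-1 / (α * (α + 1) * (α + 2))| ≤ 1 / α ^ 3 := by
    rw [neg_div, abs_neg, abs_of_nonneg (by positivity), pow_succ, sq]; gcongr <;> linarith
  have z1 : |(0 : ℝ)| ≤ 3 / α := by rw [abs_zero]; positivity
  have z2 : |(0 : ℝ)| ≤ 3 / α ^ 2 := by rw [abs_zero]; positivity
  have z3 : |(0 : ℝ)| ≤ 1 / α ^ 3 := by rw [abs_zero]; positivity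
  fin_cases j
  exacts [⟨z1, z2, z3⟩, ⟨a1 1 (by norm_num) (by norm_num), z2, z3⟩,
    ⟨a1 2 (by norm_num) (by norm_num), a2 1 (by norm_num) (by norm_num), z3⟩,
    ⟨a1 3 (by norm_num) le_rfl, a2 3 (by norm_num) le_rfl, a3⟩]

theorem lag_smooth (j : Fin 4) : ContDiff ℝ ∞ (lag α j) := by
  rw [LagA_eq]; fun_prop
theorem lag_abs (hα : 10 ≤ α) (j : Fin 4) {ξ : ℝ} (h : 0 ≤ ξ) :
    |lag α j ξ| ≤ (1 + ξ / α) ^ 3 ∧ |deriv (lag α j) ξ| ≤ 3 / α * (1 + ξ / α) ^ 2 ∧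
      |deriv (deriv (lag α j)) ξ| ≤ 6 / α ^ 2 * (1 + ξ / α) := by
  obtain ⟨h1, h2, h3⟩ := LagA_cb hα j
  have h0 : α ≠ 0 := by linarith
  have b : ∀ {c B : ℝ} (k : ℕ), |c| ≤ B → -(B * ξ ^ k) ≤ c * ξ ^ k ∧ c * ξ ^ k ≤ B * ξ ^ k :=
    fun k hc => abs_le.1 (by
      rw [abs_mul, abs_of_nonneg (pow_nonneg h k)]
      exact mul_le_mul_of_nonneg_right hc (pow_nonneg h k))
  have e1 : (1 + ξ / α) ^ 3 = 1 + 3 / α * ξ ^ 1 + 3 / α ^ 2 * ξ ^ 2 + 1 / α ^ 3 * ξ ^ 3 := by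
    field_simp; ring
  have e2 : 3 / α * (1 + ξ / α) ^ 2 =
      3 / α + 2 * (3 / α ^ 2 * ξ ^ 1) + 3 * (1 / α ^ 3 * ξ ^ 2) := by
    field_simp; ring
  have e3 : 6 / α ^ 2 * (1 + ξ / α) = 2 * (3 / α ^ 2) + 6 * (1 / α ^ 3 * ξ ^ 1) := by
    field_simp; ring
  rw [LagA_d2, LagA_d1, LagA_eq, e1, e2, e3]
  have := b 1 h1; have := b 1 h2; have := b 2 h2; have := b 1 h3; have := b 2 h3; have := b 3 h3
  have := abs_le.1 h1; have := abs_le.1 h2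
  simp only [pow_one] at *
  refine ⟨abs_le.2 ⟨?_, ?_⟩, abs_le.2 ⟨?_, ?_⟩, abs_le.2 ⟨?_, ?_⟩⟩ <;> linarith
theorem lag_three_lo (hα : 100 ≤ α) {ξ : ℝ} (h0 : 0 ≤ ξ) (h1 : ξ ≤ 1 / 3) :
    0.98 ≤ lag α 3 ξ := by
  have a1 : 3 * ξ / α ≤ 1 / 100 := by
    rw [div_le_iff₀ (by linarith)]; linarith
  have a2 : 0 ≤ 3 * ξ ^ 2 / (α * (α + 1)) := by positivity
  have a3 : ξ ^ 3 / (α * (α + 1) * (α + 2)) ≤ 1 / 100 := by
    rw [div_le_iff₀ (by positivity)]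
    have b1 : ξ ^ 3 ≤ 1 := pow_le_one₀ h0 (by linarith)
    have b2 : 100 * 1 * 1 ≤ α * (α + 1) * (α + 2) := by gcongr <;> linarith
    linarith
  change _ ≤ 1 - 3 * ξ / α + 3 * ξ ^ 2 / (α * (α + 1)) - ξ ^ 3 / (α * (α + 1) * (α + 2))
  linarith
theorem LL_lag (hα : 10 ≤ α) (j : Fin 4) (ξ : ℝ) : LL α (lag α j) ξ = -(j : ℝ) * lag α j ξ := by
  have h0 : α ≠ 0 := by linarith
  have h1 : α + 1 ≠ 0 := by linarith
  have h2 : α + 2 ≠ 0 := by linarith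
  rw [LL, LagA_d2, LagA_d1, LagA_eq]
  fin_cases j <;> simp [LagA_c] <;> field_simp <;> ring

theorem LagA_abs (hα : 10 ≤ α) (j : Fin 4) {ξ : ℝ} (h : 0 ≤ ξ) :
    |lag α j ξ| ≤ (1 + ξ) ^ 3 ∧ |deriv (lag α j) ξ| ≤ (1 + ξ) ^ 2 ∧
      |deriv (deriv (lag α j)) ξ| ≤ 1 + ξ := by
  obtain ⟨h1, h2, h3⟩ := lag_abs hα j h
  have a1 : ξ / α ≤ ξ := div_le_self h (by linarith)
  have a2 : 3 / α ≤ 1 := (div_le_one (by linarith)).2 (by linarith)
  have a3 : 6 / α ^ 2 ≤ 1 := (div_le_one (by positivity)).2 (by nlinarith)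
  refine ⟨h1.trans (by gcongr), h2.trans ?_, h3.trans ?_⟩
  · exact (mul_le_of_le_one_left (by positivity) a2).trans (by gcongr)
  · exact (mul_le_of_le_one_left (by positivity) a3).trans (by gcongr)

theorem lag_cls (hα : 10 ≤ α) (j : Fin 4) : Cls (lag α j) := by
  refine ⟨((lag_smooth j).of_le (by simp)).contDiffOn, 2 ^ 3, fun ξ h => ?_⟩
  obtain ⟨h1, h2, -⟩ := LagA_abs hα j h.le
  have a1 := LagA_add h 1 (by norm_num : 3 ≤ 4)
  rw [pow_one] at a1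
  refine ⟨h1.trans a1, le_trans ?_ a1⟩
  rw [abs_mul, abs_of_pos h, pow_succ']
  exact mul_le_mul (by linarith) h2 (abs_nonneg _) (by linarith)

theorem LagA_int (hα : 10 ≤ α) (hv : Cls v) (hw : Cls w) :
    IntegrableOn (fun ξ => v ξ * w ξ * wt α ξ) (Ioi 0) := by
  obtain ⟨C, hC⟩ := hv.bd
  obtain ⟨D, hD⟩ := hw.bd
  refine intg_wt hα (hv.sm.continuousOn.mul hw.sm.continuousOn) (C := |C| * |D| * 4) fun ξ h => ?_
  have a0 : 0 ≤ ξ⁻¹ + ξ ^ 4 := by positivity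
  have a1 := mul_le_mul ((hC ξ h).1.trans (mul_le_mul_of_nonneg_right (le_abs_self C) a0))
    ((hD ξ h).1.trans (mul_le_mul_of_nonneg_right (le_abs_self D) a0)) (abs_nonneg _)
    (by positivity)
  have a2 : (ξ⁻¹ + ξ ^ 4) * (ξ⁻¹ + ξ ^ 4) = ξ⁻¹ ^ 2 + 2 * ξ ^ 3 + ξ ^ 8 := by field_simp; ring
  have a3 := LagA_le' h 12 (by norm_num : 2 ≤ 8)
  have a4 := LagA_le h 8 (by norm_num : 3 ≤ 12)
  have a5 := LagA_le h 8 (by norm_num : 8 ≤ 12)
  rw [mul_mul_mul_comm, a2] at a1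
  rw [abs_mul, mul_assoc _ 4]
  exact a1.trans (mul_le_mul_of_nonneg_left (by linarith) (by positivity))

theorem lag_orth (hα : 10 ≤ α) {i j : Fin 4} (h : i ≠ j) : ip α (lag α i) (lag α j) = 0 := by
  have d1 : ∀ k ξ, HasDerivAt (lag α k) (deriv (lag α k) ξ) ξ := fun k ξ =>
    ((lag_smooth k).differentiable (by simp) ξ).hasDerivAt
  have d2 : ∀ k ξ, HasDerivAt (deriv (lag α k)) (deriv (deriv (lag α k)) ξ) ξ := fun k ξ =>
    DifferentiableAt.hasDerivAt (by rw [LagA_d1]; fun_prop)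
  have key := ibp hα (g := fun ξ => deriv (lag α i) ξ * lag α j ξ - lag α i ξ * deriv (lag α j) ξ)
    (g' := fun ξ => deriv (deriv (lag α i)) ξ * lag α j ξ - lag α i ξ * deriv (deriv (lag α j)) ξ)
    (fun ξ _ => (((d2 i ξ).mul (d1 j ξ)).sub ((d1 i ξ).mul (d2 j ξ))).congr_deriv (by ring))
    (by simp only [LagA_d2]; simp only [LagA_eq]; fun_prop) (C := 2 * 2 ^ 5) fun ξ hξ => by
      obtain ⟨a1, a2, a3⟩ := LagA_abs hα i hξ.le
      obtain ⟨b1, b2, b3⟩ := LagA_abs hα j hξ.le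
      have c1 := mul_le_mul a2 b1 (abs_nonneg _) (by positivity)
      have c2 := mul_le_mul a1 b2 (abs_nonneg _) (by positivity)
      have c3 := mul_le_mul a3 b1 (abs_nonneg _) (by positivity)
      have c4 := mul_le_mul a1 b3 (abs_nonneg _) (by positivity)
      have c5 := LagA_add hξ 8 (by norm_num : 5 ≤ 11)
      have c6 := LagA_add hξ 8 (by norm_num : 5 ≤ 12)
      rw [← abs_mul] at c1 c2 c3 c4
      refine ⟨(abs_sub _ _).trans (by linarith), ?_⟩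
      rw [abs_mul, abs_of_pos hξ]
      refine (mul_le_mul (by linarith : ξ ≤ 1 + ξ) ((abs_sub _ _).trans (add_le_add c3 c4))
        (abs_nonneg _) (by positivity)).trans (by linarith)
  have e : ∀ ξ, (ξ * (deriv (deriv (lag α i)) ξ * lag α j ξ -
      lag α i ξ * deriv (deriv (lag α j)) ξ) + (α - ξ) * (deriv (lag α i) ξ * lag α j ξ -
      lag α i ξ * deriv (lag α j) ξ)) * wt α ξ =
      ((j : ℝ) - i) * (lag α i ξ * lag α j ξ * wt α ξ) := fun ξ => by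
    have a1 := LL_lag hα i ξ
    have a2 := LL_lag hα j ξ
    rw [LL] at a1 a2
    linear_combination (lag α j ξ * wt α ξ) * a1 - (lag α i ξ * wt α ξ) * a2
  simp only [e, integral_const_mul] at key
  refine (mul_eq_zero.1 key).resolve_left fun h0 => h (Fin.ext ?_)
  exact_mod_cast (sub_eq_zero.1 h0).symm
theorem lag_nrm (hα : 10 ≤ α) (j : Fin 4) : 0 < ip α (lag α j) (lag α j) := by
  have hc := (lag_smooth (α := α) j).continuous
  refine (setIntegral_pos_iff_support_of_nonneg_ae ((ae_restrict_mem measurableSet_Ioi).mono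
    fun ξ h => mul_nonneg (mul_self_nonneg _) (wt_pos h).le)
    (LagA_int hα (lag_cls hα j) (lag_cls hα j))).2 ?_
  have h0 : lag α j 0 ≠ 0 := by simp [LagA_eq]
  obtain ⟨x, h1, h2⟩ := (((hc.continuousAt.eventually_ne h0).filter_mono
    (nhdsWithin_le_nhds (s := Ioi 0))).and self_mem_nhdsWithin).exists
  refine ((((isOpen_ne_fun hc continuous_const).inter isOpen_Ioi).measure_pos volume
    ⟨x, h1, h2⟩)).trans_le (measure_mono fun ξ h => ⟨?_, h.2⟩)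
  exact mul_ne_zero (mul_ne_zero h.1 h.1) (wt_pos h.2).ne'
/-- orthogonality to the four polynomials gives orthogonality to the monomials -/
theorem orth_pow (hα : 10 ≤ α) (hv : Cls v) (h : ∀ j, ip α v (lag α j) = 0) :
    ∀ i < 4, ip α v (fun ξ => ξ ^ i) = 0 := by
  have h0 : α ≠ 0 := by linarith
  have h1 : α + 1 ≠ 0 := by linarith
  have h2 : α + 2 ≠ 0 := by linarith
  have key : ∀ (i : ℕ) (c : Fin 4 → ℝ), (∀ ξ : ℝ, ξ ^ i = ∑ j, c j * lag α j ξ) →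
      ip α v (fun ξ => ξ ^ i) = 0 := fun i c hc => by
    have e : ∀ ξ, v ξ * ξ ^ i * wt α ξ = ∑ j, c j * (v ξ * lag α j ξ * wt α ξ) := fun ξ => by
      rw [hc, Finset.mul_sum, Finset.sum_mul]
      exact Finset.sum_congr rfl fun j _ => by ring
    simp only [ip] at h ⊢
    simp only [e]
    rw [integral_finset_sum _ fun j _ => (LagA_int hα hv (lag_cls hα j)).const_mul _]
    simp only [integral_const_mul, h, mul_zero, Finset.sum_const_zero]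
  intro i hi
  interval_cases i
  · exact key 0 ![1, 0, 0, 0] fun ξ => by simp [Fin.sum_univ_four, lag]
  · exact key 1 ![α, -α, 0, 0] fun ξ => by simp [Fin.sum_univ_four, lag]; field_simp; ring
  · exact key 2 ![α * (α + 1), -2 * (α * (α + 1)), α * (α + 1), 0] fun ξ => by
      simp [Fin.sum_univ_four, lag]; field_simp; ring
  · exact key 3 ![α * (α + 1) * (α + 2), -3 * (α * (α + 1) * (α + 2)), 3 * (α * (α + 1) * (α + 2)),
      -(α * (α + 1) * (α + 2))] fun ξ => by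
      simp [Fin.sum_univ_four, lag]; field_simp; ring

end Vale.Agent.P244
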