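import Vale.Agent.P244C.Rules

open Set MeasureTheory Filter Topology
open scoped ContDiff

noncomputable section

namespace Vale.Agent.P244

theorem ModeDer_hx {u : ℝ × ℝ → ℝ} {t x : ℝ} (hu : DifferentiableAt ℝ u (t, x)) :
    HasDerivAt (fun y => u (t, y)) (fderiv ℝ u (t, x) (0, 1)) x :=
  hu.hasFDerivAt.comp_hasDerivAt x ((hasDerivAt_const x t).prodMk (hasDerivAt_id x))

theorem ModeDer_ht {u : ℝ × ℝ → ℝ} {t x : ℝ} (hu : DifferentiableAt ℝ u (t, x)) :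
    HasDerivAt (fun s => u (s, x)) (fderiv ℝ u (t, x) (1, 0)) t :=
  hu.hasFDerivAt.comp_hasDerivAt t ((hasDerivAt_id t).prodMk (hasDerivAt_const t x))

theorem ModeDer_dx {u : ℝ × ℝ → ℝ} {p : ℝ × ℝ} (hu : DifferentiableAt ℝ u p) :
    dx u p = fderiv ℝ u p (0, 1) := (ModeDer_hx (t := p.1) (x := p.2) hu).deriv

theorem ModeDer_dt {u : ℝ × ℝ → ℝ} {p : ℝ × ℝ} (hu : DifferentiableAt ℝ u p) :
    dt u p = fderiv ℝ u p (1, 0) := (ModeDer_ht (t := p.1) (x := p.2) hu).deriv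

theorem ModeDer_cont {Φ : ℝ × ℝ → ℝ} {t c : ℝ} (v : ℝ × ℝ)
    (hΦ : ∀ x ∈ Icc 0 c, ContDiffAt ℝ 1 Φ (t, x)) :
    ContinuousOn (fun x => fderiv ℝ Φ (t, x) v) (Icc 0 c) := fun x hx =>
  ((((hΦ x hx).continuousAt_fderiv one_ne_zero).clm_apply continuousAt_const).comp
    (f := fun y : ℝ => (t, y)) (by fun_prop)).continuousWithinAt

theorem ModeDer_param {Φ : ℝ × ℝ → ℝ} {t0 c : ℝ} (hc : 0 ≤ c)
    (hΦ : ∀ x ∈ Icc 0 c, ContDiffAt ℝ 1 Φ (t0, x)) :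
    HasDerivAt (fun t => ∫ x in (0 : ℝ)..c, Φ (t, x))
      (∫ x in (0 : ℝ)..c, fderiv ℝ Φ (t0, x) (1, 0)) t0 := by
  have h1 : ∀ᶠ t in 𝓝 t0, ∀ x ∈ Icc 0 c, ContDiffAt ℝ 1 Φ (t, x) :=
    isCompact_Icc.eventually_forall_of_forall_eventually
      (P := fun t x => ContDiffAt ℝ 1 Φ (t, x)) fun x hx => (hΦ x hx).eventually (by simp)
  obtain ⟨ε, hε, hb⟩ := Metric.nhds_basis_closedBall.eventually_iff.1 h1
  have hK : IsCompact (Metric.closedBall t0 ε ×ˢ Icc 0 c) :=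
    (isCompact_closedBall t0 ε).prod isCompact_Icc
  have hco : ContinuousOn (fun p => fderiv ℝ Φ p (1, 0)) (Metric.closedBall t0 ε ×ˢ Icc 0 c) :=
    fun p hp => (((hb hp.1 p.2 hp.2).continuousAt_fderiv one_ne_zero).clm_apply
      continuousAt_const).continuousWithinAt
  obtain ⟨C, hC⟩ := hK.exists_bound_of_continuousOn hco
  have hsub : uIoc 0 c ⊆ Icc 0 c := by
    rw [uIoc_of_le hc]
    exact Ioc_subset_Icc_self
  have hcs : ∀ t, (∀ x ∈ Icc 0 c, ContDiffAt ℝ 1 Φ (t, x)) →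
      ContinuousOn (fun x => Φ (t, x)) (Icc 0 c) := fun t ht x hx =>
    ((ht x hx).continuousAt.comp (f := fun y : ℝ => (t, y)) (by fun_prop)).continuousWithinAt
  refine (intervalIntegral.hasDerivAt_integral_of_dominated_loc_of_deriv_le
    (F := fun t x => Φ (t, x)) (F' := fun t x => fderiv ℝ Φ (t, x) (1, 0)) (bound := fun _ => C)
    (Metric.closedBall_mem_nhds t0 hε) ?_ ?_ ?_ ?_ intervalIntegrable_const ?_).2
  · filter_upwards [h1] with t ht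
    exact ((hcs t ht).mono hsub).aestronglyMeasurable measurableSet_uIoc
  · exact (hcs t0 hΦ).intervalIntegrable_of_Icc hc
  · exact ((ModeDer_cont _ hΦ).mono hsub).aestronglyMeasurable measurableSet_uIoc
  · exact Eventually.of_forall fun x hx t ht => hC (t, x) ⟨ht, hsub hx⟩
  · exact Eventually.of_forall fun x hx t ht =>
      ModeDer_ht ((hb ht x (hsub hx)).differentiableAt one_ne_zero)

theorem ModeDer_c1 {ξ N Ψ : ℝ × ℝ → ℝ} {p : ℝ × ℝ} (v : ℝ × ℝ) (hξ : ContDiffAt ℝ 2 ξ p)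
    (hN : ContDiffAt ℝ 2 N p) (hΨ : ContDiff ℝ 1 Ψ) :
    ContDiffAt ℝ 1 (fun y => Ψ (ξ y, N y) * fderiv ℝ ξ y v) p :=
  (hΨ.contDiffAt.comp p ((hξ.of_le (by norm_num)).prodMk (hN.of_le (by norm_num)))).mul
    ((hξ.fderiv_right (by norm_num)).clm_apply contDiffAt_const)

theorem ModeDer_fd {ξ N Ψ : ℝ × ℝ → ℝ} {p : ℝ × ℝ} (v w : ℝ × ℝ) (hξ : ContDiffAt ℝ 2 ξ p)
    (hN : ContDiffAt ℝ 2 N p) (hΨ : ContDiff ℝ 1 Ψ) :
    fderiv ℝ (fun y => Ψ (ξ y, N y) * fderiv ℝ ξ y v) p w =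
      (fderiv ℝ ξ p w * fderiv ℝ Ψ (ξ p, N p) (1, 0) +
        fderiv ℝ N p w * fderiv ℝ Ψ (ξ p, N p) (0, 1)) * fderiv ℝ ξ p v +
      Ψ (ξ p, N p) * fderiv ℝ (fderiv ℝ ξ) p w v := by
  have d1 := (hξ.differentiableAt (by norm_num)).hasFDerivAt
  have d2 := (hN.differentiableAt (by norm_num)).hasFDerivAt
  have d3 := (hΨ.differentiable one_ne_zero (ξ p, N p)).hasFDerivAt
  have d4 : HasFDerivAt (fderiv ℝ ξ) (fderiv ℝ (fderiv ℝ ξ) p) p :=
    ((hξ.fderiv_right (m := 1) (by norm_num)).differentiableAt one_ne_zero).hasFDerivAt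
  have d5 := (d3.comp p (d1.prodMk d2)).mul (d4.clm_apply (hasFDerivAt_const v p))
  have e : ((fderiv ℝ ξ p w, fderiv ℝ N p w) : ℝ × ℝ) =
      fderiv ℝ ξ p w • ((1, 0) : ℝ × ℝ) + fderiv ℝ N p w • ((0, 1) : ℝ × ℝ) := by simp
  have d6 : HasFDerivAt (fun y => Ψ (ξ y, N y) * fderiv ℝ ξ y v) _ p := d5
  rw [d6.fderiv]
  simp only [add_apply, smul_apply,
    ContinuousLinearMap.comp_apply, ContinuousLinearMap.prod_apply, ContinuousLinearMap.flip_apply,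
    zero_apply, map_zero, Function.comp_apply, zero_add]
  rw [e, map_add, map_smul, map_smul]
  simp only [smul_eq_mul]
  ring

/-- derivative of an integral along a moving parametrisation -/
theorem mode_der {ξ N Ψ : ℝ × ℝ → ℝ} {t0 c : ℝ} (hc : 0 ≤ c)
    (hξ : ∀ x ∈ Icc 0 c, ContDiffAt ℝ 2 ξ (t0, x)) (hN : ∀ x ∈ Icc 0 c, ContDiffAt ℝ 2 N (t0, x))
    (hΨ : ContDiff ℝ 1 Ψ) (h0 : Ψ (ξ (t0, 0), N (t0, 0)) = 0) (h1 : Ψ (ξ (t0, c), N (t0, c)) = 0) :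
    HasDerivAt (fun t => ∫ x in (0 : ℝ)..c, Ψ (ξ (t, x), N (t, x)) * dx ξ (t, x))
      (∫ x in (0 : ℝ)..c, fderiv ℝ Ψ (ξ (t0, x), N (t0, x)) (0, 1) *
        (dt N (t0, x) * dx ξ (t0, x) - dx N (t0, x) * dt ξ (t0, x))) t0 := by
  have hev : ∀ x ∈ Icc 0 c, (fun y => Ψ (ξ y, N y) * dx ξ y) =ᶠ[𝓝 (t0, x)]
      fun y => Ψ (ξ y, N y) * fderiv ℝ ξ y (0, 1) := by
    intro x hx
    filter_upwards [(hξ x hx).eventually (by simp)] with y hy
    rw [ModeDer_dx (hy.differentiableAt (by norm_num))]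
  have h2 := ModeDer_param (Φ := fun y => Ψ (ξ y, N y) * dx ξ y) hc fun x hx =>
    (ModeDer_c1 (0, 1) (hξ x hx) (hN x hx) hΨ).congr_of_eventuallyEq (hev x hx)
  have hΓ : ∀ x ∈ Icc 0 c, ContDiffAt ℝ 1 (fun y => Ψ (ξ y, N y) * fderiv ℝ ξ y (1, 0)) (t0, x) :=
    fun x hx => ModeDer_c1 (1, 0) (hξ x hx) (hN x hx) hΨ
  have hi1 := (ModeDer_cont (0, 1) hΓ).intervalIntegrable_of_Icc (μ := volume) hc
  have hi2 := (ModeDer_cont (Φ := fun y => Ψ (ξ y, N y) * dx ξ y) (1, 0) fun x hx =>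
    (ModeDer_c1 (0, 1) (hξ x hx) (hN x hx) hΨ).congr_of_eventuallyEq
      (hev x hx)).intervalIntegrable_of_Icc (μ := volume) hc
  have h3 := intervalIntegral.integral_eq_sub_of_hasDerivAt
    (f := fun x => Ψ (ξ (t0, x), N (t0, x)) * fderiv ℝ ξ (t0, x) (1, 0))
    (fun x hx => ModeDer_hx (u := fun y => Ψ (ξ y, N y) * fderiv ℝ ξ y (1, 0))
      ((hΓ x (by rwa [uIcc_of_le hc] at hx)).differentiableAt one_ne_zero)) hi1
  rw [h0, h1, zero_mul, zero_mul, sub_zero] at h3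
  convert h2 using 1
  have h4 := intervalIntegral.integral_sub hi2 hi1
  rw [h3, sub_zero] at h4
  rw [← h4]
  refine intervalIntegral.integral_congr fun x hx => ?_
  rw [uIcc_of_le hc] at hx
  have s := (hξ x hx).isSymmSndFDerivAt (by simp) (1, 0) (0, 1)
  have dξ := (hξ x hx).differentiableAt (by norm_num)
  have dN := (hN x hx).differentiableAt (by norm_num)
  rw [(hev x hx).fderiv_eq, ModeDer_fd _ _ (hξ x hx) (hN x hx) hΨ,
    ModeDer_fd _ _ (hξ x hx) (hN x hx) hΨ, s, ModeDer_dx dξ, ModeDer_dx dN, ModeDer_dt dξ,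
    ModeDer_dt dN]
  ring

variable {q : ℕ} {e0 K T T' : ℝ} {S : Pre}

theorem ModeDer_z0 (hd : Dim q e0) : 0 < z0 q := by
  have := hd.hq
  unfold z0
  positivity

theorem ModeDer_e0 (hd : Dim q e0) : 0 < e0 ∧ e0 ≤ 1 := by
  have h1 := hd.hq
  have h2 := hd.lo
  have h3 := hd.hi
  constructor
  · by_contra h
    nlinarith
  · by_contra h
    nlinarith

theorem ModeDer_at {u : ℝ × ℝ → ℝ} (hu : ContDiffOn ℝ ∞ u (Ico 0 T' ×ˢ univ)) {t : ℝ}
    (ht : t ∈ Ioo 0 T') (x : ℝ) : ContDiffAt ℝ 2 u (t, x) :=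
  (hu.contDiffAt (prod_mem_nhds (Ico_mem_nhds ht.1 ht.2) univ_mem)).of_le
    (WithTop.coe_le_coe.2 (le_top : (2 : ℕ∞) ≤ ⊤))

theorem ModeDer_xi (hd : Dim q e0) (hS : IsSol q T' S) (hT : T' ≤ T) {t : ℝ} (ht : t ∈ Ioo 0 T')
    (x : ℝ) : ContDiffAt ℝ 2 (S.xi q T) (t, x) := by
  have hz := ModeDer_z0 hd
  have h0 : 0 < T - t := by linarith [ht.2]
  exact ((ModeDer_at (h_smooth hS) ht x).pow 2).div (by fun_prop)
    (show 4 * z0 q * (T - t) ≠ 0 by positivity)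

theorem ModeDer_NN (hd : Dim q e0) (hS : IsSol q T' S) (hT : T' ≤ T) {t : ℝ} (ht : t ∈ Ioo 0 T')
    (x : ℝ) : ContDiffAt ℝ 2 (S.NN q e0 K T) (t, x) := by
  have hz := ModeDer_z0 hd
  have h0 : 0 < T - t := by linarith [ht.2]
  have hh := ModeDer_at (h_smooth hS) ht x
  have hc : ContDiffAt ℝ 2 (fun p => cut K (S.h p)) (t, x) :=
    (Real.smoothTransition.contDiffAt (n := 2)).comp (t, x)
      (contDiffAt_const.sub (contDiffAt_const.mul (contDiffAt_const.mul (hh.pow 2))))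
  have hr : ContDiffAt ℝ 2 (fun p : ℝ × ℝ => (4 * z0 q * (T - p.1)) ^ (e0 / 2)) (t, x) :=
    ContDiffAt.rpow_const_of_ne (by fun_prop) (show 4 * z0 q * (T - t) ≠ 0 by positivity)
  exact ((hc.mul (ModeDer_at (Θ_smooth hS) ht x)).mul hr).div (by fun_prop)
    (show (T - t) ^ 3 ≠ 0 by positivity)

theorem ModeDer_xix (hS : IsSol q T' S) {t : ℝ} (ht : t ∈ Ioo 0 T') (x : ℝ) :
    S.xix q T (t, x) = dx (S.xi q T) (t, x) := by
  have hh := (ModeDer_at (h_smooth hS) ht x).differentiableAt (by norm_num)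
  have hl := (hS.posℓ t ⟨ht.1.le, ht.2⟩).ne'
  have h1 := ((ModeDer_hx hh).pow 2).div_const (4 * z0 q * (T - t))
  have h2 : dx (S.xi q T) (t, x) = _ := h1.deriv
  rw [h2, ← ModeDer_dx hh]
  simp only [Pre.xix, Pre.a, Pre.Ds]
  congr 1
  field_simp
  simp only [Nat.cast_ofNat, Nat.add_one_sub_one, pow_one]
  ring

theorem ModeDer_xi0 (t : ℝ) : S.xi q T (t, 0) = 0 := by
  simp [Pre.xi, Pre.h]

theorem ModeDer_N0 {t : ℝ} (hK : 0 < K) (hh : 1 / K ≤ S.h (t, Real.pi / 2)) :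
    S.NN q e0 K T (t, Real.pi / 2) = 0 := by
  have h1 : 1 ≤ K * S.h (t, Real.pi / 2) := by
    rwa [div_le_iff₀' hK] at hh
  have h2 : cut K (S.h (t, Real.pi / 2)) = 0 :=
    Real.smoothTransition.zero_of_nonpos (by nlinarith)
  simp [Pre.NN, h2]

theorem ModeDer_lag (α : ℝ) (j : Fin 4) : ContDiff ℝ 1 (lag α j) := by
  have : lag α j = ![fun _ => 1, fun ξ => 1 - ξ / α, fun ξ => 1 - 2 * ξ / α + ξ ^ 2 / (α * (α + 1)),
      fun ξ => 1 - 3 * ξ / α + 3 * ξ ^ 2 / (α * (α + 1)) - ξ ^ 3 / (α * (α + 1) * (α + 2))] j := by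
    fin_cases j <;> rfl
  rw [this]
  fin_cases j <;> simp only [Fin.zero_eta, Fin.mk_one, Fin.reduceFinMk, Matrix.cons_val] <;>
    fun_prop

theorem ModeDer_wt {γ : ℝ} (h : 1 ≤ γ) : ContDiff ℝ 1 fun y : ℝ => y ^ γ * Real.exp (-y) :=
  (Real.contDiff_rpow_const_of_le (n := 1) (by simpa using h)).mul (by fun_prop)

theorem cm_der (hd : Dim q e0) (hS : IsSol q T' S) (hT : T' ≤ T) {t : ℝ} (ht : t ∈ Ioo 0 T')
    (hK : 0 < K) (hh : 1 / K ≤ S.h (t, Real.pi / 2)) (j : Fin 4) :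
    HasDerivAt (S.cm q e0 K T j)
      ((∫ x in (0 : ℝ)..Real.pi / 2, lag (al q e0) j (S.xi q T (t, x)) *
        (S.xi q T (t, x) ^ (al q e0 - 1 + e0 / 2) * Real.exp (-S.xi q T (t, x))) *
        (dt (S.NN q e0 K T) (t, x) * dx (S.xi q T) (t, x) -
          dx (S.NN q e0 K T) (t, x) * dt (S.xi q T) (t, x))) /
        ip (al q e0) (lag (al q e0) j) (lag (al q e0) j)) t := by
  have he := ModeDer_e0 hd
  have hq := hd.hq
  have hγ : 1 ≤ al q e0 - 1 + e0 / 2 := by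
    unfold al
    linarith
  have hΨ : ContDiff ℝ 1 fun y : ℝ × ℝ => y.2 * lag (al q e0) j y.1 *
      (y.1 ^ (al q e0 - 1 + e0 / 2) * Real.exp (-y.1)) :=
    (contDiff_snd.mul ((ModeDer_lag _ j).comp contDiff_fst)).mul
      ((ModeDer_wt hγ).comp contDiff_fst)
  have h1 := (mode_der (c := Real.pi / 2) (by positivity) (fun x _ => ModeDer_xi hd hS hT ht x)
    (fun x _ => ModeDer_NN (K := K) hd hS hT ht x) hΨ
    (by simp [ModeDer_xi0, Real.zero_rpow (show al q e0 - 1 + e0 / 2 ≠ 0 by linarith)])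
    (by simp [ModeDer_N0 hK hh])).div_const (ip (al q e0) (lag (al q e0) j) (lag (al q e0) j))
  have h2 : ∀ y : ℝ × ℝ, fderiv ℝ (fun y : ℝ × ℝ => y.2 * lag (al q e0) j y.1 *
      (y.1 ^ (al q e0 - 1 + e0 / 2) * Real.exp (-y.1))) y (0, 1) =
      lag (al q e0) j y.1 * (y.1 ^ (al q e0 - 1 + e0 / 2) * Real.exp (-y.1)) := by
    intro y
    rw [← ModeDer_dx (hΨ.differentiable one_ne_zero y)]
    have := (((hasDerivAt_id y.2).mul_const (lag (al q e0) j y.1)).mul_const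
      (y.1 ^ (al q e0 - 1 + e0 / 2) * Real.exp (-y.1))).deriv
    rw [one_mul] at this
    exact this
  simp only [h2] at h1
  refine h1.congr_of_eventuallyEq ?_
  filter_upwards [Ioo_mem_nhds ht.1 ht.2] with s hs
  simp only [Pre.cm, ModeDer_xix hS hs]

theorem en_der (hd : Dim q e0) (hS : IsSol q T' S) (hT : T' ≤ T) {t : ℝ} (ht : t ∈ Ioo 0 T')
    (hK : 0 < K) (hh : 1 / K ≤ S.h (t, Real.pi / 2)) :
    HasDerivAt (S.en q e0 K T)
      (∫ x in (0 : ℝ)..Real.pi / 2, 2 * S.NN q e0 K T (t, x) *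
        (S.xi q T (t, x) ^ (al q e0 - 1 + e0) * Real.exp (-S.xi q T (t, x))) *
        (dt (S.NN q e0 K T) (t, x) * dx (S.xi q T) (t, x) -
          dx (S.NN q e0 K T) (t, x) * dt (S.xi q T) (t, x))) t := by
  have he := ModeDer_e0 hd
  have hq := hd.hq
  have hγ : 1 ≤ al q e0 - 1 + e0 := by
    unfold al
    linarith
  have hΨ : ContDiff ℝ 1 fun y : ℝ × ℝ => y.2 ^ 2 *
      (y.1 ^ (al q e0 - 1 + e0) * Real.exp (-y.1)) :=
    (contDiff_snd.pow 2).mul ((ModeDer_wt hγ).comp contDiff_fst)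
  have h1 := mode_der (c := Real.pi / 2) (by positivity) (fun x _ => ModeDer_xi hd hS hT ht x)
    (fun x _ => ModeDer_NN (K := K) hd hS hT ht x) hΨ
    (by simp [ModeDer_xi0, Real.zero_rpow (show al q e0 - 1 + e0 ≠ 0 by linarith)])
    (by simp [ModeDer_N0 hK hh])
  have h2 : ∀ y : ℝ × ℝ, fderiv ℝ (fun y : ℝ × ℝ => y.2 ^ 2 *
      (y.1 ^ (al q e0 - 1 + e0) * Real.exp (-y.1))) y (0, 1) =
      2 * y.2 * (y.1 ^ (al q e0 - 1 + e0) * Real.exp (-y.1)) := by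
    intro y
    rw [← ModeDer_dx (hΨ.differentiable one_ne_zero y)]
    have := ((hasDerivAt_pow 2 y.2).mul_const
      (y.1 ^ (al q e0 - 1 + e0) * Real.exp (-y.1))).deriv
    simp only [Nat.cast_ofNat, Nat.add_one_sub_one, pow_one] at this
    exact this
  simp only [h2] at h1
  refine h1.congr_of_eventuallyEq ?_
  filter_upwards [Ioo_mem_nhds ht.1 ht.2] with s hs
  simp only [Pre.en, ModeDer_xix hS hs]

end Vale.Agent.P244
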