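import Vale.Agent.P244C.LinkA
import Vale.Agent.P244C.ModeDer
import Vale.Agent.P244C.LagA

open Set MeasureTheory Filter Topology
open scoped ContDiff

noncomputable section

namespace Vale.Agent.P244

variable {q : ℕ} {e0 K T T' C t : ℝ} {S : Pre}

theorem lk_z0 (hd : Dim q e0) : 0 < z0 q := by
  have := hd.hq
  unfold z0
  have h1 : (0 : ℝ) < mm q := by linarith [show (0 : ℝ) < 10 ^ 8 by norm_num]
  positivity

theorem lk_c (hd : Dim q e0) (hT : T' ≤ T) {p : ℝ × ℝ} (hp : p ∈ Wd T') :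
    0 < 4 * z0 q * (T - p.1) := by
  have h1 := lk_z0 hd
  have h2 : 0 < T - p.1 := by have := hp.1.2; linarith
  positivity

theorem lk_xi (hd : Dim q e0) (hS : IsSol q T' S) (hT : T' ≤ T) {p : ℝ × ℝ} (hp : p ∈ Wd T') :
    0 < S.xi q T p := by
  have h1 := lk_c hd hT hp
  have h2 := h_pos hS hp
  unfold Pre.xi
  positivity

theorem link_NN (hd : Dim q e0) (hS : IsSol q T' S) (hT : T' ≤ T) {p : ℝ × ℝ} (hp : p ∈ Wd T') :
    S.xi q T p ^ (e0 / 2) * S.NN q e0 K T p = S.Vt e0 K T p := by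
  have h1 := lk_c hd hT hp
  have h2 := h_pos hS hp
  have h3 : S.xi q T p ^ (e0 / 2) * (4 * z0 q * (T - p.1)) ^ (e0 / 2) = S.mono e0 0 p := by
    rw [mono_rpow hS hp, Real.rpow_zero, mul_one,
      ← Real.mul_rpow (lk_xi hd hS hT hp).le h1.le]
    unfold Pre.xi
    rw [div_mul_cancel₀ _ h1.ne', ← Real.rpow_natCast, ← Real.rpow_mul h2.le]
    congr 1
    push_cast
    ring
  unfold Pre.NN Pre.Vt
  rw [← h3]
  ring

theorem lk_xix (hS : IsSol q T' S) {p : ℝ × ℝ} (hp : p ∈ Wd T') :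
    dx (S.xi q T) p = S.xix q T p := by
  have h1 := ((sm_h hS).xa hp).hasDerivAt
  have h2 : dx S.h p = S.ℓ p.1 * S.a p := dx_eq_Ds hS hp.1
  have h3 := (h1.pow 2).div_const (4 * z0 q * (T - p.1))
  have h4 : dx (S.xi q T) p = _ := h3.deriv
  rw [h4, h2]
  unfold Pre.xix
  simp only [Nat.cast_ofNat, Nat.add_one_sub_one, pow_one]
  ring

theorem lk_cut_smooth (K : ℝ) : ContDiff ℝ ∞ (cut K) := by
  unfold cut
  exact Real.smoothTransition.contDiff.comp (by fun_prop)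

theorem lk_cut_zero {K r : ℝ} (hK : 0 < K) (hr : 1 / K ≤ r) : cut K r = 0 := by
  unfold cut
  apply Real.smoothTransition.zero_of_nonpos
  have h1 : 1 ≤ K * r := by
    rw [div_le_iff₀ hK] at hr
    linarith
  nlinarith

theorem lk_caN (hd : Dim q e0) (hS : IsSol q T' S) (hT : T' ≤ T) {p : ℝ × ℝ} (hp : p ∈ Om T') :
    CA (S.NN q e0 K T) p := by
  have h1 := lk_c hd hT (om_sub_wd hp)
  have h2 : 0 < T - p.1 := by have := hp.1.2; linarith
  have a1 : ContDiffAt ℝ ∞ (fun p => cut K (S.h p)) p :=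
    (lk_cut_smooth K).contDiffAt.comp p ((sm_h hS).ca hp)
  have a2 : ContDiffAt ℝ ∞ S.Θ p := (sm_Θ hS).ca hp
  have a3 : ContDiffAt ℝ ∞ (fun p : ℝ × ℝ => (4 * z0 q * (T - p.1)) ^ (e0 / 2)) p :=
    ContDiffAt.rpow_const_of_ne (by fun_prop) h1.ne'
  have a4 : ContDiffAt ℝ ∞ (fun p : ℝ × ℝ => (T - p.1) ^ 3) p := by fun_prop
  exact ((a1.mul a2).mul a3).div a4 (by positivity)

theorem link_jac (hd : Dim q e0) (hS : IsSol q T' S) (hT : T' ≤ T) (ht : t ∈ Ioo 0 T')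
    (hK : 10 ≤ K) (hsl : Slice K S t) {x : ℝ} (hx : x ∈ Ioo 0 (Real.pi / 2)) :
    S.xi q T (t, x) ^ (e0 / 2) * (dt (S.NN q e0 K T) (t, x) * dx (S.xi q T) (t, x) -
        dx (S.NN q e0 K T) (t, x) * dt (S.xi q T) (t, x)) =
      S.Dτ q T (S.Vt e0 K T) (t, x) * S.xix q T (t, x) / (T - t) := by
  have hpi := Real.pi_pos
  have hp : ((t, x) : ℝ × ℝ) ∈ Om T' := ⟨ht, hx.1, by have := hx.2; linarith⟩
  have hw := om_sub_wd hp
  have hτ : 0 < T - t := by have := ht.2; linarith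
  have hℓ : 0 < S.ℓ t := hS.posℓ t hw.1
  have hK0 : 0 < K := by linarith
  have hxi := lk_xi hd hS hT hw
  have cN : CA (S.NN q e0 K T) (t, x) := lk_caN hd hS hT hp
  have cX : CA (S.xi q T) (t, x) := (sm_xi hd hS hT).ca hp
  have cG : CA (fun p => S.xi q T p ^ (e0 / 2)) (t, x) :=
    ContDiffAt.rpow_const_of_ne cX hxi.ne'
  have hg : HasDerivAt (fun y : ℝ => y ^ (e0 / 2)) (e0 / 2 * S.xi q T (t, x) ^ (e0 / 2 - 1))
      (S.xi q T (t, x)) := Real.hasDerivAt_rpow_const (Or.inl hxi.ne')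
  have hev : S.Vt e0 K T =ᶠ[𝓝 (t, x)] fun p => S.xi q T p ^ (e0 / 2) * S.NN q e0 K T p := by
    filter_upwards [isOpen_om.mem_nhds hp] with p hp'
    exact (link_NN hd hS hT (om_sub_wd hp')).symm
  have e1 : S.Dt (S.Vt e0 K T) (t, x) = S.xi q T (t, x) ^ (e0 / 2) * S.Dt (S.NN q e0 K T) (t, x) +
      S.NN q e0 K T (t, x) * (e0 / 2 * S.xi q T (t, x) ^ (e0 / 2 - 1) *
        S.Dt (S.xi q T) (t, x)) := by
    rw [Dt_congr hev, Dt_mul cG cN, Dt_comp cX hg]
  have e2 : S.Ds (S.Vt e0 K T) (t, x) = S.xi q T (t, x) ^ (e0 / 2) * S.Ds (S.NN q e0 K T) (t, x) +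
      S.NN q e0 K T (t, x) * (e0 / 2 * S.xi q T (t, x) ^ (e0 / 2 - 1) *
        S.Ds (S.xi q T) (t, x)) := by
    rw [Ds_congr_wd hw (fun p hp' => (link_NN hd hS hT hp').symm), Ds_mul cG.xa cN.xa,
      Ds_comp cX.xa hg]
  have e3 := lk_xix (T := T) hS hw
  unfold Pre.Dτ Pre.Dx
  rw [e1, e2, ← e3]
  by_cases h0 : dx (S.xi q T) (t, x) = 0
  · have hN : dx (S.NN q e0 K T) (t, x) = 0 := by
      obtain ⟨x1, hx1, -, ha, hh⟩ := hsl
      have ha0 : S.a (t, x) = 0 := by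
        rw [e3] at h0
        unfold Pre.xix at h0
        have h1 := lk_c hd hT hw
        have h2 := h_pos hS hw
        rcases div_eq_zero_iff.1 h0 with h | h
        · simpa [h2.ne', hℓ.ne'] using h
        · exact absurd h h1.ne'
      have hx2 : x1 < x := by
        by_contra hc
        have := ha x ⟨hx.1, not_lt.1 hc⟩
        rw [ha0] at this
        norm_num at this
      have hz : (fun y => S.NN q e0 K T (t, y)) =ᶠ[𝓝 x] fun _ => 0 := by
        filter_upwards [Ioo_mem_nhds hx2 hx.2] with y hy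
        have h5 := hh y ⟨hy.1, hy.2.le⟩
        have h6 : 1 / K ≤ S.h (t, y) := by
          have : 1 / K ≤ 2 / K := by gcongr; norm_num
          linarith
        unfold Pre.NN
        rw [lk_cut_zero hK0 h6]
        simp
      unfold dx
      rw [hz.deriv_eq]
      simp
    rw [h0, hN]
    simp
  · unfold Pre.Dt Pre.Ds
    simp only
    field_simp
    ring

theorem lk_congr {f g : ℝ → ℝ} (h : ∀ x ∈ Ioo 0 (Real.pi / 2), f x = g x) :
    ∫ x in (0 : ℝ)..Real.pi / 2, f x = ∫ x in (0 : ℝ)..Real.pi / 2, g x := by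
  have hpi : (0 : ℝ) ≤ Real.pi / 2 := by positivity
  rw [intervalIntegral.integral_of_le hpi, intervalIntegral.integral_of_le hpi,
    integral_Ioc_eq_integral_Ioo, integral_Ioc_eq_integral_Ioo]
  exact setIntegral_congr_fun measurableSet_Ioo h

theorem link (hd : Dim q e0) (hS : IsSol q T' S)
    (hT : T' ≤ T) (ht : t ∈ Ioo 0 T') (hK : 10 ≤ K) (hC : 0 ≤ C) (hsl : Slice K S t)
    (hb : ∀ x ∈ Ioo 0 (Real.pi / 2), S.h (t, x) ≤ 2 / K →
      |S.Vt e0 K T (t, x)| ≤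
          C * (T - t) ^ (-(1 / 8) : ℝ) * ((S.xi q T (t, x))⁻¹ + S.xi q T (t, x) ^ 3) ∧
        |S.xi q T (t, x) * S.Dx q T (S.Vt e0 K T) (t, x)| ≤
          C * (T - t) ^ (-(1 / 8) : ℝ) * ((S.xi q T (t, x))⁻¹ + S.xi q T (t, x) ^ 3) ∧
        |S.xi q T (t, x) ^ 2 * S.Dx q T (S.Dx q T (S.Vt e0 K T)) (t, x)| ≤
          C * (T - t) ^ (-(1 / 8) : ℝ) * ((S.xi q T (t, x))⁻¹ + S.xi q T (t, x) ^ 3) ∧
        |S.erf q e0 K T (t, x)| ≤
          C * (T - t) ^ (3 / 8 : ℝ) * ((S.xi q T (t, x))⁻¹ ^ 3 + S.xi q T (t, x) ^ 4)) :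
    ∃ v er : ℝ → ℝ, Link q e0 K T C S t v er := by
  obtain ⟨v, er, hprof, hval, hcv⟩ := linkA hd hS hT ht hK hC hsl hb
  have hpi := Real.pi_pos
  have hK0 : 0 < K := by linarith
  have hw : ∀ x ∈ Ioo 0 (Real.pi / 2), ((t, x) : ℝ × ℝ) ∈ Wd T' := fun x hx =>
    ⟨⟨ht.1.le, ht.2⟩, hx.1, by have := hx.2; linarith⟩
  have hh : 1 / K ≤ S.h (t, Real.pi / 2) := by
    obtain ⟨x1, hx1, -, -, hh⟩ := hsl
    have h5 := hh _ ⟨hx1.2, le_rfl⟩
    have : 1 / K ≤ 2 / K := by gcongr; norm_num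
    linarith
  have r1 : ∀ x ∈ Ioo 0 (Real.pi / 2), S.xi q T (t, x) ^ (al q e0 - 1 + e0 / 2) =
      S.xi q T (t, x) ^ (al q e0 - 1) * S.xi q T (t, x) ^ (e0 / 2) := fun x hx =>
    Real.rpow_add (lk_xi hd hS hT (hw x hx)) _ _
  have r2 : ∀ x ∈ Ioo 0 (Real.pi / 2), S.xi q T (t, x) ^ (al q e0 - 1 + e0) =
      S.xi q T (t, x) ^ (al q e0 - 1) * S.xi q T (t, x) ^ (e0 / 2) *
        S.xi q T (t, x) ^ (e0 / 2) := fun x hx => by
    rw [← Real.rpow_add (lk_xi hd hS hT (hw x hx)), ← Real.rpow_add (lk_xi hd hS hT (hw x hx))]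
    congr 1
    ring
  refine ⟨v, er, hprof, fun j => ?_, ?_, fun j => ?_, ?_, hval⟩
  · have h1 := hcv (fun y a _ => a * lag (al q e0) j y * wt (al q e0) y) (by simp)
    unfold Pre.cm co
    congr 1
    refine Eq.trans (lk_congr fun x hx => ?_) h1
    rw [r1 x hx, ← link_NN hd hS hT (hw x hx)]
    unfold wt
    ring
  · have h1 := hcv (fun y a _ => a * a * wt (al q e0) y) (by simp)
    unfold Pre.en
    refine Eq.trans (lk_congr fun x hx => ?_) h1
    rw [r2 x hx, ← link_NN hd hS hT (hw x hx)]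
    unfold wt
    ring
  · have h1 := hcv (fun y _ b => b * lag (al q e0) j y * wt (al q e0) y) (by simp)
    convert cm_der hd hS hT ht hK0 hh j using 1
    unfold co
    rw [div_right_comm]
    congr 1
    unfold ip
    rw [← h1, ← intervalIntegral.integral_div]
    refine lk_congr fun x hx => ?_
    have h2 := link_jac hd hS hT ht hK hsl hx
    rw [r1 x hx]
    unfold wt
    linear_combination (-(lag (al q e0) j (S.xi q T (t, x)) *
      (S.xi q T (t, x) ^ (al q e0 - 1) * Real.exp (-S.xi q T (t, x))))) * h2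
  · have h1 := hcv (fun y a b => a * b * wt (al q e0) y) (by simp)
    convert en_der hd hS hT ht hK0 hh using 1
    unfold ip
    rw [← h1, ← intervalIntegral.integral_const_mul, ← intervalIntegral.integral_div]
    refine lk_congr fun x hx => ?_
    have h2 := link_jac hd hS hT ht hK hsl hx
    rw [r2 x hx, ← link_NN hd hS hT (hw x hx)]
    unfold wt
    linear_combination (-(2 * S.xi q T (t, x) ^ (e0 / 2) * S.NN q e0 K T (t, x) *
      (S.xi q T (t, x) ^ (al q e0 - 1) * Real.exp (-S.xi q T (t, x))))) * h2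

end Vale.Agent.P244
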