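import Vale.Agent.P244C.LagW
import Vale.Agent.P244C.LagA

open Set MeasureTheory Filter Topology
open scoped ContDiff

noncomputable section

namespace Vale.Agent.P244

/-- pointwise smallness of the remainder by interpolation -/
theorem lagP (α C Λ : ℝ) (hα : 10 ≤ α) (hC : 0 ≤ C) : ∃ τ1 > (0 : ℝ),
    ∀ (τ : ℝ) (v er : ℝ → ℝ), 0 < τ → τ ≤ τ1 → Prof C τ v er → (∀ j, |co α j v| ≤ 2) →
      ip α (rem α v) (rem α v) ≤ τ ^ (1 / 2 : ℝ) →
      ∀ ξ ∈ Icc (1 / 4 : ℝ) Λ, |rem α v ξ| ≤ 1 / 10 := by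
  set K := C * (16 + (|Λ| + 1) ^ 2) + 8 * (2 + |Λ|) ^ 2 + 1 with hK
  have hΛ := abs_nonneg Λ
  have K1 : 1 ≤ K := le_add_of_nonneg_left (by positivity)
  set c := (1 / 4 : ℝ) ^ (α - 1) * Real.exp (-(|Λ| + 1)) with hc
  have c0 : 0 < c := by positivity
  refine ⟨min 1 ((c / (16000 * K)) ^ 8), by positivity, fun τ v er hτ h1 h hco hip x hx => ?_⟩
  by_contra hlt
  rw [not_le] at hlt
  have hv := h.cls'
  have hw := hv.rem hα
  obtain ⟨σ, hσ⟩ : ∃ σ, σ = τ ^ (1 / 8 : ℝ) := ⟨_, rfl⟩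
  have s0 : 0 < σ := by rw [hσ]; positivity
  have s8 : σ ^ 8 = τ := by
    rw [hσ, ← Real.rpow_natCast, ← Real.rpow_mul hτ.le]
    norm_num
  have s4 : τ ^ (1 / 2 : ℝ) = σ ^ 4 := by
    rw [hσ, ← Real.rpow_natCast, ← Real.rpow_mul hτ.le]
    norm_num
  have si : τ ^ (-(1 / 8) : ℝ) = σ⁻¹ := by rw [hσ, Real.rpow_neg hτ.le]
  have s1 : σ ≤ 1 := (pow_le_one_iff_of_nonneg s0.le (by norm_num)).1
    (s8.trans_le (h1.trans (min_le_left _ _)))
  have s2 : σ ≤ c / (16000 * K) := (pow_le_pow_iff_left₀ s0.le (by positivity) (by norm_num)).1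
    (s8.trans_le (h1.trans (min_le_right _ _)))
  have d0 : 0 < σ / (20 * K) := by positivity
  have d1 : σ / (20 * K) ≤ 1 := (div_le_one (by positivity)).2 (by linarith)
  have hI : ∀ ξ ∈ Icc x (x + σ / (20 * K)), 1 / 4 ≤ ξ ∧ ξ ≤ |Λ| + 1 := fun ξ hξ =>
    ⟨hx.1.trans hξ.1, by linarith [hξ.2, hx.2, le_abs_self Λ]⟩
  have hD : ∀ ξ ∈ Icc x (x + σ / (20 * K)), ‖deriv (rem α v) ξ‖ ≤ K / σ := fun ξ hξ => by
    obtain ⟨a1, a2⟩ := hI ξ hξ
    have a0 : 0 < ξ := by linarith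
    have a3 : ξ⁻¹ ≤ 4 := by rw [inv_le_comm₀ a0 (by norm_num)]; linarith
    have b1 : |deriv v ξ| ≤ C * σ⁻¹ * (16 + (|Λ| + 1) ^ 2) := by
      have b2 := h.b1 ξ a0
      rw [si, abs_mul, abs_of_pos a0] at b2
      refine le_of_mul_le_mul_left (b2.trans ?_) a0
      rw [mul_left_comm]
      refine mul_le_mul_of_nonneg_left ?_ (by positivity)
      have b3 : ξ ^ 2 ≤ (|Λ| + 1) ^ 2 := pow_le_pow_left₀ a0.le a2 2
      nlinarith [mul_le_mul_of_nonneg_left b3 a0.le]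
    have b2 : ∀ j, |co α j v * deriv (lag α j) ξ| ≤ 2 * (2 + |Λ|) ^ 2 := fun j => by
      rw [abs_mul]
      refine mul_le_mul (hco j) ((lag_abs hα j a0.le).2.1.trans ?_) (abs_nonneg _) zero_le_two
      have b3 : ξ / α ≤ ξ := div_le_self a0.le (by linarith)
      have b4 : (1 + ξ / α) ^ 2 ≤ (2 + |Λ|) ^ 2 := pow_le_pow_left₀ (by positivity) (by linarith) 2
      exact (mul_le_of_le_one_left (sq_nonneg _)
        ((div_le_one (by linarith)).2 (by linarith))).trans b4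
    have b3 := (Finset.abs_sum_le_sum_abs _ _).trans (Finset.sum_le_sum fun j (_ : j ∈ Finset.univ) => b2 j)
    simp only [Finset.sum_const, Finset.card_univ, Fintype.card_fin, nsmul_eq_mul,
      Nat.cast_ofNat] at b3
    have b4 : 1 ≤ σ⁻¹ := (one_le_inv₀ s0).2 s1
    rw [deriv_rem hα hv a0, Real.norm_eq_abs, div_eq_mul_inv, hK]
    refine (abs_sub _ _).trans ?_
    nlinarith [mul_le_mul_of_nonneg_left b4 (sq_nonneg (2 + |Λ|))]
  have hL : ∀ ξ ∈ Icc x (x + σ / (20 * K)), c / 400 ≤ rem α v ξ * rem α v ξ * wt α ξ := fun ξ hξ => by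
    obtain ⟨a1, a2⟩ := hI ξ hξ
    have b1 := (convex_Icc x (x + σ / (20 * K))).norm_image_sub_le_of_norm_deriv_le
      (fun y hy => (hw.hd (by linarith [(hI y hy).1])).differentiableAt) hD
      (left_mem_Icc.2 (by linarith)) hξ
    have b2 : K / σ * ‖ξ - x‖ ≤ 1 / 20 := by
      rw [Real.norm_of_nonneg (sub_nonneg.2 hξ.1)]
      refine (mul_le_mul_of_nonneg_left (sub_le_iff_le_add'.2 hξ.2) (by positivity)).trans_eq ?_
      field_simp
    have b3 : 1 / 20 ≤ |rem α v ξ| := by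
      have := abs_sub_abs_le_abs_sub (rem α v x) (rem α v ξ)
      rw [abs_sub_comm] at this
      rw [Real.norm_eq_abs] at b1
      linarith
    have b4 : c ≤ wt α ξ := mul_le_mul (Real.rpow_le_rpow (by norm_num) a1 (by linarith))
      (Real.exp_le_exp.2 (by linarith)) (by positivity) (by positivity)
    have b5 : 1 / 400 ≤ rem α v ξ * rem α v ξ := by
      rw [← abs_mul_abs_self]
      nlinarith
    nlinarith [mul_le_mul b5 b4 c0.le (mul_self_nonneg _)]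
  have hs : Icc x (x + σ / (20 * K)) ⊆ Ioi 0 := fun ξ hξ => by
    have := (hI ξ hξ).1
    exact lt_of_lt_of_le (by norm_num) this
  have i1 := hw.gw.int hα hw.gw
  have i2 : ∫ ξ in Icc x (x + σ / (20 * K)), rem α v ξ * rem α v ξ * wt α ξ
      ≤ ip α (rem α v) (rem α v) :=
    setIntegral_mono_set i1 ((ae_restrict_iff' measurableSet_Ioi).2 (Eventually.of_forall
      fun ξ h0 => mul_nonneg (mul_self_nonneg _) (wt_pos h0).le)) hs.eventuallyLE
  have i3 := setIntegral_ge_of_const_le_real measurableSet_Icc measure_Icc_lt_top.ne hL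
    (i1.mono_set hs)
  rw [Real.volume_real_Icc_of_le (by linarith), add_sub_cancel_left] at i3
  have i4 : c / 400 * (σ / (20 * K)) = σ * (2 * (c / (16000 * K))) := by
    field_simp
    norm_num
  have i5 : σ ^ 4 ≤ σ * σ := by
    rw [← pow_two]
    exact pow_le_pow_of_le_one s0.le s1 (by norm_num)
  nlinarith [mul_pos s0 s0]

end Vale.Agent.P244
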