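import Vale.Agent.P244C.Rules

open Set MeasureTheory Filter Topology
open scoped ContDiff

noncomputable section

namespace Vale.Agent.P244

variable {q : ℕ} {e0 K T T' : ℝ} {S : Pre}

theorem mc_e0_pos (hd : Dim q e0) : 0 < e0 := by
  have h1 := hd.hq
  have h2 := hd.lo
  by_contra h
  have h' : e0 ≤ 0 := not_lt.mp h
  have : mm q * e0 ≤ 0 := mul_nonpos_of_nonneg_of_nonpos (by linarith [show (0:ℝ) ≤ 10 ^ 8 by norm_num]) h'
  linarith

theorem mc_e0_le (hd : Dim q e0) : e0 ≤ 1 := by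
  have h1 := hd.hq
  have h2 := hd.hi
  have h0 := mc_e0_pos hd
  have h3 : (10 : ℝ) ^ 8 * e0 ≤ mm q * e0 := mul_le_mul_of_nonneg_right h1 h0.le
  have : (10 : ℝ) ^ 8 = 100000000 := by norm_num
  nlinarith

theorem mc_z0_pos (hd : Dim q e0) : 0 < z0 q := by
  have h1 := hd.hq
  have : (0 : ℝ) < mm q := lt_of_lt_of_le (by norm_num) h1
  unfold z0
  positivity

theorem mc_exp1 (hd : Dim q e0) : 0 ≤ al q e0 - 1 + e0 / 2 := by
  have h1 := hd.hq
  have h2 := mc_e0_le hd
  have h0 := mc_e0_pos hd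
  have : (10 : ℝ) ^ 8 = 100000000 := by norm_num
  unfold al
  linarith

theorem mc_exp2 (hd : Dim q e0) : 0 ≤ al q e0 - 1 + e0 := by
  have h0 := mc_e0_pos hd
  have := mc_exp1 hd
  linarith

theorem mc_lag_cont (α : ℝ) (j : Fin 4) : Continuous (lag α j) := by
  unfold lag
  fin_cases j
  · simpa using continuous_const
  · simp only [Fin.mk_one, Fin.isValue, Matrix.cons_val_one, Matrix.cons_val_zero]
    fun_prop
  · simp only [Fin.reduceFinMk, Matrix.cons_val]
    fun_prop
  · simp only [Fin.reduceFinMk, Matrix.cons_val]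
    fun_prop

theorem mc_cut_cont (K : ℝ) : Continuous (cut K) := by
  unfold cut
  exact Real.smoothTransition.continuous.comp (by fun_prop)

section general

variable {Y : Type*} [TopologicalSpace Y] {SS : Y → Pre} {t : Y → ℝ}

omit [TopologicalSpace Y] in
theorem mc_den (hd : Dim q e0) (hT : ∀ y, t y < T) (y : Y) : 0 < 4 * z0 q * (T - t y) := by
  have := mc_z0_pos hd
  have := sub_pos.mpr (hT y)
  positivity

theorem mc_xi (hd : Dim q e0) (ht : Continuous t) (hT : ∀ y, t y < T)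
    (hh : Continuous fun z : Y × ℝ => (SS z.1).h (t z.1, z.2)) :
    Continuous fun z : Y × ℝ => (SS z.1).xi q T (t z.1, z.2) := by
  unfold Pre.xi
  exact (hh.pow 2).div (by fun_prop) fun z => (mc_den hd hT z.1).ne'

theorem mc_xix (hd : Dim q e0) (ht : Continuous t) (hT : ∀ y, t y < T)
    (hl : Continuous fun y : Y => (SS y).ℓ (t y))
    (hh : Continuous fun z : Y × ℝ => (SS z.1).h (t z.1, z.2))
    (ha : Continuous fun z : Y × ℝ => (SS z.1).a (t z.1, z.2)) :
    Continuous fun z : Y × ℝ => (SS z.1).xix q T (t z.1, z.2) := by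
  unfold Pre.xix
  exact (((continuous_const.mul hh).mul ha).mul (hl.comp continuous_fst)).div (by fun_prop)
    fun z => (mc_den hd hT z.1).ne'

theorem mc_NN (hd : Dim q e0) (ht : Continuous t) (hT : ∀ y, t y < T)
    (hh : Continuous fun z : Y × ℝ => (SS z.1).h (t z.1, z.2))
    (hF : Continuous fun z : Y × ℝ => (SS z.1).F (t z.1, z.2)) :
    Continuous fun z : Y × ℝ => (SS z.1).NN q e0 K T (t z.1, z.2) := by
  unfold Pre.NN Pre.Θ Pre.f
  have h1 : Continuous fun z : Y × ℝ => (4 * z0 q * (T - t z.1)) ^ (e0 / 2) :=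
    Continuous.rpow_const (by fun_prop) fun z => Or.inl (mc_den hd hT z.1).ne'
  refine ((((mc_cut_cont K).comp hh).mul
    (((Real.continuous_exp.comp hF).pow 2).sub (hh.pow 2))).mul h1).div (by fun_prop) fun z => ?_
  exact pow_ne_zero 3 (sub_pos.mpr (hT z.1)).ne'

theorem mc_cm (hd : Dim q e0) (ht : Continuous t) (hT : ∀ y, t y < T)
    (hl : Continuous fun y : Y => (SS y).ℓ (t y))
    (hh : Continuous fun z : Y × ℝ => (SS z.1).h (t z.1, z.2))
    (ha : Continuous fun z : Y × ℝ => (SS z.1).a (t z.1, z.2))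
    (hF : Continuous fun z : Y × ℝ => (SS z.1).F (t z.1, z.2)) (j : Fin 4) :
    Continuous fun y : Y => (SS y).cm q e0 K T j (t y) := by
  unfold Pre.cm
  refine Continuous.div_const ?_ _
  have hx := mc_xi (SS := SS) hd ht hT hh
  refine intervalIntegral.continuous_parametric_intervalIntegral_of_continuous'
    (f := fun y x => (SS y).NN q e0 K T (t y, x) * lag (al q e0) j ((SS y).xi q T (t y, x)) *
      ((SS y).xi q T (t y, x) ^ (al q e0 - 1 + e0 / 2) * Real.exp (-(SS y).xi q T (t y, x))) *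
        (SS y).xix q T (t y, x)) ?_ _ _
  exact (((mc_NN hd ht hT hh hF).mul ((mc_lag_cont _ j).comp hx)).mul
    ((hx.rpow_const fun z => Or.inr (mc_exp1 hd)).mul (Real.continuous_exp.comp hx.neg))).mul
    (mc_xix hd ht hT hl hh ha)

theorem mc_en (hd : Dim q e0) (ht : Continuous t) (hT : ∀ y, t y < T)
    (hl : Continuous fun y : Y => (SS y).ℓ (t y))
    (hh : Continuous fun z : Y × ℝ => (SS z.1).h (t z.1, z.2))
    (ha : Continuous fun z : Y × ℝ => (SS z.1).a (t z.1, z.2))
    (hF : Continuous fun z : Y × ℝ => (SS z.1).F (t z.1, z.2)) :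
    Continuous fun y : Y => (SS y).en q e0 K T (t y) := by
  unfold Pre.en
  have hx := mc_xi (SS := SS) hd ht hT hh
  refine intervalIntegral.continuous_parametric_intervalIntegral_of_continuous'
    (f := fun y x => (SS y).NN q e0 K T (t y, x) ^ 2 *
      ((SS y).xi q T (t y, x) ^ (al q e0 - 1 + e0) * Real.exp (-(SS y).xi q T (t y, x))) *
        (SS y).xix q T (t y, x)) ?_ _ _
  exact (((mc_NN hd ht hT hh hF).pow 2).mul
    ((hx.rpow_const fun z => Or.inr (mc_exp2 hd)).mul (Real.continuous_exp.comp hx.neg))).mul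
    (mc_xix hd ht hT hl hh ha)

end general

theorem mc_lift {u : ℝ × ℝ → ℝ} (hu : ContinuousOn u (Ico 0 T' ×ˢ univ)) :
    Continuous fun z : Ico (0 : ℝ) T' × ℝ => u (z.1.1, z.2) :=
  hu.comp_continuous (by fun_prop) fun z => ⟨z.1.2, mem_univ _⟩

theorem cm_cont (hd : Dim q e0) (hS : IsSol q T' S) (hT : T' ≤ T) (j : Fin 4) :
    ContinuousOn (S.cm q e0 K T j) (Ico 0 T') := by
  rw [continuousOn_iff_continuous_domRestrict]
  exact mc_cm (Y := Ico (0 : ℝ) T') (SS := fun _ => S) (t := fun y => y.1) hd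
    continuous_subtype_val (fun y => lt_of_lt_of_le y.2.2 hT)
    (continuousOn_iff_continuous_domRestrict.mp hS.smℓ.continuousOn)
    (mc_lift (h_smooth hS).continuousOn) (mc_lift (a_smooth hS).continuousOn)
    (mc_lift hS.smF.continuousOn) j

theorem en_cont (hd : Dim q e0) (hS : IsSol q T' S) (hT : T' ≤ T) :
    ContinuousOn (S.en q e0 K T) (Ico 0 T') := by
  rw [continuousOn_iff_continuous_domRestrict]
  exact mc_en (Y := Ico (0 : ℝ) T') (SS := fun _ => S) (t := fun y => y.1) hd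
    continuous_subtype_val (fun y => lt_of_lt_of_le y.2.2 hT)
    (continuousOn_iff_continuous_domRestrict.mp hS.smℓ.continuousOn)
    (mc_lift (h_smooth hS).continuousOn) (mc_lift (a_smooth hS).continuousOn)
    (mc_lift hS.smF.continuousOn)

/-- joint continuity in the parameter and in time -/
theorem gam_cont (hd : Dim q e0) {Tm : Par → ℝ} {S : Par → Pre} (hT : ∀ d, Tm d ≤ T)
    (hc : ContinuousOn (fun y : Par × ℝ × ℝ =>
        ((S y.1).ℓ y.2.1, (S y.1).h y.2, (S y.1).a y.2, (S y.1).F y.2))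
      {y | 0 ≤ y.2.1 ∧ y.2.1 < Tm y.1}) :
    ContinuousOn (fun y : Par × ℝ => (S y.1).gam q e0 K T y.2) {y | 0 ≤ y.2 ∧ y.2 < Tm y.1} := by
  rw [continuousOn_iff_continuous_domRestrict]
  set A : Set (Par × ℝ) := {y | 0 ≤ y.2 ∧ y.2 < Tm y.1} with hA
  have hc' : Continuous fun z : A × ℝ =>
      ((S z.1.1.1).ℓ z.1.1.2, (S z.1.1.1).h (z.1.1.2, z.2), (S z.1.1.1).a (z.1.1.2, z.2),
        (S z.1.1.1).F (z.1.1.2, z.2)) :=
    hc.comp_continuous (f := fun z : A × ℝ => (z.1.1.1, z.1.1.2, z.2)) (by fun_prop)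
      fun z => z.1.2
  have hlt : ∀ y : A, y.1.2 < T := fun y => lt_of_lt_of_le y.2.2 (hT _)
  have hl : Continuous fun y : A => (S y.1.1).ℓ y.1.2 :=
    hc'.fst.comp (f := fun y : A => (y, (0 : ℝ))) (by fun_prop)
  have key : ∀ j : Fin 4, Continuous fun y : A => (S y.1.1).cm q e0 K T j y.1.2 := fun j =>
    mc_cm (Y := A) (SS := fun y => S y.1.1) (t := fun y => y.1.2) hd (by fun_prop) hlt hl
      hc'.snd.fst hc'.snd.snd.fst hc'.snd.snd.snd j
  show Continuous fun y : A => (S y.1.1).gam q e0 K T y.1.2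
  unfold Pre.gam
  refine (PiLp.continuous_toLp 2 _).comp (continuous_pi fun j => ?_)
  refine (key j.castSucc).div (Continuous.rpow_const (by fun_prop) fun y => Or.inr (by norm_num))
    fun y => ?_
  exact (Real.rpow_pos_of_pos (sub_pos.mpr (hlt y)) _).ne'

end Vale.Agent.P244
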