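import Vale.Agent.P244C.Defs

open Set MeasureTheory Filter Topology
open scoped ContDiff

noncomputable section

namespace Vale.Agent.P244

theorem Ode_anti {u : ℝ → ℝ} {t1 : ℝ} (hc : ContinuousOn u (Icc 0 t1))
    (hd : ∀ t ∈ Ioo 0 t1, ∃ D, HasDerivAt u D t ∧ D ≤ 0) : ∀ t ∈ Icc 0 t1, u t ≤ u 0 := by
  intro t ht
  have h := antitoneOn_of_deriv_nonpos (convex_Icc 0 t1) hc
    (fun s hs => by
      rw [interior_Icc] at hs
      obtain ⟨D, hD, -⟩ := hd s hs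
      exact hD.differentiableAt.differentiableWithinAt)
    (fun s hs => by
      rw [interior_Icc] at hs
      obtain ⟨D, hD, hD'⟩ := hd s hs
      rwa [hD.deriv])
  exact h ⟨le_rfl, ht.1.trans ht.2⟩ ht ht.1

theorem Ode_pow {T t : ℝ} (h : t < T) (a : ℝ) :
    HasDerivAt (fun s => (T - s) ^ a) (-(a * (T - t) ^ a / (T - t))) t := by
  have h0 : 0 < T - t := sub_pos.2 h
  have h1 := ((hasDerivAt_id' t).const_sub T).rpow_const (p := a) (Or.inl h0.ne')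
  convert h1 using 1
  rw [Real.rpow_sub_one h0.ne']
  ring

theorem Ode_cont {T t1 : ℝ} (h1 : t1 < T) (a : ℝ) :
    ContinuousOn (fun s => (T - s) ^ a) (Icc 0 t1) := fun s hs =>
  (Ode_pow (hs.2.trans_lt h1) a).continuousAt.continuousWithinAt

theorem Ode_up {c : ℝ → ℝ} {T t1 C : ℝ} (h0 : 0 ≤ t1) (h1 : t1 < T) (hC : 0 ≤ C)
    (hc : ContinuousOn c (Icc 0 t1))
    (hd : ∀ t ∈ Ioc 0 t1, ∃ D, HasDerivAt c (D / (T - t)) t ∧ D ≤ C * (T - t) ^ (3 / 8 : ℝ)) :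
    ∀ t ∈ Icc 0 t1, c t - c 0 ≤ 3 * C * T ^ (3 / 8 : ℝ) := by
  intro t ht
  have h := Ode_anti (u := fun s => c s + 8 / 3 * C * (T - s) ^ (3 / 8 : ℝ))
    (hc.add (continuousOn_const.mul (Ode_cont h1 _))) (fun s hs => ?_) t ht
  · have h2 : 0 ≤ C * (T - t) ^ (3 / 8 : ℝ) :=
      mul_nonneg hC (Real.rpow_nonneg (by linarith [ht.2]) _)
    have h3 : 0 ≤ C * T ^ (3 / 8 : ℝ) := mul_nonneg hC (Real.rpow_nonneg (by linarith) _)
    simp only [sub_zero] at h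
    linarith
  · obtain ⟨D, hD, hD'⟩ := hd s ⟨hs.1, hs.2.le⟩
    have hs' : s < T := hs.2.trans h1
    refine ⟨_, hD.add ((Ode_pow hs' (3 / 8)).const_mul (8 / 3 * C)), ?_⟩
    have h2 : D / (T - s) + 8 / 3 * C * -(3 / 8 * (T - s) ^ (3 / 8 : ℝ) / (T - s)) =
        (D - C * (T - s) ^ (3 / 8 : ℝ)) / (T - s) := by ring
    rw [h2]
    exact div_nonpos_of_nonpos_of_nonneg (by linarith) (by linarith)

/-- the last mode stays close to its initial value -/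
theorem ode_c3 {c : ℝ → ℝ} {T t1 C : ℝ} (h0 : 0 ≤ t1) (h1 : t1 < T) (hC : 0 ≤ C)
    (hc : ContinuousOn c (Icc 0 t1))
    (hd : ∀ t ∈ Ioc 0 t1, ∃ D, HasDerivAt c (D / (T - t)) t ∧ |D| ≤ C * (T - t) ^ (3 / 8 : ℝ)) :
    ∀ t ∈ Icc 0 t1, |c t - c 0| ≤ 3 * C * T ^ (3 / 8 : ℝ) := by
  intro t ht
  have ha := Ode_up h0 h1 hC hc (fun s hs => by
    obtain ⟨D, hD, hD'⟩ := hd s hs
    exact ⟨D, hD, (le_abs_self D).trans hD'⟩) t ht
  have hb := Ode_up (c := fun s => -c s) h0 h1 hC hc.neg (fun s hs => by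
    obtain ⟨D, hD, hD'⟩ := hd s hs
    exact ⟨-D, by rw [neg_div]; exact hD.neg, (neg_le_abs D).trans hD'⟩) t ht
  rw [abs_le]
  constructor <;> linarith

/-- the remainder decays -/
theorem ode_om {w : ℝ → ℝ} {T t1 C : ℝ} (h0 : 0 ≤ t1) (h1 : t1 < T) (hC : 0 ≤ C)
    (hc : ContinuousOn w (Icc 0 t1)) (hi : w 0 ≤ 4 * C * T ^ (3 / 4 : ℝ))
    (hd : ∀ t ∈ Ioc 0 t1, ∃ D, HasDerivAt w (D / (T - t)) t ∧
      D ≤ -w t + C * (T - t) ^ (3 / 4 : ℝ)) :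
    ∀ t ∈ Icc 0 t1, w t ≤ 4 * C * (T - t) ^ (3 / 4 : ℝ) := by
  intro t ht
  have hT : 0 < T := h0.trans_lt h1
  have h := Ode_anti (u := fun s => (w s - 4 * C * (T - s) ^ (3 / 4 : ℝ)) / (T - s))
    ((hc.sub (continuousOn_const.mul (Ode_cont h1 _))).div (by fun_prop)
      fun s hs => by linarith [hs.2]) (fun s hs => ?_) t ht
  · have h2 : 0 < T - t := by linarith [ht.2]
    simp only [sub_zero] at h
    have h3 : (w 0 - 4 * C * T ^ (3 / 4 : ℝ)) / T ≤ 0 :=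
      div_nonpos_of_nonpos_of_nonneg (by linarith) hT.le
    have h4 := h.trans h3
    rw [div_le_iff₀ h2] at h4
    linarith
  · obtain ⟨D, hD, hD'⟩ := hd s ⟨hs.1, hs.2.le⟩
    have hs' : s < T := hs.2.trans h1
    have h2 : 0 < T - s := sub_pos.2 hs'
    refine ⟨_, (hD.sub ((Ode_pow hs' (3 / 4)).const_mul (4 * C))).div
      ((hasDerivAt_id' s).const_sub T) h2.ne', ?_⟩
    refine div_nonpos_of_nonpos_of_nonneg ?_ (sq_nonneg _)
    have h3 : (D / (T - s) - 4 * C * -(3 / 4 * (T - s) ^ (3 / 4 : ℝ) / (T - s))) * (T - s) =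
        D + 3 * C * (T - s) ^ (3 / 4 : ℝ) := by
      field_simp
      ring
    simp only [Pi.sub_apply]
    rw [h3]
    linarith

/-- the unstable modes expand -/
theorem ode_exp (C : ℝ) : ∃ τ1 > (0 : ℝ), ∀ (c : Fin 3 → ℝ → ℝ) (D : Fin 3 → ℝ) (T t : ℝ),
    t < T → T - t ≤ τ1 → (∀ j, HasDerivAt (c j) (D j / (T - t)) t) →
    (∀ j : Fin 3, |D j - (3 - (j : ℝ)) * c j t| ≤ C * (T - t) ^ (3 / 8 : ℝ)) →
    1 / 2 ≤ ‖(WithLp.toLp 2 fun j => c j t / (T - t) ^ (1 / 4 : ℝ) : Par)‖ →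
    ∃ D' > (0 : ℝ), HasDerivAt
      (fun s => ‖(WithLp.toLp 2 fun j => c j s / (T - s) ^ (1 / 4 : ℝ) : Par)‖ ^ 2) D' t := by
  have hC : 0 < 4 * (|C| + 1) := by positivity
  refine ⟨(4 * (|C| + 1))⁻¹ ^ 8, by positivity, fun c D T t ht hτ hd hD hn => ?_⟩
  have h0 : 0 < T - t := sub_pos.2 ht
  have hq : 0 < (T - t) ^ (1 / 4 : ℝ) := Real.rpow_pos_of_pos h0 _
  have h8 : (T - t) ^ (1 / 8 : ℝ) ≤ (4 * (|C| + 1))⁻¹ := by
    have h := Real.rpow_le_rpow h0.le hτ (show (0 : ℝ) ≤ 1 / 8 by norm_num)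
    rwa [← Real.rpow_natCast, ← Real.rpow_mul (by positivity), show ((8 : ℕ) : ℝ) * (1 / 8) = 1 by
      norm_num, Real.rpow_one] at h
  have h38 : (T - t) ^ (3 / 8 : ℝ) = (T - t) ^ (1 / 8 : ℝ) * (T - t) ^ (1 / 4 : ℝ) := by
    rw [← Real.rpow_add h0]
    norm_num
  have hCe : C * (T - t) ^ (1 / 8 : ℝ) ≤ 1 / 4 := by
    have h1 : 0 ≤ (T - t) ^ (1 / 8 : ℝ) := Real.rpow_nonneg h0.le _
    have h2 : C * (T - t) ^ (1 / 8 : ℝ) ≤ (|C| + 1) * (4 * (|C| + 1))⁻¹ :=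
      mul_le_mul (by linarith [le_abs_self C]) h8 h1 (by positivity)
    refine h2.trans (le_of_eq ?_)
    field_simp
  set g : Fin 3 → ℝ := fun j => c j t / (T - t) ^ (1 / 4 : ℝ) with hg
  set e : Fin 3 → ℝ := fun j => (D j - (3 - (j : ℝ)) * c j t) / (T - t) ^ (1 / 4 : ℝ) with he
  have he' : ∀ j, e j ^ 2 ≤ (1 / 4) ^ 2 := by
    intro j
    refine sq_le_sq' ?_ ?_
    · rw [he, le_div_iff₀ hq]
      have := (abs_le.1 (hD j)).1
      rw [h38] at this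
      nlinarith
    · rw [he, div_le_iff₀ hq]
      have := (abs_le.1 (hD j)).2
      rw [h38] at this
      nlinarith
  have hγ : ∀ j, HasDerivAt (fun s => c j s / (T - s) ^ (1 / 4 : ℝ))
      ((e j + (3 - (j : ℝ) + 1 / 4) * g j) / (T - t)) t := by
    intro j
    refine ((hd j).fun_div (Ode_pow ht (1 / 4)) hq.ne').congr_deriv ?_
    simp only [he, hg]
    field_simp
    ring
  have hs : HasDerivAt (fun s => ∑ j : Fin 3, (c j s / (T - s) ^ (1 / 4 : ℝ)) ^ 2)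
      (∑ j : Fin 3, 2 * g j * ((e j + (3 - (j : ℝ) + 1 / 4) * g j) / (T - t))) t := by
    refine HasDerivAt.fun_sum fun j _ => ?_
    refine ((hγ j).fun_pow 2).congr_deriv ?_
    simp [hg]
  refine ⟨∑ j : Fin 3, 2 * g j * ((e j + (3 - (j : ℝ) + 1 / 4) * g j) / (T - t)), ?_, ?_⟩
  · have h1 : (1 / 2 : ℝ) ^ 2 ≤ ∑ j : Fin 3, g j ^ 2 := by
      have h2 := pow_le_pow_left₀ (by norm_num) hn 2
      rwa [EuclideanSpace.real_norm_sq_eq] at h2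
    have h2 : ∑ j : Fin 3, 2 * g j * ((e j + (3 - (j : ℝ) + 1 / 4) * g j) / (T - t)) =
        (∑ j : Fin 3, 2 * g j * (e j + (3 - (j : ℝ) + 1 / 4) * g j)) / (T - t) := by
      rw [Finset.sum_div]
      exact Finset.sum_congr rfl fun j _ => by ring
    rw [h2]
    refine div_pos ?_ h0
    rw [Fin.sum_univ_three] at h1 ⊢
    simp only [Fin.val_zero, Fin.val_one, Fin.val_two, Nat.cast_zero, Nat.cast_one, Nat.cast_ofNat]
    nlinarith [he' 0, he' 1, he' 2, sq_nonneg (g 0 + e 0), sq_nonneg (g 1 + e 1),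
      sq_nonneg (g 2 + e 2), sq_nonneg (g 0), sq_nonneg (g 1), sq_nonneg (g 2)]
  · convert hs using 2 with s
    rw [EuclideanSpace.real_norm_sq_eq]

end Vale.Agent.P244
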