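import Vale.Agent.P244C.LagD
import Vale.Agent.P244C.LagP
import Vale.Agent.P244C.Ode
import Vale.Agent.P244C.ModeCont
import Vale.Agent.P244C.Bas

open Set MeasureTheory Filter Topology
open scoped ContDiff

noncomputable section

namespace Vale.Agent.P244

theorem Para_small {a ε : ℝ} (ha : 0 < a) (hε : 0 < ε) :
    ∃ τ > (0 : ℝ), ∀ T : ℝ, 0 ≤ T → T ≤ τ → T ^ a ≤ ε := by
  refine ⟨ε ^ a⁻¹, Real.rpow_pos_of_pos hε _, fun T h0 h1 => ?_⟩
  calc T ^ a ≤ (ε ^ a⁻¹) ^ a := Real.rpow_le_rpow h0 h1 ha.le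
    _ = ε := Real.rpow_inv_rpow hε.le ha.ne'

theorem Para_small' (A : ℝ) {a ε : ℝ} (ha : 0 < a) (hε : 0 < ε) :
    ∃ τ > (0 : ℝ), ∀ T : ℝ, 0 ≤ T → T ≤ τ → A * T ^ a ≤ ε := by
  have hA : 0 < |A| + 1 := by positivity
  obtain ⟨τ, hτ, h⟩ := Para_small ha (div_pos hε hA)
  refine ⟨τ, hτ, fun T h0 h1 => ?_⟩
  have h2 := h T h0 h1
  have h3 : 0 ≤ T ^ a := Real.rpow_nonneg h0 a
  rw [le_div_iff₀ hA] at h2
  nlinarith [le_abs_self A]

theorem Para_al {q : ℕ} {e0 : ℝ} (hd : Dim q e0) : 100 ≤ al q e0 := by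
  have := hd.al_lo
  have := hd.hq
  linarith

/-- bounds for the modes and for the remainder -/
theorem Para_modes {q : ℕ} {e0 : ℝ} (hd : Dim q e0) (K C Cm : ℝ) (hC : 0 ≤ C) : ∃ τ1 > (0 : ℝ),
    ∀ (Ci T T' t1 : ℝ) (δ : Fin 3 → ℝ) (S : Pre), T ≤ τ1 → Hyp q e0 Ci K T T' t1 S →
      IniM q e0 K T Cm δ S → (∀ t ∈ Ioc 0 t1, ∃ v er, Link q e0 K T C S t v er) →
      ∀ t ∈ Icc 0 t1, |S.cm q e0 K T 3 t - 1| ≤ 1 / 10 ∧
        S.om q e0 K T t ≤ (T - t) ^ (1 / 2 : ℝ) := by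
  have hα : 10 ≤ al q e0 := by linarith [Para_al hd]
  obtain ⟨C', hC', hD⟩ := lagD (al q e0) C hα hC
  obtain ⟨τa, hτa, ha⟩ := Para_small' (3 * C') (a := 3 / 8) (ε := 1 / 20) (by norm_num)
    (by norm_num)
  obtain ⟨τb, hτb, hb⟩ := Para_small' Cm (a := 1) (ε := 1 / 20) (by norm_num) (by norm_num)
  obtain ⟨τc, hτc, hc⟩ := Para_small' (4 * (C' + |Cm|)) (a := 1 / 4) (ε := 1) (by norm_num)
    (by norm_num)
  refine ⟨min τa (min τb τc), by positivity, ?_⟩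
  intro Ci T T' t1 δ S hT H hI hL t ht
  have hTa : T ≤ τa := hT.trans (min_le_left _ _)
  have hTb : T ≤ τb := hT.trans ((min_le_right _ _).trans (min_le_left _ _))
  have hTc : T ≤ τc := hT.trans ((min_le_right _ _).trans (min_le_right _ _))
  have ht1 : t1 < T := H.ht1.trans_le H.hT'
  have hsub : Icc 0 t1 ⊆ Ico 0 T' := fun s hs => ⟨hs.1, hs.2.trans_lt H.ht1⟩
  have hcm : ∀ j, ContinuousOn (S.cm q e0 K T j) (Icc 0 t1) := fun j =>
    (cm_cont hd H.sol H.hT' j).mono hsub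
  constructor
  · have h1 := ode_c3 H.ht0 ht1 hC' (hcm 3) (fun s hs => by
      obtain ⟨v, er, L⟩ := hL s hs
      refine ⟨_, L.dcm 3, ?_⟩
      have h := (hD (T - s) v er (by linarith [hs.2]) L.prof).1 3
      have e : (((3 : Fin 4) : ℕ) : ℝ) = 3 := by
        have : ((3 : Fin 4) : ℕ) = 3 := rfl
        rw [this]; norm_num
      rw [e, sub_self, zero_mul, sub_zero] at h
      exact h) t ht
    have h2 := hI.c3
    have h3 := ha T H.hT.le hTa
    have h4 := hb T H.hT.le hTb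
    rw [Real.rpow_one] at h4
    have := abs_sub_le (S.cm q e0 K T 3 t) (S.cm q e0 K T 3 0) 1
    linarith
  · have hC2 : 0 ≤ C' + |Cm| := by positivity
    have hT1 : T ≤ 1 := by linarith [H.T_le]
    have hom : ContinuousOn (S.om q e0 K T) (Icc 0 t1) :=
      ((en_cont hd H.sol H.hT').mono hsub).sub
        (continuousOn_finset_sum _ fun j _ => continuousOn_const.mul ((hcm j).pow 2))
    have hi : S.om q e0 K T 0 ≤ 4 * (C' + |Cm|) * T ^ (3 / 4 : ℝ) := by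
      have h1 : T ^ 2 ≤ T ^ (3 / 4 : ℝ) := by
        rw [← Real.rpow_natCast]
        exact Real.rpow_le_rpow_of_exponent_ge H.hT hT1 (by norm_num)
      have h2 : 0 ≤ T ^ (3 / 4 : ℝ) := Real.rpow_nonneg H.hT.le _
      have h3 : Cm * T ^ 2 ≤ |Cm| * T ^ 2 :=
        mul_le_mul_of_nonneg_right (le_abs_self _) (sq_nonneg _)
      have h4 : |Cm| * T ^ 2 ≤ |Cm| * T ^ (3 / 4 : ℝ) :=
        mul_le_mul_of_nonneg_left h1 (abs_nonneg _)
      have h5 := hI.om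
      nlinarith [mul_nonneg hC' h2, mul_nonneg (abs_nonneg Cm) h2]
    have h1 := ode_om H.ht0 ht1 hC2 hom hi (fun s hs => by
      obtain ⟨v, er, L⟩ := hL s hs
      have hτ : 0 < T - s := by linarith [hs.2]
      have h := (hD (T - s) v er hτ L.prof).2
      refine ⟨2 * ip (al q e0) v (fun ξ => LL (al q e0) v ξ + 3 * v ξ + er ξ) -
          2 * ∑ j, ip (al q e0) (lag (al q e0) j) (lag (al q e0) j) * co (al q e0) j v *
            co (al q e0) j (fun ξ => LL (al q e0) v ξ + 3 * v ξ + er ξ), ?_, ?_⟩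
      · have hs' : HasDerivAt (fun t => ∑ j, ip (al q e0) (lag (al q e0) j) (lag (al q e0) j) *
            S.cm q e0 K T j t ^ 2) _ s :=
          HasDerivAt.fun_sum fun j _ => ((L.dcm j).fun_pow 2).const_mul _
        refine (L.den.fun_sub hs').congr_deriv ?_
        simp only [L.cm, Fin.sum_univ_four]
        field_simp
        ring
      · have e : S.om q e0 K T s = ip (al q e0) (rem (al q e0) v) (rem (al q e0) v) := by
          rw [rem_nrm hα L.prof.cls, Pre.om, L.en]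
          simp only [L.cm]
        rw [e]
        have h2 : 0 ≤ (T - s) ^ (3 / 4 : ℝ) := Real.rpow_nonneg hτ.le _
        nlinarith [mul_nonneg (abs_nonneg Cm) h2]) t ht
    have hτ : 0 < T - t := by linarith [ht.2]
    have h2 := hc (T - t) hτ.le (by linarith [ht.1])
    have h3 : (T - t) ^ (3 / 4 : ℝ) = (T - t) ^ (1 / 4 : ℝ) * (T - t) ^ (1 / 2 : ℝ) := by
      rw [← Real.rpow_add hτ]; norm_num
    have h4 : 0 ≤ (T - t) ^ (1 / 2 : ℝ) := Real.rpow_nonneg hτ.le _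
    rw [h3, ← mul_assoc] at h1
    nlinarith [mul_le_mul_of_nonneg_right h2 h4]

theorem Para_lag {m α ξ : ℝ} (hα : 10 ≤ α) (hm : 0.49 * m ≤ α) (h0 : 0 ≤ ξ) (h1 : ξ ≤ 4 * m)
    (j : Fin 4) : |lag α j ξ| ≤ 800 := by
  have h := (lag_abs hα j h0).1
  have hp : 0 < α := by linarith
  have h2 : ξ / α ≤ 8.2 := by rw [div_le_iff₀ hp]; linarith
  have h3 : (1 + ξ / α) ^ 3 ≤ (9.2 : ℝ) ^ 3 :=
    pow_le_pow_left₀ (by positivity) (by linarith) 3
  have h4 : (9.2 : ℝ) ^ 3 ≤ 800 := by norm_num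
  linarith

theorem Para_val {α ξ ε : ℝ} {v : ℝ → ℝ} (hr : |rem α v ξ| ≤ 1 / 10)
    (hl : ∀ j, |lag α j ξ| ≤ 800) (hc : ∀ j : Fin 3, |co α j.castSucc v| ≤ ε)
    (hε : ε ≤ 1 / 10000) (h3 : |co α 3 v - 1| ≤ 1 / 10) :
    |v ξ| ≤ 10000 ∧ (0.98 ≤ lag α 3 ξ → 1 / 2 ≤ v ξ) := by
  have e : v ξ = rem α v ξ + (co α 0 v * lag α 0 ξ + co α 1 v * lag α 1 ξ +
      co α 2 v * lag α 2 ξ + co α 3 v * lag α 3 ξ) := by
    rw [rem, Fin.sum_univ_four]; ring
  have hb : ∀ j : Fin 3, |co α j.castSucc v * lag α j.castSucc ξ| ≤ 0.08 := by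
    intro j
    rw [abs_mul]
    calc _ ≤ 1 / 10000 * 800 :=
        mul_le_mul ((hc j).trans hε) (hl _) (abs_nonneg _) (by norm_num)
      _ = 0.08 := by norm_num
  have b0 : |co α 0 v * lag α 0 ξ| ≤ 0.08 := hb 0
  have b1 : |co α 1 v * lag α 1 ξ| ≤ 0.08 := hb 1
  have b2 : |co α 2 v * lag α 2 ξ| ≤ 0.08 := hb 2
  obtain ⟨c1, c2⟩ := abs_le.1 h3
  have b3 : |co α 3 v * lag α 3 ξ| ≤ 1600 := by
    rw [abs_mul]
    calc _ ≤ 2 * 800 :=
        mul_le_mul (abs_le.2 ⟨by linarith, by linarith⟩) (hl _) (abs_nonneg _) (by norm_num)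
      _ = 1600 := by norm_num
  rw [abs_le] at b0 b1 b2 b3 hr
  refine ⟨abs_le.2 ⟨by linarith [b0.1, b1.1, b2.1, b3.1, hr.1],
    by linarith [b0.2, b1.2, b2.2, b3.2, hr.2]⟩, fun h => ?_⟩
  have : 0.9 * 0.98 ≤ co α 3 v * lag α 3 ξ :=
    mul_le_mul (by linarith) h (by norm_num) (by linarith)
  linarith [b0.1, b1.1, b2.1, hr.1]

theorem Para_x0 {z τ r : ℝ} (hz0 : 0.99 ≤ z) (hz1 : z < 1) (hτ : 0 < τ) (h : τ ≤ r) :
    1 / 4 ≤ r / (4 * z * τ) := by
  rw [le_div_iff₀ (by positivity)]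
  nlinarith

theorem Para_x1 {z τ r m : ℝ} (hz0 : 0.99 ≤ z) (hm : 0 < m) (hτ : 0 < τ) (h : r ≤ 14 * m * τ) :
    r / (4 * z * τ) ≤ 4 * m := by
  rw [div_le_iff₀ (by positivity)]
  have : 0 < m * τ := by positivity
  nlinarith

theorem Para_x2 {z τ : ℝ} (hz0 : 0.99 ≤ z) (hτ : 0 < τ) : τ / (4 * z * τ) ≤ 1 / 3 := by
  rw [div_le_iff₀ (by positivity)]
  nlinarith

theorem Para_k {K h m τ : ℝ} (hK : 0 < K) (h2 : h ^ 2 ≤ 14 * m * τ)
    (h3 : K ^ 2 * (14 * m) * τ ≤ 1 / 2) : K ^ 2 * h ^ 2 ≤ 1 / 2 ∧ h ≤ 1 / K := by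
  have k1 : K ^ 2 * h ^ 2 ≤ 1 / 2 := by
    nlinarith [mul_le_mul_of_nonneg_left h2 (sq_nonneg K)]
  refine ⟨k1, ?_⟩
  rw [le_div_iff₀ hK]
  nlinarith [sq_nonneg (h * K - 1)]

theorem para (q : ℕ) (e0 K C Cm : ℝ) (hC : 0 ≤ C) : ∃ τ1 > (0 : ℝ),
    ∀ (Ci T T' t1 : ℝ) (δ : Fin 3 → ℝ) (S : Pre), T ≤ τ1 → Hyp q e0 Ci K T T' t1 S →
      IniM q e0 K T Cm δ S → (∀ t ∈ Ioc 0 t1, ∃ v er, Link q e0 K T C S t v er) →
      (∀ t ∈ Icc 0 t1, ‖S.gam q e0 K T t‖ ≤ 2) →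
      (∀ p ∈ Rg t1, 0 < p.1 → Pz q e0 T S p) ∧
        (0 < t1 → 1 / 2 ≤ ‖S.gam q e0 K T t1‖ →
          ∃ D > (0 : ℝ), HasDerivAt (fun t => ‖S.gam q e0 K T t‖ ^ 2) D t1) := by
  by_cases hd : Dim q e0
  swap
  · exact ⟨1, one_pos, fun Ci T T' t1 δ S _ H => absurd H.dim hd⟩
  have hα100 := Para_al hd
  have hα : 10 ≤ al q e0 := by linarith
  obtain ⟨C', hC', hD⟩ := lagD (al q e0) C hα hC
  obtain ⟨τa, hτa, ha⟩ := Para_modes hd K C Cm hC
  obtain ⟨τb, hτb, hb⟩ := lagP (al q e0) C (4 * mm q) hα hC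
  obtain ⟨τc, hτc, hc⟩ := ode_exp C'
  obtain ⟨τd, hτd, hd'⟩ := Para_small' 2 (a := 1 / 4) (ε := 1 / 10000) (by norm_num) (by norm_num)
  obtain ⟨τe, hτe, he⟩ := Para_small' (K ^ 2 * (14 * mm q)) (a := 1) (ε := 1 / 2) (by norm_num)
    (by norm_num)
  refine ⟨min (min τa τb) (min τc (min τd τe)), by positivity, ?_⟩
  intro Ci T T' t1 δ S hT H hI hL hg
  have hTa : T ≤ τa := hT.trans ((min_le_left _ _).trans (min_le_left _ _))
  have hTb : T ≤ τb := hT.trans ((min_le_left _ _).trans (min_le_right _ _))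
  have hTc : T ≤ τc := hT.trans ((min_le_right _ _).trans (min_le_left _ _))
  have hTd : T ≤ τd :=
    hT.trans ((min_le_right _ _).trans ((min_le_right _ _).trans (min_le_left _ _)))
  have hTe : T ≤ τe :=
    hT.trans ((min_le_right _ _).trans ((min_le_right _ _).trans (min_le_right _ _)))
  have ht1 : t1 < T := H.ht1.trans_le H.hT'
  have hm : 1 ≤ mm q := by linarith only [hd.hq]
  have hm0 : 0 < mm q := by linarith only [hm]
  constructor
  · rintro ⟨t, x⟩ hp ht0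
    have ht : t ∈ Icc 0 t1 := hp.1
    have hx : x ∈ Ioo 0 Real.pi := hp.2
    have hτ : 0 < T - t := by linarith [ht.2]
    have hτT : T - t ≤ T := by linarith [ht.1]
    obtain ⟨v, er, L⟩ := hL t ⟨ht0, ht.2⟩
    obtain ⟨m3, mo⟩ := ha Ci T T' t1 δ S hTa H hI hL t ht
    have hq : 0 < (T - t) ^ (1 / 4 : ℝ) := Real.rpow_pos_of_pos hτ _
    have hj : ∀ j : Fin 3, |co (al q e0) j.castSucc v| ≤ 2 * (T - t) ^ (1 / 4 : ℝ) := by
      intro j
      have h1 := (PiLp.norm_apply_le (S.gam q e0 K T t) j).trans (hg t ht)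
      have h2 : S.gam q e0 K T t j = S.cm q e0 K T j.castSucc t / (T - t) ^ (1 / 4 : ℝ) := rfl
      rwa [h2, Real.norm_eq_abs, abs_div, abs_of_pos hq, div_le_iff₀ hq, L.cm] at h1
    have hε := hd' (T - t) hτ.le (hτT.trans hTd)
    rw [L.cm] at m3
    have hall : ∀ j, |co (al q e0) j v| ≤ 2 := by
      intro j
      refine Fin.lastCases ?_ (fun i => by linarith [hj i]) j
      obtain ⟨c1, c2⟩ := abs_le.1 m3
      exact (abs_le.2 ⟨by linarith, by linarith⟩ : |co (al q e0) 3 v| ≤ 2)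
    have eo : S.om q e0 K T t = ip (al q e0) (rem (al q e0) v) (rem (al q e0) v) := by
      rw [rem_nrm hα L.prof.cls, Pre.om, L.en]
      simp only [L.cm]
    rw [eo] at mo
    have hrem := hb (T - t) v er hτ (hτT.trans hTb) L.prof hall mo
    have hz0 := hd.z0_lo
    have hz1 := hd.z0_hi
    have hden : 0 < 4 * z0 q * (T - t) := by positivity
    have hE : 0 < S.mono (-e0) 0 (t, x) := Real.exp_pos _
    have key : T - t ≤ S.h (t, x) ^ 2 → S.h (t, x) ^ 2 ≤ 14 * mm q * (T - t) →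
        S.Θ (t, x) = v (S.xi q T (t, x)) * ((T - t) ^ 3 * S.mono (-e0) 0 (t, x)) ∧
        |v (S.xi q T (t, x))| ≤ 10000 ∧
        (0.98 ≤ lag (al q e0) 3 (S.xi q T (t, x)) → 1 / 2 ≤ v (S.xi q T (t, x))) := by
      intro h1 h2
      have x0 : 1 / 4 ≤ S.xi q T (t, x) := Para_x0 hz0 hz1 hτ h1
      have x1 : S.xi q T (t, x) ≤ 4 * mm q := Para_x1 hz0 hm0 hτ h2
      have hK : 0 < K := by linarith only [H.hK]
      have h3 := he (T - t) hτ.le (hτT.trans hTe)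
      rw [Real.rpow_one] at h3
      obtain ⟨k1, k2⟩ := Para_k hK h2 h3
      have k3 : cut K (S.h (t, x)) = 1 := Real.smoothTransition.one_of_one_le (by linarith only [k1])
      refine ⟨?_, Para_val (hrem _ ⟨x0, x1⟩)
        (Para_lag hα hd.al_lo (by linarith only [x0]) x1) hj hε m3⟩
      have k4 : S.mono e0 0 (t, x) * S.mono (-e0) 0 (t, x) = 1 := by
        rw [Pre.mono, Pre.mono, ← Real.exp_add]
        simp
      rw [L.val x hx k2, Pre.Vt, k3]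
      have h4 : (T - t) ^ 3 ≠ 0 := by positivity
      calc S.Θ (t, x) = S.Θ (t, x) * (S.mono e0 0 (t, x) * S.mono (-e0) 0 (t, x)) := by
            rw [k4, mul_one]
        _ = _ := by field_simp
    have hp3 : 0 < (T - t) ^ 3 * S.mono (-e0) 0 (t, x) := by positivity
    constructor
    · intro h1 h2
      obtain ⟨e, b, -⟩ := key h1 h2
      rw [e, abs_mul, abs_of_pos hp3, mul_assoc]
      exact mul_le_mul_of_nonneg_right b hp3.le
    · intro h1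
      have h1' : S.h (t, x) ^ 2 = T - t := h1
      obtain ⟨e, -, b⟩ := key h1'.ge (by rw [h1']; nlinarith only [hm, hτ])
      have x0 : 0 ≤ S.xi q T (t, x) := div_nonneg (sq_nonneg _) hden.le
      have x1 : S.xi q T (t, x) ≤ 1 / 3 := by
        rw [Pre.xi, h1']
        exact Para_x2 hz0 hτ
      have b' := b (lag_three_lo hα100 x0 x1)
      show (T - t) ^ 3 * S.mono (-e0) 0 (t, x) ≤ 2 * S.Θ (t, x)
      rw [e]
      nlinarith only [b', hp3]
  · intro h0 h1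
    obtain ⟨v, er, L⟩ := hL t1 ⟨h0, le_rfl⟩
    have hτ : 0 < T - t1 := by linarith
    exact hc (fun j => S.cm q e0 K T j.castSucc)
      (fun j => co (al q e0) j.castSucc (fun ξ => LL (al q e0) v ξ + 3 * v ξ + er ξ)) T t1 ht1
      (by linarith) (fun j => L.dcm _) (fun j => by
        have h := (hD (T - t1) v er hτ L.prof).1 j.castSucc
        rw [Fin.val_castSucc, ← L.cm] at h
        exact h) h1

end Vale.Agent.P244
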