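import Vale.Agent.P244C.ScalA

open Set MeasureTheory Filter Topology
open scoped ContDiff

noncomputable section

namespace Vale.Agent.P244

theorem Scal_σ {q : ℕ} {S : Pre} {p : ℝ × ℝ} {W : ℝ} (hq : 100 ≤ mm q) (h1 : |S.σ' q p| ≤ W)
    (h2 : |S.kt q p| ≤ W) : |S.σ q p| ≤ 1.01 * W := by
  have e : S.σ q p = S.σ' q p + S.kt q p / (mm q + 2) := by unfold Pre.σ'; ring
  have a : |S.kt q p / (mm q + 2)| ≤ W / 100 := by
    rw [abs_div, abs_of_pos (show 0 < mm q + 2 by linarith)]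
    exact div_le_div₀ ((abs_nonneg _).trans h2) h2 (by norm_num) (by linarith)
  rw [e]
  exact (abs_add_le _ _).trans (by linarith)

theorem Scal_sm {q : ℕ} {T' : ℝ} {S : Pre} (hS : IsSol q T' S) (e0 K2 T : ℝ) :
    Sm T' fun p => S.W2 e0 T p + S.W4 K2 T p :=
  ((((sm_const _).mul ((((sm_const T).sub sm_fst).div_const T).pow 5)).div ((sm_f hS).pow 4)
    fun p _ => (pow_pos (f_pos S p) 4).ne').add
    (((sm_const K2).mul ((sm_const 1).add (sm_fst.div_const T))).div ((sm_φ hS).pow 2)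
      fun p _ => (pow_pos (φ_pos S p) 2).ne'))

theorem scal_bd (q : ℕ) (e0 Ci K1 : ℝ) (hK1 : 1 ≤ K1) : ∃ K2 : ℝ, 10 ≤ K2 ∧ ∀ K : ℝ,
    ∃ τ1 > (0 : ℝ), ∀ (T T' t1 : ℝ) (S : Pre), T ≤ τ1 → Hyp q e0 Ci K T T' t1 S →
      (∀ p ∈ Rg t1, |S.σ' q p| ≤ S.WW e0 K1 T p ∧ |S.kt q p| ≤ S.WW e0 K1 T p) →
      ∀ p ∈ Rg t1, |S.R q p| ≤ S.W2 e0 T p + S.W4 K2 T p := by
  obtain ⟨K2, k1, k2, k3⟩ : ∃ K2 : ℝ, 10 ≤ K2 ∧ K1 ^ 2 ≤ K2 ∧ Ci ≤ K2 :=
    ⟨max 10 (max (K1 ^ 2) Ci), le_max_left _ _, le_max_of_le_right (le_max_left _ _),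
      le_max_of_le_right (le_max_right _ _)⟩
  refine ⟨K2, k1, fun K => ?_⟩
  obtain ⟨τ1, t0, bar⟩ := scal_bar q K K1 K2
  refine ⟨τ1, t0, fun T T' t1 S hT H hW => ?_⟩
  have hq : 100 ≤ mm q := le_trans (by norm_num) H.dim.hq
  have hq0 : 0 < mm q := by linarith
  have T0 := H.hT
  have sU := Scal_sm H.sol e0 K2 T
  have sR := sm_R H.sol
  obtain ⟨C, C1, hC⟩ := reg_bd' H.sol H.ht0 H.ht1
  have U0 : ∀ p ∈ Rg t1, 0 ≤ S.W2 e0 T p + S.W4 K2 T p := fun p hp => by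
    have a1 := (H.bas p hp).τ0
    have a2 : 0 ≤ p.1 := hp.1.1
    have a3 := f_pos S p
    have a4 := φ_pos S p
    have a5 : 0 ≤ K2 := by linarith
    unfold Pre.W2 Pre.W4 lam2
    positivity
  have ini : ∀ x ∈ Ioo 0 Real.pi, |S.R q (0, x)| ≤ S.W2 e0 T (0, x) + S.W4 K2 T (0, x) :=
    fun x hx => (H.ini x hx).cR.trans (by
      have a4 := φ_pos S (0, x)
      simp only [Pre.W2, Pre.W4, sub_zero, div_self T0.ne', one_pow, mul_one, zero_div, add_zero]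
      gcongr)
  have br := fun p (hp : p ∈ Rg t1) (h0 : 0 < p.1) => bar e0 T T' S p H.dim H.hK hK1 k1 k2 T0 hT
    H.sol (rg_om H.ht1 hp h0) (H.bas p hp) (H.nr p hp)
  have rhs : ∀ p ∈ Rg t1, ∀ c Q D : ℝ, 0 ≤ c → 0 < Q →
      c * Q ≤ (c + mm q / 4 / S.h p ^ 2) * Q + (c + mm q / 4 / S.h p) * |D| := fun p hp c Q D a b => by
    have := (H.bas p hp).hpos
    have a1 : 0 ≤ mm q / 4 / S.h p ^ 2 * Q := by positivity
    have a2 : 0 ≤ (c + mm q / 4 / S.h p) * |D| := by positivity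
    linarith
  have m1 := mp1 H.sol hq H.ht0 H.ht1 _ (sR.sub sU)
    ⟨C, fun p hp => by linarith [U0 p hp, le_abs_self (S.R q p), (hC p hp).2.2.2.1]⟩
    (fun x hx => sub_nonpos.2 ((le_abs_self _).trans (ini x hx))) C fun p hp h0 hQ => by
      have o := rg_om H.ht1 hp h0
      refine le_trans ?_ (rhs p hp C _ _ (by linarith) hQ)
      rw [box_sub H.sol o (sR.ca o) (sU.ca o)]
      have b1 := (box_R_bounds H.sol hq0 o).2
      have b2 := br p hp h0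
      have u0 := U0 p hp
      have r0 : 0 ≤ S.R q p := by linarith
      have w1 := sq_le_sq' (abs_le.1 (hW p hp).2).1 (abs_le.1 (hW p hp).2).2
      have w2 := abs_le.1 (Scal_σ hq (hW p hp).1 (hW p hp).2)
      have w3 := sq_le_sq' w2.1 w2.2
      have r1 : 2 * S.R q p / (mm q + 4) ≤ C := by
        rw [div_le_iff₀ (by linarith)]
        nlinarith [le_abs_self (S.R q p), (hC p hp).2.2.2.1]
      have r2 := mul_le_mul_of_nonneg_right r1 hQ.le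
      rw [abs_of_nonneg r0] at b2
      have e : 2 * S.R q p ^ 2 / (mm q + 4) = 2 * S.R q p / (mm q + 4) * S.R q p := by ring
      nlinarith [sq_nonneg (S.WW e0 K1 T p)]
  have m2 := mp1 H.sol hq H.ht0 H.ht1 _ (sR.neg.sub sU)
    ⟨C, fun p hp => by linarith [U0 p hp, neg_le_abs (S.R q p), (hC p hp).2.2.2.1]⟩
    (fun x hx => sub_nonpos.2 ((neg_le_abs _).trans (ini x hx))) 0 fun p hp h0 hQ => by
      have o := rg_om H.ht1 hp h0
      refine le_trans ?_ (rhs p hp 0 _ _ le_rfl hQ)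
      rw [box_sub H.sol o (sR.neg.ca o) (sU.ca o), box_neg]
      have b1 := (box_R_bounds H.sol hq0 o).1
      have b2 := br p hp h0
      have b3 : 0 ≤ 2 * |S.R q p| / (mm q + 4) * (S.W2 e0 T p + S.W4 K2 T p) :=
        mul_nonneg (by positivity) (U0 p hp)
      nlinarith [sq_nonneg (S.WW e0 K1 T p)]
  exact fun p hp => abs_le.2 ⟨by linarith [m2 p hp], by linarith [m1 p hp]⟩

/-- improvement of the curvature assumptions -/
theorem b2_imp (K1 : ℝ) (hK1 : 1 ≤ K1) : ∃ τ1 > (0 : ℝ),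
    ∀ (q : ℕ) (e0 M K K2 T : ℝ) (S : Pre) (p : ℝ × ℝ), Dim q e0 → 0 < T → T ≤ τ1 → 0 ≤ p.1 →
      10 ≤ K2 → 10 * (K1 + K2) ≤ K → Bas q e0 K T S p → Cv q e0 M K1 K2 T S p →
      S.f p ^ 2 * |S.σ q p| ≤ 1 / 2 * (10000 + K * S.f p) ∧
      S.f p ^ 2 * |S.kt q p| ≤ 1 / 2 * (10000 + K * S.f p) ∧
      S.f p ^ 2 * |S.R q p| ≤ 1 / 2 * (10000 + K * S.f p) := by
  refine ⟨1 / (1000 * K1), by positivity, fun q e0 M K K2 T S p hD T0 hT t0 k2 hK B c => ?_⟩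
  rw [le_div_iff₀ (by positivity)] at hT
  have τ0 := B.τ0
  have τT := B.τT
  have φ0 := B.φpos
  have f0 := B.fpos
  have f1 := B.f1
  have hf := B.fφ
  have T1 : T ≤ 1 / 2 := by nlinarith
  have tT : 1 + p.1 / T ≤ 2 := by
    have : p.1 / T ≤ 1 := (div_le_one T0).2 (by linarith)
    linarith
  have τφ : T - p.1 ≤ S.φ p := by
    refine le_of_pow_le_pow_left₀ (n := 8) (by norm_num) φ0.le ?_
    have a1 : (T - p.1) ^ 5 ≤ (1 / 2) ^ 5 := pow_le_pow_left₀ τ0.le (by linarith) 5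
    have a2 := mul_le_mul_of_nonneg_left a1 (pow_pos τ0 3).le
    have a3 := B.low
    rw [hf] at a3
    nlinarith [pow_pos τ0 3]
  have φ1 : S.φ p ≤ 1.03 := le_of_pow_le_pow_left₀ (n := 4) (by norm_num) (by norm_num)
    (by rw [← hf]; exact f1.trans (by norm_num))
  have w1 : S.f p ^ 2 * S.W1 K1 T p ≤ 1 := by
    have e : S.f p ^ 2 * S.W1 K1 T p = 1000 * K1 * (T - p.1) * ((T - p.1) / S.φ p) := by
      rw [hf, Pre.W1]; field_simp
    have a1 : (T - p.1) / S.φ p ≤ 1 := (div_le_one φ0).2 τφ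
    rw [e]
    calc _ ≤ 1000 * K1 * T * 1 := by gcongr
      _ ≤ 1 := by linarith
  have w3 : S.f p ^ 2 * S.W3 K1 T p ≤ 3 * K1 * S.f p := by
    have e : S.f p ^ 2 * S.W3 K1 T p = (1 + p.1 / T) * S.φ p ^ 11 * K1 * S.f p := by
      rw [hf, Pre.W3]; ring
    rw [e]
    calc _ ≤ 2 * 1.03 ^ 11 * K1 * S.f p := by gcongr
      _ ≤ _ := by gcongr; norm_num
  have w4 : S.f p ^ 2 * S.W4 K2 T p ≤ 3 * K2 * S.f p := by
    have e : S.f p ^ 2 * S.W4 K2 T p = (1 + p.1 / T) * S.φ p ^ 2 * K2 * S.f p := by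
      rw [hf, Pre.W4]; field_simp
    rw [e]
    calc _ ≤ 2 * 1.03 ^ 2 * K2 * S.f p := by gcongr
      _ ≤ _ := by gcongr; norm_num
  have w2 := B.W2f
  have ww : S.f p ^ 2 * S.WW e0 K1 T p ≤ 2001 + 3 * K1 * S.f p := by
    rw [Pre.WW, mul_add, mul_add]; linarith
  have a1 := mul_le_mul_of_nonneg_left
    (Scal_σ (le_trans (by norm_num) hD.hq) c.cσ c.ck) (sq_nonneg (S.f p))
  have a2 := mul_le_mul_of_nonneg_left c.ck (sq_nonneg (S.f p))
  have a3 := mul_le_mul_of_nonneg_left c.cR (sq_nonneg (S.f p))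
  have a4 := mul_le_mul_of_nonneg_right hK f0.le
  have a5 : 0 ≤ K1 * S.f p := by positivity
  have a6 : 0 ≤ K2 * S.f p := by positivity
  rw [mul_add] at a3
  refine ⟨?_, ?_, ?_⟩ <;> linarith

end Vale.Agent.P244
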