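import Vale.Agent.P244C.ThetaA

open Set MeasureTheory Filter Topology
open scoped ContDiff

noncomputable section

namespace Vale.Agent.P244

theorem thetaB_m23 {q : ℕ} {T : ℝ} {S : Pre} {p : ℝ × ℝ} (hS : IsSol q T S) (hp : p ∈ Wd T) :
    S.mono (23 / 4) 0 p = S.k p ^ 23 := by
  have h := mono_zpow hS hp 23 0
  norm_num at h
  exact h

theorem thetaB_m15 {q : ℕ} {T : ℝ} {S : Pre} {p : ℝ × ℝ} (hS : IsSol q T S) (hp : p ∈ Wd T) :
    S.mono (15 / 4) 0 p = S.k p ^ 15 := by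
  have h := mono_zpow hS hp 15 0
  norm_num at h
  exact h

/-- the negative power is dominated -/
theorem thetaB_neg {q : ℕ} {T e γ : ℝ} {S : Pre} {p : ℝ × ℝ} (hS : IsSol q T S) (hp : p ∈ Wd T)
    (h1 : S.h p ≤ 1) (he : e + γ ≤ 1 / 4) : S.k p * S.mono (-e) 0 p ≤ S.mono γ 0 p := by
  have h := mono_zpow hS hp 1 0
  norm_num at h
  have hG : S.G p ≤ 0 := Real.log_nonpos (h_pos hS hp).le h1
  rw [← h]
  unfold Pre.mono
  rw [← Real.exp_add]
  refine Real.exp_le_exp.2 ?_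
  nlinarith

theorem thetaB_alg {m z E a y k f h g X σ Θ bΘ dΘ bA dA bB dB : ℝ} (hm : 10 ^ 8 ≤ m)
    (hz : z = a ^ 2) (hz1 : z ≤ 1) (hE : E = h ^ 2 / f ^ 2) (hE1 : h ^ 2 ≤ 1.03 * f ^ 2)
    (hy : y = h * X) (hy1 : y ^ 2 ≤ 1.03 * m) (hk : 0 < k) (hh : h = k ^ 4) (hf : 0 < f)
    (hg : 0 ≤ g) (eΘ : bΘ + (2 * X + 2 * h * a / f ^ 2) * dΘ = 4 * z / f ^ 2 * Θ)
    (eA : bA + (2 * X + 2 * h * a / f ^ 2) * dA = k ^ 23 / h ^ 2 *
      (-(23 / 4 * m) - (23 / 4) ^ 2 * z + 2 * (23 / 4) * (a * y + z * E)))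
    (eB : bB + (2 * X + 2 * h * a / f ^ 2) * dB = k ^ 15 / h ^ 2 *
      (-(15 / 4 * m) - (15 / 4) ^ 2 * z + 2 * (15 / 4) * (a * y + z * E)))
    (hQ : 0 < σ * Θ - (1 / 200 * k ^ 23 - g * k ^ 15)) :
    σ * bΘ - (1 / 200 * bA - (g * bB + -(7 * m / 200) * k ^ 15)) ≤
      (0 + m / 4 / h ^ 2) * (σ * Θ - (1 / 200 * k ^ 23 - g * k ^ 15)) +
        (0 + m / 4 / h) * |σ * dΘ - (1 / 200 * dA - g * dB)| := by
  have hh0 : 0 < h := by rw [hh]; positivity
  have hf2 : 0 < f ^ 2 := by positivity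
  have hE0 : 0 ≤ E := by rw [hE]; positivity
  have hE2 : E ≤ 1.03 := by rw [hE, div_le_iff₀ hf2]; exact hE1
  have hz0 : 0 ≤ z := by rw [hz]; positivity
  have ha : |a| ≤ 1 := by
    rw [← sq_le_one_iff_abs_le_one]
    linarith
  have hy2 : |y| ≤ m / 100 := by
    refine abs_le_of_sq_le_sq' ?_ (by linarith) |> abs_le.2
    nlinarith
  have hay : |a * y| ≤ m / 100 := by
    rw [abs_mul]
    calc |a| * |y| ≤ 1 * (m / 100) := mul_le_mul ha hy2 (abs_nonneg _) (by norm_num)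
      _ = m / 100 := one_mul _
  have haE : |a * E| ≤ 1.03 := by
    rw [abs_mul, abs_of_nonneg hE0]
    calc |a| * E ≤ 1 * 1.03 := mul_le_mul ha hE2 hE0 (by norm_num)
      _ = 1.03 := one_mul _
  have hzE : z * E ≤ 1.03 := by
    calc z * E ≤ 1 * 1.03 := mul_le_mul hz1 hE2 hE0 (by norm_num)
      _ = 1.03 := one_mul _
  have hzE0 : 0 ≤ z * E := mul_nonneg hz0 hE0
  obtain ⟨hay1, hay2⟩ := abs_le.1 hay
  obtain ⟨c, hc⟩ : ∃ c, c = 2 * X + 2 * h * a / f ^ 2 := ⟨_, rfl⟩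
  rw [← hc] at eΘ eA eB
  have hc1 : c = (2 * y + 2 * (a * E)) / h := by
    rw [hc, hy, hE]
    field_simp
  have hc2 : |c| ≤ m / 4 / h := by
    rw [hc1, abs_div, abs_of_pos hh0]
    refine div_le_div_of_nonneg_right ?_ hh0.le
    obtain ⟨u1, u2⟩ := abs_le.1 hy2
    obtain ⟨u3, u4⟩ := abs_le.1 haE
    rw [abs_le]
    constructor <;> linarith
  have hp : 4 * z / f ^ 2 = 4 * (z * E) / h ^ 2 := by
    rw [hE]
    field_simp
  have hp1 : 4 * z / f ^ 2 ≤ m / 4 / h ^ 2 := by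
    rw [hp]
    exact div_le_div_of_nonneg_right (by linarith) (by positivity)
  have hp0 : 0 ≤ 4 * z / f ^ 2 := by positivity
  have hk15 : 0 < k ^ 15 := by positivity
  have e1 : k ^ 23 / h ^ 2 = k ^ 15 := by
    rw [hh]
    field_simp
  have e2 : 4 * z / f ^ 2 * k ^ 23 = 4 * (z * E) * k ^ 15 := by
    rw [hp, ← e1]
    ring
  rw [e1] at eA
  obtain ⟨D, hD⟩ : ∃ D, D = σ * dΘ - (1 / 200 * dA - g * dB) := ⟨_, rfl⟩
  obtain ⟨P, hP⟩ : ∃ P, P = 4 * z / f ^ 2 := ⟨_, rfl⟩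
  rw [← hP] at eΘ hp1 hp0 e2
  have n1 : g * (k ^ 15 / h ^ 2 *
      (-(15 / 4 * m) - (15 / 4) ^ 2 * z + 2 * (15 / 4) * (a * y + z * E))) ≤ 0 :=
    mul_nonpos_of_nonneg_of_nonpos hg
      (mul_nonpos_of_nonneg_of_nonpos (by positivity) (by linarith))
  have n2 : 0 ≤ k ^ 15 * (-(23 / 4 * m) - (23 / 4) ^ 2 * z + 2 * (23 / 4) * (a * y + z * E) +
      7 * m - 4 * (z * E)) := mul_nonneg hk15.le (by linarith)
  have n3 : 0 ≤ P * (g * k ^ 15) := by positivity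
  have n4 : -(c * D) ≤ m / 4 / h * |D| := by
    refine (neg_le_abs _).trans ?_
    rw [abs_mul]
    exact mul_le_mul_of_nonneg_right hc2 (abs_nonneg _)
  have n5 := mul_le_mul_of_nonneg_right hp1 hQ.le
  have n6 : σ * bΘ - (1 / 200 * bA - (g * bB + -(7 * m / 200) * k ^ 15)) + c * D =
      σ * (bΘ + c * dΘ) - (1 / 200 * (bA + c * dA) - g * (bB + c * dB)) -
        7 * m / 200 * k ^ 15 := by
    rw [hD]
    ring
  rw [eΘ, eA, eB] at n6
  rw [← hD, zero_add, zero_add]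
  linarith

theorem thetaB_mp {q : ℕ} {e0 Ci K T T' t1 : ℝ} {S : Pre} (H : Hyp q e0 Ci K T T' t1 S)
    (hz : ∀ p ∈ Rg t1, 0 < p.1 → Pz q e0 T S p) {σ : ℝ} (hσ : ∀ x : ℝ, σ * x ≤ |x|) :
    ∀ p ∈ Rg t1, 14 * mm q * (T - p.1) ≤ S.h p ^ 2 → σ * S.Θ p ≤ S.k p ^ 23 / 200 := by
  have hS := H.sol
  have hm := H.dim.hq
  have hwd : ∀ p ∈ Rg t1, p ∈ Wd T' := fun p hp => rg_sub_wd H.ht1 hp
  have hg : Sm T' fun p => 7 * mm q / 200 * (T - p.1) :=
    (sm_const _).mul ((sm_const _).sub sm_fst)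
  have s1 : Sm T' fun p => σ * S.Θ p := (sm_const _).mul (sm_Θ hS)
  have s2 : Sm T' fun p => 1 / 200 * S.mono (23 / 4) 0 p := (sm_const _).mul (sm_mono hS _ _)
  have s3 : Sm T' fun p => 7 * mm q / 200 * (T - p.1) * S.mono (15 / 4) 0 p :=
    hg.mul (sm_mono hS _ _)
  have hB : ∀ p ∈ Rg t1, 0 ≤ S.h p ^ 2 - 14 * mm q * (T - p.1) →
      S.k p ^ 23 / 400 ≤ 1 / 200 * S.mono (23 / 4) 0 p -
        7 * mm q / 200 * (T - p.1) * S.mono (15 / 4) 0 p := by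
    intro p hp h
    have b := H.bas p hp
    rw [thetaB_m23 hS (hwd p hp), thetaB_m15 hS (hwd p hp)]
    have h1 := mul_nonneg h (pow_pos b.kpos 15).le
    rw [b.hk] at h1
    linarith
  have key := mpG hS (by linarith) H.ht0 H.ht1
    (fun p => σ * S.Θ p - (1 / 200 * S.mono (23 / 4) 0 p -
      7 * mm q / 200 * (T - p.1) * S.mono (15 / 4) 0 p))
    (fun p => S.h p ^ 2 - 14 * mm q * (T - p.1)) (s1.sub (s2.sub s3))
    ((((sm_h hS).pow 2).sub ((sm_const _).mul ((sm_const _).sub sm_fst))).cont.mono hwd)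
    ⟨1, ?_⟩ ?_ ?_ 0 ?_
  · intro p hp h
    have b := H.bas p hp
    have h1 := key p hp (by linarith)
    rw [thetaB_m23 hS (hwd p hp), thetaB_m15 hS (hwd p hp)] at h1
    have h2 : 0 ≤ 7 * mm q / 200 * (T - p.1) * S.k p ^ 15 :=
      mul_nonneg (mul_nonneg (by linarith) b.τ0.le) (pow_pos b.kpos 15).le
    linarith
  · intro p hp h
    have b := H.bas p hp
    have h1 := hB p hp h
    have h2 : T - p.1 ≤ 14 * mm q * (T - p.1) := le_mul_of_one_le_left b.τ0.le (by linarith)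
    have h3 := b.outΘ (by linarith)
    have h4 : S.k p ≤ 1 := by
      refine le_of_pow_le_pow_left₀ (n := 4) (by norm_num) (by norm_num) ?_
      rw [← b.hk, one_pow]
      exact b.glob.h1
    have h5 : S.k p ^ 23 ≤ 1 := pow_le_one₀ b.kpos.le h4
    have h6 := pow_pos b.kpos 23
    have h7 := hσ (S.Θ p)
    linarith
  · intro x hx h
    have hp : ((0 : ℝ), x) ∈ Rg t1 := ⟨⟨le_rfl, H.ht0⟩, hx⟩
    have h1 := hB _ hp h
    have h2 := (H.ini x hx).out (by simpa using h)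
    have h7 := hσ (S.Θ (0, x))
    linarith
  · intro p hp h0 h
    have b := H.bas p hp
    have h1 := hB p hp h.ge
    have h2 : T - p.1 ≤ 14 * mm q * (T - p.1) := le_mul_of_one_le_left b.τ0.le (by linarith)
    have h3 := (hz p hp h0).up (by linarith) (by linarith)
    have h4 := thetaB_neg (e := e0) (γ := 0) hS (hwd p hp) b.glob.h1 (by linarith [H.dim.e0_le])
    have h5 : S.mono 0 0 p = 1 := by simp [Pre.mono]
    rw [h5] at h4
    have h6 : 1000 * (T - p.1) ≤ S.k p ^ 8 := by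
      have h8 : 1000 * (T - p.1) ≤ 14 * mm q * (T - p.1) :=
        mul_le_mul_of_nonneg_right (by linarith) b.τ0.le
      have h9 : S.h p ^ 2 = S.k p ^ 8 := by rw [b.hk]; ring
      linarith
    have h8 := pow_le_pow_left₀ (by linarith [b.τ0]) h6 3
    have h9 : S.k p * |S.Θ p| ≤ S.k p * (S.k p ^ 23 / 400) := by
      calc S.k p * |S.Θ p| ≤ S.k p * (10000 * (T - p.1) ^ 3 * S.mono (-e0) 0 p) :=
            mul_le_mul_of_nonneg_left h3 b.kpos.le
        _ = 10000 * (T - p.1) ^ 3 * (S.k p * S.mono (-e0) 0 p) := by ring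
        _ ≤ 10000 * (T - p.1) ^ 3 * 1 :=
            mul_le_mul_of_nonneg_left h4 (by have := b.τ0; positivity)
        _ ≤ S.k p * (S.k p ^ 23 / 400) := by
            have := pow_pos b.τ0 3
            linarith
    have h10 := le_of_mul_le_mul_left h9 b.kpos
    have h7 := hσ (S.Θ p)
    linarith
  · intro p hp h0 _ hQ
    have b := H.bas p hp
    have ho : p ∈ Om T' := rg_om H.ht1 hp h0
    have hw := hwd p hp
    have hd : HasDerivAt (fun t : ℝ => 7 * mm q / 200 * (T - t)) (-(7 * mm q / 200)) p.1 :=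
      (((hasDerivAt_id p.1).const_sub T).const_mul (7 * mm q / 200)).congr_deriv (by ring)
    have e1 := box_tmul hS ho ((sm_mono hS (15 / 4) 0).ca ho) hd
    have e2 := Ds_tmul (S := S) (u := S.mono (15 / 4) 0) (p := p)
      fun t : ℝ => 7 * mm q / 200 * (T - t)
    rw [box_sub hS ho (s1.ca ho) ((s2.sub s3).ca ho), box_sub hS ho (s2.ca ho) (s3.ca ho),
      box_cmul, box_cmul, e1, Ds_sub (s1.xa hw) ((s2.sub s3).xa hw),
      Ds_sub (s2.xa hw) (s3.xa hw), Ds_cmul, Ds_cmul, e2]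
    have eΘ := box'_Θ hS ho
    have eA := box'_mono hS ho (23 / 4)
    have eB := box'_mono hS ho (15 / 4)
    unfold Pre.box' at eΘ eA eB
    simp only [thetaB_m23 hS hw, thetaB_m15 hS hw] at eA eB hQ ⊢
    exact thetaB_alg hm rfl b.glob.z1 rfl b.E1 rfl b.hX2 b.kpos b.hk b.fpos
      (mul_nonneg (by linarith) b.τ0.le) eΘ eA eB hQ

theorem theta_out (q : ℕ) : ∃ τ1 > (0 : ℝ), ∀ (e0 Ci K T T' t1 : ℝ) (S : Pre), T ≤ τ1 →
    Hyp q e0 Ci K T T' t1 S → (∀ p ∈ Rg t1, 0 < p.1 → Pz q e0 T S p) →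
      ∀ p ∈ Rg t1, 14 * mm q * (T - p.1) ≤ S.h p ^ 2 → |S.Θ p| ≤ S.k p ^ 23 / 200 := by
  refine ⟨1, one_pos, fun e0 Ci K T T' t1 S _ H hz p hp h => ?_⟩
  have h1 := thetaB_mp H hz (σ := 1) (fun x => by rw [one_mul]; exact le_abs_self x) p hp h
  have h2 := thetaB_mp H hz (σ := -1) (fun x => by rw [neg_one_mul]; exact neg_le_abs x) p hp h
  rw [abs_le]
  constructor <;> linarith

theorem theta_all (q : ℕ) : ∃ τ1 > (0 : ℝ), ∀ (e0 Ci K T T' t1 : ℝ) (S : Pre), T ≤ τ1 →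
    Hyp q e0 Ci K T T' t1 S → (∀ p ∈ Rg t1, 0 < p.1 → Pz q e0 T S p) →
      ∀ p ∈ Rg t1, S.k p * |S.Θ p| ≤ 1 / 2 * (((T - p.1) ^ 3 + S.h p ^ 6) / 100) := by
  obtain ⟨τu, hu0, hu⟩ := theta_up q
  obtain ⟨τo, ho0, ho⟩ := theta_out q
  refine ⟨min (min τu τo) ((1 / 2000000) ^ 16 / (14 * ((q : ℝ) + 1))),
    lt_min (lt_min hu0 ho0) (by positivity), fun e0 Ci K T T' t1 S hT H hz p hp => ?_⟩
  have hTu : T ≤ τu := hT.trans ((min_le_left _ _).trans (min_le_left _ _))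
  have hTo : T ≤ τo := hT.trans ((min_le_left _ _).trans (min_le_right _ _))
  have hTc : T ≤ (1 / 2000000) ^ 16 / (14 * ((q : ℝ) + 1)) := hT.trans (min_le_right _ _)
  have b := H.bas p hp
  have hτ3 := pow_pos b.τ0 3
  have hh6 := pow_pos b.hpos 6
  have hw : p ∈ Wd T' := rg_sub_wd H.ht1 hp
  rcases hp.1.1.eq_or_lt with h0 | h0
  · obtain ⟨t, x⟩ := p
    simp only at h0
    subst h0
    have h1 := (H.ini x hp.2).all
    simp only [sub_zero]
    linarith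
  rcases lt_or_ge (S.h p ^ 2) (T - p.1) with h1 | h1
  · have h2 := hu e0 Ci K T T' t1 S hTu H hz p hp h1.le
    rw [abs_of_pos (b.inΘ h1)]
    linarith
  rcases le_total (S.h p ^ 2) (14 * mm q * (T - p.1)) with h2 | h2
  · have h3 := (hz p hp h0).up h1 h2
    have h4 := thetaB_neg (e := e0) (γ := 1 / 8) H.sol hw b.glob.h1 (by linarith [H.dim.e0_le])
    have h5 : S.mono (1 / 8) 0 p ^ 16 = S.h p ^ 2 := by
      unfold Pre.mono Pre.G
      rw [← Real.exp_nat_mul, ← Real.exp_log (pow_pos b.hpos 2), Real.log_pow]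
      congr 1
      push_cast
      ring
    have h6 : S.h p ^ 2 ≤ (1 / 2000000) ^ 16 := by
      have hq : 0 < 14 * ((q : ℝ) + 1) := by positivity
      rw [le_div_iff₀ hq] at hTc
      have h7 : 14 * mm q * (T - p.1) ≤ 14 * ((q : ℝ) + 1) * T :=
        mul_le_mul (by unfold mm; linarith) b.τT b.τ0.le hq.le
      calc S.h p ^ 2 ≤ 14 * ((q : ℝ) + 1) * T := h2.trans h7
        _ = T * (14 * ((q : ℝ) + 1)) := mul_comm _ _
        _ ≤ _ := hTc
    have h7 : S.mono (1 / 8) 0 p ≤ 1 / 2000000 :=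
      le_of_pow_le_pow_left₀ (n := 16) (by norm_num) (by norm_num) (h5 ▸ h6)
    calc S.k p * |S.Θ p| ≤ S.k p * (10000 * (T - p.1) ^ 3 * S.mono (-e0) 0 p) :=
          mul_le_mul_of_nonneg_left h3 b.kpos.le
      _ = 10000 * (T - p.1) ^ 3 * (S.k p * S.mono (-e0) 0 p) := by ring
      _ ≤ 10000 * (T - p.1) ^ 3 * (1 / 2000000) :=
          mul_le_mul_of_nonneg_left (h4.trans h7) (by positivity)
      _ ≤ _ := by linarith
  · have h3 := ho e0 Ci K T T' t1 S hTo H hz p hp h2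
    have h4 := mul_le_mul_of_nonneg_left h3 b.kpos.le
    have h5 : S.h p ^ 6 = S.k p ^ 24 := by rw [b.hk]; ring
    rw [h5]
    linarith

end Vale.Agent.P244
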