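import Vale.Agent.P244C.Bern
import Vale.Agent.P244C.Curv
import Vale.Agent.P244C.Scal
import Vale.Agent.P244C.Link
import Vale.Agent.P244C.Para
import Vale.Agent.P244C.ThetaB
import Vale.Agent.P244C.Boot
import Vale.Agent.P244C.InitE
import Vale.Agent.P244C.InitM

open Set MeasureTheory Filter Topology
open scoped ContDiff

noncomputable section

namespace Vale.Agent.P244

theorem apri_step (q : ℕ) (e0 Ci : ℝ) (hCi : 1 ≤ Ci) :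
    ∃ M K1 K2 K : ℝ, 1 ≤ K1 ∧ 1 ≤ K2 ∧ 10 ≤ K ∧ 2 * Ci ≤ K ∧ ∀ Cm : ℝ, ∃ τ1 > (0 : ℝ),
      ∀ (T T' t1 : ℝ) (δ : Fin 3 → ℝ) (S : Pre), T ≤ τ1 → Hyp q e0 Ci K T T' t1 S →
        IniM q e0 K T Cm δ S → (∀ t ∈ Icc 0 t1, ‖S.gam q e0 K T t‖ ≤ 2) →
        (∀ p ∈ Rg t1, Cv q e0 M K1 K2 T S p) ∧
        (∀ p ∈ Rg t1, BS q e0 K T (1 / 2) S p ∧ (S.h p ^ 2 ≤ T - p.1 →
          A0 q e0 T * ((T - p.1) / T) ^ 3 ≤ S.Θ p * S.mono 0 (3 / mm q) p)) ∧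
        (0 < t1 → 1 / 2 ≤ ‖S.gam q e0 K T t1‖ →
          ∃ D > (0 : ℝ), HasDerivAt (fun t => ‖S.gam q e0 K T t‖ ^ 2) D t1) := by
  obtain ⟨M, hM, hbern⟩ := bern q e0 Ci
  obtain ⟨K1, hK1, hcurv⟩ := curv q e0 Ci M
  obtain ⟨K2, hK2, hscal⟩ := scal_bd q e0 Ci K1 hK1
  set K : ℝ := 10 * (K1 + K2) + 2 * Ci with hK
  refine ⟨M, K1, K2, K, hK1, by linarith, by linarith, by linarith, fun Cm => ?_⟩
  obtain ⟨τa, ha, hbern⟩ := hbern K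
  obtain ⟨τb, hb, hcurv⟩ := hcurv K
  obtain ⟨τc, hc, hscal⟩ := hscal K
  obtain ⟨τd, hdd, himp⟩ := b2_imp K1 hK1
  obtain ⟨C0, hC0, herrA⟩ := errA q M K1 K2
  obtain ⟨C, hC, herrC⟩ := errC q C0 K
  obtain ⟨τe, he, hpara⟩ := para q e0 K C Cm (by linarith)
  obtain ⟨τf, hf, hall⟩ := theta_all q
  refine ⟨min (min (min τa τb) (min τc τd)) (min τe τf), by positivity, ?_⟩
  intro T T' t1 δ S hT H hI hγ
  simp only [le_min_iff] at hT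
  obtain ⟨⟨⟨hTa, hTb⟩, hTc, hTd⟩, hTe, hTf⟩ := hT
  have h1 := hbern T T' t1 S hTa H
  have h2 := hcurv T T' t1 S hTb H fun p hp => (h1 p hp).2
  have h3 := hscal T T' t1 S hTc H h2
  have hcv : ∀ p ∈ Rg t1, Cv q e0 M K1 K2 T S p := fun p hp =>
    ⟨(h1 p hp).1, (h1 p hp).2, (h2 p hp).1, (h2 p hp).2, h3 p hp⟩
  have hlink : ∀ t ∈ Ioc 0 t1, ∃ v er, Link q e0 K T C S t v er := by
    intro t ht
    refine link H.dim H.sol H.hT' ⟨ht.1, ht.2.trans_lt H.ht1⟩ H.hK (by linarith)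
      (H.slice t ⟨ht.1.le, ht.2⟩) fun x hx hh => ?_
    have hp : (t, x) ∈ Rg t1 := ⟨⟨ht.1.le, ht.2⟩, hx.1, hx.2.trans (by linarith [Real.pi_pos])⟩
    have ho : (t, x) ∈ Om T' := rg_om H.ht1 hp ht.1
    have hz := H.z_near _ hp hh
    have ha0 : S.a (t, x) ≠ 0 := fun h0 => by
      rw [Pre.z, h0] at hz; norm_num at hz
    obtain ⟨e1, e2, e3, e4⟩ := herrA e0 K T T' S (t, x) H.dim hM hK1 (by linarith) H.hT H.T_le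
      H.sol ho (H.bas _ hp) (H.nr _ hp hh) (hcv _ hp)
    exact herrC e0 T T' S (t, x) H.dim H.hT H.T_le H.hT' H.sol ho (H.bas _ hp) ha0 hC0 e1 e2 e3 e4
  obtain ⟨hpz, hexp⟩ := hpara Ci T T' t1 δ S hTe H hI hlink hγ
  refine ⟨hcv, fun p hp => ?_, hexp⟩
  have hlo := theta_lo H hpz p hp
  obtain ⟨i1, i2, i3⟩ := himp q e0 M K K2 T S p H.dim H.hT hTd hp.1.1 hK2 (by linarith)
    (H.bas p hp) (hcv p hp)
  exact ⟨⟨hall e0 Ci K T T' t1 S hTf H hpz p hp, i1, i2, i3,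
    fun h => by have := hlo h.le; linarith, H.b4 p hp⟩, hlo⟩

theorem gam_zero {q : ℕ} {e0 K T Cm : ℝ} {δ : Fin 3 → ℝ} {S : Pre} (hT : 0 < T) (hT1 : T ≤ 1)
    (hC : 0 ≤ Cm) (hTC : 16 * Cm ^ 2 * T ≤ 1) (hI : IniM q e0 K T Cm δ S) :
    ‖S.gam q e0 K T 0 - WithLp.toLp 2 δ‖ ≤ 1 / 2 := by
  have h4 : 0 < T ^ (1 / 4 : ℝ) := Real.rpow_pos_of_pos hT _
  have hs : T ^ (1 / 4 : ℝ) * T ^ (1 / 4 : ℝ) = √T := by
    rw [← Real.rpow_add hT, Real.sqrt_eq_rpow]; norm_num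
  have h41 : T ^ (1 / 4 : ℝ) ≤ 1 := Real.rpow_le_one hT.le hT1 (by norm_num)
  have hq : √T * √T = T := Real.mul_self_sqrt hT.le
  have hq0 : 0 < √T := Real.sqrt_pos.2 hT
  have hC1 : Cm * √T ≤ 1 / 4 := by
    by_contra hcon
    push Not at hcon
    nlinarith
  have key : ∀ j, |(S.gam q e0 K T 0 - WithLp.toLp 2 δ : Par) j| ≤ 1 / 4 := by
    intro j
    have h := hI.c j
    have e : (S.gam q e0 K T 0 - WithLp.toLp 2 δ : Par) j =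
        (S.cm q e0 K T j.castSucc 0 - T ^ (1 / 4 : ℝ) * δ j) / T ^ (1 / 4 : ℝ) := by
      simp only [Pre.gam, PiLp.sub_apply, sub_zero]
      field_simp
    rw [e, abs_div, abs_of_pos h4, div_le_iff₀ h4]
    have : √T ≤ T ^ (1 / 4 : ℝ) := by nlinarith
    nlinarith
  rw [EuclideanSpace.norm_eq, Real.sqrt_le_iff]
  refine ⟨by norm_num, ?_⟩
  have k2 : ∀ j, ‖(S.gam q e0 K T 0 - WithLp.toLp 2 δ : Par) j‖ ^ 2 ≤ 1 / 16 := fun j => by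
    have := key j
    rw [Real.norm_eq_abs]
    nlinarith [abs_nonneg ((S.gam q e0 K T 0 - WithLp.toLp 2 δ : Par) j)]
  rw [Fin.sum_univ_three]
  linarith [k2 0, k2 1, k2 2]

/-- the a priori estimates -/
theorem apri (q : ℕ) (e0 : ℝ) (hd : Dim q e0) :
    ∃ Ci M K1 K2 K τ1 : ℝ, 1 ≤ K1 ∧ 1 ≤ K2 ∧ 0 < τ1 ∧
      ∀ (T T' : ℝ) (δ : Fin 3 → ℝ) (S : Pre), 0 < T → T ≤ τ1 → 0 < T' → T' ≤ T →
        (∀ j, |δ j| ≤ 3) → IsSol q T' S → Init S (Z0 q e0 T δ) (F0 q e0 T δ) →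
        ‖S.gam q e0 K T 0 - WithLp.toLp 2 δ‖ ≤ 1 / 2 ∧
        ∀ t1 ∈ Ico 0 T', (∀ t ∈ Icc 0 t1, ‖S.gam q e0 K T t‖ ≤ 2) →
          Hyp q e0 Ci K T T' t1 S ∧ (∀ p ∈ Rg t1, Cv q e0 M K1 K2 T S p) ∧
          (0 < t1 → 1 / 2 ≤ ‖S.gam q e0 K T t1‖ →
            ∃ D > (0 : ℝ), HasDerivAt (fun t => ‖S.gam q e0 K T t‖ ^ 2) D t1) := by
  obtain ⟨Ci, hCi, τa, ha, hini⟩ := ini_facts q
  obtain ⟨M, K1, K2, K, hK1, hK2, hK, hKC, hstep⟩ := apri_step q e0 Ci hCi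
  obtain ⟨Cm, hCm, τb, hb, hmod⟩ := ini_modes q e0 K
  obtain ⟨τc, hc, hstep⟩ := hstep Cm
  refine ⟨Ci, M, K1, K2, K, min (min (min τa τb) τc) (min (1 / K ^ 2) (1 / (16 * Cm ^ 2 + 1))),
    hK1, hK2, by positivity, ?_⟩
  intro T T' δ S hT0 hT hT'0 hT' hδ hS hI
  simp only [le_min_iff] at hT
  obtain ⟨⟨⟨hTa, hTb⟩, hTc⟩, hTK, hTC⟩ := hT
  rw [le_div_iff₀ (by positivity)] at hTK hTC
  have hK2' : 100 ≤ K ^ 2 := by nlinarith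
  have hT1 : T ≤ 1 / 100 := by nlinarith [mul_le_mul_of_nonneg_left hK2' hT0.le]
  have hF := hini e0 T T' δ S hd hT0 hTa hT'0 hδ hS hI
  have hM := hmod T T' δ S hd hK hT0 hTb hT'0 hδ hS hI
  refine ⟨gam_zero hT0 (by linarith) hCm (by nlinarith) hM, fun t1 ht1 hγ => ?_⟩
  have mkH : ∀ t2 ∈ Icc 0 t1, (∀ p ∈ Rg t2, BS q e0 K T 1 S p) → Hyp q e0 Ci K T T' t2 S :=
    fun t2 h2 hbs => ⟨hd, hK, hT0, hTK, hT', h2.1, h2.2.trans_lt ht1.2, hS, hF, hbs⟩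
  have hbs := boot hS hT0 hT' (by linarith) ht1.1 ht1.2 (A0_pos hT0)
    (fun x hx => ini_bs hd hS hT0 hT1 hT'0 hCi hKC hx (hF x hx))
    fun t2 h2 hbs => (hstep T T' t2 δ S hTc (mkH t2 h2 hbs) hM
      fun t ht => hγ t ⟨ht.1, ht.2.trans h2.2⟩).2.1
  have H := mkH t1 ⟨ht1.1, le_rfl⟩ hbs
  obtain ⟨h1, -, h3⟩ := hstep T T' t1 δ S hTc H hM hγ
  exact ⟨H, h1, h3⟩

end Vale.Agent.P244
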