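import Vale.Agent.P244C.BernA

open Set MeasureTheory Filter Topology
open scoped ContDiff

noncomputable section

namespace Vale.Agent.P244

theorem bern_near_alg {m M0 c Ψ b h2 bP bb T : ℝ} (hm : 0 < m) (hM : 750 * m ^ 3 ≤ M0) (hc : 1 ≤ c)
    (hb : 0 ≤ b) (hh : 0 < h2) (hT : 0 < T) (hQ : 0 < Ψ - M0 * c * b)
    (h1 : h2 * bP ≤ -10 * m * Ψ + 1500 * m ^ 4 * b) (h3 : -8 * m * b ≤ h2 * bb) :
    bP - (M0 * c * bb + M0 / T * b) ≤ 0 := by
  have hM0 : 0 ≤ M0 := le_trans (by positivity) hM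
  have hc0 : 0 ≤ M0 * c := mul_nonneg hM0 (by linarith)
  have h4 := mul_le_mul_of_nonneg_left h3 hc0
  have h5 : 0 ≤ h2 * (M0 / T * b) := by positivity
  have h6 : 750 * m ^ 3 * b ≤ M0 * c * b :=
    mul_le_mul_of_nonneg_right (hM.trans (le_mul_of_one_le_right hM0 hc)) hb
  have h7 := mul_le_mul_of_nonneg_left h6 hm.le
  have h8 := mul_pos hm hQ
  refine le_of_mul_le_mul_left ?_ hh
  nlinarith

theorem bern_far_alg {m M0 c Ψ b h2 bP bb T C L : ℝ} (hm : 0 < m) (hM0 : 0 ≤ M0) (hc : 1 ≤ c)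
    (hc2 : c ≤ 2) (hb : 0 ≤ b) (hh : 0 < h2) (hT : 0 < T) (hC : 0 ≤ C) (hQ : 0 < Ψ - M0 * c * b)
    (h1 : h2 * bP ≤ C * Ψ) (h3 : -8 * m * b ≤ h2 * bb) (hL : C ≤ L * h2)
    (hτ : 2 * (C + 8 * m) * T ≤ h2) :
    bP - (M0 * c * bb + M0 / T * b) ≤ L * (Ψ - M0 * c * b) := by
  have hc0 : 0 ≤ M0 * c := mul_nonneg hM0 (by linarith)
  have h4 := mul_le_mul_of_nonneg_left h3 hc0
  have h5 : (C + 8 * m) * c ≤ h2 / T := by
    rw [le_div_iff₀ hT]
    have : 0 ≤ (C + 8 * m) * T := by positivity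
    nlinarith
  have h6 := mul_le_mul_of_nonneg_right h5 (mul_nonneg hM0 hb)
  have h7 := mul_le_mul_of_nonneg_right hL hQ.le
  have h8 : h2 / T * (M0 * b) = h2 * (M0 / T * b) := by ring
  refine le_of_mul_le_mul_left ?_ hh
  nlinarith

theorem bern_b2_nonneg {q : ℕ} {e0 K T : ℝ} {S : Pre} {p : ℝ × ℝ} (hb : Bas q e0 K T S p) :
    0 ≤ S.b2 T p := (sq_nonneg _).trans hb.u2

theorem bern (q : ℕ) (e0 Ci : ℝ) : ∃ M : ℝ, 1 ≤ M ∧ ∀ K : ℝ, ∃ τ1 > (0 : ℝ),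
    ∀ (T T' t1 : ℝ) (S : Pre), T ≤ τ1 → Hyp q e0 Ci K T T' t1 S →
      ∀ p ∈ Rg t1, S.y1 p ^ 2 ≤ M * S.b2 T p ∧ S.y2 q p ^ 2 ≤ M * S.b2 T p := by
  obtain ⟨M0, hM0⟩ : ∃ M0 : ℝ, M0 = 1 + 850 * |mm q| ^ 3 + |Ci| * (1 + 100 * |mm q|) := ⟨_, rfl⟩
  have hM1 : 1 ≤ M0 := by
    have : 0 ≤ 850 * |mm q| ^ 3 + |Ci| * (1 + 100 * |mm q|) := by positivity
    linarith
  refine ⟨2 * M0, by linarith, fun K => ?_⟩
  obtain ⟨C, hC0, hC⟩ := bern_far q K
  refine ⟨1 / (K ^ 2 * (C + 8 * |mm q|) + 1), by positivity, fun T T' t1 S hT H => ?_⟩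
  have hq := H.dim.hq
  have hm : 0 < mm q := lt_of_lt_of_le (by norm_num) hq
  have hm1 : 1 ≤ mm q := le_trans (by norm_num) hq
  rw [abs_of_pos hm] at hM0 hT
  have hT0 := H.hT
  have hCi : 0 ≤ |Ci| * (1 + 100 * mm q) := by positivity
  have hm3 : 0 ≤ mm q ^ 3 := by positivity
  have hc : ∀ p ∈ Rg t1, 1 ≤ 1 + p.1 / T ∧ 1 + p.1 / T ≤ 2 := by
    intro p hp
    have h1 : 0 ≤ p.1 / T := div_nonneg hp.1.1 hT0.le
    have h2 : p.1 / T ≤ 1 := (div_le_one hT0).2 (by linarith [hp.1.2, H.ht1, H.hT'])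
    constructor <;> linarith
  have hsg : Sm T' fun p => M0 * (1 + p.1 / T) :=
    (sm_const M0).mul ((sm_const 1).add (sm_fst.div_const T))
  have key := mp1 H.sol (le_trans (by norm_num) hq) H.ht0 H.ht1
    (fun p => S.Psi q p - M0 * (1 + p.1 / T) * S.b2 T p)
    ((sm_Psi H.sol).sub (hsg.mul (sm_b2 H.sol))) ?_ ?_ (C * K ^ 2 / 4) ?_
  · intro p hp
    have h1 := key p hp
    have h2 := bern_b2_nonneg (H.bas p hp)
    have h3 : M0 * (1 + p.1 / T) * S.b2 T p ≤ 2 * M0 * S.b2 T p := by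
      refine mul_le_mul_of_nonneg_right ?_ h2
      nlinarith [(hc p hp).2]
    have h4 : 0 ≤ 100 * mm q ^ 3 * S.u p ^ 2 := by positivity
    have h5 : S.y1 p ^ 2 ≤ 100 * mm q * S.y1 p ^ 2 :=
      le_mul_of_one_le_left (sq_nonneg _) (by linarith)
    simp only [Pre.Psi] at h1
    constructor <;> nlinarith [sq_nonneg (S.y1 p), sq_nonneg (S.y2 q p)]
  · obtain ⟨D, _, hD⟩ := reg_bd' H.sol H.ht0 H.ht1
    refine ⟨D ^ 2 + 100 * mm q * D ^ 2, fun p hp => ?_⟩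
    have hb := H.bas p hp
    have h1 : S.y1 p ^ 2 ≤ D ^ 2 := sq_le_sq' (abs_le.1 (hD p hp).2.2.2.2.1).1
      (abs_le.1 (hD p hp).2.2.2.2.1).2
    have h2 : S.y2 q p ^ 2 ≤ D ^ 2 := sq_le_sq' (abs_le.1 (hD p hp).2.2.2.2.2.1).1
      (abs_le.1 (hD p hp).2.2.2.2.2.1).2
    have h3 := mul_le_mul_of_nonneg_left hb.u2 (by positivity : 0 ≤ 100 * mm q ^ 3)
    have h4 : 100 * mm q ^ 3 * S.b2 T p ≤ M0 * (1 + p.1 / T) * S.b2 T p := by
      refine mul_le_mul_of_nonneg_right ?_ (bern_b2_nonneg hb)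
      exact le_trans (by linarith) (le_mul_of_one_le_right (by linarith) (hc p hp).1)
    have h5 := mul_le_mul_of_nonneg_left h1 (by positivity : 0 ≤ 100 * mm q)
    simp only [Pre.Psi]
    linarith
  · intro x hx
    have hb := H.bas (0, x) ⟨⟨le_rfl, H.ht0⟩, hx⟩
    have h0 := bern_b2_nonneg hb
    have hi := H.ini x hx
    have h1 := hi.y1.trans (mul_le_mul_of_nonneg_right (le_abs_self Ci) h0)
    have h2 := hi.y2.trans (mul_le_mul_of_nonneg_right (le_abs_self Ci) h0)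
    have h3 := mul_le_mul_of_nonneg_left hb.u2 (by positivity : 0 ≤ 100 * mm q ^ 3)
    have h5 := mul_le_mul_of_nonneg_left h1 (by positivity : 0 ≤ 100 * mm q)
    have h4 : (|Ci| * (1 + 100 * mm q) + 100 * mm q ^ 3) * S.b2 T (0, x) ≤ M0 * S.b2 T (0, x) :=
      mul_le_mul_of_nonneg_right (by linarith) h0
    simp only [Pre.Psi, zero_div, add_zero, mul_one]
    linarith
  · intro p hp hp0 hQ
    have hO := rg_om H.ht1 hp hp0
    have hb := H.bas p hp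
    have h0 := bern_b2_nonneg hb
    have hh : 0 < S.h p ^ 2 := pow_pos hb.hpos 2
    have hg : HasDerivAt (fun t : ℝ => M0 * (1 + t / T)) (M0 / T) p.1 := by
      refine ((((hasDerivAt_id p.1).div_const T).const_add 1).const_mul M0).congr_deriv ?_
      ring
    have e : S.box q (fun p => S.Psi q p - M0 * (1 + p.1 / T) * S.b2 T p) p =
        S.box q (S.Psi q) p - (M0 * (1 + p.1 / T) * S.box q (S.b2 T) p + M0 / T * S.b2 T p) := by
      rw [box_sub H.sol hO ((sm_Psi H.sol).ca hO) ((hsg.mul (sm_b2 H.sol)).ca hO),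
        box_tmul H.sol hO ((sm_b2 H.sol).ca hO) hg]
    have hL : 0 ≤ C * K ^ 2 / 4 := by positivity
    have h1 : S.box q (fun p => S.Psi q p - M0 * (1 + p.1 / T) * S.b2 T p) p ≤
        C * K ^ 2 / 4 * (S.Psi q p - M0 * (1 + p.1 / T) * S.b2 T p) := by
      rw [e]
      have hK : 0 < K := lt_of_lt_of_le (by norm_num) H.hK
      rcases le_or_gt (S.h p) (2 / K) with hn | hf
      · exact (bern_near_alg hm (by linarith) (hc p hp).1 h0 hh hT0 hQ
          (bern_near H.dim H.sol hO hb (H.nr p hp hn)) (box_b2 H.dim H.sol hO hb)).trans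
          (mul_nonneg hL hQ.le)
      · rw [div_lt_iff₀ hK] at hf
        have h2 : 4 ≤ K ^ 2 * S.h p ^ 2 := by nlinarith
        refine bern_far_alg hm (by linarith) (hc p hp).1 (hc p hp).2 h0 hh hT0 hC0 hQ
          (hC e0 T T' S p H.dim H.hK H.sol hO hb) (box_b2 H.dim H.sol hO hb) (by nlinarith) ?_
        rw [le_div_iff₀ (by positivity)] at hT
        have h3 : 0 ≤ (C + 8 * mm q) * T := by positivity
        refine le_of_mul_le_mul_left ?_ (pow_pos hK 2)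
        nlinarith
    have h2 : 0 ≤ mm q / 4 / S.h p ^ 2 * (S.Psi q p - M0 * (1 + p.1 / T) * S.b2 T p) :=
      mul_nonneg (by positivity) hQ.le
    have h3 : 0 ≤ (C * K ^ 2 / 4 + mm q / 4 / S.h p) *
        |S.Ds (fun p => S.Psi q p - M0 * (1 + p.1 / T) * S.b2 T p) p| := by
      have := hb.hpos
      positivity
    linarith

end Vale.Agent.P244
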