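import Vale.Agent.P244C.IdC
import Vale.Agent.P244C.Near

open Set MeasureTheory Filter Topology
open scoped ContDiff

noncomputable section

namespace Vale.Agent.P244

/-- the Bernstein quantity -/
def Pre.Psi (S : Pre) (q : ℕ) (p : ℝ × ℝ) : ℝ :=
  S.y2 q p ^ 2 + 100 * mm q * S.y1 p ^ 2 + 100 * mm q ^ 3 * S.u p ^ 2

variable {q : ℕ} {e0 K T T' : ℝ} {S : Pre} {p : ℝ × ℝ}

theorem sm_Psi (hS : IsSol q T' S) : Sm T' (S.Psi q) :=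
  (((sm_y2 hS).pow 2).add ((sm_const (100 * mm q)).mul ((sm_y1 hS).pow 2))).add
    ((sm_const (100 * mm q ^ 3)).mul ((sm_u hS).pow 2))

theorem sm_b2 (hS : IsSol q T' S) : Sm T' (S.b2 T) :=
  ((((sm_const T).sub sm_fst).pow 6).div ((sm_k hS).pow 18)
    fun _ hp => (pow_pos (k_pos hS hp) 18).ne').add ((sm_k hS).pow 30)

theorem bernA_e (hb : Bas q e0 K T S p) : (1 - S.EE p) ^ 2 ≤ 4.41 * S.u p ^ 2 := by
  have h := pow_le_pow_left₀ (abs_nonneg _) hb.Eu 2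
  rw [mul_pow, sq_abs, sq_abs] at h
  linarith

theorem bernA_u (hd : Dim q e0) (hS : IsSol q T' S) (hp : p ∈ Om T') (hb : Bas q e0 K T S p) :
    S.h p ^ 2 * S.box q (fun p => S.u p ^ 2) p ≤ 4.2 * mm q * S.u p ^ 2 - 2 * S.y1 p ^ 2 := by
  have hm := bas_m hd
  have e := box_u hS hp
  have h1 : 2 * S.u p * (1 - S.EE p) ≤ 4.2 * S.u p ^ 2 := by
    nlinarith [bernA_e hb, sq_nonneg (2.1 * S.u p - (1 - S.EE p))]
  have h2 := mul_le_mul_of_nonneg_left h1 (by linarith : 0 ≤ mm q)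
  rw [box_sq hS hp ((sm_u hS).ca hp), Ds_u hS (om_sub_wd hp)]
  have e2 : S.h p ^ 2 * (2 * S.u p * S.box q S.u p - 2 * (S.X p - S.Y p) ^ 2) =
      2 * S.u p * (S.h p ^ 2 * S.box q S.u p) - 2 * S.y1 p ^ 2 := by
    unfold Pre.y1
    ring
  rw [e2, e]
  linarith

theorem bernA_alg1 {m A a E u y w : ℝ} (hm : 0 ≤ m) (hz : a ^ 2 ≤ 1) (hE : E ≤ 1.03)
    (he : (1 - E) ^ 2 ≤ 4.41 * u ^ 2) :
    2 * y * ((-(2 * A ^ 2 + (m + 1) * a ^ 2) + 2 * m * E - m - a ^ 2) * y -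
        2 * m * a * (1 - E) - 2 * a * w) - 2 * (a * y + w) ^ 2 ≤
      (4.2 * m + 16) * y ^ 2 + 9 * m * u ^ 2 - w ^ 2 := by
  have h1 : -(2 * A ^ 2 + (m + 1) * a ^ 2) + 2 * m * E - m - a ^ 2 ≤ 1.06 * m := by
    nlinarith [sq_nonneg A, sq_nonneg a, mul_nonneg hm (sq_nonneg a)]
  have h2 := mul_le_mul_of_nonneg_right h1 (sq_nonneg y)
  have h3 : (a * (1 - E)) ^ 2 ≤ 4.41 * u ^ 2 := by
    rw [mul_pow]
    exact (mul_le_of_le_one_left (sq_nonneg _) hz).trans he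
  have h4 : -(4 * a * (1 - E) * y) ≤ 2 * y ^ 2 + 9 * u ^ 2 := by
    nlinarith [sq_nonneg (a * (1 - E) + y), sq_nonneg u]
  have h5 := mul_le_mul_of_nonneg_left h4 hm
  have h6 := mul_le_mul_of_nonneg_right hz (sq_nonneg y)
  have h7 := mul_nonneg hm (sq_nonneg y)
  nlinarith [sq_nonneg (4 * a * y + w), sq_nonneg (a * y)]

theorem bernA_y1 (hd : Dim q e0) (hS : IsSol q T' S) (hp : p ∈ Om T') (hb : Bas q e0 K T S p) :
    S.h p ^ 2 * S.box q (fun p => S.y1 p ^ 2) p ≤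
      (4.2 * mm q + 16) * S.y1 p ^ 2 + 9 * mm q * S.u p ^ 2 - (S.h p ^ 2 * S.uss p) ^ 2 := by
  have hm := bas_m hd
  rw [box_sq hS hp ((sm_y1 hS).ca hp)]
  have e2 : S.h p ^ 2 * (2 * S.y1 p * S.box q S.y1 p - 2 * S.Ds S.y1 p ^ 2) =
      2 * S.y1 p * (S.h p ^ 2 * S.box q S.y1 p) - 2 * (S.h p * S.Ds S.y1 p) ^ 2 := by ring
  rw [e2, box_y1 hS hp, Ds_y1 hS (om_sub_wd hp), near_q]
  exact bernA_alg1 (by linarith) hb.glob.z1 (near_E hb).2.2 (bernA_e hb)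

theorem bernA_alg2 {m A a E H c y w D κ : ℝ} (hm : 0 ≤ m) (hz : a ^ 2 ≤ 1) (hE : E ≤ 1.03)
    (hH : H ≤ c) :
    2 * y * ((2 * m * E + H - 4 * A * (A - a) - 2 * m + 4 * a ^ 2) * y - 2 * κ * w - 4 * a * D) -
      2 * D ^ 2 ≤ (0.12 * m + 2 * c + 18) * y ^ 2 - 4 * κ * w * y := by
  have h1 : 2 * m * E + H - 4 * A * (A - a) - 2 * m + 4 * a ^ 2 ≤ 0.06 * m + c + 5 := by
    nlinarith [sq_nonneg (2 * A - a)]
  have h2 := mul_le_mul_of_nonneg_right h1 (sq_nonneg y)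
  have h6 := mul_le_mul_of_nonneg_right hz (sq_nonneg y)
  nlinarith [sq_nonneg (D + 2 * a * y)]

theorem bernA_y2 (hd : Dim q e0) (hS : IsSol q T' S) (hp : p ∈ Om T') (hb : Bas q e0 K T S p)
    {c : ℝ} (hc : 2 * S.h p ^ 2 * S.ρ2 q p ≤ c) :
    S.h p ^ 2 * S.box q (fun p => S.y2 q p ^ 2) p ≤
      (0.12 * mm q + 2 * c + 18) * S.y2 q p ^ 2 -
        4 * (S.h p ^ 2 * S.kt q p) * (S.h p ^ 2 * S.uss p) * S.y2 q p := by
  have hm := bas_m hd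
  rw [box_sq hS hp ((sm_y2 hS).ca hp)]
  have e2 : S.h p ^ 2 * (2 * S.y2 q p * S.box q (S.y2 q) p - 2 * S.Ds (S.y2 q) p ^ 2) =
      2 * S.y2 q p * (S.h p ^ 2 * S.box q (S.y2 q) p) - 2 * (S.h p * S.Ds (S.y2 q) p) ^ 2 := by
    ring
  rw [e2, box_y2 hS hp, y1_eq hS (om_sub_wd hp)]
  exact bernA_alg2 (by linarith) hb.glob.z1 (near_E hb).2.2 hc

theorem bernA_sum (hS : IsSol q T' S) (hp : p ∈ Om T') :
    S.h p ^ 2 * S.box q (S.Psi q) p = S.h p ^ 2 * S.box q (fun p => S.y2 q p ^ 2) p +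
      100 * mm q * (S.h p ^ 2 * S.box q (fun p => S.y1 p ^ 2) p) +
      100 * mm q ^ 3 * (S.h p ^ 2 * S.box q (fun p => S.u p ^ 2) p) := by
  have e : S.Psi q = fun p => S.y2 q p ^ 2 + 100 * mm q * S.y1 p ^ 2 +
    100 * mm q ^ 3 * S.u p ^ 2 := rfl
  have a2 := (sm_y2 hS).pow 2
  have a1 := (sm_const (100 * mm q)).mul ((sm_y1 hS).pow 2)
  have a0 := (sm_const (100 * mm q ^ 3)).mul ((sm_u hS).pow 2)
  rw [e, box_add hS hp ((a2.add a1).ca hp) (a0.ca hp), box_add hS hp (a2.ca hp) (a1.ca hp),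
    box_cmul (u := fun p => S.y1 p ^ 2), box_cmul (u := fun p => S.u p ^ 2)]
  ring

/-- curvature bounds relative to `h` -/
theorem bernA_cv (hd : Dim q e0) (hb : Bas q e0 K T S p) {c : ℝ}
    (c1 : S.f p ^ 2 * |S.σ q p| ≤ c) (c2 : S.f p ^ 2 * |S.kt q p| ≤ c)
    (c3 : S.f p ^ 2 * |S.R q p| ≤ c) :
    2 * S.h p ^ 2 * S.ρ2 q p ≤ c / 10000 ∧ (S.h p ^ 2 * S.kt q p) ^ 2 ≤ 2 * c ^ 2 := by
  have hm := bas_m hd
  obtain ⟨e, E0, E1⟩ := near_E hb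
  have c0 : 0 ≤ c := le_trans (by positivity) c1
  rw [← abs_of_nonneg (sq_nonneg (S.f p)), ← abs_mul] at c1 c2 c3
  have h2 := pow_le_pow_left₀ (abs_nonneg _) c2 2
  rw [sq_abs] at h2
  rw [abs_le] at c1 c2 c3
  have e2 : S.f p ^ 2 * S.ρ2 q p * (mm q + 4) =
      S.f p ^ 2 * S.R q p - 2 * (S.f p ^ 2 * S.σ q p) - S.f p ^ 2 * S.kt q p := by
    rw [ρ2_tr (by linarith), mul_assoc, div_mul_cancel₀ _ (by linarith)]
    ring
  have c4 : S.f p ^ 2 * S.ρ2 q p ≤ c / 100000 := by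
    refine le_of_mul_le_mul_right ?_ (by linarith : 0 < mm q + 4)
    rw [e2]
    nlinarith
  have c5 := mul_le_mul_of_nonneg_left c4 E0.le
  have c6 := mul_le_mul_of_nonneg_right E1 c0
  have c7 : S.EE p ^ 2 ≤ 2 := by nlinarith
  rw [e]
  constructor
  · nlinarith
  · rw [mul_assoc, mul_pow]
    exact mul_le_mul c7 h2 (sq_nonneg _) (by norm_num)

theorem bernA_alg3 {m y1 y2 u w κ P Q b B0 B1 B2 : ℝ} (hm : 100000000 ≤ m)
    (h0 : B0 ≤ 4.2 * m * u ^ 2 - 2 * y1 ^ 2)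
    (h1 : B1 ≤ (4.2 * m + 16) * y1 ^ 2 + 9 * m * u ^ 2 - w ^ 2)
    (h2 : B2 ≤ (0.12 * m + 2 * 2 + 18) * y2 ^ 2 - 4 * κ * w * y2)
    (hκ : κ ^ 2 ≤ 2 * 20000 ^ 2) (hw : w = -y2 - P - Q) (hP : P ^ 2 ≤ 1.21 * m ^ 2 * y1 ^ 2)
    (hQ : Q ^ 2 ≤ 4.41 * m ^ 2 * u ^ 2) (hu : u ^ 2 ≤ b) :
    B2 + 100 * m * B1 + 100 * m ^ 3 * B0 ≤
      -10 * m * (y2 ^ 2 + 100 * m * y1 ^ 2 + 100 * m ^ 3 * u ^ 2) + 1500 * m ^ 4 * b := by
  have m0 : 0 < m := by linarith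
  have a1 : y2 ^ 2 ≤ 2 * w ^ 2 + 4 * P ^ 2 + 4 * Q ^ 2 := by
    have e : y2 = -w - P - Q := by linarith
    rw [e]
    nlinarith [sq_nonneg (w - P - Q), sq_nonneg (P - Q)]
  have a2 : (κ * w) ^ 2 ≤ 8 * m * w ^ 2 := by
    rw [mul_pow]
    exact mul_le_mul_of_nonneg_right (by linarith) (sq_nonneg _)
  have a3 : -(4 * κ * w * y2) ≤ 32 * m * w ^ 2 + y2 ^ 2 := by
    nlinarith [sq_nonneg (2 * (κ * w) + y2)]
  have b1 := mul_le_mul_of_nonneg_left h1 (by positivity : 0 ≤ 100 * m)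
  have b0 := mul_le_mul_of_nonneg_left h0 (by positivity : 0 ≤ 100 * m ^ 3)
  have a4 : y2 ^ 2 ≤ 2 * w ^ 2 + 4.84 * m ^ 2 * y1 ^ 2 + 17.64 * m ^ 2 * u ^ 2 := by linarith
  have a5 := mul_le_mul_of_nonneg_left a4 (by positivity : 0 ≤ 25 * m)
  have a6 := mul_le_mul_of_nonneg_left hu (by positivity : 0 ≤ 1500 * m ^ 4)
  have c2 : (0.12 * m + 23 - 25 * m) * y2 ^ 2 ≤ -10 * m * y2 ^ 2 :=
    mul_le_mul_of_nonneg_right (by linarith) (sq_nonneg _)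
  have m2 : 100000000 * m ≤ m ^ 2 := by nlinarith
  have m3 : 100000000 * m ^ 2 ≤ m ^ 3 := by nlinarith
  have m4 : 100000000 * m ^ 3 ≤ m ^ 4 := by nlinarith
  have c1 : (420 * m ^ 2 + 1600 * m - 79 * m ^ 3) * y1 ^ 2 ≤ -1000 * m ^ 2 * y1 ^ 2 :=
    mul_le_mul_of_nonneg_right (by linarith) (sq_nonneg _)
  have c0 : (900 * m ^ 2 + 441 * m ^ 3 + 420 * m ^ 4) * u ^ 2 ≤ 500 * m ^ 4 * u ^ 2 :=
    mul_le_mul_of_nonneg_right (by linarith) (sq_nonneg _)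
  have c3 : 0 ≤ m * w ^ 2 := by positivity
  linarith

theorem bern_near (hd : Dim q e0) (hS : IsSol q T' S) (hp : p ∈ Om T') (hb : Bas q e0 K T S p)
    (hn : Nr q S p) : S.h p ^ 2 * S.box q (S.Psi q) p ≤
      -10 * mm q * S.Psi q p + 1500 * mm q ^ 4 * S.b2 T p := by
  have hm := bas_m hd
  obtain ⟨c1, c2⟩ := bernA_cv hd hb hn.cσ hn.ck hn.cR
  obtain ⟨e, E0, E1⟩ := near_E hb
  have hA : |S.hX p| ≤ 1.1 := by
    refine abs_le_of_sq_le_sq ?_ (by norm_num)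
    rw [hX_sq]
    nlinarith [mul_le_mul_of_nonneg_left hn.fs E0.le]
  have ha : |S.a p| ≤ 1 := (sq_le_one_iff_abs_le_one _).1 hb.glob.z1
  rw [abs_le] at hA ha
  rw [bernA_sum hS hp]
  refine bernA_alg3 hm (bernA_u hd hS hp hb) (bernA_y1 hd hS hp hb)
    (bernA_y2 hd hS hp hb (c := 2) (by linarith)) c2 (uss_eq hS (om_sub_wd hp)) ?_ ?_ hb.u2
  · rw [mul_pow, near_q]
    refine mul_le_mul_of_nonneg_right ?_ (sq_nonneg _)
    have h1 : |2 * S.hX p + (mm q + 1) * S.a p| ≤ 1.1 * mm q :=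
      abs_le.2 ⟨by nlinarith, by nlinarith⟩
    have h2 := pow_le_pow_left₀ (abs_nonneg _) h1 2
    rw [sq_abs] at h2
    linarith
  · rw [mul_pow]
    linarith [mul_le_mul_of_nonneg_left (bernA_e hb) (sq_nonneg (mm q))]

theorem bernA_mono (hS : IsSol q T' S) (hp : p ∈ Om T') (γ : ℝ) :
    S.h p ^ 2 * S.box q (S.mono γ 0) p = S.mono γ 0 p * (-(γ * mm q) - γ ^ 2 * S.z p) := by
  have h0 := (h_pos hS (om_sub_wd hp)).ne'
  rw [box_mono hS hp, Y_eq hS (om_sub_wd hp)]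
  unfold Pre.z
  field_simp
  ring

theorem box_b2 (hd : Dim q e0) (hS : IsSol q T' S) (hp : p ∈ Om T') (hb : Bas q e0 K T S p) :
    -8 * mm q * S.b2 T p ≤ S.h p ^ 2 * S.box q (S.b2 T) p := by
  have hm := bas_m hd
  have e1 : ∀ p ∈ Wd T', S.mono (-(9 / 2)) 0 p = (S.k p ^ 18)⁻¹ := fun p hp => by
    have h := mono_zpow hS hp (-18) 0
    norm_num at h
    exact h
  have e2 : ∀ p ∈ Wd T', S.mono (15 / 2) 0 p = S.k p ^ 30 := fun p hp => by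
    have h := mono_zpow hS hp 30 0
    norm_num at h
    exact h
  have e3 : S.box q (S.b2 T) p =
      S.box q (fun p => (T - p.1) ^ 6 * S.mono (-(9 / 2)) 0 p + S.mono (15 / 2) 0 p) p :=
    box_congr_wd hp fun p hp => by
      rw [e1 p hp, e2 p hp]
      rfl
  have d : HasDerivAt (fun t : ℝ => (T - t) ^ 6) (-(6 * (T - p.1) ^ 5)) p.1 := by
    exact (((hasDerivAt_id' p.1).const_sub T).fun_pow 6).congr_deriv (by norm_num)
  rw [e3, box_add hS hp (((((sm_const T).sub sm_fst).pow 6).mul (sm_mono hS _ _)).ca hp)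
    ((sm_mono hS _ _).ca hp), box_tmul hS hp ((sm_mono hS _ _).ca hp) d]
  have m1 := bernA_mono hS hp (-(9 / 2))
  have m2 := bernA_mono hS hp (15 / 2)
  have hw := om_sub_wd hp
  rw [e1 p hw] at m1 ⊢
  rw [e2 p hw] at m2
  have z1 := hb.glob.z1
  have z0 : 0 ≤ S.z p := sq_nonneg _
  have k0 := hb.kpos
  have τ0 := hb.τ0
  have a1 : 0 ≤ (T - p.1) ^ 6 * (S.h p ^ 2 * S.box q (S.mono (-(9 / 2)) 0) p) := by
    rw [m1]
    exact mul_nonneg (by positivity) (mul_nonneg (by positivity) (by linarith))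
  have a2 : S.k p ^ 30 * (-(7.6 * mm q)) ≤ S.h p ^ 2 * S.box q (S.mono (15 / 2) 0) p := by
    rw [m2]
    exact mul_le_mul_of_nonneg_left (by linarith) (by positivity)
  have p1 : 0 < (T - p.1) ^ 6 / S.k p ^ 18 := by positivity
  have p2 : 0 < S.k p ^ 30 := by positivity
  have a3 : S.h p ^ 2 * ((T - p.1) ^ 5 * (S.k p ^ 18)⁻¹) ≤
      (T - p.1) ^ 6 / S.k p ^ 18 + S.k p ^ 30 := by
    rcases le_total (S.h p ^ 2) (T - p.1) with h | h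
    · have := mul_le_mul_of_nonneg_right h
        (by positivity : 0 ≤ (T - p.1) ^ 5 * (S.k p ^ 18)⁻¹)
      have e : (T - p.1) * ((T - p.1) ^ 5 * (S.k p ^ 18)⁻¹) = (T - p.1) ^ 6 / S.k p ^ 18 := by
        ring
      linarith
    · have h5 := mul_le_mul_of_nonneg_left (mul_le_mul_of_nonneg_right
        (pow_le_pow_left₀ τ0.le h 5) (by positivity : 0 ≤ (S.k p ^ 18)⁻¹)) (sq_nonneg (S.h p))
      have e : S.h p ^ 2 * ((S.h p ^ 2) ^ 5 * (S.k p ^ 18)⁻¹) = S.k p ^ 30 := by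
        rw [hb.hk]
        field_simp
      linarith
  unfold Pre.b2
  nlinarith [mul_le_mul_of_nonneg_right hm p1.le, mul_le_mul_of_nonneg_right hm p2.le]

theorem bernA_alg4 {m y1 y2 u w κ c B0 B1 B2 : ℝ} (hm : 100000000 ≤ m)
    (h0 : B0 ≤ 4.2 * m * u ^ 2 - 2 * y1 ^ 2)
    (h1 : B1 ≤ (4.2 * m + 16) * y1 ^ 2 + 9 * m * u ^ 2 - w ^ 2)
    (h2 : B2 ≤ (0.12 * m + 2 * (c / 10000) + 18) * y2 ^ 2 - 4 * κ * w * y2)
    (hκ : κ ^ 2 ≤ 2 * c ^ 2) :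
    B2 + 100 * m * B1 + 100 * m ^ 3 * B0 ≤
      (9 * c ^ 2 + m ^ 2) * (y2 ^ 2 + 100 * m * y1 ^ 2 + 100 * m ^ 3 * u ^ 2) := by
  have m0 : 0 < m := by linarith
  have a2 : (κ * y2) ^ 2 ≤ 2 * c ^ 2 * y2 ^ 2 := by
    rw [mul_pow]
    exact mul_le_mul_of_nonneg_right hκ (sq_nonneg _)
  have a3 : -(4 * κ * w * y2) ≤ 8 * c ^ 2 * y2 ^ 2 + w ^ 2 := by
    nlinarith [sq_nonneg (2 * (κ * y2) + w)]
  have b1 := mul_le_mul_of_nonneg_left h1 (by positivity : 0 ≤ 100 * m)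
  have b0 := mul_le_mul_of_nonneg_left h0 (by positivity : 0 ≤ 100 * m ^ 3)
  have m2 : 100000000 * m ≤ m ^ 2 := by nlinarith
  have m3 : 100000000 * m ^ 2 ≤ m ^ 3 := by nlinarith
  have m4 : 100000000 * m ^ 3 ≤ m ^ 4 := by nlinarith
  have m5 : 100000000 * m ^ 4 ≤ m ^ 5 := by nlinarith
  have c2 : (0.12 * m + 2 * (c / 10000) + 18) * y2 ^ 2 ≤ (c ^ 2 + m ^ 2) * y2 ^ 2 :=
    mul_le_mul_of_nonneg_right (by nlinarith [sq_nonneg (c - 1)]) (sq_nonneg _)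
  have c1 : (420 * m ^ 2 + 1600 * m - 200 * m ^ 3) * y1 ^ 2 ≤ 100 * m ^ 3 * y1 ^ 2 :=
    mul_le_mul_of_nonneg_right (by linarith) (sq_nonneg _)
  have c0 : (900 * m ^ 2 + 420 * m ^ 4) * u ^ 2 ≤ 100 * m ^ 5 * u ^ 2 :=
    mul_le_mul_of_nonneg_right (by linarith) (sq_nonneg _)
  have c3 : w ^ 2 ≤ 100 * m * w ^ 2 := le_mul_of_one_le_left (sq_nonneg _) (by linarith)
  have c4 : 0 ≤ c ^ 2 * m * y1 ^ 2 := by positivity
  have c5 : 0 ≤ c ^ 2 * m ^ 3 * u ^ 2 := by positivity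
  linarith

theorem bern_far (q : ℕ) (K : ℝ) : ∃ C : ℝ, 0 ≤ C ∧ ∀ (e0 T T' : ℝ) (S : Pre) (p : ℝ × ℝ),
    Dim q e0 → 10 ≤ K → IsSol q T' S → p ∈ Om T' → Bas q e0 K T S p →
      S.h p ^ 2 * S.box q (S.Psi q) p ≤ C * S.Psi q p := by
  refine ⟨9 * (10000 + 2 * K) ^ 2 + mm q ^ 2, by positivity, fun e0 T T' S p hd _ hS hp hb => ?_⟩
  obtain ⟨c1, c2⟩ := bernA_cv hd hb hb.cσ hb.ck hb.cR
  rw [bernA_sum hS hp]
  exact bernA_alg4 (bas_m hd) (bernA_u hd hS hp hb) (bernA_y1 hd hS hp hb)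
    (bernA_y2 hd hS hp hb c1) c2

end Vale.Agent.P244
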