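import Vale.Agent.P244C.Defs

open Set MeasureTheory Filter Topology
open scoped ContDiff

noncomputable section

namespace Vale.Agent.P244

variable {q : ℕ} {T : ℝ} {S : Pre} {u v : ℝ × ℝ → ℝ} {p : ℝ × ℝ}

namespace Calc

theorem slice {I J : Set ℝ} (hJ : IsOpen J) (hu : ContDiffOn ℝ ∞ u (I ×ˢ J))
    (hp : p ∈ I ×ˢ J) : ContDiffAt ℝ ∞ (fun x => u (p.1, x)) p.2 := by
  have h1 : ContDiffOn ℝ ∞ (fun x => u (p.1, x)) J :=
    hu.comp (contDiff_const.prodMk contDiff_id).contDiffOn fun x hx => ⟨hp.1, hx⟩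
  exact h1.contDiffAt (hJ.mem_nhds hp.2)

theorem dx_on {J : Set ℝ} (hJ : IsOpen J) (hu : ContDiffOn ℝ ∞ u (Ico 0 T ×ˢ J)) :
    ContDiffOn ℝ ∞ (dx u) (Ico 0 T ×ˢ J) := by
  have hU : UniqueDiffOn ℝ (Ico 0 T ×ˢ J) := (uniqueDiffOn_Ico 0 T).prod hJ.uniqueDiffOn
  have h1 : ContDiffOn ℝ ∞ (fun p => fderivWithin ℝ u (Ico 0 T ×ˢ J) p ((0 : ℝ), (1 : ℝ)))
      (Ico 0 T ×ˢ J) :=
    (hu.fderivWithin hU (m := ∞) (by simp)).clm_apply contDiffOn_const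
  refine h1.congr fun p hp => ?_
  have h2 : HasFDerivWithinAt u (fderivWithin ℝ u (Ico 0 T ×ˢ J) p) (Ico 0 T ×ˢ J) (p.1, p.2) :=
    (hu.differentiableOn (by simp) p hp).hasFDerivWithinAt
  have h3 : HasDerivWithinAt (fun x : ℝ => (p.1, x)) ((0 : ℝ), (1 : ℝ)) J p.2 :=
    ((hasDerivAt_const p.2 p.1).prodMk (hasDerivAt_id p.2)).hasDerivWithinAt
  have h4 := h2.comp_hasDerivWithinAt p.2 h3 fun x hx => ⟨hp.1, hx⟩
  exact (h4.hasDerivAt (hJ.mem_nhds hp.2)).deriv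

theorem ℓ_on {J : Set ℝ} (hS : IsSol q T S) :
    ContDiffOn ℝ ∞ (fun p : ℝ × ℝ => S.ℓ p.1) (Ico 0 T ×ˢ J) :=
  hS.smℓ.comp contDiff_fst.contDiffOn fun _ hp => hp.1

theorem Ds_on {J : Set ℝ} (hJ : IsOpen J) (hS : IsSol q T S)
    (hu : ContDiffOn ℝ ∞ u (Ico 0 T ×ˢ J)) : ContDiffOn ℝ ∞ (S.Ds u) (Ico 0 T ×ˢ J) :=
  (dx_on hJ hu).div (ℓ_on hS) fun _ hp => (hS.posℓ _ hp.1).ne'

theorem h_on (hS : IsSol q T S) : ContDiffOn ℝ ∞ S.h (Ico 0 T ×ˢ univ) :=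
  ((ℓ_on hS).mul (Real.contDiff_sin.comp contDiff_snd).contDiffOn).mul hS.smη

theorem res (hu : ContDiffOn ℝ ∞ u (Ico 0 T ×ˢ univ)) : Sm T u :=
  hu.mono (prod_mono Subset.rfl (subset_univ _))

end Calc

theorem om_sub_wd : Om T ⊆ Wd T := prod_mono Ioo_subset_Ico_self Subset.rfl
theorem rg_sub_wd {t1 : ℝ} (h : t1 < T) : Rg t1 ⊆ Wd T := prod_mono (Icc_subset_Ico_right h) Subset.rfl
theorem rg_om {t1 : ℝ} (h : t1 < T) (hp : p ∈ Rg t1) (h0 : 0 < p.1) : p ∈ Om T := ⟨⟨h0, hp.1.2.trans_lt h⟩, hp.2⟩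
theorem isOpen_om : IsOpen (Om T) := isOpen_Ioo.prod isOpen_Ioo
theorem Sm.ca (hu : Sm T u) (hp : p ∈ Om T) : CA u p := (ContDiffOn.mono hu om_sub_wd).contDiffAt (isOpen_om.mem_nhds hp)
theorem Sm.xa (hu : Sm T u) (hp : p ∈ Wd T) : XA u p := Calc.slice isOpen_Ioo hu hp
theorem CA.xa (hu : CA u p) : XA u p := ContDiffAt.comp (g := u) (f := fun x => (p.1, x)) p.2 hu
  (contDiff_const.prodMk contDiff_id).contDiffAt
theorem Sm.cont (hu : Sm T u) : ContinuousOn u (Wd T) := ContDiffOn.continuousOn hu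

theorem sm_const (c : ℝ) : Sm T fun _ => c := contDiffOn_const
theorem sm_fst : Sm T fun p => p.1 := contDiff_fst.contDiffOn
theorem Sm.add (hu : Sm T u) (hv : Sm T v) : Sm T fun p => u p + v p := ContDiffOn.add hu hv
theorem Sm.sub (hu : Sm T u) (hv : Sm T v) : Sm T fun p => u p - v p := ContDiffOn.sub hu hv
theorem Sm.mul (hu : Sm T u) (hv : Sm T v) : Sm T fun p => u p * v p := ContDiffOn.mul hu hv
theorem Sm.neg (hu : Sm T u) : Sm T fun p => -u p := ContDiffOn.neg hu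
theorem Sm.pow (hu : Sm T u) (n : ℕ) : Sm T fun p => u p ^ n := ContDiffOn.pow hu n
theorem Sm.div (hu : Sm T u) (hv : Sm T v) (h : ∀ p ∈ Wd T, v p ≠ 0) :
    Sm T fun p => u p / v p := ContDiffOn.div hu hv h
theorem Sm.div_const (hu : Sm T u) (c : ℝ) : Sm T fun p => u p / c := ContDiffOn.div_const hu c
theorem Sm.exp (hu : Sm T u) : Sm T fun p => Real.exp (u p) := ContDiffOn.exp hu
theorem Sm.congr (hu : Sm T u) (h : ∀ p ∈ Wd T, v p = u p) : Sm T v := ContDiffOn.congr hu h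
theorem Sm.dx (hu : Sm T u) : Sm T (dx u) := Calc.dx_on isOpen_Ioo hu
theorem Sm.Ds (hS : IsSol q T S) (hu : Sm T u) : Sm T (S.Ds u) := Calc.Ds_on isOpen_Ioo hS hu

theorem h_pos (hS : IsSol q T S) (hp : p ∈ Wd T) : 0 < S.h p := 
  mul_pos (mul_pos (hS.posℓ _ hp.1) (Real.sin_pos_of_pos_of_lt_pi hp.2.1 hp.2.2)) (hS.posη _ hp.1 _)
theorem f_pos (S : Pre) (p : ℝ × ℝ) : 0 < S.f p := Real.exp_pos _
theorem φ_pos (S : Pre) (p : ℝ × ℝ) : 0 < S.φ p := Real.exp_pos _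
theorem mono_pos (S : Pre) (γ δ : ℝ) (p : ℝ × ℝ) : 0 < S.mono γ δ p := Real.exp_pos _
theorem φ_pow (S : Pre) (p : ℝ × ℝ) : S.φ p ^ 4 = S.f p := by
  unfold Pre.φ Pre.f
  rw [← Real.exp_nat_mul]; congr 1; push_cast; ring
theorem k_pos (hS : IsSol q T S) (hp : p ∈ Wd T) : 0 < S.k p := Real.sqrt_pos.2 (Real.sqrt_pos.2 (h_pos hS hp))
theorem k_pow (hS : IsSol q T S) (hp : p ∈ Wd T) : S.k p ^ 4 = S.h p := by
  unfold Pre.k
  rw [show 4 = 2 * 2 from rfl, pow_mul, Real.sq_sqrt (Real.sqrt_nonneg _),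
    Real.sq_sqrt (h_pos hS hp).le]
theorem Calc.k_exp (hS : IsSol q T S) (hp : p ∈ Wd T) : S.k p = Real.exp (S.G p / 4) := by
  refine (pow_left_inj₀ (k_pos hS hp).le (Real.exp_pos _).le (by norm_num : (4 : ℕ) ≠ 0)).1 ?_
  rw [k_pow hS hp, ← Real.exp_nat_mul, show ((4 : ℕ) : ℝ) * (S.G p / 4) = S.G p by push_cast; ring]
  exact (Real.exp_log (h_pos hS hp)).symm
/-- integer powers of `k` and `φ` are monomials -/
theorem mono_zpow (hS : IsSol q T S) (hp : p ∈ Wd T) (i j : ℤ) :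
    S.mono (i / 4) (j / 4) p = S.k p ^ i * S.φ p ^ j := by
  rw [Calc.k_exp hS hp]
  unfold Pre.mono Pre.φ
  rw [← Real.rpow_intCast, ← Real.rpow_intCast, ← Real.exp_mul, ← Real.exp_mul, ← Real.exp_add]
  congr 1; ring
theorem mono_rpow (hS : IsSol q T S) (hp : p ∈ Wd T) (γ δ : ℝ) :
    S.mono γ δ p = S.h p ^ γ * S.f p ^ δ := by
  unfold Pre.mono Pre.f Pre.G
  rw [Real.rpow_def_of_pos (h_pos hS hp), ← Real.exp_mul, ← Real.exp_add]
  congr 1; ring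

theorem sm_ℓ (hS : IsSol q T S) : Sm T fun p => S.ℓ p.1 := Calc.ℓ_on hS
theorem sm_F (hS : IsSol q T S) : Sm T S.F := Calc.res hS.smF
theorem sm_ξ (hS : IsSol q T S) : Sm T S.ξ := 
  ContDiffOn.mul (Real.contDiff_sin.comp contDiff_snd).contDiffOn (Calc.res hS.smw)
theorem sm_h (hS : IsSol q T S) : Sm T S.h := Calc.res (Calc.h_on hS)
theorem sm_G (hS : IsSol q T S) : Sm T S.G := ContDiffOn.log (sm_h hS) fun _ hp => (h_pos hS hp).ne'
theorem sm_f (hS : IsSol q T S) : Sm T S.f := (sm_F hS).exp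
theorem sm_k (hS : IsSol q T S) : Sm T S.k := ((sm_G hS).div_const 4).exp.congr fun _ hp => Calc.k_exp hS hp
theorem sm_φ (hS : IsSol q T S) : Sm T S.φ := ((sm_F hS).div_const 4).exp
theorem sm_mono (hS : IsSol q T S) (γ δ : ℝ) : Sm T (S.mono γ δ) := 
  (((sm_const γ).mul (sm_G hS)).add ((sm_const δ).mul (sm_F hS))).exp
theorem sm_X (hS : IsSol q T S) : Sm T S.X := (sm_F hS).Ds hS
theorem sm_Y (hS : IsSol q T S) : Sm T S.Y := (sm_G hS).Ds hS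
theorem sm_a (hS : IsSol q T S) : Sm T S.a := (sm_h hS).Ds hS
theorem sm_Θ (hS : IsSol q T S) : Sm T S.Θ := ((sm_f hS).pow 2).sub ((sm_h hS).pow 2)
theorem sm_fs (hS : IsSol q T S) : Sm T S.fs := (sm_f hS).mul (sm_X hS)
theorem sm_u (hS : IsSol q T S) : Sm T S.u := (sm_F hS).sub (sm_G hS)
theorem sm_y1 (hS : IsSol q T S) : Sm T S.y1 := (sm_h hS).mul ((sm_X hS).sub (sm_Y hS))
theorem Calc.sm_lap (hS : IsSol q T S) (hu : Sm T u) : Sm T (S.lap q u) :=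
  ((hu.Ds hS).Ds hS).add
    ((((sm_const 2).mul (sm_X hS)).add ((sm_const q).mul (sm_Y hS))).mul (hu.Ds hS))
theorem sm_ρ0 (hS : IsSol q T S) : Sm T (S.ρ0 q) := 
  ((sm_const (-2)).mul (((sm_X hS).Ds hS).add ((sm_X hS).pow 2))).sub
    ((sm_const q).mul (((sm_Y hS).Ds hS).add ((sm_Y hS).pow 2)))
theorem sm_ρ1 (hS : IsSol q T S) : Sm T (S.ρ1 q) := 
  ((sm_const (q - 1)).mul ((sm_const (-2)).mul (sm_F hS)).exp).sub (Calc.sm_lap hS (sm_F hS))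
theorem sm_ρ2 (hS : IsSol q T S) : Sm T (S.ρ2 q) := 
  ((sm_const (q - 1)).div ((sm_h hS).pow 2) fun _ hp => (pow_pos (h_pos hS hp) 2).ne').sub
    (Calc.sm_lap hS (sm_G hS))
theorem sm_R (hS : IsSol q T S) : Sm T (S.R q) := 
  ((sm_ρ0 hS).add ((sm_const 2).mul (sm_ρ1 hS))).add ((sm_const q).mul (sm_ρ2 hS))
theorem sm_σ (hS : IsSol q T S) : Sm T (S.σ q) := (sm_ρ1 hS).sub (sm_ρ2 hS)
theorem sm_kt (hS : IsSol q T S) : Sm T (S.kt q) := (sm_ρ0 hS).sub (sm_ρ2 hS)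
theorem sm_σ' (hS : IsSol q T S) : Sm T (S.σ' q) := (sm_σ hS).sub ((sm_kt hS).div_const _)
theorem sm_y2 (hS : IsSol q T S) : Sm T (S.y2 q) := ((sm_h hS).pow 2).mul (sm_σ hS)

/-- joint smoothness of `h`, `a`, `Θ` across the poles -/
theorem h_smooth (hS : IsSol q T S) : ContDiffOn ℝ ∞ S.h (Ico 0 T ×ˢ univ) := Calc.h_on hS
theorem a_smooth (hS : IsSol q T S) : ContDiffOn ℝ ∞ S.a (Ico 0 T ×ˢ univ) := 
  Calc.Ds_on isOpen_univ hS (Calc.h_on hS)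
theorem X_smooth (hS : IsSol q T S) : ContDiffOn ℝ ∞ S.X (Ico 0 T ×ˢ univ) := Calc.Ds_on isOpen_univ hS hS.smF
theorem Θ_smooth (hS : IsSol q T S) : ContDiffOn ℝ ∞ S.Θ (Ico 0 T ×ˢ univ) := 
  (hS.smF.exp.pow 2).sub ((Calc.h_on hS).pow 2)

theorem Ds_refl {t : ℝ} (h : ∀ x, u (t, Real.pi - x) = u (t, x)) (x : ℝ) :
    S.Ds u (t, Real.pi - x) = -S.Ds u (t, x) := by
  have e : (fun y => u (t, y)) = fun y => (fun z => u (t, z)) (Real.pi - y) :=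
    funext fun y => (h y).symm
  have := deriv_comp_const_sub (fun z => u (t, z)) Real.pi x
  rw [← e] at this
  simp only [Pre.Ds, dx]
  rw [this]; ring
theorem Ds_refl' {t : ℝ} (h : ∀ x, u (t, Real.pi - x) = -u (t, x)) (x : ℝ) :
    S.Ds u (t, Real.pi - x) = S.Ds u (t, x) := by
  have e : (fun y => -u (t, y)) = fun y => (fun z => u (t, z)) (Real.pi - y) :=
    funext fun y => (h y).symm
  have := deriv_comp_const_sub (fun z => u (t, z)) Real.pi x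
  rw [← e, deriv.fun_neg, neg_inj] at this
  simp only [Pre.Ds, dx]
  rw [this]
theorem h_refl (hS : IsSol q T S) (t x : ℝ) : S.h (t, Real.pi - x) = S.h (t, x) := by
  simp only [Pre.h, Real.sin_pi_sub, hS.reflη]
theorem a_half (hS : IsSol q T S) (t : ℝ) : S.a (t, Real.pi / 2) = 0 := by
  have := Ds_refl (S := S) (h_refl hS t) (Real.pi / 2)
  rw [show Real.pi - Real.pi / 2 = Real.pi / 2 by ring] at this
  unfold Pre.a
  linarith
theorem a_zero (hS : IsSol q T S) {t : ℝ} (ht : t ∈ Ico 0 T) : S.a (t, 0) = 1 := by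
  have h1 : HasDerivAt (fun x => S.η (t, x)) (deriv (fun x => S.η (t, x)) 0) 0 :=
    ((Calc.slice (p := (t, 0)) isOpen_univ hS.smη ⟨ht, mem_univ _⟩).differentiableAt
      (by simp)).hasDerivAt
  have h2 := (((Real.hasDerivAt_sin 0).const_mul (S.ℓ t)).mul h1).deriv
  simp only [Pre.a, Pre.Ds, dx, Pre.h]
  rw [show (fun x => S.ℓ t * Real.sin x * S.η (t, x)) =
    (fun y => S.ℓ t * Real.sin y) * fun x => S.η (t, x) from rfl, h2, hS.poleη t ht]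
  have := (hS.posℓ t ht).ne'
  simp [this]

end Vale.Agent.P244
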