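import Vale.Agent.P244C.IdC
import Vale.Agent.P244C.Near

open Set MeasureTheory Filter Topology
open scoped ContDiff

noncomputable section

namespace Vale.Agent.P244

variable {q : ℕ} {e0 K T T' : ℝ} {S : Pre} {p : ℝ × ℝ}

theorem CurvA_div {m x c : ℝ} (hm : 10 ^ 8 ≤ m) (hx : |x| ≤ c) (hc : c ≤ 10 ^ 8) :
    |x / (m + 2)| ≤ 1 := by
  have h2 : 0 < m + 2 := by linarith
  rw [abs_div, abs_of_pos h2, div_le_one h2]
  linarith

theorem CurvA_alg1 {m r g J D w B u : ℝ} (hm : 10 ^ 8 ≤ m) (hr : |r| ≤ 1) (hg0 : 0 ≤ g)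
    (hg1 : g ≤ 2) (hJ0 : 0.9 ≤ J) (hJ1 : J ≤ 1.1) (hD : |D| ≤ 80000) (hw0 : 0 ≤ w) (hw1 : w ≤ 6)
    (hu : |u| ≤ B) :
    (2 * m + 2 * r - 4 * g + 4 * J - 4 * (J - D) / (m + 2)) * (B + u / (m + 2)) +
      (-2 * D - 2 * r - 4 * J + (4 * g + 4 * J) / (m + 2) + w) * u ≤ (2 * m + 300000) * B := by
  have hB : 0 ≤ B := (abs_nonneg u).trans hu
  have h2 : 0 < m + 2 := by linarith
  obtain ⟨hr0, hr1⟩ := abs_le.1 hr
  obtain ⟨hD0, hD1⟩ := abs_le.1 hD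
  have e1 : |4 * (J - D) / (m + 2)| ≤ 1 :=
    CurvA_div (c := 400000) hm (abs_le.2 ⟨by linarith, by linarith⟩) (by norm_num)
  have e2 : |(4 * g + 4 * J) / (m + 2)| ≤ 1 :=
    CurvA_div (c := 20) hm (abs_le.2 ⟨by linarith, by linarith⟩) (by norm_num)
  obtain ⟨e10, e11⟩ := abs_le.1 e1
  obtain ⟨e20, e21⟩ := abs_le.1 e2
  generalize 4 * (J - D) / (m + 2) = x1 at *
  generalize (4 * g + 4 * J) / (m + 2) = x2 at *
  have hv : (m + 2) * |u / (m + 2)| ≤ B := by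
    rw [abs_div, abs_of_pos h2, mul_div_cancel₀ _ h2.ne']
    exact hu
  generalize u / (m + 2) = v at *
  have a1 : |2 * m + 2 * r - 4 * g + 4 * J - x1| ≤ 3 * (m + 2) :=
    abs_le.2 ⟨by linarith, by linarith⟩
  have a2 : |-2 * D - 2 * r - 4 * J + x2 + w| ≤ 170000 := abs_le.2 ⟨by linarith, by linarith⟩
  have t1 : (2 * m + 2 * r - 4 * g + 4 * J - x1) * B ≤ (2 * m + 20) * B :=
    mul_le_mul_of_nonneg_right (by linarith) hB
  have t2 : (2 * m + 2 * r - 4 * g + 4 * J - x1) * v ≤ 3 * B := by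
    refine (le_abs_self _).trans ?_
    rw [abs_mul]
    have := mul_le_mul_of_nonneg_right a1 (abs_nonneg v)
    linarith
  have t3 : (-2 * D - 2 * r - 4 * J + x2 + w) * u ≤ 170000 * B := by
    refine (le_abs_self _).trans ?_
    rw [abs_mul]
    exact mul_le_mul a2 hu (abs_nonneg _) (by norm_num)
  nlinarith

theorem CurvA_q (q : ℕ) : (q : ℝ) = mm q + 1 := by unfold mm; ring

theorem CurvA_abs {s x : ℝ} (hs : s = 1 ∨ s = -1) : |s * x| = |x| := by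
  rcases hs with rfl | rfl <;> simp

theorem CurvA_EE (hb : Bas q e0 K T S p) : 0 < S.EE p ∧ S.EE p ≤ 1.03 := by
  have hf := pow_pos hb.fpos 2
  refine ⟨div_pos (pow_pos hb.hpos 2) hf, ?_⟩
  unfold Pre.EE
  rw [div_le_iff₀ hf]
  exact hb.E1

theorem CurvA_ρ2 {c : ℝ} (hm : 0 < mm q) (h1 : S.f p ^ 2 * |S.σ q p| ≤ c)
    (h2 : S.f p ^ 2 * |S.kt q p| ≤ c) (h3 : S.f p ^ 2 * |S.R q p| ≤ c) :
    (mm q + 4) * |S.f p ^ 2 * S.ρ2 q p| ≤ 4 * c := by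
  have hf : 0 < S.f p ^ 2 := pow_pos (f_pos S p) 2
  have h4 : 0 < mm q + 4 := by linarith
  rw [ρ2_tr hm, abs_mul, abs_of_pos hf, abs_div, abs_of_pos h4]
  have e : (mm q + 4) * (S.f p ^ 2 * (|S.R q p - 2 * S.σ q p - S.kt q p| / (mm q + 4))) =
      S.f p ^ 2 * |S.R q p - 2 * S.σ q p - S.kt q p| := by field_simp
  rw [e]
  have t : |S.R q p - 2 * S.σ q p - S.kt q p| ≤ |S.R q p| + 2 * |S.σ q p| + |S.kt q p| := by
    refine abs_le.2 ⟨?_, ?_⟩ <;>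
      linarith [le_abs_self (S.R q p), neg_abs_le (S.R q p), le_abs_self (S.σ q p),
        neg_abs_le (S.σ q p), le_abs_self (S.kt q p), neg_abs_le (S.kt q p)]
  have := mul_le_mul_of_nonneg_left t hf.le
  linarith

theorem CurvA_σ (hm : 0 < mm q) {B : ℝ} (h1 : |S.σ' q p| ≤ B) (h2 : |S.kt q p| ≤ B) :
    |S.σ q p| ≤ 2 * B := by
  have e : S.σ q p = S.σ' q p + S.kt q p / (mm q + 2) := by unfold Pre.σ'; ring
  have h3 : |S.kt q p / (mm q + 2)| ≤ |S.kt q p| := by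
    rw [abs_div, abs_of_pos (by linarith : 0 < mm q + 2)]
    exact div_le_self (abs_nonneg _) (by linarith)
  rw [e]
  linarith [abs_add_le (S.σ' q p) (S.kt q p / (mm q + 2))]

theorem CurvA_far {m c A i E x a z σ r D k B : ℝ} (hm : 1 ≤ m) (hi0 : 0 ≤ i) (hi : i ≤ A)
    (hE0 : 0 ≤ E) (hE : E ≤ 2) (hx : x ^ 2 ≤ 2 * m) (hz : z = a ^ 2) (hz1 : z ≤ 1)
    (hσ : |σ| ≤ c) (hr : |r| ≤ c)
    (hD : σ + r = m * E * i - D - 2 * (x ^ 2 * i) - (m + 1) * (x * a * i)) (hk : |k| ≤ B)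
    (hB : |σ| ≤ 2 * B) :
    |-((4 * x ^ 2 + 4 * x * a + 4 * (m + 1) * z - 2 * m) * i) * k + 4 * σ * (x * a * i - D)| ≤
      (30 * m * A + 8 * (2 * c + 8 * m * A + 4 * m ^ 2 * A)) * B := by
  have hB0 : 0 ≤ B := (abs_nonneg k).trans hk
  have hA : 0 ≤ A := hi0.trans hi
  have hz0 : 0 ≤ z := hz ▸ sq_nonneg a
  have hx0 := sq_nonneg x
  have hxa : |x * a| ≤ 2 * m :=
    abs_le.2 ⟨by nlinarith [sq_nonneg (x + a)], by nlinarith [sq_nonneg (x - a)]⟩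
  obtain ⟨hxa0, hxa1⟩ := abs_le.1 hxa
  have hmz : (m + 1) * z ≤ 2 * m := by nlinarith
  have hmz0 : 0 ≤ (m + 1) * z := by positivity
  have n1 : |4 * x ^ 2 + 4 * x * a + 4 * (m + 1) * z - 2 * m| ≤ 30 * m :=
    abs_le.2 ⟨by nlinarith, by nlinarith⟩
  have n2 : |(4 * x ^ 2 + 4 * x * a + 4 * (m + 1) * z - 2 * m) * i| ≤ 30 * m * A := by
    rw [abs_mul, abs_of_nonneg hi0]
    exact mul_le_mul n1 hi hi0 (by linarith)
  have n3 : |x * a * i| ≤ 2 * m * A := by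
    rw [abs_mul, abs_of_nonneg hi0]
    exact mul_le_mul hxa hi hi0 (by linarith)
  have n4 : m * E * i ≤ 2 * m * A := mul_le_mul (by nlinarith) hi hi0 (by linarith)
  have n4' : 0 ≤ m * E * i := by positivity
  have n5 : x ^ 2 * i ≤ 2 * m * A := mul_le_mul hx hi hi0 (by linarith)
  have n5' : 0 ≤ x ^ 2 * i := by positivity
  have n6 : |(m + 1) * (x * a * i)| ≤ 4 * m ^ 2 * A := by
    rw [abs_mul, abs_of_nonneg (by linarith : 0 ≤ m + 1)]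
    calc (m + 1) * |x * a * i| ≤ (2 * m) * (2 * m * A) :=
          mul_le_mul (by linarith) n3 (abs_nonneg _) (by linarith)
      _ = 4 * m ^ 2 * A := by ring
  have hmA : 0 ≤ m * A := by positivity
  have n7 : |x * a * i - D| ≤ 2 * c + 8 * m * A + 4 * m ^ 2 * A := by
    obtain ⟨b1, b2⟩ := abs_le.1 n3
    obtain ⟨b3, b4⟩ := abs_le.1 n6
    obtain ⟨b5, b6⟩ := abs_le.1 hσ
    obtain ⟨b7, b8⟩ := abs_le.1 hr
    exact abs_le.2 ⟨by linarith, by linarith⟩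
  refine (abs_add_le _ _).trans ?_
  rw [abs_mul, abs_neg, abs_mul (4 * σ), abs_mul 4, abs_of_pos (by norm_num : (0 : ℝ) < 4)]
  have t1 := mul_le_mul n2 hk (abs_nonneg _) (by positivity)
  have t2 := mul_le_mul (show 4 * |σ| ≤ 8 * B by linarith) n7 (abs_nonneg _) (by positivity)
  linarith

theorem curv_σ' (hd : Dim q e0) (hS : IsSol q T' S) (hp : p ∈ Om T') (hb : Bas q e0 K T S p)
    (hn : Nr q S p) {B s : ℝ} (hs : s = 1 ∨ s = -1) (h1 : s * S.σ' q p = B) (hB : 0 ≤ B)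
    (h2 : |S.kt q p| ≤ B) :
    S.f p ^ 2 * (s * S.box q (S.σ' q) p) ≤ (2 * mm q + 300000) * B := by
  have hm := hd.hq
  have hm0 : 0 < mm q := by linarith
  have hf := hb.fpos
  have hh := hb.hpos
  obtain ⟨hE0, hE1⟩ := CurvA_EE hb
  have hr : |S.f p ^ 2 * S.ρ2 q p| ≤ 1 := by
    have := CurvA_ρ2 hm0 hn.cσ hn.ck hn.cR
    nlinarith [abs_nonneg (S.f p ^ 2 * S.ρ2 q p)]
  have hD : |S.f p ^ 2 * S.Ds S.X p| ≤ 80000 := by
    rw [abs_mul, abs_of_pos (pow_pos hf 2)]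
    exact hn.Fss
  have hz1 := hb.glob.z1
  have hz : mm q * (1 - S.z p) ≤ 3 * S.EE p := by
    have h3 : 1 - S.z p ≤ 3 * S.EE p / mm q := by linarith [hn.z]
    rw [le_div_iff₀ hm0] at h3
    linarith
  have hw1 : 2 * (mm q + 1) * mm q * (1 - S.z p) / ((mm q + 2) * S.EE p) ≤ 6 := by
    rw [div_le_iff₀ (by positivity)]
    nlinarith [mul_le_mul_of_nonneg_left hz (by linarith : 0 ≤ 2 * (mm q + 1))]
  have hw0 : 0 ≤ 2 * (mm q + 1) * mm q * (1 - S.z p) / ((mm q + 2) * S.EE p) := by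
    have : 0 ≤ 1 - S.z p := by linarith
    positivity
  have key := CurvA_alg1 hm hr (sq_nonneg (S.fs p)) (by linarith [hn.fs]) hn.J0 hn.J1 hD hw0 hw1
    ((CurvA_abs hs).trans_le h2)
  refine le_of_eq_of_le ?_ key
  have e : S.σ q p = S.σ' q p + S.kt q p / (mm q + 2) := by unfold Pre.σ'; ring
  have h3 : mm q + 2 ≠ 0 := by linarith
  rw [box_σ' hS hm0 hp, e, ← h1, CurvA_q q]
  unfold Pre.fs Pre.J Pre.EE
  field_simp
  ring

theorem curv_kt (hd : Dim q e0) (hS : IsSol q T' S) (hp : p ∈ Om T') (hb : Bas q e0 K T S p)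
    (hn : Nr q S p) {B s : ℝ} (hs : s = 1 ∨ s = -1) (h1 : s * S.kt q p = B) (hB : 0 ≤ B)
    (h2 : |S.σ' q p| ≤ B) :
    S.f p ^ 2 * (s * S.box q (S.kt q) p) ≤ -(1.9 * mm q) * B := by
  have hm := hd.hq
  have hm0 : 0 < mm q := by linarith
  have hf := hb.fpos
  have hh := hb.hpos
  obtain ⟨hE0, hE1⟩ := CurvA_EE hb
  have hD : |S.f p ^ 2 * S.Ds S.X p| ≤ 80000 := by
    rw [abs_mul, abs_of_pos (pow_pos hf 2)]
    exact hn.Fss
  have hz : mm q * (1 - S.z p) ≤ 3 * S.EE p := by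
    have h3 : 1 - S.z p ≤ 3 * S.EE p / mm q := by linarith [hn.z]
    rw [le_div_iff₀ hm0] at h3
    linarith
  have hz0 : 0 ≤ S.z p := sq_nonneg _
  have hJ : 0 ≤ S.hX p * S.a p := by
    rw [hXa_eq hS (om_sub_wd hp)]
    exact mul_nonneg hE0.le (by linarith [hn.J0])
  have hP : 1.94 * mm q ≤ S.f p ^ 2 * S.Pi q p := by
    have e : S.f p ^ 2 * S.Pi q p = (4 * S.hX p ^ 2 + 4 * (S.hX p * S.a p) +
        4 * (mm q + 1) * S.z p - 2 * mm q) / S.EE p := by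
      unfold Pre.Pi Pre.EE
      rw [CurvA_q q]
      field_simp
    rw [e, le_div_iff₀ hE0]
    nlinarith [sq_nonneg (S.hX p), mul_le_mul_of_nonneg_left hE1 hm0.le]
  have hk : |S.kt q p| ≤ B := by
    rw [← CurvA_abs hs, h1, abs_of_nonneg hB]
  have hσ : |s * S.σ q p| ≤ 2 * B := (CurvA_abs hs).trans_le (CurvA_σ hm0 h2 hk)
  have hJD : |S.J p - S.f p ^ 2 * S.Ds S.X p| ≤ 80002 := by
    obtain ⟨b1, b2⟩ := abs_le.1 hD
    exact abs_le.2 ⟨by linarith [hn.J0], by linarith [hn.J1]⟩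
  have t : s * S.σ q p * (S.J p - S.f p ^ 2 * S.Ds S.X p) ≤ 2 * B * 80002 := by
    refine (le_abs_self _).trans ?_
    rw [abs_mul]
    exact mul_le_mul hσ hJD (abs_nonneg _) (by linarith)
  have e : S.f p ^ 2 * (s * S.box q (S.kt q) p) = -(S.f p ^ 2 * S.Pi q p) * B +
      4 * (s * S.σ q p * (S.J p - S.f p ^ 2 * S.Ds S.X p)) := by
    rw [box_kt hS hp, ← h1]
    unfold Pre.J
    ring
  rw [e]
  nlinarith [mul_le_mul_of_nonneg_right hP hB, mul_le_mul_of_nonneg_right hm hB]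

theorem curv_far (q : ℕ) (K : ℝ) : ∃ L : ℝ, 0 ≤ L ∧ ∀ (e0 T T' B : ℝ) (S : Pre) (p : ℝ × ℝ),
    Dim q e0 → 10 ≤ K → IsSol q T' S → p ∈ Om T' → Bas q e0 K T S p → 1 / K ≤ S.h p →
      |S.kt q p| ≤ B → |S.σ' q p| ≤ B → |S.box q (S.kt q) p| ≤ L * B := by
  refine ⟨|30 * mm q * K ^ 2 + 8 * (2 * (2 * K ^ 2 * (10000 + 2 * K)) + 8 * mm q * K ^ 2 +
    4 * mm q ^ 2 * K ^ 2)|, abs_nonneg _, ?_⟩
  intro e0 T T' B S p hd hK hS hp hb hh1 hk hσ'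
  have hm := hd.hq
  have hm0 : 0 < mm q := by linarith
  have hf := hb.fpos
  have hh := hb.hpos
  have hw := om_sub_wd hp
  have hB : 0 ≤ B := (abs_nonneg _).trans hk
  obtain ⟨hE0, hE1⟩ := CurvA_EE hb
  have hKh : 1 ≤ K * S.h p := by
    rw [div_le_iff₀ (by linarith)] at hh1
    linarith
  have hKh2 : 1 ≤ K ^ 2 * S.h p ^ 2 := by nlinarith
  have hi : 1 / S.h p ^ 2 ≤ K ^ 2 := by
    rw [div_le_iff₀ (by positivity)]
    exact hKh2
  have hKf : 1 ≤ 2 * K ^ 2 * S.f p ^ 2 := by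
    nlinarith [mul_le_mul_of_nonneg_left hb.E1 (sq_nonneg K), sq_nonneg (K * S.f p)]
  have up : ∀ y : ℝ, S.f p ^ 2 * |y| ≤ 10000 + 2 * K → |y| ≤ 2 * K ^ 2 * (10000 + 2 * K) := by
    intro y hy
    nlinarith [mul_le_mul_of_nonneg_left hy (by positivity : 0 ≤ 2 * K ^ 2),
      mul_le_mul_of_nonneg_right hKf (abs_nonneg y)]
  have hr : |S.ρ2 q p| ≤ 2 * K ^ 2 * (10000 + 2 * K) := by
    apply up
    have := CurvA_ρ2 hm0 hb.cσ hb.ck hb.cR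
    rw [abs_mul, abs_of_pos (pow_pos hf 2)] at this
    nlinarith [mul_nonneg hm0.le (mul_nonneg (pow_pos hf 2).le (abs_nonneg (S.ρ2 q p)))]
  have hD : S.σ q p + S.ρ2 q p = mm q * S.EE p * (1 / S.h p ^ 2) - S.Ds S.X p -
      2 * (S.hX p ^ 2 * (1 / S.h p ^ 2)) - (mm q + 1) * (S.hX p * S.a p * (1 / S.h p ^ 2)) := by
    have e : S.σ q p + S.ρ2 q p = S.ρ1 q p := by unfold Pre.σ; ring
    rw [e, ρ1_eq hS hw, Y_eq hS hw, CurvA_q q]
    unfold Pre.EE Pre.hX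
    field_simp
  have key := CurvA_far (by linarith : 1 ≤ mm q) (by positivity) hi hE0.le (by linarith)
    (by linarith [hb.hX2]) (show S.z p = S.a p ^ 2 from rfl) hb.glob.z1 (up _ hb.cσ) hr hD hk
    (CurvA_σ hm0 hσ' hk)
  have e : S.box q (S.kt q) p = -((4 * S.hX p ^ 2 + 4 * S.hX p * S.a p + 4 * (mm q + 1) * S.z p -
      2 * mm q) * (1 / S.h p ^ 2)) * S.kt q p +
      4 * S.σ q p * (S.hX p * S.a p * (1 / S.h p ^ 2) - S.Ds S.X p) := by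
    rw [box_kt hS hp, Y_eq hS hw]
    unfold Pre.Pi
    rw [CurvA_q q]
    unfold Pre.hX
    field_simp
  rw [e]
  exact key.trans (mul_le_mul_of_nonneg_right (le_abs_self _) hB)

end Vale.Agent.P244
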