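import Vale.Agent.P244.Sol

/-! Step C: quantities, bootstrap assumptions, initial data, mode functionals. -/

open Set MeasureTheory
open scoped ContDiff

noncomputable section

namespace Vale.Agent.P244

/-- `m = q - 1` -/
def mm (q : ℕ) : ℝ := (q : ℝ) - 1
/-- slope squared of the Ricci flat cone -/
def z0 (q : ℕ) : ℝ := mm q / (mm q + 2)
/-- half the effective dimension -/
def al (q : ℕ) (e0 : ℝ) : ℝ := mm q / 2 - e0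
/-- the square of the initial bubble scale -/
def lam2 (e0 T : ℝ) : ℝ := T ^ (3 - e0) / 4
/-- the constant of the lower barrier -/
def A0 (q : ℕ) (e0 T : ℝ) : ℝ := lam2 e0 T ^ (1 + 3 / (2 * mm q))

/-- half open space-time domain -/
def Wd (T : ℝ) : Set (ℝ × ℝ) := Ico 0 T ×ˢ Ioo 0 Real.pi
/-- closed in time space-time domain -/
def Rg (t1 : ℝ) : Set (ℝ × ℝ) := Icc 0 t1 ×ˢ Ioo 0 Real.pi
/-- smooth on the half open domain -/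
def Sm (T : ℝ) (u : ℝ × ℝ → ℝ) : Prop := ContDiffOn ℝ ∞ u (Wd T)
/-- smooth at a point -/
def CA (u : ℝ × ℝ → ℝ) (p : ℝ × ℝ) : Prop := ContDiffAt ℝ ∞ u p
/-- smooth in the space variable at a point -/
def XA (u : ℝ × ℝ → ℝ) (p : ℝ × ℝ) : Prop := ContDiffAt ℝ ∞ (fun x => u (p.1, x)) p.2

namespace Pre

variable (S : Pre)

def f (p : ℝ × ℝ) : ℝ := Real.exp (S.F p)
/-- fourth root of `h` -/
def k (p : ℝ × ℝ) : ℝ := √(√(S.h p))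
/-- fourth root of `f` -/
def φ (p : ℝ × ℝ) : ℝ := Real.exp (S.F p / 4)
/-- the monomial `h ^ γ * f ^ δ` -/
def mono (γ δ : ℝ) (p : ℝ × ℝ) : ℝ := Real.exp (γ * S.G p + δ * S.F p)
def Θ (p : ℝ × ℝ) : ℝ := S.f p ^ 2 - S.h p ^ 2
def z (p : ℝ × ℝ) : ℝ := S.a p ^ 2
def EE (p : ℝ × ℝ) : ℝ := S.h p ^ 2 / S.f p ^ 2
def hX (p : ℝ × ℝ) : ℝ := S.h p * S.X p
def J (p : ℝ × ℝ) : ℝ := S.f p ^ 2 * S.X p * S.Y p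
def fs (p : ℝ × ℝ) : ℝ := S.f p * S.X p
def σ (q : ℕ) (p : ℝ × ℝ) : ℝ := S.ρ1 q p - S.ρ2 q p
def kt (q : ℕ) (p : ℝ × ℝ) : ℝ := S.ρ0 q p - S.ρ2 q p
def σ' (q : ℕ) (p : ℝ × ℝ) : ℝ := S.σ q p - S.kt q p / (mm q + 2)
def u (p : ℝ × ℝ) : ℝ := S.F p - S.G p
def y1 (p : ℝ × ℝ) : ℝ := S.h p * (S.X p - S.Y p)
def y2 (q : ℕ) (p : ℝ × ℝ) : ℝ := S.h p ^ 2 * S.σ q p
/-- second arclength derivative of `u` -/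
def uss (p : ℝ × ℝ) : ℝ := S.Ds S.X p - S.Ds S.Y p
/-- the damping in the equation of `kt` -/
def Pi (q : ℕ) (p : ℝ × ℝ) : ℝ :=
  (4 * S.hX p ^ 2 + 4 * S.hX p * S.a p + 4 * q * S.z p - 2 * mm q) / S.h p ^ 2
/-- the operator of the linear equation of `Θ` -/
def box' (q : ℕ) (v : ℝ × ℝ → ℝ) (p : ℝ × ℝ) : ℝ :=
  S.box q v p + (2 * S.X p + 2 * S.h p * S.a p / S.f p ^ 2) * S.Ds v p
/-- derivative with respect to the radius `h` -/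
def Dr (v : ℝ × ℝ → ℝ) (p : ℝ × ℝ) : ℝ := S.Ds v p / S.a p
/-- error in the equation of `Θ` at fixed radius -/
def err0 (q : ℕ) (p : ℝ × ℝ) : ℝ :=
  S.Dt S.Θ p - S.Dr S.Θ p * S.Dt S.h p -
    z0 q * (S.Dr (S.Dr S.Θ) p + (mm q - 1) * S.Dr S.Θ p / S.h p + 4 * S.Θ p / S.h p ^ 2)

def bb (T : ℝ) (p : ℝ × ℝ) : ℝ := (T - p.1) ^ 3 / S.k p ^ 9 + S.k p ^ 15
def b2 (T : ℝ) (p : ℝ × ℝ) : ℝ := (T - p.1) ^ 6 / S.k p ^ 18 + S.k p ^ 30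
def W1 (K1 T : ℝ) (p : ℝ × ℝ) : ℝ := 1000 * K1 * (T - p.1) ^ 2 / S.φ p ^ 9
def W2 (e0 T : ℝ) (p : ℝ × ℝ) : ℝ := 1000 * lam2 e0 T * ((T - p.1) / T) ^ 5 / S.f p ^ 4
def W3 (K1 T : ℝ) (p : ℝ × ℝ) : ℝ := K1 * (1 + p.1 / T) * S.φ p ^ 7
def W4 (K2 T : ℝ) (p : ℝ × ℝ) : ℝ := K2 * (1 + p.1 / T) / S.φ p ^ 2
def WW (e0 K1 T : ℝ) (p : ℝ × ℝ) : ℝ := S.W1 K1 T p + S.W2 e0 T p + S.W3 K1 T p

end Pre

/-- conditions on the dimension and the exponent -/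
structure Dim (q : ℕ) (e0 : ℝ) : Prop where
  hq : 10 ^ 8 ≤ mm q
  he : e0 * (mm q - 2 - e0) = 4
  lo : 4 ≤ mm q * e0
  hi : mm q * e0 ≤ 5

/-- bounds preserved by the flow -/
structure Glob (q : ℕ) (S : Pre) (p : ℝ × ℝ) : Prop where
  h1 : S.h p ≤ 1
  z1 : S.z p ≤ 1
  fs : S.fs p ^ 2 ≤ mm q

/-- bootstrap assumptions with factor `c` (`c = 1`: assumed, `c = 1 / 2`: improved) -/
structure BS (q : ℕ) (e0 K T c : ℝ) (S : Pre) (p : ℝ × ℝ) : Prop where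
  b1 : S.k p * |S.Θ p| ≤ c * (((T - p.1) ^ 3 + S.h p ^ 6) / 100)
  bσ : S.f p ^ 2 * |S.σ q p| ≤ c * (10000 + K * S.f p)
  bk : S.f p ^ 2 * |S.kt q p| ≤ c * (10000 + K * S.f p)
  bR : S.f p ^ 2 * |S.R q p| ≤ c * (10000 + K * S.f p)
  b3 : S.h p ^ 2 < T - p.1 →
    A0 q e0 T * ((T - p.1) / T) ^ 3 ≤ 2 * c * (S.Θ p * S.mono 0 (3 / mm q) p)
  b4 : S.f p ^ 2 ≤ 2 * S.h p ^ 2 + c * (T - p.1)

/-- facts at the initial time -/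
structure IniF (q : ℕ) (e0 Ci T : ℝ) (S : Pre) (p : ℝ × ℝ) : Prop where
  glob : Glob q S p
  y1 : S.y1 p ^ 2 ≤ Ci * S.b2 T p
  y2 : S.y2 q p ^ 2 ≤ Ci * S.b2 T p
  cσ : |S.σ q p| ≤ 500 * lam2 e0 T / S.f p ^ 4 + Ci * S.φ p ^ 7
  ck : |S.kt q p| ≤ 500 * lam2 e0 T / S.f p ^ 4 + Ci * S.φ p ^ 7
  cR : |S.R q p| ≤ 1000 * lam2 e0 T / S.f p ^ 4 + Ci / S.φ p ^ 2
  up : S.h p ^ 2 ≤ T → S.k p * S.Θ p ≤ T ^ 3 / 200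
  lo : S.h p ^ 2 ≤ T → A0 q e0 T ≤ S.Θ p * S.mono 0 (3 / mm q) p
  out : 14 * mm q * T ≤ S.h p ^ 2 → |S.Θ p| ≤ S.k p ^ 23 / 400
  all : S.k p * |S.Θ p| ≤ (T ^ 3 + S.h p ^ 6) / 200
  fup : S.f p ^ 2 ≤ 2 * S.h p ^ 2 + T / 2

/-- standing hypotheses of the a priori estimates -/
structure Hyp (q : ℕ) (e0 Ci K T T' t1 : ℝ) (S : Pre) : Prop where
  dim : Dim q e0
  hK : 10 ≤ K
  hT : 0 < T
  hTK : T * K ^ 2 ≤ 1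
  hT' : T' ≤ T
  ht0 : 0 ≤ t1
  ht1 : t1 < T'
  sol : IsSol q T' S
  ini : ∀ x ∈ Ioo 0 Real.pi, IniF q e0 Ci T S (0, x)
  bs : ∀ p ∈ Rg t1, BS q e0 K T 1 S p

/-- pointwise consequences of the bootstrap assumptions -/
structure Bas (q : ℕ) (e0 K T : ℝ) (S : Pre) (p : ℝ × ℝ) : Prop where
  glob : Glob q S p
  τ0 : 0 < T - p.1
  τT : T - p.1 ≤ T
  hpos : 0 < S.h p
  kpos : 0 < S.k p
  hk : S.h p = S.k p ^ 4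
  fpos : 0 < S.f p
  φpos : 0 < S.φ p
  fφ : S.f p = S.φ p ^ 4
  E1 : S.h p ^ 2 ≤ 1.03 * S.f p ^ 2
  f1 : S.f p ≤ 1.1
  kφ : S.k p ≤ 1.01 * S.φ p
  inΘ : S.h p ^ 2 < T - p.1 → 0 < S.Θ p
  inf : S.h p ^ 2 ≤ T - p.1 → S.f p ^ 2 ≤ 3 * (T - p.1)
  inl : S.h p ^ 2 < T - p.1 → lam2 e0 T * ((T - p.1) / T) ^ 3 ≤ 2 * S.f p ^ 2
  outΘ : T - p.1 ≤ S.h p ^ 2 → |S.Θ p| ≤ S.k p ^ 23 / 50
  outf : T - p.1 ≤ S.h p ^ 2 → 0.98 * S.h p ^ 2 ≤ S.f p ^ 2 ∧ S.f p ^ 2 ≤ 1.02 * S.h p ^ 2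
  low : (T - p.1) ^ 3 ≤ 8 * S.f p ^ 2
  Θb : |S.Θ p| ≤ S.h p ^ 2 * S.bb T p / 100
  u2 : S.u p ^ 2 ≤ S.b2 T p
  Eu : |1 - S.EE p| ≤ 2.1 * |S.u p|
  hX2 : S.hX p ^ 2 ≤ 1.03 * mm q
  W2f : S.f p ^ 2 * S.W2 e0 T p ≤ 2000
  cσ : S.f p ^ 2 * |S.σ q p| ≤ 10000 + 2 * K
  ck : S.f p ^ 2 * |S.kt q p| ≤ 10000 + 2 * K
  cR : S.f p ^ 2 * |S.R q p| ≤ 10000 + 2 * K

/-- facts in the near region `h ≤ 2 / K` -/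
structure Nr (q : ℕ) (S : Pre) (p : ℝ × ℝ) : Prop where
  z : 1 - 3 * S.EE p / mm q ≤ S.z p
  J0 : 0.9 ≤ S.J p
  J1 : S.J p ≤ 1.1
  qJ : |q * S.J p - mm q| ≤ 40000
  fs : S.fs p ^ 2 ≤ 1.1 * S.EE p
  cσ : S.f p ^ 2 * |S.σ q p| ≤ 20000
  ck : S.f p ^ 2 * |S.kt q p| ≤ 20000
  cR : S.f p ^ 2 * |S.R q p| ≤ 20000
  Fss : S.f p ^ 2 * |S.Ds S.X p| ≤ 80000
  as : |S.h p * S.Ds S.a p| ≤ 1

/-- shape of a time slice -/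
def Slice (K : ℝ) (S : Pre) (t : ℝ) : Prop :=
  ∃ x1 ∈ Ioo 0 (Real.pi / 2), S.h (t, x1) = 2 / K ∧ (∀ x ∈ Ioc 0 x1, 0.9 ≤ S.a (t, x)) ∧
    ∀ x ∈ Ioc x1 (Real.pi / 2), 2 / K < S.h (t, x)

/-- all curvature estimates -/
structure Cv (q : ℕ) (e0 M K1 K2 T : ℝ) (S : Pre) (p : ℝ × ℝ) : Prop where
  y1 : S.y1 p ^ 2 ≤ M * S.b2 T p
  y2 : S.y2 q p ^ 2 ≤ M * S.b2 T p
  cσ : |S.σ' q p| ≤ S.WW e0 K1 T p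
  ck : |S.kt q p| ≤ S.WW e0 K1 T p
  cR : |S.R q p| ≤ S.W2 e0 T p + S.W4 K2 T p

/-- normalised Laguerre polynomials of degree at most three -/
def lag (α : ℝ) (j : Fin 4) (ξ : ℝ) : ℝ :=
  ![1, 1 - ξ / α, 1 - 2 * ξ / α + ξ ^ 2 / (α * (α + 1)),
    1 - 3 * ξ / α + 3 * ξ ^ 2 / (α * (α + 1)) - ξ ^ 3 / (α * (α + 1) * (α + 2))] j
/-- the Laguerre weight -/
def wt (α ξ : ℝ) : ℝ := ξ ^ (α - 1) * Real.exp (-ξ)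
/-- weighted scalar product -/
def ip (α : ℝ) (v w : ℝ → ℝ) : ℝ := ∫ ξ in Ioi (0 : ℝ), v ξ * w ξ * wt α ξ
/-- Fourier coefficient -/
def co (α : ℝ) (j : Fin 4) (v : ℝ → ℝ) : ℝ := ip α v (lag α j) / ip α (lag α j) (lag α j)
/-- the Laguerre operator -/
def LL (α : ℝ) (v : ℝ → ℝ) (ξ : ℝ) : ℝ := ξ * deriv (deriv v) ξ + (α - ξ) * deriv v ξ
/-- the remainder after removing four modes -/
def rem (α : ℝ) (v : ℝ → ℝ) (ξ : ℝ) : ℝ := v ξ - ∑ j, co α j v * lag α j ξ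

/-- a profile with its error term -/
structure Prof (C τ : ℝ) (v er : ℝ → ℝ) : Prop where
  sm : ContDiffOn ℝ 2 v (Ioi 0)
  ce : ContinuousOn er (Ioi 0)
  b0 : ∀ ξ > (0 : ℝ), |v ξ| ≤ C * τ ^ (-(1 / 8) : ℝ) * (ξ⁻¹ + ξ ^ 3)
  b1 : ∀ ξ > (0 : ℝ), |ξ * deriv v ξ| ≤ C * τ ^ (-(1 / 8) : ℝ) * (ξ⁻¹ + ξ ^ 3)
  b2 : ∀ ξ > (0 : ℝ), |ξ ^ 2 * deriv (deriv v) ξ| ≤ C * τ ^ (-(1 / 8) : ℝ) * (ξ⁻¹ + ξ ^ 3)
  be : ∀ ξ > (0 : ℝ), |er ξ| ≤ C * τ ^ (3 / 8 : ℝ) * (ξ⁻¹ ^ 3 + ξ ^ 4)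

/-- cutoff, one on `K² r² ≤ 1 / 2`, zero on `K² r² ≥ 1` -/
def cut (K r : ℝ) : ℝ := Real.smoothTransition (2 - 2 * (K ^ 2 * r ^ 2))

namespace Pre

variable (S : Pre)

/-- the self-similar variable -/
def xi (q : ℕ) (T : ℝ) (p : ℝ × ℝ) : ℝ := S.h p ^ 2 / (4 * z0 q * (T - p.1))
/-- its space derivative -/
def xix (q : ℕ) (T : ℝ) (p : ℝ × ℝ) : ℝ :=
  2 * S.h p * S.a p * S.ℓ p.1 / (4 * z0 q * (T - p.1))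
def NN (q : ℕ) (e0 K T : ℝ) (p : ℝ × ℝ) : ℝ :=
  cut K (S.h p) * S.Θ p * (4 * z0 q * (T - p.1)) ^ (e0 / 2) / (T - p.1) ^ 3
/-- the rescaled unknown -/
def Vt (e0 K T : ℝ) (p : ℝ × ℝ) : ℝ :=
  cut K (S.h p) * S.mono e0 0 p * S.Θ p / (T - p.1) ^ 3
/-- derivative with respect to the self-similar variable -/
def Dx (q : ℕ) (T : ℝ) (v : ℝ × ℝ → ℝ) (p : ℝ × ℝ) : ℝ := S.Ds v p / S.Ds (S.xi q T) p
/-- time derivative at fixed self-similar variable, times the remaining time -/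
def Dτ (q : ℕ) (T : ℝ) (v : ℝ × ℝ → ℝ) (p : ℝ × ℝ) : ℝ :=
  (T - p.1) * (S.Dt v p - S.Dx q T v p * S.Dt (S.xi q T) p)
/-- error in the rescaled equation -/
def erf (q : ℕ) (e0 K T : ℝ) (p : ℝ × ℝ) : ℝ :=
  S.Dτ q T (S.Vt e0 K T) p -
    (S.xi q T p * S.Dx q T (S.Dx q T (S.Vt e0 K T)) p +
      (al q e0 - S.xi q T p) * S.Dx q T (S.Vt e0 K T) p) - 3 * S.Vt e0 K T p
/-- mode functionals -/
def cm (q : ℕ) (e0 K T : ℝ) (j : Fin 4) (t : ℝ) : ℝ :=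
  (∫ x in (0 : ℝ)..Real.pi / 2, S.NN q e0 K T (t, x) * lag (al q e0) j (S.xi q T (t, x)) *
    (S.xi q T (t, x) ^ (al q e0 - 1 + e0 / 2) * Real.exp (-S.xi q T (t, x))) * S.xix q T (t, x)) /
    ip (al q e0) (lag (al q e0) j) (lag (al q e0) j)
/-- energy functional -/
def en (q : ℕ) (e0 K T : ℝ) (t : ℝ) : ℝ :=
  ∫ x in (0 : ℝ)..Real.pi / 2, S.NN q e0 K T (t, x) ^ 2 *
    (S.xi q T (t, x) ^ (al q e0 - 1 + e0) * Real.exp (-S.xi q T (t, x))) * S.xix q T (t, x)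
/-- squared norm of the remainder -/
def om (q : ℕ) (e0 K T : ℝ) (t : ℝ) : ℝ :=
  S.en q e0 K T t -
    ∑ j, ip (al q e0) (lag (al q e0) j) (lag (al q e0) j) * S.cm q e0 K T j t ^ 2
/-- the rescaled unstable modes -/
def gam (q : ℕ) (e0 K T : ℝ) (t : ℝ) : Par :=
  WithLp.toLp 2 fun j : Fin 3 => S.cm q e0 K T j.castSucc t / (T - t) ^ (1 / 4 : ℝ)

end Pre

/-- the profile at time `t` and its relation to the functionals -/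
structure Link (q : ℕ) (e0 K T C : ℝ) (S : Pre) (t : ℝ) (v er : ℝ → ℝ) : Prop where
  prof : Prof C (T - t) v er
  cm : ∀ j, S.cm q e0 K T j t = co (al q e0) j v
  en : S.en q e0 K T t = ip (al q e0) v v
  dcm : ∀ j, HasDerivAt (S.cm q e0 K T j)
    (co (al q e0) j (fun ξ => LL (al q e0) v ξ + 3 * v ξ + er ξ) / (T - t)) t
  den : HasDerivAt (S.en q e0 K T)
    (2 * ip (al q e0) v (fun ξ => LL (al q e0) v ξ + 3 * v ξ + er ξ) / (T - t)) t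
  val : ∀ x ∈ Ioo 0 Real.pi, S.h (t, x) ≤ 1 / K → v (S.xi q T (t, x)) = S.Vt e0 K T (t, x)

/-- estimates in the parabolic zone -/
structure Pz (q : ℕ) (e0 T : ℝ) (S : Pre) (p : ℝ × ℝ) : Prop where
  up : T - p.1 ≤ S.h p ^ 2 → S.h p ^ 2 ≤ 14 * mm q * (T - p.1) →
    |S.Θ p| ≤ 10000 * (T - p.1) ^ 3 * S.mono (-e0) 0 p
  lo : S.h p ^ 2 = T - p.1 → (T - p.1) ^ 3 * S.mono (-e0) 0 p ≤ 2 * S.Θ p

/-- polynomial part of the initial datum, as a function of the squared radius -/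
def Ph (q : ℕ) (e0 T : ℝ) (δ : Fin 3 → ℝ) (r : ℝ) : ℝ :=
  T ^ 3 * (lag (al q e0) 3 (r / (4 * z0 q * T)) +
    T ^ (1 / 4 : ℝ) * ∑ j : Fin 3, δ j * lag (al q e0) j.castSucc (r / (4 * z0 q * T)))
/-- the initial datum for `Θ` -/
def Th0 (q : ℕ) (e0 T : ℝ) (δ : Fin 3 → ℝ) (r : ℝ) : ℝ :=
  Ph q e0 T δ r * (r + T ^ 2) ^ (-(e0 / 2))
def Z0 (q : ℕ) (e0 T : ℝ) (δ : Fin 3 → ℝ) (r : ℝ) : ℝ :=
  1 - 2 / (mm q + 2) * (r / (r + Th0 q e0 T δ r))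
def F0 (q : ℕ) (e0 T : ℝ) (δ : Fin 3 → ℝ) (r : ℝ) : ℝ := Real.log (r + Th0 q e0 T δ r) / 2

/-- bounds for the initial datum and its first two derivatives -/
structure ThB (q : ℕ) (e0 T r θ θ1 θ2 : ℝ) : Prop where
  wlo : 0.98 * r ≤ r + θ
  wpos : 0 < r + θ
  whi : r + θ ≤ 1.02 * r + T / 2
  s1 : |θ1| ≤ 1 / 10
  i0 : r ≤ T → 0 < θ ∧ θ ≤ 5 * lam2 e0 T ∧ r + θ ≤ 2 * T
  i1 : r ≤ T → mm q * |θ1| * (r + θ) ≤ 22 * lam2 e0 T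
  i2 : r ≤ T → mm q * |r * θ2| * (r + θ) ≤ 50 * lam2 e0 T
  g0 : ∀ k : ℝ, 0 < k → k ^ 8 = r → |θ| ≤ 5 * r * (T ^ 3 / k ^ 9 + k ^ 15) ∧
    |θ1| ≤ 5 * (T ^ 3 / k ^ 9 + k ^ 15) ∧ |r * θ2| ≤ 5 * (T ^ 3 / k ^ 9 + k ^ 15)
  up : ∀ k : ℝ, 0 < k → k ^ 8 = r → r ≤ T → k * θ ≤ T ^ 3 / 200
  lo : r ≤ T → A0 q e0 T ≤ θ * (r + θ) ^ (3 / (2 * mm q))
  out : ∀ k : ℝ, 0 < k → k ^ 8 = r → 14 * mm q * T ≤ r → |θ| ≤ k ^ 23 / 400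
  all : ∀ k : ℝ, 0 < k → k ^ 8 = r → k * |θ| ≤ (T ^ 3 + r ^ 3) / 200

/-- `f² ρ0` at the initial time -/
def iρ0 (q : ℕ) (r θ θ1 θ2 Z Z' : ℝ) : ℝ :=
  -2 * (2 * Z * (r * θ2) + (Z + r * Z') * (1 + θ1)) + 2 * (r / (r + θ)) * Z * (1 + θ1) ^ 2 -
    q * (r + θ) * Z'
/-- `f² ρ1` at the initial time -/
def iρ1 (q : ℕ) (r θ1 θ2 Z Z' : ℝ) : ℝ :=
  mm q - 2 * Z * (r * θ2) - (1 + θ1) * ((q + 1) * Z + r * Z')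
/-- `f² ρ2` at the initial time -/
def iρ2 (q : ℕ) (r θ θ1 Z Z' : ℝ) : ℝ :=
  mm q * (1 - Z) * (r + θ) / r - (r + θ) * Z' - 2 * Z * (1 + θ1)
/-- squared slope at the initial time -/
def iZ (q : ℕ) (r θ : ℝ) : ℝ := (1 - r) * (1 - 2 / (mm q + 2) * (r / (r + θ)))
/-- its derivative -/
def iZ' (q : ℕ) (r θ θ1 : ℝ) : ℝ :=
  -(1 - 2 / (mm q + 2) * (r / (r + θ))) - (1 - r) * (2 / (mm q + 2)) * ((θ - r * θ1) / (r + θ) ^ 2)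

/-- initial values of the mode functionals -/
structure IniM (q : ℕ) (e0 K T C : ℝ) (δ : Fin 3 → ℝ) (S : Pre) : Prop where
  c : ∀ j : Fin 3, |S.cm q e0 K T j.castSucc 0 - T ^ (1 / 4 : ℝ) * δ j| ≤ C * T
  c3 : |S.cm q e0 K T 3 0 - 1| ≤ C * T
  om : S.om q e0 K T 0 ≤ C * T ^ 2

end Vale.Agent.P244
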