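import Vale.Agent.P244C.IdC
import Vale.Agent.P244C.Near

open Set MeasureTheory Filter Topology
open scoped ContDiff

noncomputable section

namespace Vale.Agent.P244

theorem errA_mul {x y A B : ℝ} (hx : |x| ≤ A) (hy : |y| ≤ B) : |x * y| ≤ A * B := by
  rw [abs_mul]; exact mul_le_mul hx hy (abs_nonneg _) ((abs_nonneg _).trans hx)

theorem errA_add {x y A B : ℝ} (hx : |x| ≤ A) (hy : |y| ≤ B) : |x + y| ≤ A + B :=
  (abs_add_le _ _).trans (add_le_add hx hy)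

theorem errA_sub {x y A B : ℝ} (hx : |x| ≤ A) (hy : |y| ≤ B) : |x - y| ≤ A + B :=
  (abs_sub _ _).trans (add_le_add hx hy)

theorem errA_c {c : ℝ} (hc : 0 ≤ c) : |c| ≤ c := (abs_of_nonneg hc).le

theorem errA_div {a x A : ℝ} (ha : 1 / 2 ≤ |a|) (h : |a * x| ≤ A) : |x| ≤ 2 * A := by
  rw [abs_mul] at h
  nlinarith [abs_nonneg x]

/-- the algebra of the error bounds -/
theorem errA_alg {Q M c h b a z θ y1 y2 r2 as E P1 P2 : ℝ} (hQ : 0 ≤ Q) (hM : 1 ≤ M) (hc : 0 ≤ c)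
    (hh : 0 < h) (hb : 0 < b) (a1 : a ^ 2 ≤ 1) (a2 : 1 / 2 ≤ a ^ 2) (hθ : |θ| ≤ b / 100)
    (h1 : |y1| ≤ M * b) (h1' : |y1| ≤ 3) (h2 : |y2| ≤ M * b) (h2' : |y2| ≤ 30000) (hr : |r2| ≤ 1)
    (has : |as| ≤ 1) (hE : |E| ≤ 3 * b) (hz : |a ^ 2 - z| ≤ c * (b + h))
    (e1 : a * P1 = 2 * (1 + θ) * y1 + 2 * a * θ)
    (e2 : a ^ 2 * P2 = -2 * (1 + θ) * y2 - 2 * θ * r2 - Q * a * (a * P1) + 4 * a * y1 - as * P1) :
    |P1| ≤ (4 * M + 2) * b ∧ |P2| ≤ (20 * M + 1210 + Q * (4 * M + 2)) * b ∧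
      |(a ^ 2 - z) * (P2 - 3 * P1 + 4 * θ) + (2 * a ^ 2 * E - 2 * a * y1) * P1 - 4 * a ^ 2 * E * θ| ≤
        (c * (32 * M + 1217 + Q * (4 * M + 2)) + (6 + 2 * M) * (4 * M + 2) + 1) * (b + h) * b := by
  have a0 : |a| ≤ 1 := abs_le_one_iff_mul_self_le_one.2 (by nlinarith)
  have a3 : 1 / 2 ≤ |a| := by nlinarith [sq_abs a, abs_nonneg a]
  have a4 : |a ^ 2| ≤ 1 := (abs_of_nonneg (sq_nonneg a)).trans_le a1
  have t2 : |(2 : ℝ)| ≤ 2 := errA_c zero_le_two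
  have p0 : |a * P1| ≤ (2 * M + 1) * b := by
    have e : a * P1 = 2 * y1 + 2 * (θ * y1) + 2 * (a * θ) := by rw [e1]; ring
    rw [e]
    refine (errA_add (errA_add (errA_mul t2 h1) (errA_mul t2 (errA_mul hθ h1')))
      (errA_mul t2 (errA_mul a0 hθ))).trans ?_
    linarith
  have p1 : |P1| ≤ (4 * M + 2) * b := (errA_div a3 p0).trans_eq (by ring)
  have p2 : |P2| ≤ (20 * M + 1210 + Q * (4 * M + 2)) * b := by
    refine (errA_div (a := a ^ 2) (A := (10 * M + 605 + Q * (2 * M + 1)) * b)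
      (a2.trans (le_abs_self _)) ?_).trans_eq (by ring)
    have e : a ^ 2 * P2 = 4 * (a * y1) - 2 * y2 - 2 * (θ * y2) - 2 * (θ * r2) -
        Q * (a * (a * P1)) - as * P1 := by rw [e2]; ring
    rw [e]
    refine (errA_sub (errA_sub (errA_sub (errA_sub (errA_sub
      (errA_mul (errA_c zero_le_four) (errA_mul a0 h1)) (errA_mul t2 h2))
      (errA_mul t2 (errA_mul hθ h2'))) (errA_mul t2 (errA_mul hθ hr)))
      (errA_mul (errA_c hQ) (errA_mul a0 p0))) (errA_mul has p1)).trans ?_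
    linarith
  refine ⟨p1, p2, ?_⟩
  have p3 : |P2 - 3 * P1 + 4 * θ| ≤ (32 * M + 1217 + Q * (4 * M + 2)) * b :=
    (errA_add (errA_sub p2 (errA_mul (errA_c zero_le_three) p1))
      (errA_mul (errA_c zero_le_four) hθ)).trans (by linarith)
  have p4 : |2 * a ^ 2 * E - 2 * a * y1| ≤ (6 + 2 * M) * (b + h) :=
    (errA_sub (errA_mul (errA_mul t2 a4) hE) (errA_mul (errA_mul t2 a0) h1)).trans (by nlinarith)
  have p5 : |4 * a ^ 2 * E * θ| ≤ (b + h) * b :=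
    (errA_mul (errA_mul (errA_mul (errA_c zero_le_four) a4) hE) hθ).trans (by nlinarith)
  exact (errA_sub (errA_add (errA_mul hz p3) (errA_mul p4 p1)) p5).trans_eq (by ring)

theorem errA_W1 {τ k φ : ℝ} (hτ : 0 < τ) (hk : 0 < k) (hφ : 0 < φ) (h : k ≤ 1.01 * φ) :
    (k ^ 4) ^ 2 * (τ ^ 2 / φ ^ 9) ≤ 1.1 * (τ ^ 3 / k ^ 9 + k ^ 15) := by
  have e1 : τ ^ 2 / k ≤ τ ^ 3 / k ^ 9 + k ^ 15 := by
    rcases le_total τ (k ^ 8) with h1 | h1
    · refine le_add_of_nonneg_of_le (by positivity) ?_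
      rw [div_le_iff₀ hk]
      exact (pow_le_pow_left₀ hτ.le h1 2).trans_eq (by ring)
    · refine le_add_of_le_of_nonneg ?_ (by positivity)
      rw [div_le_div_iff₀ hk (by positivity)]
      exact (le_of_eq (by ring)).trans ((mul_le_mul_of_nonneg_left h1
        (show 0 ≤ τ ^ 2 * k by positivity)).trans_eq (by ring))
  have e2 : k ^ 9 ≤ 1.1 * φ ^ 9 := (pow_le_pow_left₀ hk.le h 9).trans (by
    rw [mul_pow]; exact mul_le_mul_of_nonneg_right (by norm_num) (by positivity))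
  refine le_trans ?_ (mul_le_mul_of_nonneg_left e1 (by norm_num))
  rw [← mul_div_assoc, ← mul_div_assoc, div_le_div_iff₀ (by positivity) hk]
  exact (le_of_eq (by ring)).trans ((mul_le_mul_of_nonneg_left e2 (sq_nonneg τ)).trans_eq (by ring))

theorem errA_W2 {τ T k f l : ℝ} (hτ : 0 < τ) (hT : τ ≤ T) (hk : 0 < k) (hf : 0 < f) (l0 : 0 ≤ l)
    (hl : l ≤ T ^ (23 / 8 : ℝ) / 4) (h : (k ^ 4) ^ 2 ≤ 1.03 * f ^ 2) :
    (k ^ 4) ^ 2 * (l * (τ / T) ^ 5 / f ^ 4) ≤ 0.3 * (τ ^ 3 / k ^ 9 + k ^ 15) := by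
  have T0 := hτ.trans_le hT
  obtain ⟨s, s0, rfl⟩ : ∃ s : ℝ, 0 < s ∧ s ^ 8 = T :=
    ⟨T ^ ((8 : ℕ) : ℝ)⁻¹, by positivity, Real.rpow_inv_natCast_pow T0.le (by norm_num)⟩
  rw [← Real.rpow_natCast, ← Real.rpow_mul s0.le, show ((8 : ℕ) : ℝ) * (23 / 8) = (23 : ℕ) by
    norm_num, Real.rpow_natCast] at hl
  have r1 : τ / s ^ 8 ≤ 1 := (div_le_one T0).2 hT
  have r0 : 0 < τ / s ^ 8 := by positivity
  have e1 : s ^ 23 * (τ / s ^ 8) ^ 3 / k ^ 8 ≤ τ ^ 3 / k ^ 9 + k ^ 15 := by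
    rcases le_total k s with h1 | h1
    · refine le_add_of_le_of_nonneg ?_ (by positivity)
      rw [show s ^ 23 * (τ / s ^ 8) ^ 3 / k ^ 8 = τ ^ 3 / (s * k ^ 8) by field_simp, pow_succ' k 8]
      gcongr
    · refine le_add_of_nonneg_of_le (by positivity) ?_
      rw [div_le_iff₀ (by positivity)]
      exact (mul_le_of_le_one_right (by positivity) (pow_le_one₀ r0.le r1)).trans
        ((pow_le_pow_left₀ s0.le h1 23).trans_eq (by ring))
  have e2 : l * (τ / s ^ 8) ^ 5 ≤ s ^ 23 / 4 * (τ / s ^ 8) ^ 3 :=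
    mul_le_mul hl (pow_le_pow_of_le_one r0.le r1 (by norm_num)) (by positivity) (by positivity)
  have e3 : (k ^ 4) ^ 2 / f ^ 4 ≤ 1.2 / k ^ 8 := by
    rw [div_le_div_iff₀ (by positivity) (by positivity)]
    have := pow_le_pow_left₀ (by positivity) h 2
    have : 0 ≤ f ^ 4 := by positivity
    nlinarith
  refine le_trans ?_ (mul_le_mul_of_nonneg_left e1 (by norm_num))
  exact (le_of_eq (by ring)).trans ((mul_le_mul e3 e2 (by positivity) (by positivity)).trans_eq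
    (by ring))

variable {q : ℕ} {e0 M K1 K2 K T T' : ℝ} {S : Pre} {p : ℝ × ℝ}

theorem errA_W (hd : Dim q e0) (hK1 : 1 ≤ K1) (hK2 : 1 ≤ K2) (hT : 0 < T) (hT1 : T ≤ 1 / 100)
    (B : Bas q e0 K T S p) (V : Cv q e0 M K1 K2 T S p) :
    |S.h p ^ 2 * S.kt q p| ≤ (1100 * K1 + 300) * (S.bb T p + S.h p) ∧
      |S.h p ^ 2 * S.R q p| ≤ (3 * K2 + 300) * (S.bb T p + S.h p) := by
  have k0 := B.kpos
  have φ0 := B.φpos
  have h0 := B.hpos
  have τ0 := B.τ0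
  have b0 : 0 < S.bb T p := by unfold Pre.bb; positivity
  have w1 : S.h p ^ 2 * S.W1 K1 T p ≤ 1100 * K1 * S.bb T p := by
    have := mul_le_mul_of_nonneg_left (errA_W1 τ0 k0 φ0 B.kφ) (show 0 ≤ 1000 * K1 by positivity)
    rw [← B.hk] at this
    exact (le_of_eq (by unfold Pre.W1; ring)).trans (this.trans_eq (by unfold Pre.bb; ring))
  have w2 : S.h p ^ 2 * S.W2 e0 T p ≤ 300 * S.bb T p := by
    have := errA_W2 τ0 B.τT k0 B.fpos (show 0 ≤ lam2 e0 T by unfold lam2; positivity)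
      (lam2_hi hd hT (by linarith)) (B.hk ▸ B.E1)
    rw [← B.hk] at this
    exact (le_of_eq (by unfold Pre.W2; ring)).trans ((mul_le_mul_of_nonneg_left this
      (show (0 : ℝ) ≤ 1000 by norm_num)).trans_eq (by unfold Pre.bb; ring))
  have t0 : 0 ≤ 1 + p.1 / T := by
    have : 0 ≤ p.1 := by linarith [B.τT]
    positivity
  have t1 : 1 + p.1 / T ≤ 2 := by
    have : p.1 / T ≤ 1 := (div_le_one hT).2 (by linarith)
    linarith
  have hh : S.h p ^ 2 ≤ S.h p := by nlinarith [B.glob.h1]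
  have w3 : S.h p ^ 2 * S.W3 K1 T p ≤ 4 * K1 * S.h p := by
    have φ1 : S.φ p ≤ 1.1 := by
      refine le_of_not_gt fun h => ?_
      have := pow_le_pow_left₀ (by norm_num) h.le 4
      have := B.f1
      rw [B.fφ] at this
      norm_num at *
      linarith
    have φ7 : S.φ p ^ 7 ≤ 2 := (pow_le_pow_left₀ φ0.le φ1 7).trans (by norm_num)
    refine (mul_le_mul hh (mul_le_mul (mul_le_mul_of_nonneg_left t1 (by positivity)) φ7
      (by positivity) (by positivity)) (by positivity) h0.le).trans_eq (by ring)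
  have w4 : S.h p ^ 2 * S.W4 K2 T p ≤ 3 * K2 * S.h p := by
    have k1 : S.k p ≤ 1 := pow_le_one_iff_of_nonneg k0.le (n := 4) (by norm_num) |>.1
      (B.hk ▸ B.glob.h1)
    have e1 : S.h p ≤ 1.5 * S.φ p ^ 2 := by
      have a1 : S.k p ^ 4 ≤ S.k p ^ 2 := pow_le_pow_of_le_one k0.le k1 (by norm_num)
      have a2 := pow_le_pow_left₀ k0.le B.kφ 2
      rw [B.hk]
      nlinarith [sq_nonneg (S.φ p)]
    have e2 : S.h p / S.φ p ^ 2 ≤ 1.5 := (div_le_iff₀ (by positivity)).2 e1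
    refine (le_of_eq (by unfold Pre.W4; ring)).trans ((mul_le_mul (mul_le_mul_of_nonneg_left t1
      (show 0 ≤ K2 * S.h p by positivity)) e2 (by positivity) (by positivity)).trans_eq (by ring))
  have q1 := mul_pos (one_pos.trans_le hK1) h0
  have q2 := mul_pos (one_pos.trans_le hK2) b0
  rw [abs_mul, abs_mul, abs_of_nonneg (sq_nonneg (S.h p))]
  constructor
  · refine (mul_le_mul_of_nonneg_left V.ck (sq_nonneg _)).trans ?_
    rw [Pre.WW, mul_add, mul_add]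
    linarith
  · refine (mul_le_mul_of_nonneg_left V.cR (sq_nonneg _)).trans ?_
    rw [mul_add]
    linarith

theorem errA_pre (hd : Dim q e0) (hM : 1 ≤ M) (hK1 : 1 ≤ K1) (hK2 : 1 ≤ K2) (hT : 0 < T)
    (hT1 : T ≤ 1 / 100) (hS : IsSol q T' S) (hp : p ∈ Om T') (B : Bas q e0 K T S p) (N : Nr q S p)
    (V : Cv q e0 M K1 K2 T S p) : 1 / 2 ≤ S.a p ^ 2 ∧ |S.y1 p| ≤ M * S.bb T p ∧ |S.y1 p| ≤ 3 ∧
      |S.y2 q p| ≤ M * S.bb T p ∧ |S.y2 q p| ≤ 30000 ∧ |S.h p ^ 2 * S.ρ2 q p| ≤ 1 ∧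
      |1 - S.EE p| ≤ 3 * S.bb T p ∧ |S.a p ^ 2 - z0 q| ≤ ((14 + 4 * q) * M + 2 * (1100 * K1 + 300) +
        (3 * K2 + 300) + 6 * mm q) * (S.bb T p + S.h p) := by
  have hw := om_sub_wd hp
  have hm := hd.hq
  have m0 : 0 < mm q := by linarith
  have hq : (q : ℝ) = mm q + 1 := by simp [mm]
  have q0 : (0 : ℝ) ≤ q := Nat.cast_nonneg q
  have k0 := B.kpos
  have h0 := B.hpos
  have f0 := B.fpos
  have τ0 := B.τ0
  have b0 : 0 < S.bb T p := by unfold Pre.bb; positivity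
  have bb2 : S.b2 T p ≤ S.bb T p ^ 2 := by
    have : 0 ≤ 2 * ((T - p.1) ^ 3 / S.k p ^ 9 * S.k p ^ 15) := by positivity
    exact (le_add_of_nonneg_right this).trans_eq (by unfold Pre.b2 Pre.bb; ring)
  have sq : ∀ y : ℝ, y ^ 2 ≤ M * S.b2 T p → |y| ≤ M * S.bb T p := fun y hy =>
    abs_le_of_sq_le_sq (hy.trans ((mul_le_mul (le_self_pow₀ hM two_ne_zero) bb2
      (by unfold Pre.b2; positivity) (by positivity)).trans_eq (by ring))) (by positivity)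
  have E0 : 0 ≤ S.EE p := by unfold Pre.EE; positivity
  have E1 : S.EE p ≤ 1.03 := (div_le_iff₀ (by positivity)).2 B.E1
  have a1 : S.a p ^ 2 ≤ 1 := B.glob.z1
  have a2 : 1 / 2 ≤ S.a p ^ 2 := by
    have e1 : 3 * S.EE p / mm q ≤ 1 / 2 := by
      rw [div_le_iff₀ m0]; linarith
    have e2 : _ ≤ S.a p ^ 2 := N.z
    linarith
  have a0 : |S.a p| ≤ 1 := abs_le_one_iff_mul_self_le_one.2 (by nlinarith)
  have y1 := sq _ V.y1
  have y2 := sq _ V.y2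
  have y1' : |S.y1 p| ≤ 3 := by
    have e1 : |S.hX p| ≤ 2 := abs_le_of_sq_le_sq (by
      rw [hX_sq]; nlinarith [N.fs, sq_nonneg (S.fs p)]) zero_le_two
    rw [y1_eq hS hw]
    exact (errA_sub e1 a0).trans (by norm_num)
  have cr : ∀ y : ℝ, S.f p ^ 2 * |y| ≤ 20000 → |S.h p ^ 2 * y| ≤ 30000 := fun y hy => by
    rw [abs_mul, abs_of_nonneg (sq_nonneg _)]
    nlinarith [mul_le_mul_of_nonneg_right B.E1 (abs_nonneg y)]
  have r2e : (mm q + 4) * (S.h p ^ 2 * S.ρ2 q p) =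
      S.h p ^ 2 * S.R q p - 2 * S.y2 q p - S.h p ^ 2 * S.kt q p := by
    rw [ρ2_tr m0, Pre.y2]; field_simp
  have t2 : |(2 : ℝ)| ≤ 2 := errA_c zero_le_two
  have r2 : |S.h p ^ 2 * S.ρ2 q p| ≤ 1 := by
    have := errA_sub (errA_sub (cr _ N.cR) (errA_mul t2 (cr _ N.cσ))) (cr _ N.ck)
    rw [← Pre.y2, ← r2e, abs_mul, abs_of_pos (by positivity)] at this
    nlinarith [abs_nonneg (S.h p ^ 2 * S.ρ2 q p)]
  have hE : |1 - S.EE p| ≤ 3 * S.bb T p := by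
    have := abs_le_of_sq_le_sq (B.u2.trans bb2) b0.le
    linarith [B.Eu]
  obtain ⟨wk, wR⟩ := errA_W hd hK1 hK2 hT hT1 B V
  have hz : |S.a p ^ 2 - z0 q| ≤ ((14 + 4 * q) * M + 2 * (1100 * K1 + 300) + (3 * K2 + 300) +
      6 * mm q) * (S.bb T p + S.h p) := by
    have e1 := errA_sub (errA_sub wR (errA_mul t2 y2)) wk
    rw [← r2e, abs_mul, abs_of_pos (by positivity)] at e1
    have e2 : |(mm q + 2) * (S.h p ^ 2 * S.ρ2 q p)| ≤ _ := le_trans (by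
      rw [abs_mul, abs_of_pos (by positivity)]
      exact mul_le_mul_of_nonneg_right (by linarith) (abs_nonneg _)) e1
    have e3 : (mm q + 2) * (mm q + 3) * (z0 q - S.a p ^ 2) =
        2 * S.y2 q p - S.h p ^ 2 * S.kt q p + (mm q + 2) * (S.h p ^ 2 * S.ρ2 q p) +
          2 * mm q * (1 - S.EE p) + (4 + 4 * q) * (S.a p * S.y1 p) + 2 * (S.y1 p * S.y1 p) := by
      refine (constraint' hS m0 hw).trans ?_
      simp only [Pre.y2, Pre.σ, Pre.kt, hq]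
      ring
    have e4 := errA_add (errA_add (errA_add (errA_add (errA_sub (errA_mul t2 y2) wk) e2)
      (errA_mul (errA_c (show 0 ≤ 2 * mm q by positivity)) hE))
      (errA_mul (errA_c (show 0 ≤ 4 + 4 * (q : ℝ) by positivity)) (errA_mul a0 y1)))
      (errA_mul t2 (errA_mul y1' y1))
    rw [← e3, abs_mul, abs_of_pos (by positivity), abs_sub_comm] at e4
    have e5 := le_mul_of_one_le_left (abs_nonneg (S.a p ^ 2 - z0 q))
      (show 1 ≤ (mm q + 2) * (mm q + 3) by nlinarith)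
    have e6 : 0 ≤ ((14 + 4 * q) * M + 6 * mm q) * S.h p := by positivity
    linarith
  exact ⟨a2, y1, y1', y2, cr _ N.cσ, r2, hE, hz⟩

theorem errA (q : ℕ) (M K1 K2 : ℝ) : ∃ C : ℝ, 1 ≤ C ∧
    ∀ (e0 K T T' : ℝ) (S : Pre) (p : ℝ × ℝ), Dim q e0 → 1 ≤ M → 1 ≤ K1 → 1 ≤ K2 → 0 < T →
      T ≤ 1 / 100 → IsSol q T' S → p ∈ Om T' → Bas q e0 K T S p → Nr q S p →
      Cv q e0 M K1 K2 T S p →
      |S.Θ p| ≤ C * S.h p ^ 2 * S.bb T p ∧ |S.h p * S.Dr S.Θ p| ≤ C * S.h p ^ 2 * S.bb T p ∧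
      |S.h p ^ 2 * S.Dr (S.Dr S.Θ) p| ≤ C * S.h p ^ 2 * S.bb T p ∧
      |S.err0 q p| ≤ C * (S.bb T p + S.h p) * S.bb T p := by
  set c := (14 + 4 * q) * M + 2 * (1100 * K1 + 300) + (3 * K2 + 300) + 6 * mm q with hc
  refine ⟨max 1 (max (20 * M + 1210 + q * (4 * M + 2))
    (c * (32 * M + 1217 + q * (4 * M + 2)) + (6 + 2 * M) * (4 * M + 2) + 1)), le_max_left _ _,
    fun e0 K T T' S p hd hM hK1 hK2 hT hT1 hS hp B N V => ?_⟩
  have hw := om_sub_wd hp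
  have hm := hd.hq
  have m0 : 0 < mm q := by linarith
  have q0 : (0 : ℝ) ≤ q := Nat.cast_nonneg q
  have k0 := B.kpos
  have h0 := B.hpos
  have τ0 := B.τ0
  have b0 : 0 < S.bb T p := by unfold Pre.bb; positivity
  have c0 : 0 ≤ c := by positivity
  obtain ⟨a2, y1, y1', y2, y2', r2, hE, hz⟩ := errA_pre hd hM hK1 hK2 hT hT1 hS hp B N V
  have an : S.a p ≠ 0 := fun h => by rw [h] at a2; norm_num at a2
  have fΘ : S.f p ^ 2 = S.h p ^ 2 + S.Θ p := by simp [Pre.Θ]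
  have d1 : S.Ds S.Θ p = S.a p * S.Dr S.Θ p := by rw [Pre.Dr]; field_simp
  have hθ : |S.Θ p / S.h p ^ 2| ≤ S.bb T p / 100 := by
    rw [abs_div, abs_of_pos (pow_pos h0 2), div_le_iff₀ (pow_pos h0 2)]
    linarith [B.Θb]
  obtain ⟨p1, p2, p3⟩ := errA_alg (P1 := S.Dr S.Θ p / S.h p) (P2 := S.Dr (S.Dr S.Θ) p) q0 hM c0 h0
    b0 B.glob.z1 a2 hθ y1 y1' y2 y2' r2 N.as hE hz (by
      have := Ds_Θ hS hw
      rw [fΘ, d1] at this
      field_simp
      linear_combination this) (by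
      rw [Drr_eq hS hw an ((sm_Θ hS).xa hw), Dss_Θ hS hw, fΘ, d1, Y_eq hS hw, Pre.z, Pre.y2]
      field_simp)
  have hb : 0 ≤ S.h p ^ 2 * S.bb T p := by positivity
  have m1 := (le_max_left _ _).trans (le_max_right 1 (max (20 * M + 1210 + q * (4 * M + 2))
    (c * (32 * M + 1217 + q * (4 * M + 2)) + (6 + 2 * M) * (4 * M + 2) + 1)))
  have m2 := (le_max_right _ _).trans (le_max_right 1 (max (20 * M + 1210 + q * (4 * M + 2))
    (c * (32 * M + 1217 + q * (4 * M + 2)) + (6 + 2 * M) * (4 * M + 2) + 1)))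
  have m3 : 0 ≤ (q : ℝ) * (4 * M + 2) := by positivity
  generalize max 1 (max (20 * M + 1210 + q * (4 * M + 2))
    (c * (32 * M + 1217 + q * (4 * M + 2)) + (6 + 2 * M) * (4 * M + 2) + 1)) = C at *
  have fin : ∀ x A : ℝ, |x| ≤ A * S.bb T p → A ≤ C → |S.h p ^ 2 * x| ≤ C * S.h p ^ 2 * S.bb T p :=
    fun x A hx hA => (errA_mul (errA_c (sq_nonneg _)) hx).trans ((le_of_eq (by ring)).trans
      ((mul_le_mul_of_nonneg_right hA hb).trans_eq (by ring)))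
  refine ⟨?_, ?_, fin _ _ p2 m1, ?_⟩
  · have := fin _ (1 / 100) (hθ.trans_eq (by ring)) (by linarith)
    rwa [mul_div_cancel₀ _ (pow_pos h0 2).ne'] at this
  · have := fin _ _ p1 (by linarith)
    rwa [show S.h p ^ 2 * (S.Dr S.Θ p / S.h p) = S.h p * S.Dr S.Θ p by field_simp] at this
  · rw [err0_eq hS m0 hp an, Pre.z]
    refine le_trans (le_of_eq ?_) (p3.trans ?_)
    · congr 1
      ring
    · gcongr

end Vale.Agent.P244
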