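import Vale.Agent.P244C.ErrA

open Set MeasureTheory Filter Topology
open scoped ContDiff

noncomputable section

namespace Vale.Agent.P244

theorem errB_cut (K : ℝ) : ContDiff ℝ ∞ (cut K) :=
  Real.smoothTransition.contDiff.comp (by fun_prop)

theorem errB_cut' (K : ℝ) : ContDiff ℝ ∞ (deriv (cut K)) :=
  (contDiff_infty_iff_deriv.1 (errB_cut K)).2

theorem cut_bd : ∃ L : ℝ, 1 ≤ L ∧ ∀ K r : ℝ, 0 < r →
    |deriv (cut K) r| ≤ L * K ^ 2 * r ∧ |deriv (deriv (cut K)) r| ≤ L * K ^ 2 := by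
  let g : ℝ → ℝ := fun s => Real.smoothTransition (2 - 2 * s)
  have c0 : ContDiff ℝ ∞ g := Real.smoothTransition.contDiff.comp (by fun_prop)
  obtain ⟨d0, c1⟩ := contDiff_infty_iff_deriv.1 c0
  obtain ⟨d1, c2⟩ := contDiff_infty_iff_deriv.1 c1
  have z : ∀ s : ℝ, 1 < s → deriv g s = 0 ∧ deriv (deriv g) s = 0 := fun s hs => by
    have e : g =ᶠ[𝓝 s] fun _ => 0 := by
      filter_upwards [Ioi_mem_nhds hs] with y hy
      exact Real.smoothTransition.zero_of_nonpos (by linarith [mem_Ioi.1 hy])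
    exact ⟨by simpa using e.deriv.eq_of_nhds, by simpa using e.deriv.deriv.eq_of_nhds⟩
  obtain ⟨A, hA⟩ := (isCompact_Icc (a := (0 : ℝ)) (b := 1)).exists_bound_of_continuousOn
    c1.continuous.continuousOn
  obtain ⟨B, hB⟩ := (isCompact_Icc (a := (0 : ℝ)) (b := 1)).exists_bound_of_continuousOn
    (continuous_id.mul c2.continuous).continuousOn
  have A0 := (norm_nonneg _).trans (hA 0 (by simp))
  have B0 := (norm_nonneg _).trans (hB 0 (by simp))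
  have b : ∀ s : ℝ, 0 ≤ s → |deriv g s| ≤ A ∧ |s * deriv (deriv g) s| ≤ B := fun s hs => by
    rcases le_or_gt s 1 with h | h
    · exact ⟨hA s ⟨hs, h⟩, hB s ⟨hs, h⟩⟩
    · simp [z s h, A0, B0]
  refine ⟨1 + 2 * A + 4 * B, by linarith, fun K r hr => ?_⟩
  have i : ∀ r : ℝ, HasDerivAt (fun r : ℝ => K ^ 2 * r ^ 2) (2 * K ^ 2 * r) r := fun r =>
    ((hasDerivAt_pow 2 r).const_mul _).congr_deriv (by simp; ring)
  have e1 : deriv (cut K) = fun r => deriv g (K ^ 2 * r ^ 2) * (2 * K ^ 2 * r) :=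
    funext fun r => ((d0 _).hasDerivAt.comp r (i r)).deriv
  have e2 : deriv (deriv (cut K)) r = K ^ 2 * (4 * (K ^ 2 * r ^ 2 * deriv (deriv g) (K ^ 2 * r ^ 2)) +
      2 * deriv g (K ^ 2 * r ^ 2)) := by
    rw [e1]
    refine (((d1 _).hasDerivAt.comp r (i r)).mul ((hasDerivAt_id r).const_mul (2 * K ^ 2))).deriv.trans ?_
    simp only [Function.comp_apply, id]
    ring
  obtain ⟨b1, b2⟩ := b (K ^ 2 * r ^ 2) (by positivity)
  constructor
  · rw [e1]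
    refine (errA_mul b1 (errA_c (by positivity))).trans ?_
    have : 0 ≤ (1 + 4 * B) * (K ^ 2 * r) := by positivity
    linarith
  · rw [e2]
    refine (errA_mul (errA_c (sq_nonneg K)) (errA_add (errA_mul (errA_c zero_le_four) b2)
      (errA_mul (errA_c zero_le_two) b1))).trans ?_
    linarith [sq_nonneg K]

variable {q : ℕ} {e0 K T T' : ℝ} {S : Pre} {p : ℝ × ℝ}

theorem errB_τ (hT : T' ≤ T) (hp : p ∈ Wd T') : 0 < T - p.1 := sub_pos.2 (hp.1.2.trans_le hT)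

theorem errB_smc {g : ℝ → ℝ} (hg : ContDiff ℝ ∞ g) (hS : IsSol q T' S) :
    Sm T' fun p => g (S.h p) := hg.comp_contDiffOn (sm_h hS)

theorem sm_Vt (hS : IsSol q T' S) (hT : T' ≤ T) : Sm T' (S.Vt e0 K T) :=
  (((errB_smc (errB_cut K) hS).mul (sm_mono hS e0 0)).mul (sm_Θ hS)).div
    (((sm_const T).sub sm_fst).pow 3) fun _ hp => (pow_pos (errB_τ hT hp) 3).ne'

theorem sm_xi (hd : Dim q e0) (hS : IsSol q T' S) (hT : T' ≤ T) : Sm T' (S.xi q T) :=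
  ((sm_h hS).pow 2).div ((sm_const _).mul ((sm_const T).sub sm_fst)) fun _ hp => by
    have := errB_τ hT hp
    have := hd.z0_lo
    positivity

theorem errB_Dx (hS : IsSol q T' S) (v : ℝ × ℝ → ℝ) (hp : p ∈ Wd T') :
    S.Dx q T v p = 2 * z0 q * (T - p.1) * (S.Dr v p / S.h p) := by
  have e : S.xi q T = fun p => (fun t => (4 * z0 q * (T - t))⁻¹) p.1 * S.h p ^ 2 :=
    funext fun p => div_eq_inv_mul _ _
  rw [Pre.Dx, e, Ds_tmul fun t => (4 * z0 q * (T - t))⁻¹, Ds_sq ((sm_h hS).xa hp), Pre.Dr]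
  change _ / (_ * (2 * S.h p * S.a p)) = _
  rw [div_mul_eq_div_div, div_inv_eq_mul]
  ring

theorem errB_Dxx (hS : IsSol q T' S) {v : ℝ × ℝ → ℝ} (hv : Sm T' v) (hp : p ∈ Wd T')
    (ha : S.a p ≠ 0) : S.Dx q T (S.Dx q T v) p = (2 * z0 q * (T - p.1)) ^ 2 *
      ((S.h p * S.Dr (S.Dr v) p - S.Dr v p) / S.h p ^ 3) := by
  have h0 := (h_pos hS hp).ne'
  have x1 : XA (S.Dr v) p := ContDiffAt.div ((hv.Ds hS).xa hp) ((sm_a hS).xa hp) ha
  rw [errB_Dx hS _ hp, Pre.Dr, Ds_congr_wd hp fun p hp => errB_Dx hS v hp,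
    Ds_tmul fun t => 2 * z0 q * (T - t), Ds_div x1 ((sm_h hS).xa hp) h0,
    show S.Dr (S.Dr v) p = S.Ds (S.Dr v) p / S.a p from rfl, show S.Ds S.h p = S.a p from rfl]
  field_simp

theorem errB_Ds (hS : IsSol q T' S) (hp : p ∈ Wd T') :
    S.Ds (S.Vt e0 K T) p = ((T - p.1) ^ 3)⁻¹ * (S.mono e0 0 p * (cut K (S.h p) * S.Ds S.Θ p +
      (deriv (cut K) (S.h p) * S.a p + cut K (S.h p) * (e0 * S.Y p)) * S.Θ p)) := by
  have e : S.Vt e0 K T = fun p => (fun t => ((T - t) ^ 3)⁻¹) p.1 *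
      (cut K (S.h p) * S.mono e0 0 p * S.Θ p) := funext fun p => div_eq_inv_mul _ _
  have s1 := errB_smc (errB_cut K) hS
  rw [e, Ds_tmul fun t => ((T - t) ^ 3)⁻¹,
    Ds_mul ((s1.mul (sm_mono hS e0 0)).xa hp) ((sm_Θ hS).xa hp),
    Ds_mul (s1.xa hp) ((sm_mono hS e0 0).xa hp), Ds_mono hS hp,
    Ds_comp ((sm_h hS).xa hp) ((errB_cut K).differentiable (by simp) _).hasDerivAt]
  change _ * (_ + _ * (_ + _ * (_ * S.a p))) = _
  ring

theorem errB_Dss (hS : IsSol q T' S) (hp : p ∈ Wd T') :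
    S.Ds (S.Ds (S.Vt e0 K T)) p = ((T - p.1) ^ 3)⁻¹ * (S.mono e0 0 p *
      (cut K (S.h p) * S.Ds (S.Ds S.Θ) p +
      2 * (deriv (cut K) (S.h p) * S.a p + cut K (S.h p) * (e0 * S.Y p)) * S.Ds S.Θ p +
      (deriv (deriv (cut K)) (S.h p) * S.a p ^ 2 +
        deriv (cut K) (S.h p) * (S.Ds S.a p + 2 * e0 * S.Y p * S.a p) +
        cut K (S.h p) * (e0 * S.Ds S.Y p + e0 ^ 2 * S.Y p ^ 2)) * S.Θ p)) := by
  have s1 := errB_smc (errB_cut K) hS
  have s2 := errB_smc (errB_cut' K) hS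
  have s3 := (sm_const e0).mul (sm_Y hS)
  have s4 := s2.mul (sm_a hS)
  have s5 := s1.mul s3
  have s6 := s1.mul ((sm_Θ hS).Ds hS)
  have s7 := (s4.add s5).mul (sm_Θ hS)
  rw [Ds_congr_wd hp fun p hp => errB_Ds hS hp, Ds_tmul fun t => ((T - t) ^ 3)⁻¹,
    Ds_mul ((sm_mono hS e0 0).xa hp) ((s6.add s7).xa hp), Ds_add (s6.xa hp) (s7.xa hp),
    Ds_mul (s1.xa hp) (((sm_Θ hS).Ds hS).xa hp), Ds_mul ((s4.add s5).xa hp) ((sm_Θ hS).xa hp),
    Ds_add (s4.xa hp) (s5.xa hp), Ds_mul (s2.xa hp) ((sm_a hS).xa hp), Ds_mul (s1.xa hp) (s3.xa hp),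
    Ds_cmul, Ds_mono hS hp,
    Ds_comp ((sm_h hS).xa hp) ((errB_cut K).differentiable (by simp) _).hasDerivAt,
    Ds_comp ((sm_h hS).xa hp) ((errB_cut' K).differentiable (by simp) _).hasDerivAt,
    show S.Ds S.h p = S.a p from rfl]
  ring

theorem errB_Dt (hS : IsSol q T' S) (hT : T' ≤ T) (hp : p ∈ Om T') :
    S.Dt (S.Vt e0 K T) p = ((T - p.1) ^ 3)⁻¹ * (S.mono e0 0 p * (cut K (S.h p) * S.Dt S.Θ p +
      (deriv (cut K) (S.h p) + cut K (S.h p) * e0 / S.h p) * S.Dt S.h p * S.Θ p)) +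
      3 * S.Vt e0 K T p / (T - p.1) := by
  have hw := om_sub_wd hp
  have τ0 := (errB_τ hT hw).ne'
  have h0 := (h_pos hS hw).ne'
  have e : S.Vt e0 K T = fun p => (fun t => ((T - t) ^ 3)⁻¹) p.1 *
      (cut K (S.h p) * S.mono e0 0 p * S.Θ p) := funext fun p => div_eq_inv_mul _ _
  have s0 : Sm T' fun p : ℝ × ℝ => ((T - p.1) ^ 3)⁻¹ :=
    ((sm_const 1).div (((sm_const T).sub sm_fst).pow 3)
      fun _ hp => (pow_pos (errB_τ hT hp) 3).ne').congr fun _ _ => (one_div _).symm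
  have s1 := errB_smc (errB_cut K) hS
  have s2 := s1.mul (sm_mono hS e0 0)
  have d1 : S.Dt (S.mono e0 0) p = S.mono e0 0 p * e0 * -S.ρ2 q p := by
    have e : S.mono e0 0 = fun p => (fun x => Real.exp (e0 * x)) (S.G p) := by
      funext p; simp [Pre.mono]
    rw [e, Dt_comp ((sm_G hS).ca hp) ((hasDerivAt_id' _).const_mul e0).exp, hS.eqG p hp]
    simp
  rw [e, Dt_mul (s0.ca hp) ((s2.mul (sm_Θ hS)).ca hp), Dt_mul (s2.ca hp) ((sm_Θ hS).ca hp),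
    Dt_mul (s1.ca hp) ((sm_mono hS e0 0).ca hp), d1,
    Dt_comp ((sm_h hS).ca hp) ((errB_cut K).differentiable (by simp) _).hasDerivAt,
    Dt_time ((((hasDerivAt_id' p.1).const_sub T).fun_pow 3).fun_inv (pow_ne_zero 3 τ0)), Dt_h hS hp]
  simp only []
  field_simp
  ring

theorem errB_Dtxi (hd : Dim q e0) (hS : IsSol q T' S) (hT : T' ≤ T) (hp : p ∈ Om T') :
    S.Dt (S.xi q T) p =
      2 * S.h p * S.Dt S.h p / (4 * z0 q * (T - p.1)) + S.xi q T p / (T - p.1) := by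
  have hw := om_sub_wd hp
  have τ0 := (errB_τ hT hw).ne'
  have z1 := hd.z0_lo
  have n : ∀ p ∈ Wd T', 4 * z0 q * (T - p.1) ≠ 0 := fun p hp => by
    have := errB_τ hT hp
    positivity
  have e : S.xi q T = fun p => (fun t => (4 * z0 q * (T - t))⁻¹) p.1 * S.h p ^ 2 :=
    funext fun p => div_eq_inv_mul _ _
  have s0 : Sm T' fun p : ℝ × ℝ => (4 * z0 q * (T - p.1))⁻¹ :=
    ((sm_const 1).div ((sm_const _).mul ((sm_const T).sub sm_fst)) n).congr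
      fun _ _ => (one_div _).symm
  rw [e, Dt_mul (s0.ca hp) (((sm_h hS).pow 2).ca hp),
    Dt_comp (g := fun x => x ^ 2) ((sm_h hS).ca hp) (hasDerivAt_pow 2 _),
    Dt_time ((((hasDerivAt_id' p.1).const_sub T).const_mul (4 * z0 q)).fun_inv (n p hw))]
  have : z0 q ≠ 0 := by positivity
  simp only []
  field_simp
  ring

/-- formulas for the rescaled unknown in terms of radial derivatives -/
theorem errB_id (hd : Dim q e0) (hS : IsSol q T' S) (hT : T' ≤ T) (hp : p ∈ Om T')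
    (ha : S.a p ≠ 0) :
    (T - p.1) ^ 3 * (2 * S.xi q T p * S.Dx q T (S.Vt e0 K T) p) =
        S.mono e0 0 p * (cut K (S.h p) * (S.h p * S.Dr S.Θ p + e0 * S.Θ p) +
          S.h p * deriv (cut K) (S.h p) * S.Θ p) ∧
      (T - p.1) ^ 3 * (4 * S.xi q T p ^ 2 * S.Dx q T (S.Dx q T (S.Vt e0 K T)) p +
          2 * S.xi q T p * S.Dx q T (S.Vt e0 K T) p) =
        S.mono e0 0 p * (cut K (S.h p) * (S.h p ^ 2 * S.Dr (S.Dr S.Θ) p +
            2 * e0 * (S.h p * S.Dr S.Θ p) + e0 * (e0 - 1) * S.Θ p) +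
          2 * S.h p * deriv (cut K) (S.h p) * (S.h p * S.Dr S.Θ p + e0 * S.Θ p) +
          S.h p ^ 2 * deriv (deriv (cut K)) (S.h p) * S.Θ p) ∧
      (T - p.1) ^ 2 * S.erf q e0 K T p =
        S.mono e0 0 p * (cut K (S.h p) * S.err0 q p - z0 q *
          (deriv (deriv (cut K)) (S.h p) * S.Θ p + deriv (cut K) (S.h p) / S.h p *
            (2 * (S.h p * S.Dr S.Θ p + e0 * S.Θ p) + (2 * al q e0 - 1) * S.Θ p))) := by
  have hw := om_sub_wd hp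
  have τ0 := (errB_τ hT hw).ne'
  have h0 := (h_pos hS hw).ne'
  have z1 := hd.z0_lo
  have z2 : z0 q ≠ 0 := by positivity
  have d1 : S.Ds S.Θ p = S.a p * S.Dr S.Θ p := by rw [Pre.Dr]; field_simp
  have d2 : S.Ds (S.Ds S.Θ) p = S.a p ^ 2 * S.Dr (S.Dr S.Θ) p + S.Ds S.a p * S.Dr S.Θ p := by
    rw [Drr_eq hS hw ha ((sm_Θ hS).xa hw), Pre.z]
    field_simp
    ring
  have r1 : S.Dr (S.Vt e0 K T) p = ((T - p.1) ^ 3)⁻¹ * (S.mono e0 0 p *
      (cut K (S.h p) * S.Dr S.Θ p +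
        (deriv (cut K) (S.h p) + cut K (S.h p) * e0 / S.h p) * S.Θ p)) := by
    rw [Pre.Dr, errB_Ds hS hw, d1, Y_eq hS hw]
    field_simp
  have r2 : S.Dr (S.Dr (S.Vt e0 K T)) p = ((T - p.1) ^ 3)⁻¹ * (S.mono e0 0 p *
      (cut K (S.h p) * S.Dr (S.Dr S.Θ) p +
        2 * (deriv (cut K) (S.h p) + cut K (S.h p) * e0 / S.h p) * S.Dr S.Θ p +
        (deriv (deriv (cut K)) (S.h p) + 2 * deriv (cut K) (S.h p) * e0 / S.h p +
          cut K (S.h p) * (e0 * (e0 - 1)) / S.h p ^ 2) * S.Θ p)) := by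
    rw [Drr_eq hS hw ha ((sm_Vt hS hT).xa hw), errB_Dss hS hw, r1, d2, d1, Ds_Y hS hw, Y_eq hS hw,
      Pre.z]
    field_simp
    ring
  have d3 : S.Dt S.Θ p = S.err0 q p + S.Dr S.Θ p * S.Dt S.h p + z0 q * (S.Dr (S.Dr S.Θ) p +
      (mm q - 1) * S.Dr S.Θ p / S.h p + e0 * (mm q - 2 - e0) * S.Θ p / S.h p ^ 2) := by
    rw [hd.he, Pre.err0]
    ring
  refine ⟨?_, ?_, ?_⟩
  · rw [errB_Dx hS _ hw, r1, Pre.xi]
    field_simp
    ring
  · rw [errB_Dxx hS (sm_Vt hS hT) hw ha, errB_Dx hS _ hw, r2, r1, Pre.xi]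
    field_simp
    ring
  · rw [Pre.erf, Pre.Dτ, errB_Dxx hS (sm_Vt hS hT) hw ha, errB_Dx hS _ hw, r2, r1,
      errB_Dt hS hT hp, errB_Dtxi hd hS hT hp, d3, Pre.xi, al]
    field_simp
    ring

end Vale.Agent.P244
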