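import Vale.Agent.P244C.ErrB

open Set MeasureTheory Filter Topology
open scoped ContDiff

noncomputable section

namespace Vale.Agent.P244

theorem errC_mon {x : ℝ} (hx : 0 < x) {i a c : ℕ} (h : i ≤ c) : x ^ i ≤ x⁻¹ ^ a + x ^ c := by
  rcases le_total x 1 with h1 | h1
  · exact le_add_of_le_of_nonneg ((pow_le_one₀ hx.le h1).trans
      (one_le_pow₀ ((one_le_inv₀ hx).2 h1))) (by positivity)
  · exact le_add_of_nonneg_of_le (by positivity) (pow_le_pow_right₀ h1 h)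

theorem errC_mon' {x : ℝ} (hx : 0 < x) {i a c : ℕ} (h : i ≤ a) : x⁻¹ ^ i ≤ x⁻¹ ^ a + x ^ c := by
  have := errC_mon (inv_pos.2 hx) (a := c) h
  rwa [inv_inv, add_comm] at this

theorem errC_pow {τ k ξ N : ℝ} (hτ : 0 < τ) (h1 : τ ≤ 1) (hk : 0 < k) (hξ : 0 < ξ) (N1 : 1 ≤ N)
    (N4 : N ≤ 4) (e : (k ^ 4) ^ 2 = N * τ * ξ) :
    (k ^ 4) ^ 2 * (τ ^ 3 / k ^ 9 + k ^ 15) ≤
        τ ^ 3 * (128 * τ ^ (-(1 / 8) : ℝ) * (ξ⁻¹ + ξ ^ 3)) ∧
      (τ ^ 3 / k ^ 9 + k ^ 15 + k ^ 4) * (τ ^ 3 / k ^ 9 + k ^ 15) ≤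
        τ ^ 2 * (1536 * τ ^ (3 / 8 : ℝ) * (ξ⁻¹ ^ 3 + ξ ^ 4)) := by
  obtain ⟨s, s0, rfl⟩ : ∃ s : ℝ, 0 < s ∧ s ^ 8 = τ :=
    ⟨τ ^ ((8 : ℕ) : ℝ)⁻¹, by positivity, Real.rpow_inv_natCast_pow hτ.le (by norm_num)⟩
  have s1 : s ≤ 1 := (pow_le_one_iff_of_nonneg s0.le (by norm_num)).1 h1
  have r1 : (s ^ 8) ^ (-(1 / 8) : ℝ) = s⁻¹ := by
    rw [← Real.rpow_natCast, ← Real.rpow_mul s0.le, ← Real.rpow_neg_one]
    norm_num
  have r2 : (s ^ 8) ^ (3 / 8 : ℝ) = s ^ 3 := by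
    rw [← Real.rpow_natCast, ← Real.rpow_mul s0.le, ← Real.rpow_natCast]
    norm_num
  obtain ⟨x, x0, rfl⟩ : ∃ x : ℝ, 0 < x ∧ s * x = k := ⟨k / s, by positivity, by field_simp⟩
  have e1 : x ^ 8 = N * ξ := mul_left_cancel₀ hτ.ne' (by linear_combination e)
  have a1 : x⁻¹ ^ 8 ≤ ξ⁻¹ := by
    rw [inv_pow, e1]
    exact inv_anti₀ hξ (le_mul_of_one_le_left hξ.le N1)
  have a2 : x ^ 8 ≤ 4 * ξ := e1.trans_le (mul_le_mul_of_nonneg_right N4 hξ.le)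
  have a3 : x ^ 24 ≤ 64 * ξ ^ 3 := (le_of_eq (by ring)).trans
    ((pow_le_pow_left₀ (by positivity) a2 3).trans_eq (by ring))
  have a4 : x ^ 32 ≤ 256 * ξ ^ 4 := (le_of_eq (by ring)).trans
    ((pow_le_pow_left₀ (by positivity) a2 4).trans_eq (by ring))
  have a5 : x⁻¹ ^ 24 ≤ ξ⁻¹ ^ 3 := (le_of_eq (by ring)).trans (pow_le_pow_left₀ (by positivity) a1 3)
  have i1 : 0 < ξ⁻¹ := inv_pos.2 hξ
  have i3 : 0 < ξ⁻¹ ^ 3 := by positivity
  rw [r1, r2]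
  constructor
  · have b1 := errC_mon' x0 (i := 1) (a := 8) (c := 24) (by norm_num)
    have b2 := errC_mon x0 (i := 23) (a := 8) (c := 24) (by norm_num)
    have b3 : x⁻¹ ^ 1 + x ^ 23 ≤ 128 * (ξ⁻¹ + ξ ^ 3) := by linarith
    exact (le_of_eq (by field_simp)).trans ((mul_le_mul_of_nonneg_left b3
      (show 0 ≤ s ^ 23 by positivity)).trans_eq (by field_simp))
  · have b1 := errC_mon' x0 (i := 18) (a := 24) (c := 32) (by norm_num)
    have b2 := errC_mon x0 (i := 30) (a := 24) (c := 32) (by norm_num)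
    have b3 := errC_mon' x0 (i := 5) (a := 24) (c := 32) (by norm_num)
    have b4 := errC_mon x0 (i := 19) (a := 24) (c := 32) (by norm_num)
    have b5 : s ^ 11 * (x⁻¹ ^ 9 + x ^ 15) ^ 2 ≤ 2 * (x⁻¹ ^ 18 + x ^ 30) :=
      (mul_le_of_le_one_left (sq_nonneg _) (pow_le_one₀ s0.le s1)).trans
        (add_sq_le.trans_eq (by ring))
    have b6 : s ^ 11 * (x⁻¹ ^ 9 + x ^ 15) ^ 2 + (x⁻¹ ^ 5 + x ^ 19) ≤ 1536 * (ξ⁻¹ ^ 3 + ξ ^ 4) := by
      linarith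
    exact (le_of_eq (by field_simp)).trans ((mul_le_mul_of_nonneg_left b6
      (show 0 ≤ s ^ 19 by positivity)).trans_eq (by ring))

theorem errC_fin {τ x y B c D C : ℝ} (hτ : 0 < τ) (hc : 0 ≤ c) (hB : 0 ≤ B) (h1 : |τ * x| ≤ c * y)
    (h2 : y ≤ τ * (D * B)) (hC : c * D ≤ C) : |x| ≤ C * B := by
  rw [abs_mul, abs_of_pos hτ] at h1
  refine le_trans (le_of_mul_le_mul_left (h1.trans ((mul_le_mul_of_nonneg_left h2 hc).trans_eq
    (by ring))) hτ) (mul_le_mul_of_nonneg_right hC hB)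

theorem errC (q : ℕ) (C0 K : ℝ) : ∃ C : ℝ, 1 ≤ C ∧
    ∀ (e0 T T' : ℝ) (S : Pre) (p : ℝ × ℝ), Dim q e0 → 0 < T → T ≤ 1 / 100 → T' ≤ T →
      IsSol q T' S → p ∈ Om T' → Bas q e0 K T S p → S.a p ≠ 0 → 1 ≤ C0 →
      |S.Θ p| ≤ C0 * S.h p ^ 2 * S.bb T p → |S.h p * S.Dr S.Θ p| ≤ C0 * S.h p ^ 2 * S.bb T p →
      |S.h p ^ 2 * S.Dr (S.Dr S.Θ) p| ≤ C0 * S.h p ^ 2 * S.bb T p →
      |S.err0 q p| ≤ C0 * (S.bb T p + S.h p) * S.bb T p →
      |S.Vt e0 K T p| ≤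
          C * (T - p.1) ^ (-(1 / 8) : ℝ) * ((S.xi q T p)⁻¹ + S.xi q T p ^ 3) ∧
        |S.xi q T p * S.Dx q T (S.Vt e0 K T) p| ≤
          C * (T - p.1) ^ (-(1 / 8) : ℝ) * ((S.xi q T p)⁻¹ + S.xi q T p ^ 3) ∧
        |S.xi q T p ^ 2 * S.Dx q T (S.Dx q T (S.Vt e0 K T)) p| ≤
          C * (T - p.1) ^ (-(1 / 8) : ℝ) * ((S.xi q T p)⁻¹ + S.xi q T p ^ 3) ∧
        |S.erf q e0 K T p| ≤
          C * (T - p.1) ^ (3 / 8 : ℝ) * ((S.xi q T p)⁻¹ ^ 3 + S.xi q T p ^ 4) := by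
  obtain ⟨L, hL, hc⟩ := cut_bd
  set A := L * K ^ 2 with hA
  have A0 : 0 ≤ A := by positivity
  refine ⟨max 1 (1536 * (C0 * (6 + (6 + mm q) * A))), le_max_left _ _,
    fun e0 T T' S p hd hT hT1 hT' hS hp B ha hC h0 h1 h2 h3 => ?_⟩
  have hw := om_sub_wd hp
  have hm := hd.hq
  have m0 : 0 < mm q := by linarith
  have τ0 := B.τ0
  have k0 := B.kpos
  have hh := B.hpos
  have z1 := hd.z0_lo
  have z2 := hd.z0_hi
  have ξ0 : 0 < S.xi q T p := by unfold Pre.xi; positivity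
  have b0 : 0 < S.bb T p := by unfold Pre.bb; positivity
  obtain ⟨w1, w2⟩ := errC_pow τ0 (by linarith [B.τT]) k0 ξ0 (N := 4 * z0 q) (by linarith)
    (by linarith) (by rw [← B.hk, Pre.xi]; field_simp)
  rw [← B.hk, mul_assoc] at w1 w2
  change S.h p ^ 2 * S.bb T p ≤ _ at w1
  change (S.bb T p + S.h p) * S.bb T p ≤ _ at w2
  obtain ⟨i1, i2, i3⟩ := errB_id (K := K) hd hS hT' hp ha
  have e0' := hd.e0_pos
  have e1 : |e0| ≤ 1 := (abs_of_pos e0').trans_le (hd.e0_le.trans (by norm_num))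
  have e2 : |e0 - 1| ≤ 1 := abs_le.2 ⟨by linarith, by linarith [(abs_le.1 e1).2]⟩
  have μ1 : |S.mono e0 0 p| ≤ 1 := by
    rw [abs_of_pos (mono_pos S _ _ _), mono_rpow hS hw, Real.rpow_zero, mul_one]
    exact Real.rpow_le_one hh.le B.glob.h1 e0'.le
  have c0 : |cut K (S.h p)| ≤ 1 :=
    (abs_of_nonneg (Real.smoothTransition.nonneg _)).trans_le (Real.smoothTransition.le_one _)
  obtain ⟨c1, c2⟩ := hc K (S.h p) hh
  have hh1 : |S.h p| ≤ 1 := (abs_of_pos hh).trans_le B.glob.h1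
  have c3 : |deriv (cut K) (S.h p)| ≤ A := c1.trans (mul_le_of_le_one_right A0 B.glob.h1)
  have c4 : |deriv (cut K) (S.h p) / S.h p| ≤ A := by
    rwa [abs_div, abs_of_pos hh, div_le_iff₀ hh]
  have hh2 : |S.h p ^ 2| ≤ 1 := by rw [abs_pow]; exact pow_le_one₀ (abs_nonneg _) hh1
  have t2 : |(2 : ℝ)| ≤ 2 := errA_c zero_le_two
  rw [mul_assoc] at h0 h1 h2 h3
  set y := S.h p ^ 2 * S.bb T p with hy
  have y0 : 0 ≤ C0 * y := by positivity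
  have Ay : 0 ≤ A * (C0 * y) := by positivity
  have g0 := errA_add h1 (errA_mul e1 h0)
  have g1 := errA_mul μ1 (errA_add (errA_mul c0 g0) (errA_mul (errA_mul hh1 c3) h0))
  have g2 := errA_mul μ1 (errA_add (errA_add (errA_mul c0 (errA_add (errA_add h2
    (errA_mul (errA_mul t2 e1) h1)) (errA_mul (errA_mul e1 e2) h0)))
    (errA_mul (errA_mul (errA_mul t2 hh1) c3) g0)) (errA_mul (errA_mul hh2 c2) h0))
  rw [← i1] at g1
  rw [← i2] at g2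
  have g3 := errA_sub g2 g1
  have D0 : 0 ≤ C0 * (6 + (6 + mm q) * A) := by positivity
  have key : ∀ x : ℝ, |(T - p.1) ^ 3 * x| ≤ (6 + 6 * A) * (C0 * y) → |x| ≤
      max 1 (1536 * (C0 * (6 + (6 + mm q) * A))) * (T - p.1) ^ (-(1 / 8) : ℝ) *
        ((S.xi q T p)⁻¹ + S.xi q T p ^ 3) := fun x hx => by
    rw [mul_assoc]
    refine errC_fin (c := C0 * (6 + (6 + mm q) * A)) (pow_pos τ0 3) D0 (by positivity)
      (hx.trans ?_) w1 (le_max_of_le_right (by linarith))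
    have : 0 ≤ mm q * (A * (C0 * y)) := by positivity
    linarith
  refine ⟨key _ ?_, key _ ?_, key _ ?_, ?_⟩
  · rw [Pre.Vt, mul_div_cancel₀ _ (pow_pos τ0 3).ne']
    exact (errA_mul (errA_mul c0 μ1) h0).trans (by linarith)
  · rw [mul_assoc, mul_left_comm, abs_mul, abs_two] at g1
    linarith
  · rw [← mul_sub, add_sub_cancel_right, mul_assoc, mul_left_comm, abs_mul,
      abs_of_pos four_pos] at g3
    linarith
  · have a1 : |2 * al q e0 - 1| ≤ mm q :=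
      abs_le.2 ⟨by linarith [hd.al_lo], by linarith [hd.al_hi]⟩
    have g4 := errA_mul μ1 (errA_sub (errA_mul c0 h3) (errA_mul
      (show |z0 q| ≤ 1 from abs_le.2 ⟨by linarith, z2.le⟩) (errA_add (errA_mul c2 h0)
        (errA_mul c4 (errA_add (errA_mul t2 g0) (errA_mul a1 h0))))))
    rw [← i3] at g4
    rw [mul_assoc]
    refine errC_fin (c := C0 * (6 + (6 + mm q) * A)) (pow_pos τ0 2) D0 (by positivity)
      (g4.trans ?_) w2 (le_max_of_le_right (by linarith))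
    have y1 : y ≤ (S.bb T p + S.h p) * S.bb T p :=
      mul_le_mul_of_nonneg_right (le_add_of_nonneg_of_le b0.le
        (pow_le_of_le_one hh.le B.glob.h1 two_ne_zero)) b0.le
    have y2 := mul_le_mul_of_nonneg_left y1 (show 0 ≤ C0 * ((6 + mm q) * A) by positivity)
    have : 0 ≤ C0 * ((S.bb T p + S.h p) * S.bb T p) := by positivity
    linarith

end Vale.Agent.P244
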