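import Vale.Agent.P244C.BoxW

open Set MeasureTheory Filter Topology
open scoped ContDiff

noncomputable section

namespace Vale.Agent.P244

theorem final_ric {q : ℕ} {e0 Ci K T T' : ℝ} {S : Pre} (hT' : T' < T)
    (H : ∀ t1 ∈ Ico 0 T', Hyp q e0 Ci K T T' t1 S) : RicBdd q T' S := by
  refine ⟨5 * (8 * (10000 + 2 * K) / (T - T') ^ 3), fun p hp => ?_⟩
  have h := H p.1 ⟨hp.1.1.le, hp.1.2⟩
  have b := h.bas p ⟨⟨hp.1.1.le, le_rfl⟩, hp.2⟩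
  have hm := h.dim.hq
  have d0 : 0 < (T - T') ^ 3 := pow_pos (sub_pos.2 hT') 3
  have d1 : (T - T') ^ 3 ≤ 8 * S.f p ^ 2 :=
    (pow_le_pow_left₀ (sub_pos.2 hT').le (by linarith [hp.1.2]) 3).trans b.low
  have key : ∀ x : ℝ, S.f p ^ 2 * |x| ≤ 10000 + 2 * K →
      |x| ≤ 8 * (10000 + 2 * K) / (T - T') ^ 3 := fun x hx => by
    rw [le_div_iff₀ d0]
    linarith [mul_le_mul_of_nonneg_left d1 (abs_nonneg x)]
  obtain ⟨B, hB⟩ : ∃ B, B = 8 * (10000 + 2 * K) / (T - T') ^ 3 := ⟨_, rfl⟩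
  rw [← hB] at key ⊢
  have h1 := abs_le.1 (key _ b.cσ)
  have h2 := abs_le.1 (key _ b.ck)
  have h3 := abs_le.1 (key _ b.cR)
  have h4 : |S.ρ2 q p| ≤ 4 * B := by
    rw [ρ2_tr (by linarith), abs_div, abs_of_pos (by linarith : 0 < mm q + 4)]
    refine (div_le_self (abs_nonneg _) (by linarith)).trans (abs_le.2 ⟨?_, ?_⟩) <;> linarith
  have h5 := abs_le.1 h4
  rw [Pre.σ] at h1
  rw [Pre.kt] at h2
  refine ⟨abs_le.2 ⟨?_, ?_⟩, abs_le.2 ⟨?_, ?_⟩, abs_le.2 ⟨?_, ?_⟩⟩ <;> linarith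

theorem final_small {q : ℕ} {e0 Ci K T : ℝ} {S : Pre} (hT : 0 < T)
    (H : ∀ t1 ∈ Ico 0 T, Hyp q e0 Ci K T T t1 S) :
    ∀ ε > (0 : ℝ), ∀ t0 < T, ∃ p ∈ Om T, t0 < p.1 ∧ Real.exp (S.F p) < ε := by
  intro ε hε t0 ht0
  obtain ⟨t, h1, h2⟩ := exists_between (max_lt (max_lt ht0 hT)
    (sub_lt_self T (show 0 < ε ^ 2 / 3 by positivity)))
  simp only [max_lt_iff] at h1
  have h := H t ⟨h1.1.2.le, h2⟩
  obtain ⟨C, hC, hb⟩ := reg_bd h.sol h1.1.2.le h2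
  have hτ : 0 < T - t := sub_pos.2 h2
  have hx : 0 < min 1 ((T - t) / C) := lt_min one_pos (by positivity)
  have hp : (t, min 1 ((T - t) / C)) ∈ Rg t :=
    ⟨⟨h1.1.2.le, le_rfl⟩, hx, (min_le_left _ _).trans_lt (by linarith [Real.pi_gt_three])⟩
  have b := h.bas _ hp
  have h3 : S.h (t, min 1 ((T - t) / C)) ≤ T - t := by
    refine (hb _ hp).2.2.2.2.2.1.trans ?_
    rw [← le_div_iff₀' (by linarith)]
    exact (Real.sin_le hx.le).trans (min_le_right _ _)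
  have h4 := b.inf (by nlinarith [b.hpos, h.T_le])
  refine ⟨_, ⟨⟨h1.1.2, h2⟩, hp.2⟩, h1.1.1, ?_⟩
  exact lt_of_pow_lt_pow_left₀ 2 hε.le (h4.trans_lt (by linarith [h1.2]))

theorem final_alg {ψ τ s a b c d : ℝ} (h0 : 0 < ψ) (h1 : ψ ≤ 2) (h2 : 0 < τ) (h3 : τ ≤ 2 * ψ ^ 8)
    (hs : s ≤ 2) (ha : 0 ≤ a) (hb : 0 ≤ b) (hc : 0 ≤ c) (hd : 0 ≤ d) :
    a * τ ^ 2 / (ψ ^ 3) ^ 9 ≤ 4 * a / ψ ^ 11 ∧ b * τ ^ 5 / (ψ ^ 12) ^ 4 ≤ 256 * b / ψ ^ 11 ∧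
      c * s * (ψ ^ 3) ^ 7 ≤ 2 ^ 33 * c / ψ ^ 11 ∧ d * s / (ψ ^ 3) ^ 2 ≤ 64 * d / ψ ^ 11 := by
  have p2 := mul_le_mul_of_nonneg_left (pow_le_pow_left₀ h2.le h3 2) ha
  have p5 := mul_le_mul_of_nonneg_left (pow_le_pow_left₀ h2.le h3 5) hb
  refine ⟨?_, ?_, ?_, ?_⟩
  · refine (div_le_div_of_nonneg_right p2 (by positivity)).trans_eq ?_
    field_simp
    ring
  · refine (div_le_div_of_nonneg_right p5 (by positivity)).trans ?_
    rw [show b * (2 * ψ ^ 8) ^ 5 / (ψ ^ 12) ^ 4 = 32 * b * ψ ^ 3 / ψ ^ 11 by field_simp; ring]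
    refine div_le_div_of_nonneg_right ?_ (by positivity)
    linarith [mul_le_mul_of_nonneg_left (pow_le_pow_left₀ h0.le h1 3) hb]
  · rw [le_div_iff₀ (by positivity)]
    have := mul_le_mul (mul_le_mul_of_nonneg_left hs hc) (pow_le_pow_left₀ h0.le h1 32)
      (by positivity) (by positivity)
    linarith
  · rw [show d * s / (ψ ^ 3) ^ 2 = d * s * ψ ^ 5 / ψ ^ 11 by field_simp]
    refine div_le_div_of_nonneg_right ?_ (by positivity)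
    have := mul_le_mul (mul_le_mul_of_nonneg_left hs hd) (pow_le_pow_left₀ h0.le h1 5)
      (by positivity) (by positivity)
    linarith

theorem final_psi (S : Pre) (p : ℝ × ℝ) : S.φ p = Real.exp (S.F p / 12) ^ 3 ∧
    S.f p = Real.exp (S.F p / 12) ^ 12 ∧ S.mono 0 (1 / 6) p = Real.exp (S.F p / 12) ^ 2 := by
  simp only [Pre.φ, Pre.f, Pre.mono, ← Real.exp_nat_mul]
  refine ⟨congrArg _ ?_, congrArg _ ?_, congrArg _ ?_⟩ <;> push_cast <;> ring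

theorem final_W {q : ℕ} {e0 K1 K2 K T : ℝ} {S : Pre} (hT : 0 < T) (hK1 : 1 ≤ K1) (hK2 : 1 ≤ K2) :
    ∃ C : ℝ, ∀ p, 0 ≤ p.1 → Bas q e0 K T S p → Real.exp (S.F p / 12) ≤ 2 ∧
      S.WW e0 K1 T p ≤ C / Real.exp (S.F p / 12) ^ 11 ∧
      S.W2 e0 T p + S.W4 K2 T p ≤ C / Real.exp (S.F p / 12) ^ 11 := by
  have hl : 0 ≤ 1000 * lam2 e0 T / T ^ 5 := by
    unfold lam2
    positivity
  refine ⟨4 * (1000 * K1) + 256 * (1000 * lam2 e0 T / T ^ 5) + 2 ^ 33 * K1 + 64 * K2,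
    fun p hp b => ?_⟩
  obtain ⟨e1, e2, -⟩ := final_psi S p
  have h0 := Real.exp_pos (S.F p / 12)
  obtain ⟨ψ, hψ⟩ : ∃ ψ, ψ = Real.exp (S.F p / 12) := ⟨_, rfl⟩
  rw [← hψ] at e1 e2 h0 ⊢
  have h1 : ψ ≤ 2 := le_of_pow_le_pow_left₀ (n := 12) (by norm_num) zero_le_two
    (by linarith [b.f1])
  have h3 : T - p.1 ≤ 2 * ψ ^ 8 := le_of_pow_le_pow_left₀ (n := 3) (by norm_num) (by positivity)
    (b.low.trans_eq (by rw [e2]; ring))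
  obtain ⟨a1, a2, a3, a4⟩ := final_alg (s := 1 + p.1 / T) (a := 1000 * K1) (c := K1) (d := K2)
    h0 h1 b.τ0 h3
    (by linarith [(div_le_one hT).2 (show p.1 ≤ T by linarith [b.τ0])]) (by positivity) hl
    (by positivity) (by positivity)
  have e3 : S.W2 e0 T p = 1000 * lam2 e0 T / T ^ 5 * (T - p.1) ^ 5 / (ψ ^ 12) ^ 4 := by
    rw [Pre.W2, e2]
    ring
  have n1 : 0 ≤ 4 * (1000 * K1) / ψ ^ 11 := by positivity
  have n2 : 0 ≤ 2 ^ 33 * K1 / ψ ^ 11 := by positivity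
  have n3 : 0 ≤ 64 * K2 / ψ ^ 11 := by positivity
  rw [Pre.WW, e3, Pre.W1, Pre.W3, Pre.W4, e1, add_div, add_div, add_div]
  exact ⟨h1, by linarith, by linarith⟩

theorem final_R {q : ℕ} {e0 Ci M K1 K2 K T : ℝ} {S : Pre} (hT : 0 < T) (hK1 : 1 ≤ K1)
    (hK2 : 1 ≤ K2) (H : ∀ t1 ∈ Ico 0 T, Hyp q e0 Ci K T T t1 S)
    (hc : ∀ p ∈ Wd T, Cv q e0 M K1 K2 T S p) : ∃ C : ℝ, ∀ p ∈ Om T, |S.R q p| ≤ C := by
  obtain ⟨C, hC⟩ := final_W (q := q) (e0 := e0) (K := K) (S := S) hT hK1 hK2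
  have h0 := H 0 ⟨le_rfl, hT⟩
  have hS := h0.sol
  have hm := h0.dim.hq
  have hm0 : 0 < mm q := by linarith
  obtain ⟨C0, -, hC0⟩ := reg_bd' hS le_rfl hT
  have i0 : ∀ x ∈ Ioo 0 Real.pi, ((0 : ℝ), x) ∈ Rg 0 := fun x hx => ⟨⟨le_rfl, le_rfl⟩, hx⟩
  refine ⟨C0 + 20 * C ^ 2 * 4, fun p hp => ?_⟩
  have h := H p.1 ⟨hp.1.1.le, hp.1.2⟩
  have hp' : p ∈ Rg p.1 := ⟨⟨hp.1.1.le, le_rfl⟩, hp.2⟩
  obtain ⟨C1, -, hC1⟩ := reg_bd' hS hp.1.1.le hp.1.2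
  have m4 : ∀ r ∈ Rg p.1, 20 * C ^ 2 * S.mono 0 (1 / 6) r ≤ 20 * C ^ 2 * 4 := fun r hr => by
    rw [(final_psi S r).2.2]
    exact mul_le_mul_of_nonneg_left ((pow_le_pow_left₀ (Real.exp_pos _).le
      (hC r hr.1.1 (h.bas r hr)).1 2).trans_eq (by norm_num)) (by positivity)
  have rhs : ∀ r ∈ Rg p.1, ∀ x y : ℝ, 0 < x →
      0 ≤ (0 + mm q / 4 / S.h r ^ 2) * x + (0 + mm q / 4 / S.h r) * |y| :=
    fun r hr x y hQ => by
      have := (h.bas r hr).hpos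
      positivity
  have lo := mp1 hS (by linarith) hp.1.1.le hp.1.2 (fun r => -S.R q r - C0)
    ((sm_R hS).neg.sub (sm_const _))
    ⟨C1 - C0, fun r hr => by linarith [(abs_le.1 (hC1 r hr).2.2.2.1).1]⟩
    (fun x hx => by linarith [(abs_le.1 (hC0 _ (i0 x hx)).2.2.2.1).1]) 0
    (fun r hr r0 hQ => by
      have ho := rg_om hp.1.2 hr r0
      refine le_trans ?_ (rhs r hr _ _ hQ)
      rw [box_sub hS ho ((sm_R hS).neg.ca ho) ((sm_const _).ca ho), box_neg, box_const]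
      linarith [(box_R_bounds hS hm0 ho).1]) p hp'
  have sm := (sm_const (20 * C ^ 2)).mul (sm_mono hS 0 (1 / 6))
  have hi := mp1 hS (by linarith) hp.1.1.le hp.1.2
    (fun r => S.R q r + 20 * C ^ 2 * S.mono 0 (1 / 6) r - (C0 + 20 * C ^ 2 * 4))
    (((sm_R hS).add sm).sub (sm_const _))
    ⟨C1 - C0, fun r hr => by linarith [(abs_le.1 (hC1 r hr).2.2.2.1).2, m4 r hr]⟩
    (fun x hx => by
      linarith [(abs_le.1 (hC0 _ (i0 x hx)).2.2.2.1).2, m4 (0, x) ⟨⟨le_rfl, hp.1.1.le⟩, hx⟩]) 0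
    (fun r hr r0 hQ => by
      have ho := rg_om hp.1.2 hr r0
      refine le_trans ?_ (rhs r hr _ _ hQ)
      rw [box_sub hS ho (((sm_R hS).add sm).ca ho) ((sm_const _).ca ho),
        box_add hS ho ((sm_R hS).ca ho) (sm.ca ho), box_cmul, box_const, box_mono hS ho]
      obtain ⟨-, w1, w2⟩ := hC r hr.1.1 (h.bas r hr)
      obtain ⟨-, e2, e3⟩ := final_psi S r
      have c := hc r (om_sub_wd ho)
      have h1 := Real.exp_pos (S.F r / 12)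
      obtain ⟨ψ, hψ⟩ : ∃ ψ, ψ = Real.exp (S.F r / 12) := ⟨_, rfl⟩
      rw [← hψ] at e2 e3 h1 w1 w2
      have a1 := c.cσ.trans w1
      have a2 := c.ck.trans w1
      have a3 := sq_le_sq' (abs_le.1 (c.cR.trans w2)).1 (abs_le.1 (c.cR.trans w2)).2
      have a4 : |S.kt q r / (mm q + 2)| ≤ C / ψ ^ 11 := by
        rw [abs_div, abs_of_pos (by linarith : 0 < mm q + 2)]
        exact (div_le_self (abs_nonneg _) (by linarith)).trans a2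
      rw [Pre.σ'] at a1
      have a5 := sq_le_sq' (a := S.σ q r) (b := 2 * (C / ψ ^ 11))
        (by linarith [(abs_le.1 a1).1, (abs_le.1 a4).1])
        (by linarith [(abs_le.1 a1).2, (abs_le.1 a4).2])
      have a6 := sq_le_sq' (abs_le.1 a2).1 (abs_le.1 a2).2
      have a7 := div_le_self (a := 2 * S.R q r ^ 2) (by positivity) (by linarith : 1 ≤ mm q + 4)
      have a8 : 20 * C ^ 2 * (ψ ^ 2 * (-(0 * mm q / S.h r ^ 2) - 1 / 6 * mm q / (ψ ^ 12) ^ 2 -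
          (0 * S.Y r + 1 / 6 * S.X r) ^ 2)) = -(mm q / 6 * (20 * (C / ψ ^ 11) ^ 2)) -
            20 * C ^ 2 * ψ ^ 2 * (S.X r / 6) ^ 2 := by
        field_simp
        ring
      have a9 : 0 ≤ 20 * C ^ 2 * ψ ^ 2 * (S.X r / 6) ^ 2 := by positivity
      have a10 := le_mul_of_one_le_left (show 0 ≤ 20 * (C / ψ ^ 11) ^ 2 by positivity)
        (show 1 ≤ mm q / 6 by linarith)
      rw [e2, e3, a8]
      linarith [(box_R_bounds hS hm0 ho).2]) p hp'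
  have := mul_nonneg (show 0 ≤ 20 * C ^ 2 by positivity) (mono_pos S 0 (1 / 6) p).le
  exact abs_le.2 ⟨by linarith [sq_nonneg C], by linarith⟩

end Vale.Agent.P244
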