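import Vale.Agent.P244C.MP

open Set MeasureTheory Filter Topology
open scoped ContDiff

noncomputable section

namespace Vale.Agent.P244

section
variable {q : ℕ} {T t1 : ℝ} {S : Pre}

/-- maximum principle for `e * v - c` -/
theorem glob_mp (hS : IsSol q T S) (hq : 100 ≤ mm q) (h0 : 0 ≤ t1) (h1 : t1 < T)
    {v : ℝ × ℝ → ℝ} (hv : Sm T v) {e c K C : ℝ} (he : |e| = 1) (hK : 0 ≤ K)
    (hb : ∀ p ∈ Rg t1, |v p| ≤ C) (hi : ∀ x ∈ Ioo 0 Real.pi, |v (0, x)| ≤ c)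
    (hin : ∀ p ∈ Rg t1, 0 < p.1 → c < e * v p →
      e * S.box q v p ≤ (K + mm q / 4 / S.h p) * |S.Ds v p|) :
    ∀ p ∈ Rg t1, e * v p ≤ c := by
  have hle : ∀ y : ℝ, e * y ≤ |y| := fun y => by
    have := le_abs_self (e * y)
    rwa [abs_mul, he, one_mul] at this
  have hm : Sm T fun p => e * v p := (sm_const e).mul hv
  have key := mp1 hS hq h0 h1 (fun p => e * v p - c) (hm.sub (sm_const c))
    ⟨C - c, fun p hp => by linarith [hle (v p), hb p hp]⟩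
    (fun x hx => by linarith [hle (v (0, x)), hi x hx]) K (fun p hp hp0 hQ => by
      have hom := rg_om h1 hp hp0
      have hwd := rg_sub_wd h1 hp
      rw [box_sub hS hom (hm.ca hom) ((sm_const c).ca hom), box_const, box_cmul,
        Ds_sub (hm.xa hwd) ((sm_const c).xa hwd), Ds_const, Ds_cmul, sub_zero, sub_zero, abs_mul,
        he, one_mul]
      have h2 := hin p hp hp0 (by linarith)
      have h3 : 0 ≤ (K + mm q / 4 / S.h p ^ 2) * (e * v p - c) := by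
        have : 0 ≤ mm q := by linarith
        positivity
      linarith)
  intro p hp
  linarith [key p hp]

theorem glob_h (hS : IsSol q T S) (hq : 100 ≤ mm q) (h0 : 0 ≤ t1) (h1 : t1 < T)
    (hi : ∀ x ∈ Ioo 0 Real.pi, S.h (0, x) ≤ 1) : ∀ p ∈ Rg t1, S.h p ≤ 1 := by
  obtain ⟨C, -, hC⟩ := reg_bd' hS h0 h1
  have key := glob_mp hS hq h0 h1 (sm_h hS) (e := 1) (c := 1) (K := 0) (C := C) abs_one le_rfl
    (fun p hp => by
      rw [abs_of_pos (h_pos hS (rg_sub_wd h1 hp))]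
      exact (hC p hp).2.2.2.2.2.2.2.2.1)
    (fun x hx => by
      rw [abs_of_pos (h_pos hS (rg_sub_wd h1 (a := (0, x)) ⟨⟨le_rfl, h0⟩, hx⟩))]
      exact hi x hx)
    (fun p hp hp0 _ => by
      have hh := h_pos hS (rg_sub_wd h1 hp)
      have hm : 0 ≤ mm q := by linarith
      have hz : 0 ≤ S.z p := sq_nonneg _
      rw [box_h hS (rg_om h1 hp hp0)]
      have h2 : 0 ≤ (mm q + S.z p) / S.h p := by positivity
      have h3 : 0 ≤ (0 + mm q / 4 / S.h p) * |S.Ds S.h p| := by positivity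
      linarith)
  intro p hp
  simpa using key p hp

theorem glob_a (hS : IsSol q T S) (hq : 100 ≤ mm q) (h0 : 0 ≤ t1) (h1 : t1 < T)
    (hi : ∀ x ∈ Ioo 0 Real.pi, S.z (0, x) ≤ 1) {e : ℝ} (he : |e| = 1) :
    ∀ p ∈ Rg t1, e * S.a p ≤ 1 := by
  obtain ⟨C, hC1, hC⟩ := reg_bd hS h0 h1
  refine glob_mp hS hq h0 h1 (sm_a hS) (K := 2 * C) (C := C) he (by linarith)
    (fun p hp => (hC p hp).2.2.2.2.1) (fun x hx => (sq_le_one_iff_abs_le_one _).1 (hi x hx))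
    fun p hp hp0 ha => ?_
  have hwd := rg_sub_wd h1 hp
  have hh := h_pos hS hwd
  have hm : 0 ≤ mm q := by linarith
  have hz := (hC p hp).2.2.2.2.2.2.2.2
  have he2 : e ^ 2 = 1 := by rw [← sq_abs, he, one_pow]
  have hz1 : 1 ≤ S.z p := by
    have h2 : (e * S.a p) ^ 2 = S.z p := by rw [mul_pow, he2, one_mul]; rfl
    nlinarith
  have h3 : 2 * |S.a p| ≤ 3 + 2 * C * S.h p := by
    refine le_of_sq_le_sq ?_ (by positivity)
    have h4 : (2 * |S.a p|) ^ 2 = 4 * S.z p := by rw [mul_pow, sq_abs]; norm_num; rfl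
    have h5 : C * S.h p ^ 2 ≤ C ^ 2 * S.h p ^ 2 :=
      mul_le_mul_of_nonneg_right (by nlinarith) (sq_nonneg _)
    have h6 : 0 ≤ C * S.h p := by positivity
    rw [h4]
    nlinarith
  have h4 : 2 * |S.a p| / S.h p ≤ 2 * C + mm q / 4 / S.h p := by
    rw [div_le_iff₀ hh, add_mul, div_mul_cancel₀ _ hh.ne']
    linarith
  have h5 : (-2 * S.hX p ^ 2 + mm q * (1 - S.z p)) * (e * S.a p) / S.h p ^ 2 ≤ 0 := by
    refine div_nonpos_of_nonpos_of_nonneg (mul_nonpos_of_nonpos_of_nonneg ?_ (by linarith))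
      (sq_nonneg _)
    have h6 : mm q * (1 - S.z p) ≤ 0 := mul_nonpos_of_nonneg_of_nonpos hm (by linarith)
    nlinarith [sq_nonneg (S.hX p)]
  have h6 : -(e * (2 * (S.a p / S.h p) * S.Ds S.a p)) ≤ 2 * |S.a p| / S.h p * |S.Ds S.a p| := by
    refine (neg_le_abs _).trans (le_of_eq ?_)
    rw [abs_mul, he, one_mul, abs_mul, abs_mul, abs_div, abs_of_pos hh, abs_two]
    ring
  have h7 := mul_le_mul_of_nonneg_right h4 (abs_nonneg (S.Ds S.a p))
  rw [box_a hS (rg_om h1 hp hp0), Y_eq hS hwd]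
  have e1 : e * ((-2 * S.hX p ^ 2 + mm q * (1 - S.z p)) * S.a p / S.h p ^ 2 -
      2 * (S.a p / S.h p) * S.Ds S.a p) =
      (-2 * S.hX p ^ 2 + mm q * (1 - S.z p)) * (e * S.a p) / S.h p ^ 2 +
        -(e * (2 * (S.a p / S.h p) * S.Ds S.a p)) := by ring
  rw [e1]
  linarith

theorem glob_fs (hS : IsSol q T S) (hq : 100 ≤ mm q) (h0 : 0 ≤ t1) (h1 : t1 < T)
    (hi : ∀ x ∈ Ioo 0 Real.pi, S.fs (0, x) ^ 2 ≤ mm q) {e : ℝ} (he : |e| = 1) :
    ∀ p ∈ Rg t1, e * S.fs p ≤ √(mm q) := by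
  obtain ⟨C, hC1, hC⟩ := reg_bd hS h0 h1
  obtain ⟨C', -, hC'⟩ := reg_bd' hS h0 h1
  refine glob_mp hS hq h0 h1 (sm_fs hS) (K := 2 * C) (C := C') he (by linarith)
    (fun p hp => (hC' p hp).2.2.2.2.2.2.2.1) (fun x hx => Real.abs_le_sqrt (hi x hx))
    fun p hp hp0 ha => ?_
  have hwd := rg_sub_wd h1 hp
  have hh := h_pos hS hwd
  have hm : 0 ≤ mm q := by linarith
  have hX := (hC p hp).2.2.2.1
  have he2 : e ^ 2 = 1 := by rw [← sq_abs, he, one_pow]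
  have hs := Real.sqrt_nonneg (mm q)
  have hz1 : mm q ≤ S.fs p ^ 2 := by
    have h2 : (e * S.fs p) ^ 2 = S.fs p ^ 2 := by rw [mul_pow, he2, one_mul]
    have h3 := pow_le_pow_left₀ hs ha.le 2
    rwa [Real.sq_sqrt hm, h2] at h3
  have h5 : ((mm q - S.fs p ^ 2) / S.f p ^ 2 - q * S.Y p ^ 2) * (e * S.fs p) ≤ 0 := by
    refine mul_nonpos_of_nonpos_of_nonneg ?_ (by linarith)
    have h6 : (mm q - S.fs p ^ 2) / S.f p ^ 2 ≤ 0 :=
      div_nonpos_of_nonpos_of_nonneg (by linarith) (sq_nonneg _)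
    have h7 : 0 ≤ (q : ℝ) * S.Y p ^ 2 := by positivity
    linarith
  have h6 : -(e * (2 * S.X p * S.Ds S.fs p)) ≤ 2 * |S.X p| * |S.Ds S.fs p| := by
    refine (neg_le_abs _).trans (le_of_eq ?_)
    rw [abs_mul, he, one_mul, abs_mul, abs_mul, abs_two]
  have h4 : 2 * |S.X p| ≤ 2 * C + mm q / 4 / S.h p := by
    have : 0 ≤ mm q / 4 / S.h p := by positivity
    linarith
  have h7 := mul_le_mul_of_nonneg_right h4 (abs_nonneg (S.Ds S.fs p))
  rw [box_fs hS (rg_om h1 hp hp0)]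
  have e1 : e * (((mm q - S.fs p ^ 2) / S.f p ^ 2 - q * S.Y p ^ 2) * S.fs p -
      2 * S.X p * S.Ds S.fs p) =
      ((mm q - S.fs p ^ 2) / S.f p ^ 2 - q * S.Y p ^ 2) * (e * S.fs p) +
        -(e * (2 * S.X p * S.Ds S.fs p)) := by ring
  rw [e1]
  linarith

end

theorem glob {q : ℕ} {T t1 : ℝ} {S : Pre} (hS : IsSol q T S) (hq : 100 ≤ mm q) (h0 : 0 ≤ t1)
    (h1 : t1 < T) (hi : ∀ x ∈ Ioo 0 Real.pi, Glob q S (0, x)) : ∀ p ∈ Rg t1, Glob q S p := by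
  intro p hp
  have hn : |(-1 : ℝ)| = 1 := by simp
  refine ⟨glob_h hS hq h0 h1 (fun x hx => (hi x hx).h1) p hp, ?_, ?_⟩
  · have a1 := glob_a hS hq h0 h1 (fun x hx => (hi x hx).z1) abs_one p hp
    have a2 := glob_a hS hq h0 h1 (fun x hx => (hi x hx).z1) hn p hp
    exact (sq_le_one_iff_abs_le_one _).2 (abs_le.2 ⟨by linarith, by linarith⟩)
  · have a1 := glob_fs hS hq h0 h1 (fun x hx => (hi x hx).fs) abs_one p hp
    have a2 := glob_fs hS hq h0 h1 (fun x hx => (hi x hx).fs) hn p hp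
    have hm : 0 ≤ mm q := by linarith
    have a3 := sq_le_sq' (by linarith : -√(mm q) ≤ S.fs p) (by linarith : S.fs p ≤ √(mm q))
    rwa [Real.sq_sqrt hm] at a3

end Vale.Agent.P244
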