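import Vale.Agent.P244C.IdT

open Set MeasureTheory Filter Topology
open scoped ContDiff

noncomputable section

namespace Vale.Agent.P244

variable {q : ℕ} {T : ℝ} {S : Pre} {p : ℝ × ℝ}

/-! evolution of the curvature -/

theorem idc_ev {u v : ℝ × ℝ → ℝ} (hp : p ∈ Om T) (h : ∀ p ∈ Om T, u p = v p) :
    u =ᶠ[𝓝 p] v := by
  filter_upwards [isOpen_om.mem_nhds hp] with y hy using h y hy

theorem idc_Ds_ev {u v : ℝ × ℝ → ℝ} (h : u =ᶠ[𝓝 p] v) : S.Ds u p = S.Ds v p := by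
  apply Ds_congr
  have hc : Tendsto (fun x : ℝ => (p.1, x)) (𝓝 p.2) (𝓝 p) :=
    (continuous_const.prodMk continuous_id).tendsto' _ _ rfl
  exact hc.eventually h

theorem idc_add {u v : ℝ × ℝ → ℝ} (hu : CA u p) (hv : CA v p) : CA (fun p => u p + v p) p :=
  ContDiffAt.add hu hv
theorem idc_sub {u v : ℝ × ℝ → ℝ} (hu : CA u p) (hv : CA v p) : CA (fun p => u p - v p) p :=
  ContDiffAt.sub hu hv
theorem idc_mul {u v : ℝ × ℝ → ℝ} (hu : CA u p) (hv : CA v p) : CA (fun p => u p * v p) p :=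
  ContDiffAt.mul hu hv
theorem idc_cmul {u : ℝ × ℝ → ℝ} (c : ℝ) (hu : CA u p) : CA (fun p => c * u p) p :=
  ContDiffAt.mul contDiffAt_const hu
theorem idc_neg {u : ℝ × ℝ → ℝ} (hu : CA u p) : CA (fun p => -u p) p :=
  ContDiffAt.neg hu
theorem idc_sq {u : ℝ × ℝ → ℝ} (hu : CA u p) : CA (fun p => u p ^ 2) p :=
  ContDiffAt.pow hu 2

theorem idc_Dt_sq {u : ℝ × ℝ → ℝ} (hu : CA u p) :
    S.Dt (fun p => u p ^ 2) p = 2 * u p * S.Dt u p := by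
  have h : (fun p => u p ^ 2) = fun p => u p * u p := by
    funext y; ring
  rw [h, Dt_mul hu hu]; ring

theorem idc_Dt_X (hS : IsSol q T S) (hp : p ∈ Om T) :
    S.Dt S.X p = -S.Ds (S.ρ1 q) p + S.ρ0 q p * S.X p := by
  have h1 := Dt_Ds hS hp ((sm_F hS).ca hp)
  have h2 : S.Ds (S.Dt S.F) p = S.Ds (fun p => -S.ρ1 q p) p :=
    idc_Ds_ev (idc_ev hp hS.eqF)
  rw [h2, Ds_neg] at h1
  exact h1

theorem idc_Dt_Y (hS : IsSol q T S) (hp : p ∈ Om T) :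
    S.Dt S.Y p = -S.Ds (S.ρ2 q) p + S.ρ0 q p * S.Y p := by
  have h1 := Dt_Ds hS hp ((sm_G hS).ca hp)
  have h2 : S.Ds (S.Dt S.G) p = S.Ds (fun p => -S.ρ2 q p) p :=
    idc_Ds_ev (idc_ev hp hS.eqG)
  rw [h2, Ds_neg] at h1
  exact h1

/-- the commutator with the second derivative -/
theorem idc_Dt_Dss (hS : IsSol q T S) (hp : p ∈ Om T) {v : ℝ × ℝ → ℝ}
    (hv : ∀ p ∈ Om T, CA v p) :
    S.Dt (S.Ds (S.Ds v)) p = S.Ds (S.Ds (S.Dt v)) p + S.Ds (S.ρ0 q) p * S.Ds v p +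
      2 * S.ρ0 q p * S.Ds (S.Ds v) p := by
  have h1 := Dt_Ds hS hp ((hv p hp).Ds hS hp)
  have h2 : S.Ds (S.Dt (S.Ds v)) p =
      S.Ds (fun p => S.Ds (S.Dt v) p + S.ρ0 q p * S.Ds v p) p :=
    idc_Ds_ev (idc_ev hp fun y hy => Dt_Ds hS hy (hv y hy))
  have a1 : CA (S.Ds (S.Dt v)) p := ((hv p hp).Dt hS hp).Ds hS hp
  have a2 : CA (S.ρ0 q) p := (sm_ρ0 hS).ca hp
  have a3 : CA (S.Ds v) p := (hv p hp).Ds hS hp
  rw [h2, Ds_add a1.xa (idc_mul a2 a3).xa, Ds_mul a2.xa a3.xa] at h1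
  rw [h1]; ring

theorem idc_box_Dt (hS : IsSol q T S) (hp : p ∈ Om T) {v : ℝ × ℝ → ℝ}
    (hv : ∀ p ∈ Om T, CA v p) :
    S.box q (S.Dt v) p = S.Dt (S.box q v) p + 2 * S.ρ0 q p * S.Ds (S.Ds v) p +
      (4 * S.X p * S.ρ1 q p + 2 * q * S.Y p * S.ρ2 q p) * S.Ds v p := by
  have a0 : CA v p := hv p hp
  have a1 : CA (S.Dt v) p := a0.Dt hS hp
  have a3 : CA (S.Ds v) p := a0.Ds hS hp
  have a4 : CA (S.Ds (S.Ds v)) p := a3.Ds hS hp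
  have aX : CA S.X p := (sm_X hS).ca hp
  have aY : CA S.Y p := (sm_Y hS).ca hp
  have aH : CA (fun p => 2 * S.X p + q * S.Y p) p := idc_add (idc_cmul 2 aX) (idc_cmul q aY)
  have e : S.box q v = fun p => S.Dt v p -
      (S.Ds (S.Ds v) p + (2 * S.X p + q * S.Y p) * S.Ds v p) := rfl
  have h1 : S.Dt (S.box q v) p = S.Dt (S.Dt v) p - (S.Dt (S.Ds (S.Ds v)) p +
      ((2 * S.X p + q * S.Y p) * S.Dt (S.Ds v) p +
        S.Ds v p * (2 * S.Dt S.X p + q * S.Dt S.Y p))) := by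
    rw [e, Dt_sub a1 (idc_add a4 (idc_mul aH a3)), Dt_add a4 (idc_mul aH a3), Dt_mul aH a3,
      Dt_add (idc_cmul 2 aX) (idc_cmul q aY), Dt_cmul, Dt_cmul]
  rw [h1, idc_Dt_Dss hS hp hv, Dt_Ds hS hp a0, idc_Dt_X hS hp, idc_Dt_Y hS hp]
  have hb := bianchi hS (om_sub_wd hp)
  have e2 : S.box q (S.Dt v) p = S.Dt (S.Dt v) p -
      (S.Ds (S.Ds (S.Dt v)) p + (2 * S.X p + q * S.Y p) * S.Ds (S.Dt v) p) := rfl
  rw [e2]
  linear_combination (-S.Ds v p) * hb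

theorem box_ρ0 (hS : IsSol q T S) (hp : p ∈ Om T) :
    S.box q (S.ρ0 q) p = 4 * S.Ds S.X p * (S.ρ0 q p - S.ρ1 q p) +
      2 * q * S.Ds S.Y p * (S.ρ0 q p - S.ρ2 q p) + 2 * S.ρ0 q p ^ 2 := by
  have hw := om_sub_wd hp
  have aX : CA S.X p := (sm_X hS).ca hp
  have aY : CA S.Y p := (sm_Y hS).ca hp
  have aXs : CA (S.Ds S.X) p := aX.Ds hS hp
  have aYs : CA (S.Ds S.Y) p := aY.Ds hS hp
  have a0 : CA (S.ρ0 q) p := (sm_ρ0 hS).ca hp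
  have a1 : CA (S.ρ1 q) p := (sm_ρ1 hS).ca hp
  have a2 : CA (S.ρ2 q) p := (sm_ρ2 hS).ca hp
  have a0s : CA (S.Ds (S.ρ0 q)) p := a0.Ds hS hp
  have a1s : CA (S.Ds (S.ρ1 q)) p := a1.Ds hS hp
  have a2s : CA (S.Ds (S.ρ2 q)) p := a2.Ds hS hp
  have e : S.ρ0 q = fun p =>
      -2 * (S.Ds S.X p + S.X p ^ 2) - q * (S.Ds S.Y p + S.Y p ^ 2) := rfl
  have e' : S.ρ0 q p = -2 * (S.Ds S.X p + S.X p ^ 2) - q * (S.Ds S.Y p + S.Y p ^ 2) := rfl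
  have h1 : S.Dt (S.ρ0 q) p = -2 * (S.Dt (S.Ds S.X) p + 2 * S.X p * S.Dt S.X p) -
      q * (S.Dt (S.Ds S.Y) p + 2 * S.Y p * S.Dt S.Y p) := by
    rw [e, Dt_sub (idc_cmul _ (idc_add aXs (idc_sq aX))) (idc_cmul _ (idc_add aYs (idc_sq aY))),
      Dt_cmul, Dt_cmul, Dt_add aXs (idc_sq aX), Dt_add aYs (idc_sq aY), idc_Dt_sq aX,
      idc_Dt_sq aY]
  have hX : S.Dt (S.Ds S.X) p = S.Ds (S.Ds (S.Dt S.F)) p + S.Ds (S.ρ0 q) p * S.X p +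
      2 * S.ρ0 q p * S.Ds S.X p := idc_Dt_Dss hS hp fun y hy => (sm_F hS).ca hy
  have hY : S.Dt (S.Ds S.Y) p = S.Ds (S.Ds (S.Dt S.G)) p + S.Ds (S.ρ0 q) p * S.Y p +
      2 * S.ρ0 q p * S.Ds S.Y p := idc_Dt_Dss hS hp fun y hy => (sm_G hS).ca hy
  have hF : S.Ds (S.Ds (S.Dt S.F)) p = -S.Ds (S.Ds (S.ρ1 q)) p := by
    rw [← Ds_neg]
    refine idc_Ds_ev (idc_ev hp fun y hy => ?_)
    rw [← Ds_neg]
    exact idc_Ds_ev (idc_ev hy hS.eqF)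
  have hG : S.Ds (S.Ds (S.Dt S.G)) p = -S.Ds (S.Ds (S.ρ2 q)) p := by
    rw [← Ds_neg]
    refine idc_Ds_ev (idc_ev hp fun y hy => ?_)
    rw [← Ds_neg]
    exact idc_Ds_ev (idc_ev hy hS.eqG)
  have hb : S.Ds (fun p => 2 * S.Ds (S.ρ1 q) p + q * S.Ds (S.ρ2 q) p) p =
      S.Ds (fun p => S.Ds (S.ρ0 q) p + 4 * S.X p * (S.ρ0 q p - S.ρ1 q p) +
        2 * q * S.Y p * (S.ρ0 q p - S.ρ2 q p)) p :=
    Ds_congr_wd hw fun y hy => bianchi hS hy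
  have b1 : CA (fun p => 4 * S.X p * (S.ρ0 q p - S.ρ1 q p)) p :=
    idc_mul (idc_cmul 4 aX) (idc_sub a0 a1)
  have b2 : CA (fun p => 2 * q * S.Y p * (S.ρ0 q p - S.ρ2 q p)) p :=
    idc_mul (idc_cmul (2 * q) aY) (idc_sub a0 a2)
  rw [Ds_add (idc_cmul 2 a1s).xa (idc_cmul q a2s).xa, Ds_cmul, Ds_cmul,
    Ds_add (idc_add a0s b1).xa b2.xa, Ds_add a0s.xa b1.xa,
    Ds_mul (idc_cmul 4 aX).xa (idc_sub a0 a1).xa,
    Ds_mul (idc_cmul (2 * q) aY).xa (idc_sub a0 a2).xa, Ds_sub a0.xa a1.xa, Ds_sub a0.xa a2.xa,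
    Ds_cmul, Ds_cmul] at hb
  have e2 : S.box q (S.ρ0 q) p = S.Dt (S.ρ0 q) p -
      (S.Ds (S.Ds (S.ρ0 q)) p + (2 * S.X p + q * S.Y p) * S.Ds (S.ρ0 q) p) := rfl
  rw [e2, h1, hX, hY, hF, hG, idc_Dt_X hS hp, idc_Dt_Y hS hp]
  linear_combination hb - 2 * S.ρ0 q p * e'

theorem box_ρ1 (hS : IsSol q T S) (hp : p ∈ Om T) :
    S.box q (S.ρ1 q) p = 2 * S.ρ1 q p * (mm q / S.f p ^ 2) - 2 * S.ρ0 q p * S.Ds S.X p -
      (4 * S.X p * S.ρ1 q p + 2 * q * S.Y p * S.ρ2 q p) * S.X p := by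
  have h1 := idc_box_Dt hS hp fun y hy => (sm_F hS).ca hy
  have h2 : S.box q (S.Dt S.F) p = -S.box q (S.ρ1 q) p := by
    rw [← box_neg]
    exact box_congr (idc_ev hp hS.eqF)
  have hf : ∀ y, Real.exp (-2 * S.F y) = 1 / S.f y ^ 2 := by
    intro y
    rw [Pre.f, ← Real.exp_nat_mul, one_div, ← Real.exp_neg]
    congr 1; push_cast; ring
  have h3 : S.Dt (S.box q S.F) p = S.Dt (fun p => -mm q * Real.exp (-2 * S.F p)) p := by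
    refine Dt_congr (idc_ev hp fun y hy => ?_)
    rw [box_F hS hy, hf]; ring
  have hd : HasDerivAt (fun y => Real.exp (-2 * y)) (Real.exp (-2 * S.F p) * (-2 * 1)) (S.F p) :=
    ((hasDerivAt_id (S.F p)).const_mul (-2)).exp
  rw [Dt_cmul, Dt_comp ((sm_F hS).ca hp) hd, hS.eqF p hp, hf] at h3
  rw [h2, h3] at h1
  have eX : S.Ds S.F = S.X := rfl
  rw [eX] at h1
  linear_combination -h1

theorem box_ρ2 (hS : IsSol q T S) (hp : p ∈ Om T) :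
    S.box q (S.ρ2 q) p = 2 * S.ρ2 q p * (mm q / S.h p ^ 2) - 2 * S.ρ0 q p * S.Ds S.Y p -
      (4 * S.X p * S.ρ1 q p + 2 * q * S.Y p * S.ρ2 q p) * S.Y p := by
  have h1 := idc_box_Dt hS hp fun y hy => (sm_G hS).ca hy
  have h2 : S.box q (S.Dt S.G) p = -S.box q (S.ρ2 q) p := by
    rw [← box_neg]
    exact box_congr (idc_ev hp hS.eqG)
  have hf : ∀ y ∈ Om T, Real.exp (-2 * S.G y) = 1 / S.h y ^ 2 := by
    intro y hy
    have h0 := h_pos hS (om_sub_wd hy)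
    have : Real.exp (-2 * S.G y) = (Real.exp (S.G y) ^ 2)⁻¹ := by
      rw [← Real.exp_nat_mul, ← Real.exp_neg]
      congr 1; push_cast; ring
    rw [this, Pre.G, Real.exp_log h0, one_div]
  have h3 : S.Dt (S.box q S.G) p = S.Dt (fun p => -mm q * Real.exp (-2 * S.G p)) p := by
    refine Dt_congr (idc_ev hp fun y hy => ?_)
    rw [box_G hS hy, hf y hy]; ring
  have hd : HasDerivAt (fun y => Real.exp (-2 * y)) (Real.exp (-2 * S.G p) * (-2 * 1)) (S.G p) :=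
    ((hasDerivAt_id (S.G p)).const_mul (-2)).exp
  rw [Dt_cmul, Dt_comp ((sm_G hS).ca hp) hd, hS.eqG p hp, hf p hp] at h3
  rw [h2, h3] at h1
  have eY : S.Ds S.G = S.Y := rfl
  rw [eY] at h1
  linear_combination -h1

theorem box_σ (hS : IsSol q T S) (hp : p ∈ Om T) :
    S.box q (S.σ q) p = S.σ q p * (2 * mm q / S.f p ^ 2 + 2 * S.ρ2 q p -
      4 * S.X p * (S.X p - S.Y p)) - 2 * S.kt q p * S.uss p := by
  have hw := om_sub_wd hp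
  have e : S.σ q = fun p => S.ρ1 q p - S.ρ2 q p := rfl
  rw [e, box_sub hS hp ((sm_ρ1 hS).ca hp) ((sm_ρ2 hS).ca hp), box_ρ1 hS hp, box_ρ2 hS hp]
  have h1 := ρ1_eq hS hw
  have h2 := ρ2_eq hS hw
  simp only [Pre.kt, Pre.uss]
  linear_combination (-2 * S.ρ2 q p) * h1 + (2 * S.ρ2 q p) * h2

theorem idc_Pi (hS : IsSol q T S) (hw : p ∈ Wd T) :
    S.Pi q p = 4 * S.X p ^ 2 + 4 * S.X p * S.Y p + 4 * q * S.Y p ^ 2 -
      2 * (mm q / S.h p ^ 2) := by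
  have h0 := (h_pos hS hw).ne'
  rw [Y_eq hS hw]
  simp only [Pre.Pi, Pre.hX, Pre.z]
  field_simp

theorem box_kt (hS : IsSol q T S) (hp : p ∈ Om T) :
    S.box q (S.kt q) p =
      -S.Pi q p * S.kt q p + 4 * S.σ q p * (S.X p * S.Y p - S.Ds S.X p) := by
  have hw := om_sub_wd hp
  have e : S.kt q = fun p => S.ρ0 q p - S.ρ2 q p := rfl
  rw [e, box_sub hS hp ((sm_ρ0 hS).ca hp) ((sm_ρ2 hS).ca hp), box_ρ0 hS hp, box_ρ2 hS hp,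
    idc_Pi hS hw]
  have h2 := ρ2_eq hS hw
  have h0 : S.ρ0 q p = -2 * (S.Ds S.X p + S.X p ^ 2) - q * (S.Ds S.Y p + S.Y p ^ 2) := rfl
  simp only [Pre.σ]
  linear_combination (2 * S.ρ0 q p) * h2 + 2 * (S.ρ0 q p - S.ρ2 q p) * h0

theorem idc_box_R (hS : IsSol q T S) (hp : p ∈ Om T) :
    S.box q (S.R q) p = 2 * (S.ρ0 q p ^ 2 + 2 * S.ρ1 q p ^ 2 + q * S.ρ2 q p ^ 2) := by
  have hw := om_sub_wd hp
  have a0 : CA (S.ρ0 q) p := (sm_ρ0 hS).ca hp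
  have a1 : CA (S.ρ1 q) p := (sm_ρ1 hS).ca hp
  have a2 : CA (S.ρ2 q) p := (sm_ρ2 hS).ca hp
  have e : S.R q = fun p => S.ρ0 q p + 2 * S.ρ1 q p + q * S.ρ2 q p := rfl
  rw [e, box_add hS hp (idc_add a0 (idc_cmul 2 a1)) (idc_cmul q a2),
    box_add hS hp a0 (idc_cmul 2 a1), box_cmul, box_cmul, box_ρ0 hS hp, box_ρ1 hS hp,
    box_ρ2 hS hp]
  have h1 := ρ1_eq hS hw
  have h2 := ρ2_eq hS hw
  linear_combination (-4 * S.ρ1 q p) * h1 - (2 * q * S.ρ2 q p) * h2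

theorem box_R (hS : IsSol q T S) (hq : 0 < mm q) (hp : p ∈ Om T) :
    S.box q (S.R q) p = 2 * ((S.R q p ^ 2 - (S.kt q p + 2 * S.σ q p) ^ 2) / (mm q + 4) +
      S.kt q p ^ 2 + 2 * S.σ q p ^ 2) := by
  rw [idc_box_R hS hp]
  have h4 : mm q + 4 ≠ 0 := by positivity
  have hq' : (q : ℝ) = mm q + 1 := by simp [mm]
  simp only [Pre.R, Pre.kt, Pre.σ]
  rw [hq']
  field_simp
  ring

theorem box_R_bounds (hS : IsSol q T S) (hq : 0 < mm q) (hp : p ∈ Om T) :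
    0 ≤ S.box q (S.R q) p ∧ S.box q (S.R q) p ≤
      2 * S.R q p ^ 2 / (mm q + 4) + 2 * S.kt q p ^ 2 + 4 * S.σ q p ^ 2 := by
  constructor
  · rw [idc_box_R hS hp]; positivity
  · rw [box_R hS hq hp, sub_div]
    have : 0 ≤ (S.kt q p + 2 * S.σ q p) ^ 2 / (mm q + 4) := by positivity
    have e : 2 * S.R q p ^ 2 / (mm q + 4) = 2 * (S.R q p ^ 2 / (mm q + 4)) := by ring
    rw [e]; linarith

theorem box_σ' (hS : IsSol q T S) (hq : 0 < mm q) (hp : p ∈ Om T) :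
    S.box q (S.σ' q) p =
      (2 * mm q / S.f p ^ 2 + 2 * S.ρ2 q p - 4 * S.X p * (S.X p - S.Y p) -
          4 * (S.X p * S.Y p - S.Ds S.X p) / (mm q + 2)) * S.σ q p +
        (-2 * S.Ds S.X p - 2 * S.ρ2 q p - 4 * S.X p * S.Y p +
          (4 * S.X p ^ 2 + 4 * S.X p * S.Y p) / (mm q + 2) +
          2 * q * mm q * (1 - S.z p) / ((mm q + 2) * S.h p ^ 2)) * S.kt q p := by
  have hw := om_sub_wd hp
  have e : S.σ' q = fun p => S.σ q p - (mm q + 2)⁻¹ * S.kt q p := by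
    funext y; simp only [Pre.σ']; ring
  rw [e, box_sub hS hp ((sm_σ hS).ca hp) (idc_cmul _ ((sm_kt hS).ca hp)), box_cmul,
    box_σ hS hp, box_kt hS hp, idc_Pi hS hw]
  have h2 := ρ2_eq hS hw
  have h0 := (h_pos hS hw).ne'
  have h4 : mm q + 2 ≠ 0 := by positivity
  have hq' : (q : ℝ) = mm q + 1 := by simp [mm]
  have hz : 2 * q * mm q * (1 - S.z p) / ((mm q + 2) * S.h p ^ 2) =
      2 * q * (mm q + 2)⁻¹ * (mm q / S.h p ^ 2 - mm q * S.Y p ^ 2) := by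
    rw [Y_eq hS hw]
    simp only [Pre.z]
    field_simp
  have hi : (mm q + 2) * (mm q + 2)⁻¹ = 1 := mul_inv_cancel₀ h4
  rw [hz]
  simp only [Pre.uss, div_eq_mul_inv] at h2 ⊢
  rw [hq'] at h2 ⊢
  linear_combination (2 * S.kt q p) * h2 +
    (S.kt q p * (2 * (mm q + 1) * S.Y p ^ 2 - 2 * (mm q * (S.h p ^ 2)⁻¹))) * hi

theorem box_y2 (hS : IsSol q T S) (hp : p ∈ Om T) :
    S.h p ^ 2 * S.box q (S.y2 q) p =
      (2 * mm q * S.EE p + 2 * S.h p ^ 2 * S.ρ2 q p - 4 * S.hX p * S.y1 p - 2 * mm q +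
          4 * S.z p) * S.y2 q p -
        2 * (S.h p ^ 2 * S.kt q p) * (S.h p ^ 2 * S.uss p) -
        4 * S.a p * (S.h p * S.Ds (S.y2 q) p) := by
  have hw := om_sub_wd hp
  have h0 := (h_pos hS hw).ne'
  have ah : CA S.h p := (sm_h hS).ca hp
  have aσ : CA (S.σ q) p := (sm_σ hS).ca hp
  have e : S.y2 q = fun p => S.h p ^ 2 * S.σ q p := rfl
  have ea : S.Ds S.h = S.a := rfl
  have hh : S.h p * S.box q S.h p = -(mm q + S.z p) := by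
    rw [box_h hS hp]; field_simp
  rw [e, box_mul hS hp (idc_sq ah) aσ, box_sq hS hp ah, Ds_mul (idc_sq ah).xa aσ.xa,
    Ds_sq ah.xa, box_σ hS hp, ea]
  simp only [Pre.EE, Pre.hX, Pre.y1, Pre.z] at hh ⊢
  linear_combination (2 * S.h p ^ 2 * S.σ q p) * hh

end Vale.Agent.P244
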