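import Vale.Agent.P244C.Rules

open Set MeasureTheory Filter Topology
open scoped ContDiff

noncomputable section

namespace Vale.Agent.P244

variable {q : ℕ} {T : ℝ} {S : Pre} {p : ℝ × ℝ}

/-! identities on a time slice -/

theorem IdS_l (hS : IsSol q T S) (hp : p ∈ Wd T) : S.ℓ p.1 ≠ 0 := (hS.posℓ _ hp.1).ne'

theorem IdS_d (hS : IsSol q T S) (hp : p ∈ Wd T) {u : ℝ × ℝ → ℝ} (hu : Sm T u) :
    HasDerivAt (fun x => u (p.1, x)) (S.ℓ p.1 * S.Ds u p) p.2 :=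
  dx_eq_Ds (u := u) hS hp.1 ▸ (hu.xa hp).hasDerivAt

theorem IdS_D (hS : IsSol q T S) (hp : p ∈ Wd T) {u : ℝ × ℝ → ℝ} {d c : ℝ}
    (h : HasDerivAt (fun x => u (p.1, x)) d p.2) (hc : d = S.ℓ p.1 * c) : S.Ds u p = c := by
  rw [Pre.Ds, dx, h.deriv, hc, mul_div_cancel_left₀ _ (IdS_l hS hp)]

theorem IdS_dF (hS : IsSol q T S) (hp : p ∈ Wd T) :
    HasDerivAt (fun x => S.F (p.1, x)) (S.ℓ p.1 * S.X p) p.2 := IdS_d hS hp (sm_F hS)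

theorem IdS_dG (hS : IsSol q T S) (hp : p ∈ Wd T) :
    HasDerivAt (fun x => S.G (p.1, x)) (S.ℓ p.1 * S.Y p) p.2 := IdS_d hS hp (sm_G hS)

theorem IdS_dh (hS : IsSol q T S) (hp : p ∈ Wd T) :
    HasDerivAt (fun x => S.h (p.1, x)) (S.ℓ p.1 * S.a p) p.2 := IdS_d hS hp (sm_h hS)

theorem IdS_df (hS : IsSol q T S) (hp : p ∈ Wd T) :
    HasDerivAt (fun x => S.f (p.1, x)) (S.f p * (S.ℓ p.1 * S.X p)) p.2 := (IdS_dF hS hp).exp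

theorem IdS_exp (S : Pre) (p : ℝ × ℝ) : Real.exp (-2 * S.F p) = 1 / S.f p ^ 2 := by
  rw [Pre.f, ← Real.exp_nat_mul, one_div, ← Real.exp_neg]
  congr 1
  push_cast
  ring

theorem Y_eq (hS : IsSol q T S) (hp : p ∈ Wd T) : S.Y p = S.a p / S.h p := 
  IdS_D (u := S.G) hS hp ((IdS_dh hS hp).log (h_pos hS hp).ne') (mul_div_assoc _ _ _)

theorem IdS_a (hS : IsSol q T S) (hp : p ∈ Wd T) : S.a p = S.h p * S.Y p := by
  rw [Y_eq hS hp, mul_div_cancel₀ _ (h_pos hS hp).ne']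

theorem Ds_f (hS : IsSol q T S) (hp : p ∈ Wd T) : S.Ds S.f p = S.fs p := 
  IdS_D hS hp (IdS_df hS hp) (by rw [Pre.fs]; ring)
theorem Ds_Y (hS : IsSol q T S) (hp : p ∈ Wd T) :
    S.Ds S.Y p = S.Ds S.a p / S.h p - S.Y p ^ 2 := by
  have h0 := (h_pos hS hp).ne'
  rw [Ds_congr_wd (v := fun p => S.a p / S.h p) hp fun _ => Y_eq hS]
  refine IdS_D hS hp ((IdS_d hS hp (sm_a hS)).div (IdS_dh hS hp) h0) ?_
  rw [Y_eq hS hp]
  field_simp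
theorem Ds_mono (hS : IsSol q T S) (hp : p ∈ Wd T) (γ δ : ℝ) :
    S.Ds (S.mono γ δ) p = S.mono γ δ p * (γ * S.Y p + δ * S.X p) := 
  IdS_D hS hp (((IdS_dG hS hp).const_mul γ).add ((IdS_dF hS hp).const_mul δ)).exp (by
    simp only [Pre.mono, Pi.add_apply]
    ring)
theorem ρ1_eq (hS : IsSol q T S) (hp : p ∈ Wd T) :
    S.ρ1 q p = mm q / S.f p ^ 2 - S.Ds S.X p - 2 * S.X p ^ 2 - q * S.X p * S.Y p := by
  rw [Pre.ρ1, IdS_exp, Pre.lap, Pre.H, mm]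
  simp only [Pre.X]
  ring
theorem ρ2_eq (hS : IsSol q T S) (hp : p ∈ Wd T) :
    S.ρ2 q p = mm q / S.h p ^ 2 - S.Ds S.Y p - 2 * S.X p * S.Y p - q * S.Y p ^ 2 := by
  rw [Pre.ρ2, Pre.lap, Pre.H, mm]
  simp only [Pre.Y]
  ring
theorem ρ2_tr (hq : 0 < mm q) : S.ρ2 q p = (S.R q p - 2 * S.σ q p - S.kt q p) / (mm q + 4) := by
  rw [eq_div_iff (by linarith), Pre.R, Pre.σ, Pre.kt, mm]
  ring
theorem EE_eq (hS : IsSol q T S) (hp : p ∈ Wd T) : S.EE p = Real.exp (-2 * S.u p) := by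
  rw [Pre.EE, Pre.u, Pre.G, mul_sub, sub_eq_add_neg, Real.exp_add, IdS_exp, neg_mul, neg_neg,
    mul_comm (2 : ℝ), Real.exp_mul, Real.exp_log (h_pos hS hp), Real.rpow_two]
  ring
theorem y1_eq (hS : IsSol q T S) (hp : p ∈ Wd T) : S.y1 p = S.hX p - S.a p := by
  rw [Pre.y1, Pre.hX, IdS_a hS hp]
  ring
theorem hXa_eq (hS : IsSol q T S) (hp : p ∈ Wd T) : S.hX p * S.a p = S.EE p * S.J p := by
  have h0 := (f_pos S p).ne'
  rw [Pre.hX, Pre.EE, Pre.J, IdS_a hS hp]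
  field_simp
theorem hX_sq (S : Pre) (p : ℝ × ℝ) : S.hX p ^ 2 = S.EE p * S.fs p ^ 2 := by
  have h0 := (f_pos S p).ne'
  rw [Pre.hX, Pre.EE, Pre.fs]
  field_simp
theorem Ds_u (hS : IsSol q T S) (hp : p ∈ Wd T) : S.Ds S.u p = S.X p - S.Y p := 
  IdS_D hS hp ((IdS_dF hS hp).sub (IdS_dG hS hp)) (mul_sub _ _ _).symm
/-- the Hamiltonian constraint -/
theorem constraint (hS : IsSol q T S) (hp : p ∈ Wd T) :
    (2 * S.ρ1 q p + q * S.ρ2 q p - S.ρ0 q p) * S.h p ^ 2 =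
      2 * mm q * S.EE p - 2 * S.hX p ^ 2 - 4 * q * S.hX p * S.a p + q * mm q * (1 - S.z p) := by
  have h0 := (f_pos S p).ne'
  have h1 := (h_pos hS hp).ne'
  rw [ρ1_eq hS hp, ρ2_eq hS hp, Pre.ρ0, Pre.EE, Pre.hX, Pre.z, IdS_a hS hp, mm]
  field_simp
  ring
theorem constraint' (hS : IsSol q T S) (hq : 0 < mm q) (hp : p ∈ Wd T) :
    (mm q + 2) * (mm q + 3) * (z0 q - S.z p) =
      (2 * S.ρ1 q p + q * S.ρ2 q p - S.ρ0 q p) * S.h p ^ 2 + 2 * mm q * (1 - S.EE p) +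
        (4 + 4 * q) * S.a p * S.y1 p + 2 * S.y1 p ^ 2 := by
  have h0 : (mm q + 2) * z0 q = mm q := by
    rw [z0]
    exact mul_div_cancel₀ _ (by linarith)
  have h1 : (q : ℝ) = mm q + 1 := by rw [mm]; ring
  rw [constraint hS hp, y1_eq hS hp, Pre.z, h1]
  linear_combination (mm q + 3) * h0
theorem flux (hS : IsSol q T S) (hq : 1 ≤ q) (hp : p ∈ Wd T) :
    S.Ds (fun p => S.h p ^ q * (S.f p * S.fs p)) p =
      S.h p ^ q * (mm q - S.f p ^ 2 * S.ρ1 q p) := by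
  have h0 := (f_pos S p).ne'
  obtain ⟨n, rfl⟩ : ∃ n, q = n + 1 := ⟨q - 1, by omega⟩
  refine IdS_D hS hp (((IdS_dh hS hp).pow (n + 1)).mul ((IdS_df hS hp).mul
    ((IdS_df hS hp).mul (IdS_d hS hp (sm_X hS))))) ?_
  rw [ρ1_eq hS hp, IdS_a hS hp]
  simp only [Pi.pow_apply, Pre.fs, Nat.add_sub_cancel]
  push_cast
  field_simp
  ring

theorem IdS_Θ (hS : IsSol q T S) (hp : p ∈ Wd T) :
    S.Ds S.Θ p = 2 * (S.f p ^ 2 * S.X p) - 2 * (S.h p ^ 2 * S.Y p) := by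
  refine IdS_D hS hp (((IdS_df hS hp).pow 2).sub ((IdS_dh hS hp).pow 2)) ?_
  rw [IdS_a hS hp]
  norm_num
  ring

theorem Ds_Θ (hS : IsSol q T S) (hp : p ∈ Wd T) :
    S.h p * S.Ds S.Θ p = 2 * S.f p ^ 2 * S.y1 p + 2 * S.a p * S.Θ p := by
  rw [IdS_Θ hS hp, Pre.y1, Pre.Θ, IdS_a hS hp]
  ring
theorem Dss_Θ (hS : IsSol q T S) (hp : p ∈ Wd T) :
    S.Ds (S.Ds S.Θ) p = -2 * S.f p ^ 2 * S.σ q p - 2 * S.Θ p * S.ρ2 q p -
      q * S.Y p * S.Ds S.Θ p + 4 * S.a p * S.y1 p := by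
  have h0 := (f_pos S p).ne'
  have h1 := (h_pos hS hp).ne'
  rw [Ds_congr_wd hp fun _ => IdS_Θ hS]
  refine IdS_D hS hp (((((IdS_df hS hp).pow 2).mul (IdS_d hS hp (sm_X hS))).const_mul 2).sub
    ((((IdS_dh hS hp).pow 2).mul (IdS_d hS hp (sm_Y hS))).const_mul 2)) ?_
  rw [IdS_Θ hS hp, Pre.σ, ρ1_eq hS hp, ρ2_eq hS hp, Pre.y1, Pre.Θ, IdS_a hS hp]
  simp only [Pi.pow_apply, Nat.add_one_sub_one, Nat.cast_ofNat]
  field_simp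
  ring
theorem uss_eq (hS : IsSol q T S) (hp : p ∈ Wd T) :
    S.h p ^ 2 * S.uss p =
      -S.y2 q p - (2 * S.hX p + q * S.a p) * S.y1 p - mm q * (1 - S.EE p) := by
  have h0 := (f_pos S p).ne'
  have h1 := (h_pos hS hp).ne'
  rw [Pre.uss, Pre.y2, Pre.σ, ρ1_eq hS hp, ρ2_eq hS hp, Pre.y1, Pre.hX, Pre.EE, IdS_a hS hp]
  field_simp
  ring
theorem Ds_y1 (hS : IsSol q T S) (hp : p ∈ Wd T) :
    S.h p * S.Ds S.y1 p = S.a p * S.y1 p + S.h p ^ 2 * S.uss p := by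
  rw [IdS_D (u := S.y1) hS hp ((IdS_dh hS hp).mul ((IdS_d hS hp (sm_X hS)).sub
    (IdS_d hS hp (sm_Y hS)))) (c := S.a p * (S.X p - S.Y p) + S.h p * S.uss p) (by
      simp only [Pre.uss]
      ring), Pre.y1]
  ring
/-- contracted Bianchi identity -/
theorem bianchi (hS : IsSol q T S) (hp : p ∈ Wd T) :
    2 * S.Ds (S.ρ1 q) p + q * S.Ds (S.ρ2 q) p = S.Ds (S.ρ0 q) p +
      4 * S.X p * (S.ρ0 q p - S.ρ1 q p) + 2 * q * S.Y p * (S.ρ0 q p - S.ρ2 q p) := by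
  have h0 := (f_pos S p).ne'
  have h1 := (h_pos hS hp).ne'
  have dX := IdS_d hS hp (sm_X hS)
  have dY := IdS_d hS hp (sm_Y hS)
  have dX2 := IdS_d hS hp ((sm_X hS).Ds hS)
  have dY2 := IdS_d hS hp ((sm_Y hS).Ds hS)
  have e1 : S.Ds (S.ρ1 q) p = -2 * mm q * S.X p / S.f p ^ 2 - S.Ds (S.Ds S.X) p -
      4 * S.X p * S.Ds S.X p - q * (S.Ds S.X p * S.Y p + S.X p * S.Ds S.Y p) := by
    rw [Ds_congr_wd hp fun _ => ρ1_eq hS]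
    refine IdS_D hS hp ((((((IdS_df hS hp).pow 2).inv (pow_ne_zero 2 h0)).const_mul
      (mm q)).sub dX2).sub ((dX.pow 2).const_mul 2) |>.sub ((dX.const_mul (q : ℝ)).mul dY)) ?_
    simp only [Pi.pow_apply, Nat.add_one_sub_one, Nat.cast_ofNat]
    field_simp
    ring
  have e2 : S.Ds (S.ρ2 q) p = -2 * mm q * S.Y p / S.h p ^ 2 - S.Ds (S.Ds S.Y) p -
      2 * (S.Ds S.X p * S.Y p + S.X p * S.Ds S.Y p) - 2 * q * S.Y p * S.Ds S.Y p := by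
    rw [Ds_congr_wd hp fun _ => ρ2_eq hS]
    refine IdS_D hS hp ((((((IdS_dh hS hp).pow 2).inv (pow_ne_zero 2 h1)).const_mul
      (mm q)).sub dY2).sub ((dX.const_mul 2).mul dY) |>.sub ((dY.pow 2).const_mul (q : ℝ))) ?_
    rw [IdS_a hS hp]
    simp only [Pi.pow_apply, Nat.add_one_sub_one, Nat.cast_ofNat]
    field_simp
  have e0 : S.Ds (S.ρ0 q) p = -2 * (S.Ds (S.Ds S.X) p + 2 * S.X p * S.Ds S.X p) -
      q * (S.Ds (S.Ds S.Y) p + 2 * S.Y p * S.Ds S.Y p) := by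
    refine IdS_D hS hp (((dX2.add (dX.pow 2)).const_mul (-2)).sub
      ((dY2.add (dY.pow 2)).const_mul (q : ℝ))) ?_
    simp only [Nat.add_one_sub_one, Nat.cast_ofNat]
    ring
  rw [e1, e2, e0, ρ1_eq hS hp, ρ2_eq hS hp, Pre.ρ0]
  ring

end Vale.Agent.P244
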