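import Vale.Agent.P244C.IdS

open Set MeasureTheory Filter Topology
open scoped ContDiff

noncomputable section

namespace Vale.Agent.P244

variable {q : ℕ} {T : ℝ} {S : Pre} {p : ℝ × ℝ}

/-! evolution equations of order at most one -/

theorem IdT_q (q : ℕ) : (q : ℝ) = mm q + 1 := by simp [mm]

theorem IdT_Ds_congr {u v : ℝ × ℝ → ℝ} (hp : p ∈ Om T) (h : ∀ p ∈ Om T, u p = v p) :
    S.Ds u p = S.Ds v p := by
  refine Ds_congr ?_
  filter_upwards [isOpen_Ioo.mem_nhds hp.2] with x hx using h _ ⟨hp.1, hx⟩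

theorem IdT_xa_Ds {v : ℝ × ℝ → ℝ} (hv : XA v p) : XA (S.Ds v) p :=
  ((ContDiffAt.fderiv_right (m := ∞) hv (by simp)).clm_apply
    (contDiffAt_const (c := (1 : ℝ)))).div_const (S.ℓ p.1)

theorem IdT_h_exp (hS : IsSol q T S) (hp : p ∈ Wd T) : S.h p = Real.exp (S.G p) :=
  (Real.exp_log (h_pos hS hp)).symm

theorem IdT_xa_inv {v : ℝ × ℝ → ℝ} (hv : XA v p) (h : v p ≠ 0) (c : ℝ) :
    XA (fun p => c / v p ^ 2) p :=
  ContDiffAt.div (f := fun _ => c) (g := fun x => v (p.1, x) ^ 2) contDiffAt_const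
    (ContDiffAt.pow hv 2) (pow_ne_zero 2 h)

theorem IdT_Ds_inv {v : ℝ × ℝ → ℝ} (hv : XA v p) (h : v p ≠ 0) (c : ℝ) :
    S.Ds (fun p => c / v p ^ 2) p = -(2 * c * S.Ds v p / v p ^ 3) := by
  rw [Ds_div (u := fun _ => c) (v := fun p => v p ^ 2) contDiffAt_const (ContDiffAt.pow hv 2)
    (pow_ne_zero 2 h), Ds_const, Ds_sq hv]
  field_simp
  ring

theorem box_F (hS : IsSol q T S) (hp : p ∈ Om T) : S.box q S.F p = -(mm q / S.f p ^ 2) := by
  have e : Real.exp (-2 * S.F p) = (S.f p ^ 2)⁻¹ := by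
    rw [Pre.f, ← Real.exp_nat_mul, ← Real.exp_neg]
    norm_num
  rw [Pre.box, hS.eqF p hp, Pre.ρ1, e, mm]
  ring

theorem box_G (hS : IsSol q T S) (hp : p ∈ Om T) : S.box q S.G p = -(mm q / S.h p ^ 2) := by
  rw [Pre.box, hS.eqG p hp, Pre.ρ2, mm]
  ring

theorem box_mono (hS : IsSol q T S) (hp : p ∈ Om T) (γ δ : ℝ) :
    S.box q (S.mono γ δ) p = S.mono γ δ p *
      (-(γ * mm q / S.h p ^ 2) - δ * mm q / S.f p ^ 2 - (γ * S.Y p + δ * S.X p) ^ 2) := by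
  have hF := (sm_F hS).ca hp
  have hG := (sm_G hS).ca hp
  have h1 : CA (fun p => γ * S.G p) p := contDiffAt_const.mul hG
  have h2 : CA (fun p => δ * S.F p) p := contDiffAt_const.mul hF
  have e : S.mono γ δ = fun p => Real.exp (γ * S.G p + δ * S.F p) := rfl
  rw [e, box_exp hS hp (u := fun p => γ * S.G p + δ * S.F p) (ContDiffAt.add h1 h2),
    box_add hS hp h1 h2, Ds_add h1.xa h2.xa, box_cmul, box_cmul, Ds_cmul, Ds_cmul, box_F hS hp,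
    box_G hS hp, Pre.X, Pre.Y]
  ring

theorem Dt_h (hS : IsSol q T S) (hp : p ∈ Om T) : S.Dt S.h p = -S.ρ2 q p * S.h p := by
  have e : S.h =ᶠ[𝓝 p] fun p => Real.exp (S.G p) := by
    filter_upwards [isOpen_om.mem_nhds hp] with y hy using IdT_h_exp hS (om_sub_wd hy)
  rw [Dt_congr e, Dt_comp ((sm_G hS).ca hp) (Real.hasDerivAt_exp _), hS.eqG p hp,
    ← IdT_h_exp hS (om_sub_wd hp), mul_comm]

theorem box_h (hS : IsSol q T S) (hp : p ∈ Om T) :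
    S.box q S.h p = -((mm q + S.z p) / S.h p) := by
  have e : ∀ p ∈ Wd T, S.h p = S.mono 1 0 p := fun p hp => by
    rw [IdT_h_exp hS hp, Pre.mono, one_mul, zero_mul, add_zero]
  have hw := om_sub_wd hp
  have h0 := (h_pos hS hw).ne'
  rw [box_congr_wd hp e, box_mono hS hp, ← e p hw, Y_eq hS hw, Pre.z]
  field_simp
  ring

theorem box_Ds (hS : IsSol q T S) (hp : p ∈ Om T) {v : ℝ × ℝ → ℝ} (hv : CA v p) :
    S.box q (S.Ds v) p =
      S.Ds (S.box q v) p - (2 * S.X p ^ 2 + q * S.Y p ^ 2) * S.Ds v p := by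
  have hw := om_sub_wd hp
  have h1 := (hv.Ds hS hp).xa
  have h2 := ((hv.Ds hS hp).Ds hS hp).xa
  have hX : XA (fun p => 2 * S.X p) p := contDiffAt_const.mul ((sm_X hS).xa hw)
  have hY : XA (fun p => q * S.Y p) p := contDiffAt_const.mul ((sm_Y hS).xa hw)
  have hH : XA (fun p => 2 * S.X p + q * S.Y p) p := ContDiffAt.add hX hY
  have h3 : XA (fun p => (2 * S.X p + q * S.Y p) * S.Ds v p) p := ContDiffAt.mul hH h1
  have e : S.box q v = fun p => S.Dt v p -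
      (S.Ds (S.Ds v) p + (2 * S.X p + q * S.Y p) * S.Ds v p) := rfl
  rw [e, Ds_sub (hv.Dt hS hp).xa (v := fun p => S.Ds (S.Ds v) p +
    (2 * S.X p + q * S.Y p) * S.Ds v p) (ContDiffAt.add h2 h3), Ds_add h2 h3, Ds_mul hH h1,
    Ds_add hX hY, Ds_cmul, Ds_cmul, Pre.box, Dt_Ds hS hp hv, Pre.lap, Pre.H, Pre.ρ0]
  ring

theorem box_a (hS : IsSol q T S) (hp : p ∈ Om T) :
    S.box q S.a p = (-2 * S.hX p ^ 2 + mm q * (1 - S.z p)) * S.a p / S.h p ^ 2 -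
      2 * S.Y p * S.Ds S.a p := by
  have hw := om_sub_wd hp
  have h0 := (h_pos hS hw).ne'
  have ha := (sm_a hS).xa hw
  have h1 : XA (fun p => S.a p ^ 2) p := ContDiffAt.pow ha 2
  have e : S.box q S.a p = _ := box_Ds hS hp ((sm_h hS).ca hp)
  rw [e, IdT_Ds_congr hp fun p hp => box_h hS hp, Ds_neg (u := fun p => (mm q + S.z p) / S.h p),
    Ds_div (u := fun p => mm q + S.z p) (contDiffAt_const.add h1) ((sm_h hS).xa hw) h0,
    Ds_add (u := fun _ => mm q) (v := S.z) contDiffAt_const h1, Ds_const,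
    show S.Ds S.z p = _ from Ds_sq ha, Y_eq hS hw, Pre.z, Pre.hX, IdT_q q,
    show S.Ds S.h p = S.a p from rfl]
  field_simp
  ring

theorem IdT_box_f (hS : IsSol q T S) (hp : p ∈ Om T) :
    S.box q S.f p = -(mm q / S.f p) - S.f p * S.X p ^ 2 := by
  have h0 := (f_pos S p).ne'
  have e : S.box q S.f p = S.f p * _ := box_exp hS hp ((sm_F hS).ca hp)
  rw [e, box_F hS hp, Pre.X]
  field_simp

theorem IdT_box_X (hS : IsSol q T S) (hp : p ∈ Om T) :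
    S.box q S.X p = (2 * mm q / S.f p ^ 2 - (2 * S.X p ^ 2 + q * S.Y p ^ 2)) * S.X p := by
  have hw := om_sub_wd hp
  have h0 := (f_pos S p).ne'
  have e : S.box q S.X p = _ - _ * S.X p := box_Ds hS hp ((sm_F hS).ca hp)
  rw [e, IdT_Ds_congr hp fun p hp => box_F hS hp, Ds_neg (u := fun p => mm q / S.f p ^ 2),
    IdT_Ds_inv ((sm_f hS).xa hw) h0, Ds_f hS hw, Pre.fs]
  field_simp

theorem box_fs (hS : IsSol q T S) (hp : p ∈ Om T) :
    S.box q S.fs p = ((mm q - S.fs p ^ 2) / S.f p ^ 2 - q * S.Y p ^ 2) * S.fs p -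
      2 * S.X p * S.Ds S.fs p := by
  have hw := om_sub_wd hp
  have h0 := (f_pos S p).ne'
  have e : S.fs = fun p => S.f p * S.X p := rfl
  rw [e, box_mul hS hp ((sm_f hS).ca hp) ((sm_X hS).ca hp), IdT_box_X hS hp, IdT_box_f hS hp,
    Ds_mul ((sm_f hS).xa hw) ((sm_X hS).xa hw), Ds_f hS hw, Pre.fs]
  field_simp
  ring

theorem box'_Θ (hS : IsSol q T S) (hp : p ∈ Om T) :
    S.box' q S.Θ p = 4 * S.z p / S.f p ^ 2 * S.Θ p := by
  have hw := om_sub_wd hp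
  have h0 := (f_pos S p).ne'
  have h1 := (h_pos hS hw).ne'
  have hf := (sm_f hS).ca hp
  have hh := (sm_h hS).ca hp
  have hf2 : CA (fun p => S.f p ^ 2) p := ContDiffAt.pow hf 2
  have hh2 : CA (fun p => S.h p ^ 2) p := ContDiffAt.pow hh 2
  have e : S.Θ = fun p => S.f p ^ 2 - S.h p ^ 2 := rfl
  rw [e, Pre.box', box_sub hS hp hf2 hh2, Ds_sub hf2.xa hh2.xa, box_sq hS hp hf, box_sq hS hp hh,
    Ds_sq hf.xa, Ds_sq hh.xa, IdT_box_f hS hp, box_h hS hp, Ds_f hS hw, Pre.fs, Pre.z,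
    show S.Ds S.h p = S.a p from rfl]
  field_simp
  ring

theorem box'_mono (hS : IsSol q T S) (hp : p ∈ Om T) (γ : ℝ) :
    S.box' q (S.mono γ 0) p = S.mono γ 0 p / S.h p ^ 2 *
      (-(γ * mm q) - γ ^ 2 * S.z p + 2 * γ * (S.a p * S.hX p + S.z p * S.EE p)) := by
  have hw := om_sub_wd hp
  have h0 := (f_pos S p).ne'
  have h1 := (h_pos hS hw).ne'
  rw [Pre.box', box_mono hS hp, Ds_mono hS hw, Y_eq hS hw, Pre.z, Pre.hX, Pre.EE]
  field_simp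
  ring

theorem box'_monof (hS : IsSol q T S) (hp : p ∈ Om T) (ε : ℝ) :
    S.box' q (S.mono 0 (-ε)) p = S.mono 0 (-ε) p / S.f p ^ 2 *
      (ε * mm q - (ε ^ 2 + 2 * ε) * S.fs p ^ 2 - 2 * ε * S.EE p * S.J p) := by
  have hw := om_sub_wd hp
  have h0 := (f_pos S p).ne'
  have h1 := (h_pos hS hw).ne'
  rw [Pre.box', box_mono hS hp, Ds_mono hS hw, Pre.J, Y_eq hS hw, Pre.fs, Pre.EE]
  field_simp
  ring

theorem IdT_box_u (hS : IsSol q T S) (hp : p ∈ Om T) :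
    S.box q S.u p = mm q / S.h p ^ 2 - mm q / S.f p ^ 2 := by
  have e : S.box q S.u p = _ := box_sub hS hp ((sm_F hS).ca hp) ((sm_G hS).ca hp)
  rw [e, box_F hS hp, box_G hS hp]
  ring

theorem box_u (hS : IsSol q T S) (hp : p ∈ Om T) :
    S.h p ^ 2 * S.box q S.u p = mm q * (1 - S.EE p) := by
  have h1 := (h_pos hS (om_sub_wd hp)).ne'
  rw [IdT_box_u hS hp, Pre.EE]
  field_simp

theorem box_y1 (hS : IsSol q T S) (hp : p ∈ Om T) :
    S.h p ^ 2 * S.box q S.y1 p =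
      (-(2 * S.hX p ^ 2 + q * S.z p) + 2 * mm q * S.EE p - mm q - S.z p) * S.y1 p -
        2 * mm q * S.a p * (1 - S.EE p) - 2 * S.a p * (S.h p ^ 2 * S.uss p) := by
  have hw := om_sub_wd hp
  have h0 := (f_pos S p).ne'
  have h1 := (h_pos hS hw).ne'
  have hu := (sm_u hS).ca hp
  have hf := (sm_f hS).xa hw
  have hh := (sm_h hS).xa hw
  have e : ∀ p ∈ Wd T, S.y1 p = S.h p * S.Ds S.u p := fun p hp => by rw [Ds_u hS hp, Pre.y1]
  have e2 : S.Ds (S.Ds S.u) p = S.uss p :=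
    (Ds_congr_wd hw fun p hp => Ds_u hS hp).trans (Ds_sub ((sm_X hS).xa hw) ((sm_Y hS).xa hw))
  rw [box_congr_wd hp e, box_mul hS hp ((sm_h hS).ca hp) (hu.Ds hS hp), box_Ds hS hp hu,
    IdT_Ds_congr hp fun p hp => IdT_box_u hS hp,
    Ds_sub (IdT_xa_inv hh h1 _) (IdT_xa_inv hf h0 _), IdT_Ds_inv hh h1,
    IdT_Ds_inv hf h0, e2, box_h hS hp, Ds_u hS hw, Ds_f hS hw, Pre.y1,
    Y_eq hS hw, Pre.z, Pre.hX, Pre.EE, Pre.fs, show S.Ds S.h p = S.a p from rfl]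
  field_simp
  ring

theorem IdT_Drr (hS : IsSol q T S) (hp : p ∈ Wd T) (ha : S.a p ≠ 0) {v : ℝ × ℝ → ℝ}
    (hv : XA v p) :
    S.Dr (S.Dr v) p = (S.Ds (S.Ds v) p - S.Ds S.a p * S.Dr v p) / S.z p := by
  have e : S.Ds (S.Dr v) p = _ := Ds_div (IdT_xa_Ds hv) ((sm_a hS).xa hp) ha
  rw [Pre.Dr, e, Pre.Dr, Pre.z]
  field_simp

theorem err0_eq (hS : IsSol q T S) (hq : 0 < mm q) (hp : p ∈ Om T) (ha : S.a p ≠ 0) :
    S.err0 q p = (S.z p - z0 q) *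
        (S.Dr (S.Dr S.Θ) p - 3 * S.Dr S.Θ p / S.h p + 4 * S.Θ p / S.h p ^ 2) +
      (2 * S.z p * (1 - S.EE p) - 2 * S.a p * S.y1 p) * S.Dr S.Θ p / S.h p -
      4 * S.z p * (1 - S.EE p) * S.Θ p / S.h p ^ 2 := by
  have hw := om_sub_wd hp
  have h0 := (f_pos S p).ne'
  have h1 := (h_pos hS hw).ne'
  have h2 : mm q + 2 ≠ 0 := by positivity
  have e := box'_Θ hS hp
  rw [Pre.box', Pre.box, Pre.lap, Pre.H] at e
  have e' : S.Dt S.Θ p = 4 * S.z p / S.f p ^ 2 * S.Θ p + (S.Ds (S.Ds S.Θ) p +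
      (2 * S.X p + q * S.Y p) * S.Ds S.Θ p) -
      (2 * S.X p + 2 * S.h p * S.a p / S.f p ^ 2) * S.Ds S.Θ p := by linarith
  rw [Pre.err0, IdT_Drr hS hw ha ((sm_Θ hS).xa hw), e', Dt_h hS hp, ρ2_eq hS hw, Ds_Y hS hw,
    y1_eq hS hw, Y_eq hS hw, Pre.Dr, Pre.z, Pre.hX, Pre.EE, z0]
  field_simp
  ring

theorem Drr_eq (hS : IsSol q T S) (hp : p ∈ Wd T) (ha : S.a p ≠ 0) {v : ℝ × ℝ → ℝ}
    (hv : XA v p) :
    S.Dr (S.Dr v) p = (S.Ds (S.Ds v) p - S.Ds S.a p * S.Dr v p) / S.z p := IdT_Drr hS hp ha hv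

end Vale.Agent.P244
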