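import Vale.Agent.P244C.InitA

open Set MeasureTheory Filter Topology
open scoped ContDiff

noncomputable section

namespace Vale.Agent.P244

theorem InitB_psi {e x u : ℝ} (h0 : 0 < e) (h1 : e ≤ 1 / 10 ^ 7) (hx : 0 < x) (hx1 : x ≤ 1)
    (hu : x ^ 8 ≤ u) : (x * u ^ (-(e / 2))) ^ 2 ≤ x := by
  have h2 : u ^ (-(e / 2)) ≤ x ^ (-(1 / 2 : ℝ)) :=
    calc u ^ (-(e / 2)) ≤ (x ^ 8) ^ (-(e / 2)) :=
          Real.rpow_le_rpow_of_nonpos (by positivity) hu (by linarith)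
      _ = x ^ (((8 : ℕ) : ℝ) * (-(e / 2))) := (Real.rpow_natCast_mul hx.le 8 _).symm
      _ ≤ _ := Real.rpow_le_rpow_of_exponent_ge hx hx1 (by push_cast; linarith)
  have h3 : (x ^ (-(1 / 2 : ℝ))) ^ 2 = x⁻¹ := by
    rw [← Real.rpow_natCast, ← Real.rpow_mul hx.le, ← Real.rpow_neg_one]
    norm_num
  have h4 := pow_le_pow_left₀ (Real.rpow_nonneg ((pow_pos hx 8).le.trans hu) _) h2 2
  rw [h3] at h4
  calc (x * u ^ (-(e / 2))) ^ 2 = x ^ 2 * (u ^ (-(e / 2))) ^ 2 := mul_pow _ _ _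
    _ ≤ x ^ 2 * x⁻¹ := mul_le_mul_of_nonneg_left h4 (by positivity)
    _ = x := by field_simp

/-- the real numbers entering the estimates -/
structure InitB_H (T r s ψ Λ θ : ℝ) : Prop where
  hT : 0 < T
  hT1 : T ≤ 1 / 10 ^ 50
  hr0 : 0 ≤ r
  hr1 : r ≤ 1
  hs0 : T ≤ s
  hs1 : s ≤ T + r / 10 ^ 8
  hψ : 0 < ψ
  hψΛ : ψ ≤ Λ
  hΛ : T * Λ ≤ 1 / 10 ^ 4
  hrψ : r * ψ ≤ 1
  b0 : |θ| ≤ 1.1 * s ^ 3 * ψ
  b3 : r ≤ T → 0.85 * T ^ 3 * ψ ≤ θ

namespace InitB_H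

variable {T r s ψ Λ θ : ℝ} (H : InitB_H T r s ψ Λ θ)
include H

theorem s3 : s ^ 3 ≤ 4 * T ^ 3 + r ^ 3 / 10 ^ 20 := by
  have h1 := pow_le_pow_left₀ (H.hT.le.trans H.hs0) H.hs1 3
  have h2 : 0 ≤ r / 10 ^ 8 := div_nonneg H.hr0 (by norm_num)
  have h3 := mul_nonneg (add_nonneg H.hT.le h2) (sq_nonneg (T - r / 10 ^ 8))
  have h4 := pow_nonneg H.hr0 3
  nlinarith

theorem Tψ : T * ψ ≤ 1 / 10 ^ 4 := (mul_le_mul_of_nonneg_left H.hψΛ H.hT.le).trans H.hΛ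

theorem th : |θ| ≤ T ^ 2 / 1000 + r / 1000 := by
  have h1 := mul_le_mul_of_nonneg_right H.s3 H.hψ.le
  have h2 := mul_le_mul_of_nonneg_left H.Tψ (sq_nonneg T)
  have h3 := mul_le_mul_of_nonneg_left H.hrψ (sq_nonneg r)
  have h4 := mul_le_mul_of_nonneg_left H.hr1 H.hr0
  have h5 := H.b0
  have h6 := H.hr0
  have h7 := sq_nonneg T
  nlinarith

theorem T2 : T ^ 2 ≤ T / 100 := by nlinarith [H.hT, H.hT1]

theorem pos (h : r ≤ T) : 0 < θ := by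
  have := H.hT
  have := H.hψ
  exact lt_of_lt_of_le (by positivity) (H.b3 h)

theorem wlo : 0.98 * r ≤ r + θ := by
  rcases le_total r T with h | h
  · linarith [H.pos h, H.hr0]
  · linarith [(abs_le.1 H.th).1, H.T2, H.hr0]

theorem wpos : 0 < r + θ := by
  rcases le_total r T with h | h
  · linarith [H.pos h, H.hr0]
  · linarith [H.wlo, H.hT]

theorem sψ : s * ψ ≤ 1 / 1000 := by
  have h1 := mul_le_mul_of_nonneg_right H.hs1 H.hψ.le
  nlinarith [H.Tψ, H.hrψ]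

theorem Q1 : s ^ 2 * ψ ≤ 1 := by
  have h1 := mul_le_mul_of_nonneg_left H.sψ (H.hT.le.trans H.hs0)
  nlinarith [H.hs1, H.hr1, H.hT1]

theorem y1 : s ^ 3 * ψ / (r + T ^ 2) ≤ 1 := by
  have h0 := H.hT
  have h1 := mul_le_mul_of_nonneg_left H.sψ (sq_nonneg s)
  have h2 := pow_le_pow_left₀ (H.hT.le.trans H.hs0) H.hs1 2
  have h3 := mul_le_mul_of_nonneg_left H.hr1 H.hr0
  have h4 := H.hr0
  refine div_le_one_of_le₀ ?_ (by positivity)
  nlinarith [sq_nonneg (T - r / 10 ^ 8), sq_nonneg T]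

theorem inn (h : r ≤ T) : s ^ 3 * ψ ≤ 1.031 * (T ^ 3 * Λ) := by
  have h0 := H.hT
  have h1 := pow_le_pow_left₀ (H.hT.le.trans H.hs0) (show s ≤ 1.01 * T by linarith [H.hs1]) 3
  have h2 := mul_le_mul h1 H.hψΛ H.hψ.le (by positivity)
  have h3 := mul_pos (pow_pos h0 3) (H.hψ.trans_le H.hψΛ)
  nlinarith

theorem TΛ : T ^ 3 * Λ ≤ T ^ 2 / 10 ^ 4 := by
  nlinarith [mul_le_mul_of_nonneg_left H.hΛ (sq_nonneg T)]

theorem i0 (h : r ≤ T) : θ ≤ 5 * (T ^ 3 * Λ / 4) := by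
  have h3 := mul_pos (pow_pos H.hT 3) (H.hψ.trans_le H.hψΛ)
  linarith [le_abs_self θ, H.b0, H.inn h]

theorem i1 (h : r ≤ T) {x a b : ℝ} (ha : 0 ≤ a) (hb : 0 ≤ b)
    (hx : x ≤ a * s ^ 2 * ψ + b * s ^ 3 * ψ / (r + T ^ 2)) :
    x * (r + θ) ≤ (1.01 * a + b) * (1.031 * (T ^ 3 * Λ)) := by
  have h0 := H.hT
  have h1 := H.hr0
  have h2 := H.hψ
  have h3 := H.hT.trans_le H.hs0
  have h4 : r + θ ≤ r + T ^ 2 := by linarith [H.i0 h, H.TΛ, sq_nonneg T]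
  have h5 := mul_le_mul hx h4 H.wpos.le (by positivity)
  rw [add_mul _ _ (r + T ^ 2), div_mul_cancel₀ _ (by positivity)] at h5
  have h6 := mul_le_mul_of_nonneg_left (show r + T ^ 2 ≤ 1.01 * s by linarith [H.T2, H.hs0])
    (show 0 ≤ a * s ^ 2 * ψ by positivity)
  have h7 := mul_le_mul_of_nonneg_left (H.inn h) (show 0 ≤ 1.01 * a + b by positivity)
  nlinarith

variable {k : ℝ} (hk : 0 < k) (hkr : k ^ 8 = r) (hkψ : k * ψ ≤ 1)
include hk hkr hkψ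

theorem X : (T ^ 3 + r ^ 3) * ψ ≤ r * (T ^ 3 / k ^ 9 + k ^ 15) := by
  have h0 := H.hT
  have h1 : T ^ 3 + r ^ 3 = r * (T ^ 3 / k ^ 9 + k ^ 15) * k := by
    rw [← hkr]
    field_simp
  have h2 := H.hr0
  rw [h1, mul_assoc]
  exact mul_le_of_le_one_right (by positivity) hkψ

theorem g0 : s ^ 3 * ψ ≤ 4 * (r * (T ^ 3 / k ^ 9 + k ^ 15)) := by
  have h1 := mul_le_mul_of_nonneg_right H.s3 H.hψ.le
  have h2 := mul_nonneg (pow_nonneg H.hr0 3) H.hψ.le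
  nlinarith [H.X hk hkr hkψ]

theorem g1 {m x a b : ℝ} (hm : 10 ^ 8 ≤ m) (h0 : 0 ≤ x) (ha : 0 ≤ a) (hb : 0 ≤ b) (ha1 : a ≤ 6)
    (hb1 : b ≤ 6) (hx : m * x ≤ a * s ^ 2 * ψ + b * s ^ 3 * ψ / (r + T ^ 2)) :
    x ≤ 5 * (T ^ 3 / k ^ 9 + k ^ 15) := by
  have hT := H.hT
  have hr : 0 < r := hkr ▸ pow_pos hk 8
  have hs := H.hT.trans_le H.hs0
  have hψ := H.hψ
  have hB : 0 ≤ T ^ 3 / k ^ 9 + k ^ 15 := by positivity
  have h1 : s ^ 2 * r ≤ 4 * (T ^ 3 + r ^ 3) := by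
    have e1 := mul_le_mul_of_nonneg_right
      (pow_le_pow_left₀ hs.le (show s ≤ T + r by linarith [H.hs1]) 2) hr.le
    nlinarith [mul_nonneg (add_nonneg hT.le hr.le) (sq_nonneg (T - r)), mul_pos hT hr,
      pow_pos hT 3, mul_pos (pow_pos hT 2) hr]
  have h2 : s ^ 2 * ψ ≤ 4 * (T ^ 3 / k ^ 9 + k ^ 15) := by
    refine le_of_mul_le_mul_left ?_ hr
    nlinarith [H.X hk hkr hkψ, mul_le_mul_of_nonneg_right h1 hψ.le]
  have h3 : s ^ 3 * ψ / (r + T ^ 2) ≤ 4 * (T ^ 3 / k ^ 9 + k ^ 15) := by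
    rw [div_le_iff₀ (by positivity)]
    nlinarith [H.g0 hk hkr hkψ, mul_nonneg hB (sq_nonneg T)]
  have h4 := mul_le_mul ha1 h2 (by positivity) (by norm_num)
  have h5 := mul_le_mul hb1 h3 (by positivity) (by norm_num)
  have h6 := mul_le_mul_of_nonneg_right hm h0
  rw [mul_assoc, mul_assoc, mul_div_assoc b] at hx
  linarith

theorem out (h : 100 * T ≤ r) : |θ| ≤ k ^ 23 / 400 := by
  have h1 := pow_le_pow_left₀ (H.hT.le.trans H.hs0)
    (show s ≤ r / 10 by linarith [H.hs1, H.hr0]) 3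
  have h2 := mul_le_mul_of_nonneg_right h1 H.hψ.le
  have h3 := mul_le_mul_of_nonneg_left hkψ (pow_pos hk 23).le
  have h4 := pow_pos hk 23
  have h5 := H.b0
  rw [← hkr] at h2
  nlinarith

theorem all (h : k ≤ 1 / 10 ^ 6 → k * ψ ≤ 1 / 1000) : k * |θ| ≤ (T ^ 3 + r ^ 3) / 200 := by
  have h1 := mul_le_mul_of_nonneg_left H.b0 hk.le
  have h2 := mul_le_mul_of_nonneg_right H.s3 (mul_pos hk H.hψ).le
  have h3 := pow_pos H.hT 3
  have h4 := pow_nonneg H.hr0 3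
  have h5 := mul_le_mul_of_nonneg_left hkψ h4
  rcases le_total k (1 / 10 ^ 6) with e | e
  · nlinarith [mul_le_mul_of_nonneg_left (h e) h3.le]
  · have e1 := pow_le_pow_left₀ (by norm_num) e 8
    have e2 := pow_le_pow_left₀ H.hT.le (show T ≤ r / 100 by linarith [H.hT1]) 3
    nlinarith [mul_le_mul_of_nonneg_left hkψ h3.le]

end InitB_H

theorem InitB_two {e x u : ℝ} (h0 : 0 < e) (h1 : e ≤ 1 / 10 ^ 7) (hx : 0 < x) (hu : 0 < u)
    (h : u ≤ 2 * x) : x ^ (-(e / 2)) / 2 ≤ u ^ (-(e / 2)) := by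
  refine le_trans ?_ (Real.rpow_le_rpow_of_nonpos hu h (by linarith))
  rw [Real.mul_rpow zero_le_two hx.le]
  have h2 : (2 : ℝ) ^ (-1 : ℝ) ≤ 2 ^ (-(e / 2)) :=
    Real.rpow_le_rpow_of_exponent_le one_le_two (by linarith)
  rw [Real.rpow_neg_one] at h2
  nlinarith [mul_le_mul_of_nonneg_right h2 (Real.rpow_pos_of_pos hx (-(e / 2))).le]

theorem th0_bd (q : ℕ) : ∃ τ1 > (0 : ℝ), ∀ (e0 T : ℝ) (δ : Fin 3 → ℝ), Dim q e0 → 0 < T →
    T ≤ τ1 → (∀ j, |δ j| ≤ 3) → ∀ r ∈ Icc (0 : ℝ) 1,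
      ThB q e0 T r (Th0 q e0 T δ r) (deriv (Th0 q e0 T δ) r)
        (deriv (deriv (Th0 q e0 T δ)) r) := by
  refine ⟨1 / 10 ^ 50, by positivity, fun e0 T δ hd hT hT1 hδ r ⟨hr0, hr1⟩ => ?_⟩
  have hm := hd.hq
  have he0 := hd.e0_pos
  have he1 := hd.e0_le
  have hN : 10 ^ 8 ≤ 4 * z0 q * al q e0 := by nlinarith [hd.z0_lo, hd.al_lo]
  have hN0 : 0 < 4 * z0 q * al q e0 := by linarith
  obtain ⟨B0, B1, B2, B3⟩ := th0_basic hd hT (by linarith) hδ hr0 rfl rfl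
  have hu : 0 < r + T ^ 2 := by positivity
  have hT2 : T ≤ 1 := by linarith
  have hk : ∀ k : ℝ, 0 < k → k ≤ 1 → k ^ 8 ≤ r → ∀ c, 0 ≤ c → k ≤ c ^ 2 →
      k * (r + T ^ 2) ^ (-(e0 / 2)) ≤ c := fun k h1 h2 h3 c h4 h5 =>
    (pow_le_pow_iff_left₀ (by positivity) h4 two_ne_zero).1
      ((InitB_psi he0 he1 h1 h2 (by linarith [sq_nonneg T])).trans h5)
  have hk1 : ∀ k : ℝ, 0 < k → k ^ 8 = r → k ≤ 1 := fun k h1 h2 =>
    (pow_le_one_iff_of_nonneg h1.le (by norm_num)).1 (h2.trans_le hr1)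
  have hk2 : ∀ k : ℝ, 0 < k → k ^ 8 = r → k * (r + T ^ 2) ^ (-(e0 / 2)) ≤ 1 := fun k h1 h2 =>
    hk k h1 (hk1 k h1 h2) h2.le 1 zero_le_one (by linarith [hk1 k h1 h2])
  have hk3 : ∀ k : ℝ, 0 < k → k ^ 8 = r → k ≤ 1 / 10 ^ 6 →
      k * (r + T ^ 2) ^ (-(e0 / 2)) ≤ 1 / 1000 := fun k h1 h2 h3 =>
    hk k h1 (hk1 k h1 h2) h2.le _ (by norm_num) (by linarith)
  have hL : lam2 e0 T = T ^ 3 * (T ^ 2) ^ (-(e0 / 2)) / 4 := by
    rw [lam2, ← Real.rpow_natCast_mul hT.le, ← Real.rpow_natCast, ← Real.rpow_add hT]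
    congr 2
    push_cast
    ring
  have H : InitB_H T r (T + r / (4 * z0 q * al q e0)) ((r + T ^ 2) ^ (-(e0 / 2)))
      ((T ^ 2) ^ (-(e0 / 2))) (Th0 q e0 T δ r) := by
    refine ⟨hT, hT1, hr0, hr1, le_add_of_nonneg_right (by positivity),
      by linarith [div_le_div_of_nonneg_left hr0 (by norm_num) hN], by positivity,
      Real.rpow_le_rpow_of_nonpos (by positivity) (by linarith) (by linarith), ?_, ?_, B0, B3⟩
    · exact (pow_le_pow_iff_left₀ (by positivity) (by norm_num) two_ne_zero).1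
        ((InitB_psi he0 he1 hT hT2 (pow_le_pow_of_le_one hT.le hT2 (by norm_num))).trans
          (by linarith))
    · rcases hr0.eq_or_lt with h | h
      · rw [← h, zero_mul]
        exact zero_le_one
      · exact hk r h hr1 (pow_le_of_le_one hr0 hr1 (by norm_num)) 1 zero_le_one (by linarith)
  have hp := mul_pos (pow_pos hT 3) (H.hψ.trans_le H.hψΛ)
  refine ⟨H.wlo, H.wpos, by linarith [(abs_le.1 H.th).2, H.T2], ?_,
    fun h => ⟨H.pos h, hL ▸ H.i0 h, by linarith [H.i0 h, H.TΛ, H.T2]⟩,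
    fun h => by linarith [H.i1 h zero_le_two zero_le_three B1],
    fun h => by linarith [H.i1 h (by norm_num) (by norm_num) B2],
    fun k h1 h2 => ⟨?_, H.g1 h1 h2 (hk2 k h1 h2) hm (abs_nonneg _) (by norm_num) (by norm_num)
      (by norm_num) (by norm_num) B1, H.g1 h1 h2 (hk2 k h1 h2) hm (abs_nonneg _) (by norm_num)
      (by norm_num) (by norm_num) (by norm_num) B2⟩, fun k h1 h2 h => ?_, fun h => ?_,
    fun k h1 h2 h => H.out h1 h2 (hk2 k h1 h2) (by nlinarith),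
    fun k h1 h2 => H.all h1 h2 (hk2 k h1 h2) (hk3 k h1 h2)⟩
  · rw [mul_assoc (2 : ℝ), mul_assoc (3 : ℝ), mul_div_assoc (3 : ℝ)] at B1
    nlinarith [H.Q1, H.y1, abs_nonneg (deriv (Th0 q e0 T δ) r)]
  · have e1 : 0 ≤ r * (T ^ 3 / k ^ 9 + k ^ 15) := by positivity
    linarith [H.g0 h1 h2 (hk2 k h1 h2)]
  · have e1 : k ≤ 1 / 10 ^ 6 := (pow_le_pow_iff_left₀ h1.le (by norm_num)
      (show 8 ≠ 0 by norm_num)).1 (by linarith)
    have e2 := pow_le_pow_left₀ (hT.le.trans H.hs0) (show _ ≤ 1.01 * T by linarith [H.hs1]) 3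
    have e3 := mul_le_mul e2 (hk3 k h1 h2 e1) (by positivity) (by positivity)
    have e4 := mul_le_mul_of_nonneg_left ((le_abs_self _).trans B0) h1.le
    nlinarith [pow_pos hT 3]
  · have e0' : 0 ≤ 3 / (2 * mm q) := by positivity
    have e1 := B3 h
    rcases le_total r (T ^ 2) with h' | h'
    · have e2 := mul_le_mul_of_nonneg_left
        (InitB_two he0 he1 (pow_pos hT 2) hu (by linarith)) (pow_pos hT 3).le
      have e3 : lam2 e0 T ≤ Th0 q e0 T δ r := by linarith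
      have e4 : 0 < lam2 e0 T := by linarith
      rw [A0, Real.rpow_add e4, Real.rpow_one]
      exact mul_le_mul e3 (Real.rpow_le_rpow e4.le (by linarith) e0') (by positivity) (H.pos h).le
    · have hr : 0 < r := (pow_pos hT 2).trans_le h'
      have e2 := mul_le_mul_of_nonneg_left
        (InitB_two he0 he1 hr hu (by linarith)) (pow_pos hT 3).le
      have e3 : T ^ 3 * r ^ (-(e0 / 2)) / 4 ≤ Th0 q e0 T δ r := by
        linarith [mul_pos (pow_pos hT 3) (Real.rpow_pos_of_pos hr (-(e0 / 2)))]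
      have e4 : 3 / mm q ≤ e0 := by
        rw [div_le_iff₀ (by linarith)]
        linarith [hd.lo]
      refine (A0_le hd hT hT2).trans (le_trans ?_ (mul_le_mul e3
        (Real.rpow_le_rpow hr0 (by linarith [H.pos h]) e0') (by positivity) (H.pos h).le))
      have e5 : T ^ ((3 / mm q - e0) / 2) ≤ r ^ ((3 / mm q - e0) / 2) :=
        Real.rpow_le_rpow_of_nonpos hr h (by linarith)
      rw [show (3 / mm q - e0) / 2 = -(e0 / 2) + 3 / (2 * mm q) by field_simp; ring,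
        Real.rpow_add hr] at e5
      rw [show (3 / mm q - e0) / 2 = -(e0 / 2) + 3 / (2 * mm q) by field_simp; ring,
        Real.rpow_add hT, Real.rpow_ofNat]
      nlinarith [mul_le_mul_of_nonneg_left e5 (pow_pos hT 3).le]

end Vale.Agent.P244
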