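import Vale.Agent.P244C.InitB

open Set MeasureTheory Filter Topology
open scoped ContDiff

noncomputable section

namespace Vale.Agent.P244

theorem exists_par : ∃ D : Par → Fin 3 → ℝ, (∀ j, ContDiff ℝ ∞ fun d => D d j) ∧
    (∀ d j, |D d j| ≤ 3) ∧ ∀ d, ‖d‖ ≤ 2 → ∀ j, D d j = d j := by
  let φ : ContDiffBump (0 : Par) := ⟨2, 3, by norm_num, by norm_num⟩
  refine ⟨fun d j => φ d * d j, fun j => φ.contDiff.mul (by fun_prop), fun d j => ?_,
    fun d hd j => ?_⟩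
  · rcases le_total 3 ‖d‖ with h | h
    · simp [φ.zero_of_le_dist (show φ.rOut ≤ dist d 0 by simpa using h)]
    · rw [abs_mul, abs_of_nonneg φ.nonneg]
      exact (mul_le_of_le_one_left (abs_nonneg _) φ.le_one).trans
        ((PiLp.norm_apply_le d j).trans h)
  · simp [φ.one_of_mem_closedBall (show d ∈ Metric.closedBall 0 φ.rIn by simpa using hd)]

theorem initS_th {q : ℕ} {e0 T : ℝ} {D : Par → Fin 3 → ℝ} (hT : 0 < T)
    (hD : ∀ j, ContDiff ℝ ∞ fun d => D d j) (d : Par) {r : ℝ} (hr : 0 ≤ r) :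
    ContDiffAt ℝ ∞ (fun y : Par × ℝ => Th0 q e0 T (D y.1) y.2) (d, r) := by
  have h1 : ∀ j, ContDiff ℝ ∞ fun y : Par × ℝ => lag (al q e0) j (y.2 / (4 * z0 q * T)) :=
    fun j => (lag_smooth j).comp (contDiff_snd.div_const _)
  have h2 : ContDiff ℝ ∞ fun y : Par × ℝ => Ph q e0 T (D y.1) y.2 :=
    contDiff_const.mul ((h1 3).add (contDiff_const.mul (ContDiff.sum fun j _ =>
      ((hD j).comp contDiff_fst).mul (h1 _))))
  exact h2.contDiffAt.mul ((contDiffAt_snd.add contDiffAt_const).rpow_const_of_ne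
    (add_pos_of_nonneg_of_pos hr (pow_pos hT 2)).ne')

theorem ini_smooth (q : ℕ) : ∃ τ1 > (0 : ℝ), ∀ (e0 T : ℝ) (D : Par → Fin 3 → ℝ), Dim q e0 →
    0 < T → T ≤ τ1 → (∀ j, ContDiff ℝ ∞ fun d => D d j) → (∀ d j, |D d j| ≤ 3) →
    (∀ d, ∀ r ∈ Icc (0 : ℝ) 1,
      ContDiffAt ℝ ∞ (fun y : Par × ℝ => Z0 q e0 T (D y.1) y.2) (d, r) ∧
      ContDiffAt ℝ ∞ (fun y : Par × ℝ => F0 q e0 T (D y.1) y.2) (d, r) ∧
      0 < Z0 q e0 T (D d) r) ∧ ∀ d, Z0 q e0 T (D d) 0 = 1 := by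
  obtain ⟨τ1, h0, h⟩ := th0_bd q
  refine ⟨τ1, h0, fun e0 T D hd hT hT1 hD hb => ⟨fun d r hr => ?_, fun d => by simp [Z0]⟩⟩
  have hB := h e0 T (D d) hd hT hT1 (hb d) r hr
  have h1 := contDiffAt_snd.add (initS_th (q := q) (e0 := e0) hT hD d hr.1)
  refine ⟨contDiffAt_const.sub (contDiffAt_const.mul (contDiffAt_snd.div h1 hB.wpos.ne')),
    (h1.log hB.wpos.ne').div_const 2, ?_⟩
  have h2 : r / (r + Th0 q e0 T (D d) r) ≤ 2 := by
    rw [div_le_iff₀ hB.wpos]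
    linarith [hB.wlo, hr.1]
  have h3 : 2 / (mm q + 2) ≤ 1 / 4 := by
    have := hd.hq
    rw [div_le_iff₀ (by linarith)]
    linarith
  have h4 := mul_le_mul h3 h2 (div_nonneg hr.1 hB.wpos.le) (by norm_num)
  rw [Z0]
  linarith

end Vale.Agent.P244
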