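import Vale.Agent.P244C.Defs

open Set MeasureTheory Filter Topology
open scoped ContDiff

noncomputable section

namespace Vale.Agent.P244

/-- inverse of an increasing change of variable and the substitution rule -/
theorem inv_sub {s : ℝ → ℝ} {x1 : ℝ} (h1 : 0 < x1) (hs : ContDiff ℝ ∞ s) (h0 : s 0 = 0)
    (hd : ∀ x ∈ Ioc 0 x1, 0 < deriv s x) : ∃ κ : ℝ → ℝ,
      (∀ y ∈ Ioo 0 (s x1), κ y ∈ Ioo 0 x1 ∧ s (κ y) = y ∧ ContDiffAt ℝ ∞ κ y ∧
        HasDerivAt κ (deriv s (κ y))⁻¹ y) ∧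
      (∀ x ∈ Ioo 0 x1, s x ∈ Ioo 0 (s x1) ∧ κ (s x) = x) ∧
      ∀ g : ℝ → ℝ, ∫ x in (0 : ℝ)..x1, g x * deriv s x = ∫ y in Ioo 0 (s x1), g (κ y) := by
  have hmono : StrictMonoOn s (Icc 0 x1) :=
    strictMonoOn_of_deriv_pos (convex_Icc _ _) hs.continuous.continuousOn fun x hx => by
      rw [interior_Icc] at hx
      exact hd x ⟨hx.1, hx.2.le⟩
  have hinj : InjOn s (Ioo 0 x1) := hmono.injOn.mono Ioo_subset_Icc_self
  have hmap : ∀ x ∈ Ioo 0 x1, s x ∈ Ioo 0 (s x1) := fun x hx =>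
    ⟨h0 ▸ hmono (left_mem_Icc.2 h1.le) (Ioo_subset_Icc_self hx) hx.1,
      hmono (Ioo_subset_Icc_self hx) (right_mem_Icc.2 h1.le) hx.2⟩
  have him : s '' Ioo 0 x1 = Ioo 0 (s x1) := by
    refine Subset.antisymm (image_subset_iff.2 hmap) ?_
    have := intermediate_value_Ioo h1.le hs.continuous.continuousOn
    rwa [h0] at this
  have hleft : ∀ x ∈ Ioo 0 x1, Function.invFunOn s (Ioo 0 x1) (s x) = x :=
    fun x hx => hinj.leftInvOn_invFunOn hx
  have hder : ∀ x, HasStrictDerivAt s (deriv s x) x := fun x =>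
    hs.contDiffAt.hasStrictDerivAt (by simp)
  refine ⟨Function.invFunOn s (Ioo 0 x1), fun y hy => ?_, fun x hx => ⟨hmap x hx, hleft x hx⟩,
    fun g => ?_⟩
  · rw [← him] at hy
    obtain ⟨x, hx, rfl⟩ := hy
    have hne : deriv s x ≠ 0 := (hd x ⟨hx.1, hx.2.le⟩).ne'
    have hev : ∀ᶠ x' in 𝓝 x, Function.invFunOn s (Ioo 0 x1) (s x') = x' :=
      Filter.eventually_of_mem (isOpen_Ioo.mem_nhds hx) hleft
    rw [hleft x hx]
    refine ⟨hx, rfl, ?_, ((hder x).to_local_left_inverse hne hev).hasDerivAt⟩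
    have hf := ((hder x).hasStrictFDerivAt_equiv hne).hasFDerivAt
    have hn : (∞ : WithTop ℕ∞) ≠ 0 := by simp
    exact (hs.contDiffAt.to_localInverse hf hn).congr_of_eventuallyEq
      ((hs.contDiffAt.hasStrictFDerivAt' hf hn).localInverse_unique hev)
  · rw [← him, integral_image_eq_integral_abs_deriv_smul measurableSet_Ioo
      (fun x _ => (hder x).hasDerivAt.hasDerivWithinAt) hinj, intervalIntegral.integral_of_le h1.le,
      integral_Ioc_eq_integral_Ioo]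
    refine setIntegral_congr_fun measurableSet_Ioo fun x hx => ?_
    simp only [hleft x hx, abs_of_pos (hd x ⟨hx.1, hx.2.le⟩), smul_eq_mul, mul_comm]

end Vale.Agent.P244
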