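import Vale.Agent.P244C.LagA

/-! Growth classes on the half line and bilinearity of `ip`. -/

open Set MeasureTheory Filter Topology
open scoped ContDiff

noncomputable section

namespace Vale.Agent.P244

/-- multiplicative growth bound -/
def gB (a b : ℕ) (ξ : ℝ) : ℝ := if ξ ≤ 1 then ξ⁻¹ ^ a else ξ ^ b

variable {a b c d : ℕ} {α ξ : ℝ} {f g h v : ℝ → ℝ}

theorem gB_mul : gB a b ξ * gB c d ξ = gB (a + c) (b + d) ξ := by
  unfold gB
  split_ifs <;> rw [pow_add]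

theorem gB_mono (h0 : 0 < ξ) (ha : a ≤ c) (hb : b ≤ d) : gB a b ξ ≤ gB c d ξ := by
  unfold gB
  split_ifs with h
  · exact pow_le_pow_right₀ ((one_le_inv₀ h0).2 h) ha
  · exact pow_le_pow_right₀ (not_le.1 h).le hb

theorem gB_one (h0 : 0 < ξ) : 1 ≤ gB a b ξ := by
  simpa [gB] using gB_mono (a := 0) (b := 0) (c := a) (d := b) h0 a.zero_le b.zero_le

theorem gB_le (h0 : 0 < ξ) : gB a b ξ ≤ ξ⁻¹ ^ a + ξ ^ b := by
  unfold gB
  split_ifs
  · exact le_add_of_nonneg_right (by positivity)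
  · exact le_add_of_nonneg_left (by positivity)

theorem le_gB (h0 : 0 < ξ) : ξ⁻¹ ^ a + ξ ^ b ≤ 2 * gB a b ξ := by
  have h1 := gB_one (a := a) (b := b) h0
  unfold gB at h1 ⊢
  split_ifs at h1 ⊢ with h
  · linarith [pow_le_one₀ (n := b) h0.le h]
  · linarith [pow_le_one₀ (n := a) (inv_nonneg.2 h0.le) (inv_le_one_of_one_le₀ (not_le.1 h).le)]

/-- continuous functions with controlled growth -/
def Gw (a b : ℕ) (f : ℝ → ℝ) : Prop :=
  ContinuousOn f (Ioi 0) ∧ ∃ C : ℝ, 0 ≤ C ∧ ∀ ξ > (0 : ℝ), |f ξ| ≤ C * gB a b ξ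

theorem Gw.of (hc : ContinuousOn f (Ioi 0)) {C : ℝ}
    (hb : ∀ ξ > (0 : ℝ), |f ξ| ≤ C * (ξ⁻¹ ^ a + ξ ^ b)) : Gw a b f :=
  ⟨hc, 2 * |C|, by positivity, fun ξ h0 => (hb ξ h0).trans (by
    have := mul_le_mul (le_abs_self C) (le_gB (a := a) (b := b) h0) (by positivity) (abs_nonneg C)
    linarith)⟩

theorem Gw.bd (hf : Gw a b f) : ∃ C : ℝ, 0 ≤ C ∧ ∀ ξ > (0 : ℝ), |f ξ| ≤ C * (ξ⁻¹ ^ a + ξ ^ b) := by
  obtain ⟨-, C, h0, h⟩ := hf
  exact ⟨C, h0, fun ξ h1 => (h ξ h1).trans (mul_le_mul_of_nonneg_left (gB_le h1) h0)⟩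

theorem Gw.mono (hf : Gw a b f) (ha : a ≤ c) (hb : b ≤ d) : Gw c d f := by
  obtain ⟨h1, C, h0, h⟩ := hf
  exact ⟨h1, C, h0, fun ξ h2 => (h ξ h2).trans (mul_le_mul_of_nonneg_left (gB_mono h2 ha hb) h0)⟩

theorem Gw.congr (hf : Gw a b f) (e : ∀ ξ > (0 : ℝ), g ξ = f ξ) : Gw a b g := by
  obtain ⟨h1, C, h0, h⟩ := hf
  exact ⟨h1.congr e, C, h0, fun ξ h2 => e ξ h2 ▸ h ξ h2⟩

theorem Gw.add (hf : Gw a b f) (hg : Gw a b g) : Gw a b fun ξ => f ξ + g ξ := by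
  obtain ⟨h1, C, h0, h⟩ := hf
  obtain ⟨h1', C', h0', h'⟩ := hg
  exact ⟨h1.add h1', C + C', by positivity, fun ξ h2 => (abs_add_le _ _).trans (by
    linarith [h ξ h2, h' ξ h2])⟩

theorem Gw.mul (hf : Gw a b f) (hg : Gw c d g) : Gw (a + c) (b + d) fun ξ => f ξ * g ξ := by
  obtain ⟨h1, C, h0, h⟩ := hf
  obtain ⟨h1', C', h0', h'⟩ := hg
  refine ⟨h1.mul h1', C * C', by positivity, fun ξ h2 => ?_⟩
  rw [abs_mul, ← gB_mul, mul_mul_mul_comm]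
  exact mul_le_mul (h ξ h2) (h' ξ h2) (abs_nonneg _) ((abs_nonneg _).trans (h ξ h2))

theorem Gw.const (r : ℝ) : Gw a b fun _ => r :=
  ⟨continuousOn_const, |r|, abs_nonneg r, fun _ h => le_mul_of_one_le_right (abs_nonneg r) (gB_one h)⟩

theorem Gw.cmul (hf : Gw a b f) (r : ℝ) : Gw a b fun ξ => r * f ξ := by
  simpa only [zero_add] using (Gw.const (a := 0) (b := 0) r).mul hf

theorem Gw.sub (hf : Gw a b f) (hg : Gw a b g) : Gw a b fun ξ => f ξ - g ξ :=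
  (hf.add (hg.cmul (-1))).congr fun _ _ => by ring

theorem Gw.sum {p : Fin 4 → ℝ → ℝ} (hp : ∀ j, Gw a b (p j)) (r : Fin 4 → ℝ) :
    Gw a b fun ξ => ∑ j, r j * p j ξ := by
  simp only [Fin.sum_univ_four]
  exact ((((hp 0).cmul _).add ((hp 1).cmul _)).add ((hp 2).cmul _)).add ((hp 3).cmul _)

theorem Gw.id : Gw 0 1 fun ξ => ξ :=
  Gw.of continuousOn_id (C := 1) fun ξ h => by rw [abs_of_pos h]; simp

theorem Gw.div (hc : ContinuousOn f (Ioi 0)) (hf : Gw a (b + 1) fun ξ => ξ * f ξ) :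
    Gw (a + 1) b f := by
  obtain ⟨-, C, h0, h⟩ := hf
  refine ⟨hc, C, h0, fun ξ h1 => le_of_mul_le_mul_left ?_ h1⟩
  have e : ξ * gB (a + 1) b ξ = gB a (b + 1) ξ := by
    unfold gB
    split_ifs
    · rw [pow_succ, mul_left_comm, mul_inv_cancel₀ h1.ne', mul_one]
    · ring
  have h2 := h ξ h1
  rwa [abs_mul, abs_of_pos h1, ← e, mul_left_comm] at h2

theorem Gw.int (hα : 10 ≤ α) (hf : Gw 4 6 f) (hg : Gw 4 6 g) :
    IntegrableOn (fun ξ => f ξ * g ξ * wt α ξ) (Ioi 0) := by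
  obtain ⟨C, -, h⟩ := (hf.mul hg).bd
  exact intg_wt hα (hf.mul hg).1 h

theorem Cls.cd (hv : Cls v) : ContinuousOn (deriv v) (Ioi 0) :=
  hv.sm.continuousOn_deriv_of_isOpen isOpen_Ioi le_rfl

theorem Cls.hd (hv : Cls v) (h0 : 0 < ξ) : HasDerivAt v (deriv v ξ) ξ :=
  ((hv.sm.differentiableOn one_ne_zero).differentiableAt (Ioi_mem_nhds h0)).hasDerivAt

theorem Cls.g0 (hv : Cls v) : Gw 1 4 v := by
  obtain ⟨C, h⟩ := hv.bd
  exact Gw.of hv.sm.continuousOn (C := C) fun ξ h0 => by simpa using (h ξ h0).1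

theorem Cls.g1 (hv : Cls v) : Gw 1 4 fun ξ => ξ * deriv v ξ := by
  obtain ⟨C, h⟩ := hv.bd
  exact Gw.of (continuousOn_id.mul hv.cd) (C := C) fun ξ h0 => by simpa using (h ξ h0).2

theorem Cls.g2 (hv : Cls v) : Gw 2 3 (deriv v) := Gw.div hv.cd hv.g1

theorem Cls.gw (hv : Cls v) : Gw 4 6 v := hv.g0.mono (by norm_num) (by norm_num)

theorem Cls.gw' (hv : Cls v) : Gw 4 6 (deriv v) := hv.g2.mono (by norm_num) (by norm_num)

theorem Cls.of (h1 : ContDiffOn ℝ 1 v (Ioi 0)) (h2 : Gw 1 4 v)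
    (h3 : Gw 1 4 fun ξ => ξ * deriv v ξ) : Cls v := by
  obtain ⟨C, c0, h⟩ := h2.bd
  obtain ⟨C', c0', h'⟩ := h3.bd
  refine ⟨h1, C + C', fun ξ h0 => ?_⟩
  have e1 := h ξ h0
  have e2 := h' ξ h0
  rw [pow_one] at e1 e2
  have e3 : 0 ≤ ξ⁻¹ + ξ ^ 4 := by positivity
  constructor <;> nlinarith [mul_nonneg c0 e3, mul_nonneg c0' e3]

theorem Prof.cls' {C τ : ℝ} {er : ℝ → ℝ} (h : Prof C τ v er) : Cls v := by
  have h1 : ContDiffOn ℝ 1 v (Ioi 0) := h.sm.of_le (by norm_num)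
  refine Cls.of h1 ((Gw.of (a := 1) (b := 3) h1.continuousOn fun ξ h0 => by
    simpa using h.b0 ξ h0).mono le_rfl (by norm_num)) ((Gw.of (a := 1) (b := 3)
      (continuousOn_id.mul (h1.continuousOn_deriv_of_isOpen isOpen_Ioi le_rfl)) fun ξ h0 => by
    simpa using h.b1 ξ h0).mono le_rfl (by norm_num))

theorem deriv_rem (hα : 10 ≤ α) (hv : Cls v) (h0 : 0 < ξ) :
    deriv (rem α v) ξ = deriv v ξ - ∑ j, co α j v * deriv (lag α j) ξ :=
  ((hv.hd h0).fun_sub (HasDerivAt.fun_sum fun j _ => ((lag_cls hα j).hd h0).const_mul _)).deriv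

theorem Cls.rem (hα : 10 ≤ α) (hv : Cls v) : Cls (rem α v) :=
  Cls.of (hv.sm.sub (ContDiffOn.sum fun j _ => contDiffOn_const.mul (lag_cls hα j).sm))
    (hv.g0.sub (Gw.sum (fun j => (lag_cls hα j).g0) _))
    ((hv.g1.sub (Gw.sum (fun j => (lag_cls hα j).g1) fun j => co α j v)).congr fun ξ h0 => by
      rw [deriv_rem hα hv h0, mul_sub, Finset.mul_sum]
      simp only [mul_left_comm])

theorem ip_congr (e : ∀ ξ > (0 : ℝ), f ξ = g ξ) : ip α h f = ip α h g :=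
  setIntegral_congr_fun measurableSet_Ioi fun ξ h0 => by simp only [e ξ h0]

theorem ip_add (hα : 10 ≤ α) (hh : Gw 4 6 h) (hf : Gw 4 6 f) (hg : Gw 4 6 g) :
    ip α h (fun ξ => f ξ + g ξ) = ip α h f + ip α h g := by
  unfold ip
  rw [← integral_add (hh.int hα hf) (hh.int hα hg)]
  simp only [mul_add, add_mul]

theorem ip_sub (hα : 10 ≤ α) (hh : Gw 4 6 h) (hf : Gw 4 6 f) (hg : Gw 4 6 g) :
    ip α h (fun ξ => f ξ - g ξ) = ip α h f - ip α h g := by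
  unfold ip
  rw [← integral_sub (hh.int hα hf) (hh.int hα hg)]
  simp only [mul_sub, sub_mul]

theorem ip_cmul (r : ℝ) : ip α h (fun ξ => r * f ξ) = r * ip α h f := by
  unfold ip
  rw [← integral_const_mul]
  simp only [mul_assoc, mul_left_comm]

theorem ip_sum (hα : 10 ≤ α) (hh : Gw 4 6 h) {p : Fin 4 → ℝ → ℝ} (hp : ∀ j, Gw 4 6 (p j))
    (r : Fin 4 → ℝ) : ip α h (fun ξ => ∑ j, r j * p j ξ) = ∑ j, r j * ip α h (p j) := by
  simp only [← ip_cmul]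
  unfold ip
  rw [← integral_finsetSum _ fun j _ => hh.int hα ((hp j).cmul _)]
  simp only [Finset.mul_sum, Finset.sum_mul]

theorem ip_rem (hα : 10 ≤ α) (hh : Gw 4 6 h) (hv : Cls v) :
    ip α h (rem α v) = ip α h v - ∑ j, co α j v * ip α h (lag α j) := by
  rw [← ip_sum hα hh fun j => (lag_cls hα j).gw]
  exact ip_sub hα hh hv.gw (Gw.sum (fun j => (lag_cls hα j).gw) _)

theorem nrm_co (hα : 10 ≤ α) (j : Fin 4) (f : ℝ → ℝ) :
    ip α (lag α j) (lag α j) * co α j f = ip α f (lag α j) :=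
  mul_div_cancel₀ _ (lag_nrm hα j).ne'

theorem rem_orth (hα : 10 ≤ α) (hv : Cls v) (j : Fin 4) : ip α (rem α v) (lag α j) = 0 := by
  rw [ip_comm, ip_rem hα (lag_cls hα j).gw hv, Finset.sum_eq_single j
    (fun i _ hi => by rw [lag_orth hα hi.symm, mul_zero]) (by simp), mul_comm, nrm_co hα, ip_comm,
    sub_self]

end Vale.Agent.P244
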