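import Vale.Agent.P244C.ErrC
import Vale.Agent.P244C.Inv

open Set MeasureTheory Filter Topology
open scoped ContDiff

noncomputable section

namespace Vale.Agent.P244

section aux

variable {q : ℕ} {e0 K T T' t x1 s1 : ℝ} {S : Pre} {u : ℝ × ℝ → ℝ} {κ : ℝ → ℝ}

/-- functions that vanish in the far region -/
def linkA_far (K T' : ℝ) (S : Pre) (u : ℝ × ℝ → ℝ) : Prop :=
  ∀ p ∈ Om T', 1 / K < S.h p → u p = 0

theorem linkA_ev (hS : IsSol q T' S) (hu : linkA_far K T' S u) {p : ℝ × ℝ} (hp : p ∈ Om T')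
    (h : 1 / K < S.h p) : u =ᶠ[𝓝 p] fun _ => 0 := by
  filter_upwards [isOpen_om.mem_nhds hp,
    ((sm_h hS).ca hp).continuousAt.eventually (lt_mem_nhds h)] with p' h1 h2
  exact hu p' h1 h2

theorem linkA_far_Dx (hS : IsSol q T' S) (hu : linkA_far K T' S u) :
    linkA_far K T' S (S.Dx q T u) := fun p hp h => by
  have h1 : Tendsto (fun x => (p.1, x)) (𝓝 p.2) (𝓝 p) :=
    (continuous_const.prodMk continuous_id).continuousAt
  have : S.Ds u p = 0 :=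
    (Ds_congr (v := fun _ => 0) (h1.eventually (linkA_ev hS hu hp h))).trans (Ds_const 0)
  rw [Pre.Dx, this, zero_div]

theorem linkA_far_Dτ (hS : IsSol q T' S) (hu : linkA_far K T' S u) :
    linkA_far K T' S (S.Dτ q T u) := fun p hp h => by
  rw [Pre.Dτ, linkA_far_Dx hS hu p hp h, Dt_congr (linkA_ev hS hu hp h), Dt_const]
  simp

theorem linkA_far_Vt (hK : 10 ≤ K) : linkA_far K T' S (S.Vt e0 K T) := fun p _ h => by
  have h1 : 1 < K * S.h p := by rwa [div_lt_iff₀' (by linarith)] at h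
  rw [Pre.Vt, cut, Real.smoothTransition.zero_of_nonpos (by nlinarith)]
  simp

theorem linkA_far_erf (hS : IsSol q T' S) (hK : 10 ≤ K) :
    linkA_far K T' S (S.erf q e0 K T) := fun p hp h => by
  have h0 := linkA_far_Vt (e0 := e0) (T := T) (T' := T') (S := S) hK
  rw [Pre.erf, linkA_far_Dτ hS h0 p hp h, linkA_far_Dx hS (linkA_far_Dx hS h0) p hp h,
    linkA_far_Dx hS h0 p hp h, h0 p hp h]
  simp

theorem linkA_ca_Dx (hd : Dim q e0) (hS : IsSol q T' S) (hT : T' ≤ T) {p : ℝ × ℝ}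
    (hp : p ∈ Om T') (h0 : dx (S.xi q T) p ≠ 0) (hu : CA u p) : CA (S.Dx q T u) p :=
  ContDiffAt.div (hu.Ds hS hp) (((sm_xi hd hS hT).ca hp).Ds hS hp)
    (div_ne_zero h0 (hS.posℓ _ ⟨hp.1.1.le, hp.1.2⟩).ne')

theorem linkA_ca_erf (hd : Dim q e0) (hS : IsSol q T' S) (hT : T' ≤ T) {p : ℝ × ℝ}
    (hp : p ∈ Om T') (h0 : dx (S.xi q T) p ≠ 0) : CA (S.erf q e0 K T) p := by
  have h1 : CA (S.Vt e0 K T) p := (sm_Vt hS hT).ca hp
  have h2 := linkA_ca_Dx hd hS hT hp h0 h1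
  have h3 := linkA_ca_Dx hd hS hT hp h0 h2
  have h4 := (sm_xi hd hS hT).ca hp
  exact (((contDiffAt_const.sub contDiffAt_fst).mul ((h1.Dt hS hp).sub
    (ContDiffAt.mul h2 (h4.Dt hS hp)))).sub ((ContDiffAt.mul h4 h3).add
      ((contDiffAt_const.sub h4).mul h2))).sub (contDiffAt_const.mul h1)

/-- extension by zero of a slice in the self-similar variable -/
def linkA_ext (t s1 : ℝ) (κ : ℝ → ℝ) (u : ℝ × ℝ → ℝ) (y : ℝ) : ℝ :=
  if y < s1 then u (t, κ y) else 0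

theorem linkA_ext_ev {y : ℝ} (hy : y < s1) :
    linkA_ext t s1 κ u =ᶠ[𝓝 y] fun y => u (t, κ y) := by
  filter_upwards [Iio_mem_nhds hy] with z hz
  exact if_pos hz

theorem linkA_ext_ev0 (h : ∀ y ∈ Ioo (s1 / 4) s1, u (t, κ y) = 0) {y : ℝ} (hy : s1 / 4 < y) :
    linkA_ext t s1 κ u =ᶠ[𝓝 y] fun _ => 0 := by
  filter_upwards [Ioi_mem_nhds hy] with z hz
  rw [linkA_ext]
  split_ifs with h1
  exacts [h z ⟨hz, h1⟩, rfl]

theorem linkA_refl (hS : IsSol q T' S) (x : ℝ) :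
    S.Vt e0 K T (t, Real.pi - x) = S.Vt e0 K T (t, x) ∧
      S.xi q T (t, Real.pi - x) = S.xi q T (t, x) := by
  simp only [Pre.Vt, Pre.xi, Pre.mono, Pre.Θ, Pre.f, Pre.G, h_refl hS, hS.reflF, and_self]

end aux

theorem linkA {q : ℕ} {e0 K T T' C t : ℝ} {S : Pre} (hd : Dim q e0) (hS : IsSol q T' S)
    (hT : T' ≤ T) (ht : t ∈ Ioo 0 T') (hK : 10 ≤ K) (hC : 0 ≤ C) (hsl : Slice K S t)
    (hb : ∀ x ∈ Ioo 0 (Real.pi / 2), S.h (t, x) ≤ 2 / K →
      |S.Vt e0 K T (t, x)| ≤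
          C * (T - t) ^ (-(1 / 8) : ℝ) * ((S.xi q T (t, x))⁻¹ + S.xi q T (t, x) ^ 3) ∧
        |S.xi q T (t, x) * S.Dx q T (S.Vt e0 K T) (t, x)| ≤
          C * (T - t) ^ (-(1 / 8) : ℝ) * ((S.xi q T (t, x))⁻¹ + S.xi q T (t, x) ^ 3) ∧
        |S.xi q T (t, x) ^ 2 * S.Dx q T (S.Dx q T (S.Vt e0 K T)) (t, x)| ≤
          C * (T - t) ^ (-(1 / 8) : ℝ) * ((S.xi q T (t, x))⁻¹ + S.xi q T (t, x) ^ 3) ∧
        |S.erf q e0 K T (t, x)| ≤
          C * (T - t) ^ (3 / 8 : ℝ) * ((S.xi q T (t, x))⁻¹ ^ 3 + S.xi q T (t, x) ^ 4)) :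
    ∃ v er : ℝ → ℝ, Prof C (T - t) v er ∧
      (∀ x ∈ Ioo 0 Real.pi, S.h (t, x) ≤ 1 / K → v (S.xi q T (t, x)) = S.Vt e0 K T (t, x)) ∧
      ∀ Ψ : ℝ → ℝ → ℝ → ℝ, (∀ y, Ψ y 0 0 = 0) →
        ∫ x in (0 : ℝ)..Real.pi / 2, Ψ (S.xi q T (t, x)) (S.Vt e0 K T (t, x))
            (S.Dτ q T (S.Vt e0 K T) (t, x)) * S.xix q T (t, x) =
          ∫ y in Ioi (0 : ℝ), Ψ y (v y) (LL (al q e0) v y + 3 * v y + er y) := by
  obtain ⟨x1, hx1, hh1, ha, hfar⟩ := hsl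
  have hτ : 0 < T - t := by linarith [ht.2]
  have hm : 0 < mm q := lt_of_lt_of_le (by norm_num) hd.hq
  have hc : 0 < 4 * z0 q * (T - t) := by unfold z0; positivity
  have ht' : t ∈ Ico 0 T' := ⟨ht.1.le, ht.2⟩
  have hK0 : 0 < K := by linarith
  have hpi := Real.pi_pos
  have om : ∀ x, 0 < x → x ≤ Real.pi / 2 → (t, x) ∈ Om T' := fun x h1 h2 =>
    ⟨ht, h1, by linarith⟩
  have hh : ContDiff ℝ ∞ fun x => S.h (t, x) := contDiffOn_univ.1
    ((h_smooth hS).comp (contDiff_const.prodMk contDiff_id).contDiffOn fun x _ => ⟨ht', trivial⟩)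
  have hs : ContDiff ℝ ∞ fun x => S.xi q T (t, x) :=
    (hh.pow 2).div_const (4 * z0 q * (T - t))
  have hds : ∀ x, deriv (fun x => S.xi q T (t, x)) x = S.xix q T (t, x) := fun x => by
    have h1 := ((hh.differentiable (by simp) x).hasDerivAt.pow 2).div_const (4 * z0 q * (T - t))
    have h2 : deriv (fun x => S.h (t, x)) x = S.ℓ t * S.a (t, x) :=
      dx_eq_Ds (u := S.h) (p := (t, x)) hS ht'
    refine h1.deriv.trans ?_
    rw [h2, Pre.xix]
    push_cast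
    ring
  have hpos : ∀ x ∈ Ioc 0 x1, 0 < deriv (fun x => S.xi q T (t, x)) x := fun x hx => by
    have h1 := h_pos hS (om_sub_wd (om x hx.1 (hx.2.trans hx1.2.le)))
    have h2 : 0 < S.a (t, x) := lt_of_lt_of_le (by norm_num) (ha x hx)
    have h3 := hS.posℓ t ht'
    rw [hds, Pre.xix]
    positivity
  obtain ⟨κ, k1, k2, k3⟩ := inv_sub hx1.1 hs (by simp [Pre.xi, Pre.h]) hpos
  obtain ⟨s1, hs1⟩ : ∃ s1, s1 = S.xi q T (t, x1) := ⟨_, rfl⟩
  simp only [← hs1] at k1 k2 k3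
  have e1 : s1 = (2 / K) ^ 2 / (4 * z0 q * (T - t)) := by rw [hs1, Pre.xi, hh1]
  have s0 : 0 < s1 := by rw [e1]; positivity
  have omk : ∀ y ∈ Ioo 0 s1, (t, κ y) ∈ Om T' := fun y hy =>
    om _ (k1 y hy).1.1 ((k1 y hy).1.2.trans hx1.2).le
  have dxk : ∀ y ∈ Ioo 0 s1, dx (S.xi q T) (t, κ y) ≠ 0 := fun y hy =>
    (hpos _ ⟨(k1 y hy).1.1, (k1 y hy).1.2.le⟩).ne'
  have far : ∀ u, linkA_far K T' S u → ∀ y ∈ Ioo (s1 / 4) s1, u (t, κ y) = 0 := by
    intro u hu y hy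
    have hy' : y ∈ Ioo 0 s1 := ⟨by linarith [hy.1], hy.2⟩
    refine hu _ (omk y hy') (lt_of_pow_lt_pow_left₀ 2 (h_pos hS (om_sub_wd (omk y hy'))).le ?_)
    have h1 := hy.1
    rw [← (k1 y hy').2.1, e1, Pre.xi, div_right_comm, div_lt_div_iff_of_pos_right hc] at h1
    refine lt_of_eq_of_lt ?_ h1
    ring
  have near : ∀ y ∈ Ioo 0 s1, S.h (t, κ y) ≤ 2 / K := fun y hy => by
    have h1 := hy.2
    rw [← (k1 y hy).2.1, e1, Pre.xi, div_lt_div_iff_of_pos_right hc] at h1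
    exact (lt_of_pow_lt_pow_left₀ 2 (by positivity) h1).le
  have sm : ∀ u, linkA_far K T' S u → (∀ y ∈ Ioo 0 s1, CA u (t, κ y)) → ∀ y > (0 : ℝ),
      ContDiffAt ℝ ∞ (linkA_ext t s1 κ u) y := by
    intro u hu hc y hy
    rcases lt_or_ge y s1 with h | h
    · exact (ContDiffAt.comp (g := u) (f := fun y => (t, κ y)) y (hc y ⟨hy, h⟩)
        (contDiffAt_const.prodMk (k1 y ⟨hy, h⟩).2.2.1)).congr_of_eventuallyEq (linkA_ext_ev h)
    · exact contDiffAt_const.congr_of_eventuallyEq (linkA_ext_ev0 (far u hu) (by linarith))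
  have der : ∀ u, linkA_far K T' S u → (∀ y ∈ Ioo 0 s1, CA u (t, κ y)) → ∀ y > (0 : ℝ),
      deriv (linkA_ext t s1 κ u) y = linkA_ext t s1 κ (S.Dx q T u) y := by
    intro u hu hc y hy
    rcases lt_or_ge y s1 with h | h
    · have h1 := HasDerivAt.comp y (h₂ := fun x => u (t, x)) (h := κ)
        (hc y ⟨hy, h⟩).xa.hasDerivAt (k1 y ⟨hy, h⟩).2.2.2
      rw [(linkA_ext_ev h).deriv_eq, linkA_ext, if_pos h]
      refine h1.deriv.trans ?_
      rw [Pre.Dx, Pre.Ds, Pre.Ds, div_div_div_cancel_right₀ (hS.posℓ t ht').ne', div_eq_mul_inv]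
      rfl
    · rw [(linkA_ext_ev0 (far u hu) (by linarith)).deriv_eq, linkA_ext, if_neg (not_lt.2 h),
        deriv_const]
  have f0 := linkA_far_Vt (e0 := e0) (T := T) (T' := T') (S := S) hK
  have f1 := linkA_far_Dx (T := T) hS f0
  have c0 : ∀ y ∈ Ioo 0 s1, CA (S.Vt e0 K T) (t, κ y) := fun y hy => (sm_Vt hS hT).ca (omk y hy)
  have c1 : ∀ y ∈ Ioo 0 s1, CA (S.Dx q T (S.Vt e0 K T)) (t, κ y) := fun y hy =>
    linkA_ca_Dx hd hS hT (omk y hy) (dxk y hy) (c0 y hy)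
  have d1 := der _ f0 c0
  have d2 : ∀ y > (0 : ℝ), deriv (deriv (linkA_ext t s1 κ (S.Vt e0 K T))) y
      = linkA_ext t s1 κ (S.Dx q T (S.Dx q T (S.Vt e0 K T))) y := fun y hy => by
    rw [← der _ f1 c1 y hy]
    exact Filter.EventuallyEq.deriv_eq (Filter.eventually_of_mem (Ioi_mem_nhds hy) d1)
  have hb' := fun y (hy : y ∈ Ioo 0 s1) =>
    hb (κ y) ⟨(k1 y hy).1.1, (k1 y hy).1.2.trans hx1.2⟩ (near y hy)
  refine ⟨linkA_ext t s1 κ (S.Vt e0 K T), linkA_ext t s1 κ (S.erf q e0 K T),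
    ⟨fun y hy => ((sm _ f0 c0 y hy).of_le (by norm_cast)).contDiffWithinAt,
      fun y hy => (sm _ (linkA_far_erf hS hK) (fun y hy =>
        linkA_ca_erf hd hS hT (omk y hy) (dxk y hy)) y hy).continuousAt.continuousWithinAt,
      fun y hy => ?_, fun y hy => ?_, fun y hy => ?_, fun y hy => ?_⟩, ?_, fun Ψ hΨ => ?_⟩
  · rw [linkA_ext]
    split_ifs with h
    · have := (hb' y ⟨hy, h⟩).1
      rwa [(k1 y ⟨hy, h⟩).2.1] at this
    · rw [abs_zero]; positivity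
  · rw [d1 y hy, linkA_ext]
    split_ifs with h
    · have := (hb' y ⟨hy, h⟩).2.1
      rwa [(k1 y ⟨hy, h⟩).2.1] at this
    · rw [mul_zero, abs_zero]; positivity
  · rw [d2 y hy, linkA_ext]
    split_ifs with h
    · have := (hb' y ⟨hy, h⟩).2.2.1
      rwa [(k1 y ⟨hy, h⟩).2.1] at this
    · rw [mul_zero, abs_zero]; positivity
  · rw [linkA_ext]
    split_ifs with h
    · have := (hb' y ⟨hy, h⟩).2.2.2
      rwa [(k1 y ⟨hy, h⟩).2.1] at this
    · rw [abs_zero]; positivity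
  · have key : ∀ x, 0 < x → x ≤ Real.pi / 2 → S.h (t, x) ≤ 1 / K →
        linkA_ext t s1 κ (S.Vt e0 K T) (S.xi q T (t, x)) = S.Vt e0 K T (t, x) := by
      intro x h1 h2 h3
      have h4 : 1 / K < 2 / K := div_lt_div_of_pos_right one_lt_two hK0
      have h5 : x < x1 := by
        rcases lt_trichotomy x x1 with h | h | h
        · exact h
        · rw [h, hh1] at h3; linarith
        · linarith [hfar x ⟨h, h2⟩]
      rw [linkA_ext, if_pos (k2 x ⟨h1, h5⟩).1.2, (k2 x ⟨h1, h5⟩).2]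
    intro x hx h
    rcases le_total x (Real.pi / 2) with h1 | h1
    · exact key x hx.1 h1 h
    · have := key (Real.pi - x) (by linarith [hx.2]) (by linarith) (by rwa [h_refl hS])
      rwa [(linkA_refl (e0 := e0) (K := K) hS x).1, (linkA_refl (e0 := e0) (K := K) hS x).2] at this
  · have h4 : 1 / K < 2 / K := div_lt_div_of_pos_right one_lt_two hK0
    have := k3 fun x => Ψ (S.xi q T (t, x)) (S.Vt e0 K T (t, x)) (S.Dτ q T (S.Vt e0 K T) (t, x))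
    simp only [hds] at this
    rw [intervalIntegral.integral_of_le (by linarith),
      setIntegral_eq_of_subset_of_forall_sdiff_eq_zero measurableSet_Ioc
        (Ioc_subset_Ioc_right hx1.2.le) fun x hx => ?_, ← intervalIntegral.integral_of_le hx1.1.le,
      this, setIntegral_eq_of_subset_of_forall_sdiff_eq_zero measurableSet_Ioi
        (Ioo_subset_Ioi_self : Ioo 0 s1 ⊆ Ioi 0) fun y hy => ?_]
    · refine setIntegral_congr_fun measurableSet_Ioo fun y hy => ?_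
      simp only [LL, d1 y hy.1, d2 y hy.1, linkA_ext, if_pos hy.2, Pre.erf, (k1 y hy).2.1]
      congr 1
      ring
    · have h1 : ¬ y < s1 := fun h => hy.2 ⟨hy.1, h⟩
      simp only [LL, d1 y hy.1, d2 y hy.1, linkA_ext, if_neg h1, mul_zero, add_zero, hΨ]
    · have h1 : x1 < x := not_le.1 fun h => hx.2 ⟨hx.1.1, h⟩
      have h2 := h4.trans (hfar x ⟨h1, hx.1.2⟩)
      have h3 := om x hx.1.1 hx.1.2
      rw [f0 _ h3 h2, linkA_far_Dτ hS f0 _ h3 h2, hΨ, zero_mul]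

end Vale.Agent.P244
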