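import Vale.Agent.P244C.Reg

open Set MeasureTheory Filter Topology
open scoped ContDiff

noncomputable section

namespace Vale.Agent.P244

variable {q : ℕ} {T t1 : ℝ} {S : Pre}

theorem mp_dd {v : ℝ → ℝ} {x : ℝ} (hc : ContinuousAt v x) (h : IsLocalMax v x) :
    deriv (deriv v) x ≤ 0 := by
  by_contra h1
  have h2 := isLocalMin_of_deriv_deriv_pos (not_le.1 h1) h.deriv_eq_zero hc
  have h3 : v =ᶠ[𝓝 x] fun _ => v x := by
    filter_upwards [h, h2] with y hy hy' using le_antisymm hy hy'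
  have h4 := h3.deriv.deriv_eq
  simp only [deriv_const', deriv_const] at h4
  exact h1 h4.le

theorem mp_max (hS : IsSol q T S) {u : ℝ × ℝ → ℝ} {p : ℝ × ℝ} (hp : p ∈ Om T) (hp1 : p.1 ≤ t1)
    (hu : CA u p) (h : ∀ᶠ y in 𝓝[Rg t1] p, u y ≤ u p) : 0 ≤ S.box q u p ∧ S.Ds u p = 0 := by
  rw [eventually_nhdsWithin_iff] at h
  have h1 : IsLocalMax (fun x => u (p.1, x)) p.2 := by
    have h2 : ∀ᶠ x in 𝓝 p.2, (p.1, x) ∈ Rg t1 → u (p.1, x) ≤ u p :=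
      (Continuous.prodMk_right p.1).continuousAt.eventually h
    filter_upwards [h2, Ioo_mem_nhds hp.2.1 hp.2.2] with x hx hx' using hx ⟨⟨hp.1.1.le, hp1⟩, hx'⟩
  have h2 : dx u p = 0 := h1.deriv_eq_zero
  have h3 := mp_dd hu.xa.continuousAt h1
  have h4 : 0 ≤ dt u p := by
    have h5 : HasDerivAt (fun t => u (t, p.2)) (dt u p) p.1 :=
      (DifferentiableAt.comp (g := u) (f := fun t : ℝ => (t, p.2)) p.1
        (ContDiffAt.differentiableAt hu (by simp)) (by fun_prop)).hasDerivAt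
    have h6 : ∀ᶠ t in 𝓝 p.1, (t, p.2) ∈ Rg t1 → u (t, p.2) ≤ u p :=
      (Continuous.prodMk_left p.2).continuousAt.eventually h
    refine ge_of_tendsto (hasDerivAt_iff_tendsto_slope_left_right.1 h5).1 ?_
    filter_upwards [self_mem_nhdsWithin, mem_nhdsWithin_of_mem_nhds h6,
      mem_nhdsWithin_of_mem_nhds (Ioi_mem_nhds hp.1.1)] with t ht h7 h8
    rw [slope_def_field]
    exact div_nonneg_of_nonpos (sub_nonpos.2 (h7 ⟨⟨le_of_lt h8, (le_of_lt ht).trans hp1⟩, hp.2⟩))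
      (sub_nonpos.2 (le_of_lt ht))
  have h5 : S.Ds u p = 0 := by rw [Pre.Ds, h2, zero_div]
  have h6 : S.Ds (S.Ds u) p = deriv (deriv fun x => u (p.1, x)) p.2 / S.ℓ p.1 / S.ℓ p.1 := by
    rw [← deriv_div_const]
    rfl
  have h7 := hS.posℓ p.1 ⟨hp.1.1.le, hp.1.2⟩
  refine ⟨?_, h5⟩
  rw [Pre.box, Pre.Dt, Pre.lap, h2, h5, h6]
  have h8 := div_nonpos_of_nonpos_of_nonneg (div_nonpos_of_nonpos_of_nonneg h3 h7.le) h7.le
  linarith

theorem mp_alg {m C K h a : ℝ} (hm : 100 ≤ m) (hC : 1 ≤ C) (hh : 0 < h) (ha : |a| ≤ C)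
    (hz : a ^ 2 ≤ 2 + C * h ^ 2) :
    K + m / 4 / h ^ 2 + (K + m / 4 / h) * |a / h| <
      C + |K| + (|K| * C + m * C / 4) ^ 2 / 4 + (m / h ^ 2 - (a / h) ^ 2) := by
  have h1 : |a| ≤ 3 / 2 + C * h := by
    refine abs_le_of_sq_le_sq' ?_ (by positivity) |> fun h => abs_le.2 h
    have h2 : C * h ^ 2 ≤ (C * h) ^ 2 := by
      rw [mul_pow]
      exact mul_le_mul_of_nonneg_right (by nlinarith) (sq_nonneg _)
    nlinarith [mul_pos (one_pos.trans_le hC) hh]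
  have h2 := le_abs_self K
  have h3 := abs_nonneg K
  have h4 := abs_nonneg a
  set c := |K| * C + m * C / 4 with hc
  have h5 : K * h * |a| ≤ |K| * C * h := by
    calc K * h * |a| ≤ |K| * h * C :=
          mul_le_mul (mul_le_mul_of_nonneg_right h2 hh.le) ha h4 (by positivity)
      _ = _ := by ring
  have h6 : m / 4 * |a| ≤ m / 4 * (3 / 2 + C * h) := mul_le_mul_of_nonneg_left h1 (by linarith)
  have h7 : K * h ^ 2 ≤ |K| * h ^ 2 := mul_le_mul_of_nonneg_right h2 (sq_nonneg _)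
  have h8 : K * h ^ 2 + m / 4 + (K * h + m / 4) * |a| <
      (C + |K| + c ^ 2 / 4) * h ^ 2 + (m - a ^ 2) := by
    have h9 : |K| * C * h + m / 4 * (C * h) = c * h := by rw [hc]; ring
    nlinarith [sq_nonneg (c * h / 2 - 1)]
  rw [abs_div, abs_of_pos hh]
  have e1 : K + m / 4 / h ^ 2 + (K + m / 4 / h) * (|a| / h) =
      (K * h ^ 2 + m / 4 + (K * h + m / 4) * |a|) / h ^ 2 := by field_simp
  have e2 : C + |K| + c ^ 2 / 4 + (m / h ^ 2 - (a / h) ^ 2) =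
      ((C + |K| + c ^ 2 / 4) * h ^ 2 + (m - a ^ 2)) / h ^ 2 := by field_simp
  rw [e1, e2]
  exact div_lt_div_of_pos_right h8 (by positivity)

theorem mp_mono (hS : IsSol q T S) {p : ℝ × ℝ} (hp : p ∈ Wd T) :
    S.mono (-1) 0 p = (S.h p)⁻¹ := by
  rw [mono_rpow hS hp, Real.rpow_zero, mul_one, Real.rpow_neg_one]

theorem mp_sup {ι : Type} [Fintype ι] (W g : ι → ℝ × ℝ → ℝ) (hW : ∀ i, ContinuousOn (W i) (Rg t1))
    (hg : ∀ i, ContinuousOn (g i) (Rg t1)) {B : ℝ} (hB : 0 < B)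
    (hb : ∀ i, ∀ p ∈ Rg t1, 0 ≤ g i p → W i p ≤ B * Real.sin p.2) {i₀ : ι} {p₀ : ℝ × ℝ}
    (hp₀ : p₀ ∈ Rg t1) (hg₀ : 0 ≤ g i₀ p₀) (hW₀ : 0 < W i₀ p₀) :
    ∃ i, ∃ p ∈ Rg t1, 0 ≤ g i p ∧ 0 < W i p ∧ ∀ j, ∀ y ∈ Rg t1, 0 ≤ g j y → W j y ≤ W i p := by
  set ε := W i₀ p₀ / B with hε
  have hε0 : 0 < ε := div_pos hW₀ hB
  set A : Set (ℝ × ℝ) := (Icc 0 t1 ×ˢ Icc 0 Real.pi) ∩ {p | ε ≤ Real.sin p.2} with hA
  have hAc : IsCompact A := (isCompact_Icc.prod isCompact_Icc).inter_right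
    (isClosed_le continuous_const (by fun_prop))
  have hAR : A ⊆ Rg t1 := by
    rintro p ⟨⟨h1, h2⟩, h3⟩
    have h4 : 0 < Real.sin p.2 := hε0.trans_le h3
    refine ⟨h1, h2.1.lt_of_ne fun h => ?_, h2.2.lt_of_ne fun h => ?_⟩
    · rw [← h, Real.sin_zero] at h4
      exact h4.false
    · rw [h, Real.sin_pi] at h4
      exact h4.false
  have h1 : ∀ j, IsCompact (W j '' (A ∩ g j ⁻¹' Ici 0)) := fun j =>
    (hAc.of_isClosed_subset (((hg j).mono hAR).preimage_isClosed_of_isClosed hAc.isClosed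
      isClosed_Ici) inter_subset_left).image_of_continuousOn
      ((hW j).mono (inter_subset_left.trans hAR))
  have h2 : ∀ j, ∀ y ∈ Rg t1, 0 ≤ g j y → ε ≤ Real.sin y.2 →
      W j y ∈ ⋃ j, W j '' (A ∩ g j ⁻¹' Ici 0) := fun j y hy h3 h4 =>
    mem_iUnion.2 ⟨j, y, ⟨⟨⟨hy.1, Ioo_subset_Icc_self hy.2⟩, h4⟩, h3⟩, rfl⟩
  have h3 := h2 i₀ p₀ hp₀ hg₀ ((div_le_iff₀' hB).2 (hb i₀ p₀ hp₀ hg₀))
  obtain ⟨μ, hμ⟩ := (isCompact_iUnion h1).exists_isGreatest ⟨_, h3⟩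
  obtain ⟨i, p, hp, rfl⟩ := mem_iUnion.1 hμ.1
  refine ⟨i, p, hAR hp.1, hp.2, hW₀.trans_le (hμ.2 h3), fun j y hy h4 => ?_⟩
  rcases le_total ε (Real.sin y.2) with h5 | h5
  · exact hμ.2 (h2 j y hy h4 h5)
  · exact ((hb j y hy h4).trans ((le_div_iff₀' hB).1 h5)).trans (hμ.2 h3)

/-- maximum principle for a finite family of functions on closed regions -/
theorem mp {ι : Type} [Fintype ι] (hS : IsSol q T S) (hq : 100 ≤ mm q) (h0 : 0 ≤ t1) (h1 : t1 < T)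
    (Q g : ι → ℝ × ℝ → ℝ) (hQ : ∀ i, Sm T (Q i)) (hg : ∀ i, ContinuousOn (g i) (Rg t1))
    (hb : ∀ i, ∃ C, ∀ p ∈ Rg t1, 0 ≤ g i p → Q i p ≤ C)
    (hi : ∀ i, ∀ x ∈ Ioo 0 Real.pi, 0 ≤ g i (0, x) → Q i (0, x) ≤ 0)
    (hd : ∀ i, ∀ p ∈ Rg t1, 0 < p.1 → g i p = 0 → Q i p ≤ 0) (K : ℝ)
    (hin : ∀ i, ∀ p ∈ Rg t1, 0 < p.1 → 0 < g i p → 0 < Q i p →
      (∀ j, 0 ≤ g j p → Q j p ≤ Q i p) →
      S.box q (Q i) p ≤ (K + mm q / 4 / S.h p ^ 2) * Q i p +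
        (K + mm q / 4 / S.h p) * |S.Ds (Q i) p|) :
    ∀ i, ∀ p ∈ Rg t1, 0 ≤ g i p → Q i p ≤ 0 := by
  intro i₀ p₀ hp₀ hg₀
  by_contra hcon
  obtain ⟨C, hC, hreg⟩ := reg_bd hS h0 h1
  choose B hB using hb
  obtain ⟨B', hB'⟩ := (finite_range B).bddAbove
  set L := C + |K| + (|K| * C + mm q * C / 4) ^ 2 / 4 with hL
  have hL0 : 0 ≤ L := by positivity
  have hw := rg_sub_wd h1
  let φ : ℝ × ℝ → ℝ := fun p => Real.exp (L * p.1) * S.mono (-1) 0 p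
  have hφ : Sm T φ := ((sm_const L).mul sm_fst).exp.mul (sm_mono hS _ _)
  have hφ0 : ∀ p, 0 < φ p := fun p => mul_pos (Real.exp_pos _) (mono_pos S _ _ p)
  obtain ⟨i, p, hp, hgp, hW, hmax⟩ := mp_sup (fun i p => Q i p / φ p) g
    (fun i => (((hQ i).div hφ fun p _ => (hφ0 p).ne').cont).mono hw) hg
    (B := max B' 1 * C) (by positivity) (fun i p hp h => by
      have h2 : Q i p ≤ max B' 1 := ((hB i p hp h).trans (hB' ⟨i, rfl⟩)).trans (le_max_left _ _)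
      have h3 := h_pos hS (hw hp)
      have h4 : 1 ≤ Real.exp (L * p.1) := Real.one_le_exp (mul_nonneg hL0 hp.1.1)
      have h5 := (hreg p hp).2.2.2.2.2.1
      have h6 : (0 : ℝ) < max B' 1 := lt_max_of_lt_right one_pos
      show Q i p / (Real.exp (L * p.1) * S.mono (-1) 0 p) ≤ _
      rw [mp_mono hS (hw hp), ← div_div, div_inv_eq_mul, mul_assoc]
      refine mul_le_mul ?_ h5 h3.le h6.le
      rw [div_le_iff₀ (Real.exp_pos _)]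
      exact h2.trans (le_mul_of_one_le_right h6.le h4)) hp₀ hg₀
    (div_pos (not_le.1 hcon) (hφ0 _))
  have hQp : 0 < Q i p := (div_pos_iff_of_pos_right (hφ0 p)).1 hW
  have ht : 0 < p.1 := hp.1.1.lt_of_ne fun h => by
    have e : p = (0, p.2) := Prod.ext h.symm rfl
    rw [e] at hgp hQp
    exact hQp.not_ge (hi i p.2 hp.2 hgp)
  have hg0 : 0 < g i p := hgp.lt_of_ne fun h => hQp.not_ge (hd i p hp ht h.symm)
  have h2 := hin i p hp ht hg0 hQp fun j hj =>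
    (div_le_div_iff_of_pos_right (hφ0 p)).1 (hmax j p hp hj)
  have hom := rg_om h1 hp ht
  set μ := Q i p / φ p with hμ
  have hQμ : Q i p = μ * φ p := (div_mul_cancel₀ _ (hφ0 p).ne').symm
  have hca : CA (fun y => μ * φ y) p := ((sm_const μ).mul hφ).ca hom
  obtain ⟨h3, h4⟩ := mp_max (q := q) hS hom hp.1.2 (((hQ i).sub ((sm_const μ).mul hφ)).ca hom) (by
    filter_upwards [self_mem_nhdsWithin, (hg i p hp).eventually (Ici_mem_nhds hg0)] with y hy h5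
    have h6 := (div_le_iff₀ (hφ0 y)).1 (hmax i y hy h5)
    linarith)
  rw [box_sub hS hom ((hQ i).ca hom) hca, box_cmul] at h3
  rw [Ds_sub ((hQ i).ca hom).xa hca.xa, Ds_cmul] at h4
  have h5 : S.box q φ p = φ p * (L + (mm q / S.h p ^ 2 - (S.a p / S.h p) ^ 2)) := by
    have h6 : HasDerivAt (fun t => Real.exp (L * t)) (Real.exp (L * p.1) * L) p.1 := by
      simpa using ((hasDerivAt_id p.1).const_mul L).exp
    rw [box_tmul hS hom ((sm_mono hS _ _).ca hom) h6, box_mono hS hom, Y_eq hS (hw hp)]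
    simp only [φ]
    ring
  have h6 : S.Ds φ p = -(φ p * (S.a p / S.h p)) := by
    rw [Ds_tmul (fun t => Real.exp (L * t)), Ds_mono hS (hw hp), Y_eq hS (hw hp)]
    simp only [φ]
    ring
  have h7 : |S.Ds (Q i) p| = Q i p * |S.a p / S.h p| := by
    rw [sub_eq_zero.1 h4, h6, mul_neg, abs_neg, ← mul_assoc, ← hQμ, abs_mul, abs_of_pos hQp]
  have h8 := mul_lt_mul_of_pos_left (mp_alg (K := K) hq hC (h_pos hS (hw hp))
    (hreg p hp).2.2.2.2.1 (hreg p hp).2.2.2.2.2.2.2.2) hQp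
  rw [h5, ← mul_assoc, ← hQμ] at h3
  rw [h7] at h2
  rw [← hL] at h8
  linarith

/-- family, whole domain -/
theorem mpF {ι : Type} [Fintype ι] (hS : IsSol q T S) (hq : 100 ≤ mm q) (h0 : 0 ≤ t1)
    (h1 : t1 < T) (Q : ι → ℝ × ℝ → ℝ) (hQ : ∀ i, Sm T (Q i))
    (hb : ∀ i, ∃ C, ∀ p ∈ Rg t1, Q i p ≤ C) (hi : ∀ i, ∀ x ∈ Ioo 0 Real.pi, Q i (0, x) ≤ 0) (K : ℝ)
    (hin : ∀ i, ∀ p ∈ Rg t1, 0 < p.1 → 0 < Q i p → (∀ j, Q j p ≤ Q i p) →
      S.box q (Q i) p ≤ (K + mm q / 4 / S.h p ^ 2) * Q i p +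
        (K + mm q / 4 / S.h p) * |S.Ds (Q i) p|) :
    ∀ i, ∀ p ∈ Rg t1, Q i p ≤ 0 := fun i p hp =>
  mp hS hq h0 h1 Q (fun _ _ => 1) hQ (fun _ => continuousOn_const)
    (fun i => (hb i).imp fun _ h p hp _ => h p hp) (fun i x hx _ => hi i x hx)
    (fun _ _ _ _ h => absurd h one_ne_zero) K
    (fun i p hp ht _ h h' => hin i p hp ht h fun j => h' j zero_le_one) i p hp zero_le_one

/-- one function, closed region -/
theorem mpG (hS : IsSol q T S) (hq : 100 ≤ mm q) (h0 : 0 ≤ t1) (h1 : t1 < T)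
    (Q g : ℝ × ℝ → ℝ) (hQ : Sm T Q) (hg : ContinuousOn g (Rg t1))
    (hb : ∃ C, ∀ p ∈ Rg t1, 0 ≤ g p → Q p ≤ C)
    (hi : ∀ x ∈ Ioo 0 Real.pi, 0 ≤ g (0, x) → Q (0, x) ≤ 0)
    (hd : ∀ p ∈ Rg t1, 0 < p.1 → g p = 0 → Q p ≤ 0) (K : ℝ)
    (hin : ∀ p ∈ Rg t1, 0 < p.1 → 0 < g p → 0 < Q p →
      S.box q Q p ≤ (K + mm q / 4 / S.h p ^ 2) * Q p + (K + mm q / 4 / S.h p) * |S.Ds Q p|) :
    ∀ p ∈ Rg t1, 0 ≤ g p → Q p ≤ 0 :=
  mp (ι := Unit) hS hq h0 h1 (fun _ => Q) (fun _ => g) (fun _ => hQ) (fun _ => hg) (fun _ => hb)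
    (fun _ => hi) (fun _ => hd) K (fun _ p hp ht h h' _ => hin p hp ht h h') ()

/-- one function, whole domain -/
theorem mp1 (hS : IsSol q T S) (hq : 100 ≤ mm q) (h0 : 0 ≤ t1) (h1 : t1 < T)
    (Q : ℝ × ℝ → ℝ) (hQ : Sm T Q) (hb : ∃ C, ∀ p ∈ Rg t1, Q p ≤ C)
    (hi : ∀ x ∈ Ioo 0 Real.pi, Q (0, x) ≤ 0) (K : ℝ)
    (hin : ∀ p ∈ Rg t1, 0 < p.1 → 0 < Q p →
      S.box q Q p ≤ (K + mm q / 4 / S.h p ^ 2) * Q p + (K + mm q / 4 / S.h p) * |S.Ds Q p|) :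
    ∀ p ∈ Rg t1, Q p ≤ 0 :=
  mpF (ι := Unit) hS hq h0 h1 (fun _ => Q) (fun _ => hQ) (fun _ => hb) (fun _ => hi) K
    (fun _ p hp ht h _ => hin p hp ht h) ()

end Vale.Agent.P244
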