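import Vale.Agent.P244C.Defs
import Vale.Agent.Lib.Brouwer

open Set MeasureTheory Filter Topology
open scoped ContDiff

noncomputable section

namespace Vale.Agent.P244

theorem shoot_slice {Tm : Par → ℝ} {γ : Par → ℝ → Par}
    (hc : ContinuousOn (fun y : Par × ℝ => γ y.1 y.2) {y | 0 ≤ y.2 ∧ y.2 < Tm y.1}) (d : Par) :
    ContinuousOn (γ d) (Ico 0 (Tm d)) :=
  ContinuousOn.comp (g := fun y : Par × ℝ => γ y.1 y.2) (f := fun t : ℝ => (d, t)) hc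
    (by fun_prop) fun _ ht => ht

theorem shoot_least {a : ℝ} {g : ℝ → Par} (hg : ContinuousOn g (Ico 0 a)) {t : ℝ}
    (ht : t ∈ Ico 0 a) (h : 1 ≤ ‖g t‖) : ∃ s, IsLeast {s | s ∈ Ico 0 a ∧ 1 ≤ ‖g s‖} s := by
  have h1 : Icc 0 t ⊆ Ico 0 a := Icc_subset_Ico_right ht.2
  have h2 : IsClosed (Icc 0 t ∩ (fun s => ‖g s‖) ⁻¹' Ici 1) :=
    (hg.mono h1).norm.preimage_isClosed_of_isClosed isClosed_Icc isClosed_Ici
  obtain ⟨s, hs⟩ := (isCompact_Icc.of_isClosed_subset h2 inter_subset_left).exists_isLeast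
    ⟨t, ⟨ht.1, le_rfl⟩, h⟩
  refine ⟨s, ⟨h1 hs.1.1, hs.1.2⟩, fun r hr => ?_⟩
  rcases le_total r t with h3 | h3
  · exact hs.2 ⟨⟨hr.1.1, h3⟩, hr.2⟩
  · exact hs.1.1.2.trans h3

theorem shoot_cross {a : ℝ} {g : ℝ → Par} (hg : ContinuousOn g (Ico 0 a)) {s b : ℝ}
    (hs : IsLeast {s | s ∈ Ico 0 a ∧ 1 ≤ ‖g s‖} s) (hb : s < b)
    (hx : ∀ t1 ∈ Ioo 0 a, (∀ t ∈ Icc 0 t1, ‖g t‖ ≤ 2) →
      1 / 2 ≤ ‖g t1‖ → ∃ D > (0 : ℝ), HasDerivAt (fun t => ‖g t‖ ^ 2) D t1) :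
    ∃ t ∈ Ico 0 a, t < b ∧ 1 < ‖g t‖ := by
  rcases hs.1.2.eq_or_lt with h1 | h1
  swap
  · exact ⟨s, hs.1.1, hb, h1⟩
  have h2 : ∀ᶠ t in 𝓝[Ico 0 a] s, ‖g t‖ ∈ Ioo (1 / 2 : ℝ) 2 :=
    (hg s hs.1.1).norm.eventually (Ioo_mem_nhds (show 1 / 2 < ‖g s‖ by linarith)
      (show ‖g s‖ < 2 by linarith))
  have h3 : ∀ᶠ t in 𝓝[≥] s, t < min a b ∧ (t ∈ Ico 0 a → ‖g t‖ ∈ Ioo (1 / 2 : ℝ) 2) :=
    mem_nhdsWithin_of_mem_nhds ((eventually_lt_nhds (lt_min hs.1.1.2 hb)).and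
      (eventually_nhdsWithin_iff.1 h2))
  obtain ⟨u, hu, h4⟩ := mem_nhdsGE_iff_exists_Icc_subset.1 h3
  have h5 : Icc s u ⊆ Ico 0 a := fun t ht =>
    ⟨hs.1.1.1.trans ht.1, (h4 ht).1.trans_le (min_le_left _ _)⟩
  have h6 : StrictMonoOn (fun t => ‖g t‖ ^ 2) (Icc s u) := by
    refine strictMonoOn_of_deriv_pos (convex_Icc _ _) ((hg.mono h5).norm.pow 2) fun t ht => ?_
    rw [interior_Icc] at ht
    have h7 := h5 (Ioo_subset_Icc_self ht)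
    have h11 : ∀ r ∈ Icc 0 t, ‖g r‖ ≤ 2 := fun r hr => by
      rcases lt_or_ge r s with h9 | h9
      · by_contra h10
        exact h9.not_ge (hs.2 ⟨⟨hr.1, hr.2.trans_lt h7.2⟩, by linarith [not_le.1 h10]⟩)
      · have h10 : r ∈ Icc s u := ⟨h9, hr.2.trans ht.2.le⟩
        exact ((h4 h10).2 (h5 h10)).2.le
    obtain ⟨D, hD, h8⟩ := hx t ⟨hs.1.1.1.trans_lt ht.1, h7.2⟩ h11
      ((h4 (Ioo_subset_Icc_self ht)).2 h7).1.le
    rwa [h8.deriv]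
  have h7 := h6 (left_mem_Icc.2 hu.le) (right_mem_Icc.2 hu.le) hu
  refine ⟨u, h5 (right_mem_Icc.2 hu.le),
    (h4 (right_mem_Icc.2 hu.le)).1.trans_le (min_le_right _ _), ?_⟩
  rw [h1]
  exact lt_of_pow_lt_pow_left₀ 2 (norm_nonneg _) h7

theorem shoot {T : ℝ} {Tm : Par → ℝ} {γ : Par → ℝ → Par} (hT : ∀ d, 0 < Tm d ∧ Tm d ≤ T)
    (hl : LowerSemicontinuous Tm)
    (hc : ContinuousOn (fun y : Par × ℝ => γ y.1 y.2) {y | 0 ≤ y.2 ∧ y.2 < Tm y.1})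
    (h0 : ∀ d, ‖d‖ ≤ 2 → ‖γ d 0 - d‖ ≤ 1 / 2)
    (hx : ∀ d, ‖d‖ ≤ 2 → ∀ t1 ∈ Ioo 0 (Tm d), (∀ t ∈ Icc 0 t1, ‖γ d t‖ ≤ 2) →
      1 / 2 ≤ ‖γ d t1‖ → ∃ D > (0 : ℝ), HasDerivAt (fun t => ‖γ d t‖ ^ 2) D t1) :
    ∃ d, ‖d‖ ≤ 2 ∧ ∀ t ∈ Ico 0 (Tm d), ‖γ d t‖ ≤ 2 := by
  by_contra hcon
  push Not at hcon
  have h1 : ∀ d : Par, ∃ s, ‖d‖ ≤ 2 → IsLeast {s | s ∈ Ico 0 (Tm d) ∧ 1 ≤ ‖γ d s‖} s := by
    intro d
    by_cases hd : ‖d‖ ≤ 2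
    · obtain ⟨t, ht, h⟩ := hcon d hd
      exact (shoot_least (shoot_slice hc d) ht (by linarith)).imp fun s hs _ => hs
    · exact ⟨0, fun h => absurd h hd⟩
  choose te hte using h1
  have h2 : ContinuousOn te {d | ‖d‖ ≤ 2} := by
    intro d hd
    refine tendsto_order.2 ⟨fun a ha => ?_, fun b hb => ?_⟩
    · have h3 : ∀ᶠ x in 𝓝 d, ∀ t ∈ Icc 0 a, (0 ≤ t ∧ t < Tm x) → ‖γ x t‖ < 1 := by
        refine isCompact_Icc.eventually_forall_of_forall_eventually fun t ht => ?_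
        have h4 : t ∈ Ico 0 (Tm d) := ⟨ht.1, (ht.2.trans_lt ha).trans (hte d hd).1.1.2⟩
        have h5 : ‖γ d t‖ < 1 := not_le.1 fun h5 =>
          (ht.2.trans_lt ha).not_ge ((hte d hd).2 ⟨h4, h5⟩)
        exact eventually_nhdsWithin_iff.1 ((hc (d, t) h4).norm.eventually (Iio_mem_nhds h5))
      filter_upwards [self_mem_nhdsWithin, mem_nhdsWithin_of_mem_nhds h3] with x hx h4
      have h5 := (hte x hx).1
      exact not_le.1 fun h6 => (h4 _ ⟨h5.1.1, h6⟩ h5.1).not_ge h5.2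
    · obtain ⟨t, ht, htb, h3⟩ := shoot_cross (shoot_slice hc d) (hte d hd) hb (hx d hd)
      have h4 : ∀ᶠ y in 𝓝 (d, t), (0 ≤ y.2 ∧ y.2 < Tm y.1) → 1 < ‖γ y.1 y.2‖ :=
        eventually_nhdsWithin_iff.1 ((hc (d, t) ht).norm.eventually (Ioi_mem_nhds h3))
      have h5 : ∀ᶠ x in 𝓝 d, (0 ≤ t ∧ t < Tm x) → 1 < ‖γ x t‖ :=
        (Continuous.prodMk_left t).continuousAt.eventually h4
      filter_upwards [self_mem_nhdsWithin, mem_nhdsWithin_of_mem_nhds h5,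
        mem_nhdsWithin_of_mem_nhds (hl d t ht.2)] with x hx h6 h7
      exact ((hte x hx).2 ⟨⟨ht.1, h7⟩, (h6 ⟨ht.1, h7⟩).le⟩).trans_lt htb
  have h3 : ContinuousOn (fun d => γ d (te d)) {d | ‖d‖ ≤ 2} :=
    ContinuousOn.comp (g := fun y : Par × ℝ => γ y.1 y.2) (f := fun d => (d, te d)) hc
      (continuousOn_id.prodMk h2) fun d hd => (hte d hd).1.1
  let r : Par → Par := fun x => (2 / max 2 ‖x‖) • x
  have hm : ∀ x : Par, 0 < max 2 ‖x‖ := fun x => lt_max_of_lt_left two_pos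
  have hr : Continuous r := (continuous_const.div (continuous_const.max continuous_norm)
    fun x => (hm x).ne').smul continuous_id
  have hr2 : ∀ x, ‖r x‖ ≤ 2 := fun x => by
    rw [norm_smul, Real.norm_of_nonneg (div_pos two_pos (hm x)).le, div_mul_eq_mul_div,
      div_le_iff₀ (hm x)]
    exact mul_le_mul_of_nonneg_left (le_max_right _ _) zero_le_two
  let ψ : Par → Par := fun x => γ (r x) (te (r x))
  have hψ : Continuous ψ := h3.comp_continuous hr hr2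
  have hψ1 : ∀ x, 1 ≤ ‖ψ x‖ := fun x => (hte _ (hr2 x)).1.2
  have hψ0 : ∀ x, 0 < ‖ψ x‖ := fun x => one_pos.trans_le (hψ1 x)
  have hf : ∀ x, ‖(-(2 / ‖ψ x‖)) • ψ x‖ = 2 := fun x => by
    rw [norm_smul, norm_neg, Real.norm_of_nonneg (div_pos two_pos (hψ0 x)).le,
      div_mul_cancel₀ _ (hψ0 x).ne']
  obtain ⟨x, hfx⟩ := Vale.Agent.Lib.Brouwer.exists_fixed (fun x => (-(2 / ‖ψ x‖)) • ψ x)
    ((continuous_const.div hψ.norm fun x => (hψ0 x).ne').neg.smul hψ) 2 fun x => (hf x).le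
  have h4 : ‖x‖ = 2 := by rw [← hfx]; exact hf x
  have h5 : r x = x := by simp [r, h4]
  have h6 := h0 x h4.le
  have h7 : te x = 0 := by
    refine le_antisymm ((hte x h4.le).2 ⟨⟨le_rfl, (hT x).1⟩, ?_⟩) (hte x h4.le).1.1.1
    have := norm_sub_norm_le x (γ x 0)
    rw [norm_sub_rev] at this
    linarith
  have h8 : ψ x = γ x 0 := by simp only [ψ, h5, h7]
  have h9 : ψ x - x = (1 + 2 / ‖ψ x‖) • ψ x := by
    conv_lhs => rw [← hfx]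
    simp only [hfx]
    rw [add_smul, one_smul, ← sub_neg_eq_add, ← neg_smul, hfx]
  have h10 := div_pos two_pos (hψ0 x)
  rw [← h8, h9, norm_smul, Real.norm_of_nonneg (by linarith)] at h6
  nlinarith [hψ1 x]

end Vale.Agent.P244
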