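import Vale.Agent.P244C.Apri
import Vale.Agent.P244C.Shoot
import Vale.Agent.P244C.InitS
import Vale.Agent.P244C.Final

open Set MeasureTheory Filter Topology
open scoped ContDiff

noncomputable section

namespace Vale.Agent.P244

theorem stepC (hA : StepA) (hB : StepB) : ∃ n, 4 ≤ n ∧ Counter n := by
  obtain ⟨q, e0, hd⟩ := exists_dim
  have hq : 2 ≤ q := by
    have h := hd.hq
    have : (2 : ℝ) ≤ q := by unfold mm at h; linarith
    exact_mod_cast this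
  obtain ⟨Ci, M, K1, K2, K, τa, hK1, hK2, ha, hap⟩ := apri q e0 hd
  obtain ⟨τb, hb, hsm⟩ := ini_smooth q
  obtain ⟨D, hD1, hD2, hD3⟩ := exists_par
  set T := min τa τb with hTdef
  have hT : 0 < T := lt_min ha hb
  obtain ⟨s1, s2⟩ := hsm e0 T D hd hT (min_le_right _ _) hD1 hD2
  obtain ⟨Tm, S, hS, hl, hc⟩ := hB q T (fun y => Z0 q e0 T (D y.1) y.2)
    (fun y => F0 q e0 T (D y.1) y.2) hq hT s1 s2
  have hap' := fun d => hap T (Tm d) (D d) (S d) hT (min_le_left _ _) (hS d).1 (hS d).2.1 (hD2 d)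
    (hS d).2.2.1 (hS d).2.2.2.1
  obtain ⟨d, -, hγ⟩ := shoot (T := T) (Tm := Tm) (γ := fun d t => (S d).gam q e0 K T t)
    (fun d => ⟨(hS d).1, (hS d).2.1⟩) hl (gam_cont hd (fun d => (hS d).2.1) hc)
    (fun d hdn => by
      have h := (hap' d).1
      have e : (WithLp.toLp 2 (D d) : Par) = d := by
        ext j; exact hD3 d hdn j
      rwa [e] at h)
    fun d _ t1 ht1 h => ((hap' d).2 t1 ⟨ht1.1.le, ht1.2⟩ h).2.2 ht1.1
  have H := fun t1 (ht1 : t1 ∈ Ico 0 (Tm d)) =>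
    (hap' d).2 t1 ht1 fun t ht => hγ t ⟨ht.1, ht.2.trans_lt ht1.2⟩
  have hTm : Tm d = T := by
    by_contra hne
    have hlt := lt_of_le_of_ne (hS d).2.1 hne
    exact (hS d).2.2.2.2 hlt (final_ric hlt fun t1 ht1 => (H t1 ht1).1)
  have hsol := (hS d).2.2.1
  rw [hTm] at H hsol
  refine ⟨q + 3, by omega, hA q T (S d) hq hT hsol ?_ (final_small hT fun t1 ht1 => (H t1 ht1).1)⟩
  exact final_R hT hK1 hK2 (fun t1 ht1 => (H t1 ht1).1)
    fun p hp => (H p.1 hp.1).2.1 p ⟨⟨hp.1.1, le_rfl⟩, hp.2⟩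

end Vale.Agent.P244
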