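import Vale.Agent.P244C.IdT

open Set MeasureTheory Filter Topology
open scoped ContDiff

noncomputable section

namespace Vale.Agent.P244

variable {q : ℕ} {T : ℝ} {S : Pre}

/-- partial derivatives extend continuously to the initial time -/
theorem reg_part {u : ℝ × ℝ → ℝ} (hu : ContDiffOn ℝ ∞ u (Ico 0 T ×ˢ univ)) :
    ∃ ut ux : ℝ × ℝ → ℝ, ContinuousOn ut (Ico 0 T ×ˢ univ) ∧ ContinuousOn ux (Ico 0 T ×ˢ univ) ∧
      ∀ p ∈ Om T, dt u p = ut p ∧ dx u p = ux p := by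
  have hU : UniqueDiffOn ℝ (Ico (0 : ℝ) T ×ˢ (univ : Set ℝ)) :=
    (uniqueDiffOn_Ico 0 T).prod uniqueDiffOn_univ
  have hc : ContinuousOn (fderivWithin ℝ u (Ico 0 T ×ˢ univ)) (Ico 0 T ×ˢ univ) :=
    hu.continuousOn_fderivWithin hU (by simp)
  refine ⟨fun p => fderivWithin ℝ u (Ico 0 T ×ˢ univ) p (1, 0),
    fun p => fderivWithin ℝ u (Ico 0 T ×ˢ univ) p (0, 1), hc.clm_apply continuousOn_const,
    hc.clm_apply continuousOn_const, fun p hp => ?_⟩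
  have hn : Ico (0 : ℝ) T ×ˢ (univ : Set ℝ) ∈ 𝓝 p :=
    mem_of_superset (isOpen_om.mem_nhds hp) (prod_mono Ioo_subset_Ico_self (subset_univ _))
  have hd : HasFDerivAt u (fderivWithin ℝ u (Ico 0 T ×ˢ univ) p) p :=
    ((hu.differentiableOn (by simp)) p (mem_of_mem_nhds hn)).hasFDerivWithinAt.hasFDerivAt hn
  constructor
  · have h1 : HasDerivAt (fun t : ℝ => (t, p.2)) ((1 : ℝ), (0 : ℝ)) p.1 :=
      (hasDerivAt_id p.1).prodMk (hasDerivAt_const p.1 p.2)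
    exact (HasFDerivAt.comp_hasDerivAt p.1 (f := fun t : ℝ => (t, p.2)) hd h1).deriv
  · have h1 : HasDerivAt (fun x : ℝ => (p.1, x)) ((0 : ℝ), (1 : ℝ)) p.2 :=
      (hasDerivAt_const p.2 p.1).prodMk (hasDerivAt_id p.2)
    exact (HasFDerivAt.comp_hasDerivAt p.2 (f := fun x : ℝ => (p.1, x)) hd h1).deriv

theorem reg_wd_sub : Wd T ⊆ Ico 0 T ×ˢ univ := prod_mono Subset.rfl (subset_univ _)

theorem reg_eqOn {u v : ℝ × ℝ → ℝ} (hu : Sm T u) (hv : ContinuousOn v (Ico 0 T ×ˢ univ))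
    (h : ∀ p ∈ Om T, u p = v p) : ∀ p ∈ Wd T, u p = v p := by
  intro p hp
  have hT : (0 : ℝ) ≠ T := (lt_of_le_of_lt hp.1.1 hp.1.2).ne
  have hcl : Wd T ⊆ closure (Om T) := by
    rw [Om, closure_prod_eq, closure_Ioo hT, closure_Ioo Real.pi_pos.ne]
    exact prod_mono Ico_subset_Icc_self Ioo_subset_Icc_self
  exact Set.EqOn.of_subset_closure (s := Om T) h hu.cont (hv.mono reg_wd_sub) om_sub_wd hcl hp

theorem reg_smℓ (hS : IsSol q T S) :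
    ContDiffOn ℝ ∞ (fun p : ℝ × ℝ => S.ℓ p.1) (Ico 0 T ×ˢ univ) :=
  hS.smℓ.comp contDiffOn_fst fun _ hp => hp.1

theorem reg_smξ (hS : IsSol q T S) : ContDiffOn ℝ ∞ S.ξ (Ico 0 T ×ˢ univ) :=
  (Real.contDiff_sin.comp contDiff_snd).contDiffOn.mul hS.smw

/-- the Ricci eigenvalues extend continuously to the poles -/
theorem reg_ext (hS : IsSol q T S) : ∃ r0 r1 r2 : ℝ × ℝ → ℝ,
    ContinuousOn r0 (Ico 0 T ×ˢ univ) ∧ ContinuousOn r1 (Ico 0 T ×ˢ univ) ∧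
    ContinuousOn r2 (Ico 0 T ×ˢ univ) ∧
    ∀ p ∈ Wd T, S.ρ0 q p = r0 p ∧ S.ρ1 q p = r1 p ∧ S.ρ2 q p = r2 p := by
  obtain ⟨lt, _lx, clt, _c1, hl⟩ := reg_part (reg_smℓ hS)
  obtain ⟨_ξt, ξx, _c2, cξx, hξ⟩ := reg_part (reg_smξ hS)
  obtain ⟨Ft, Fx, cFt, cFx, hF⟩ := reg_part hS.smF
  obtain ⟨mt, _mx, cmt, _c3, hm⟩ := reg_part ((reg_smℓ hS).mul hS.smη)
  have cl := (reg_smℓ hS).continuousOn
  have l0 : ∀ p ∈ Ico (0 : ℝ) T ×ˢ (univ : Set ℝ), S.ℓ p.1 ≠ 0 :=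
    fun p hp => (hS.posℓ _ hp.1).ne'
  have η0 : ∀ p ∈ Ico (0 : ℝ) T ×ˢ (univ : Set ℝ), S.η p ≠ 0 :=
    fun p hp => (hS.posη _ hp.1 p.2).ne'
  have c0 : ContinuousOn (fun p => ξx p - lt p / S.ℓ p.1) (Ico 0 T ×ˢ univ) :=
    cξx.sub (clt.div cl l0)
  have c1 : ContinuousOn (fun p => -(Ft p - S.ξ p * Fx p)) (Ico 0 T ×ˢ univ) :=
    (cFt.sub ((reg_smξ hS).continuousOn.mul cFx)).neg
  have c2 : ContinuousOn (fun p => -(mt p - S.w p * (S.ℓ p.1 * S.a p)) / (S.ℓ p.1 * S.η p))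
      (Ico 0 T ×ˢ univ) :=
    (cmt.sub (hS.smw.continuousOn.mul (cl.mul (a_smooth hS).continuousOn))).neg.div
      (cl.mul hS.smη.continuousOn) fun p hp => mul_ne_zero (l0 p hp) (η0 p hp)
  refine ⟨_, _, _, c0, c1, c2, fun p hp => ⟨?_, ?_, ?_⟩⟩
  · refine reg_eqOn (sm_ρ0 hS) c0 (fun y hy => ?_) p hp
    rw [← hS.eqℓ y hy, (hξ y hy).2, ← (hl y hy).1]
    rfl
  · refine reg_eqOn (sm_ρ1 hS) c1 (fun y hy => ?_) p hp
    have h1 := hS.eqF y hy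
    rw [Pre.Dt, (hF y hy).1, (hF y hy).2] at h1
    linarith
  · refine reg_eqOn (sm_ρ2 hS) c2 (fun y hy => ?_) p hp
    have hw := om_sub_wd hy
    have h1 := Dt_h hS hy
    have h2 : dt S.h y = Real.sin y.2 * mt y := by
      rw [← (hm y hy).1, dt, dt, ← deriv_const_mul_field]
      congr 1
      funext t
      simp only [Pre.h]
      ring
    have h3 : dx S.h y = S.ℓ y.1 * S.a y := dx_eq_Ds hS hw.1
    have hs : Real.sin y.2 ≠ 0 := (Real.sin_pos_of_pos_of_lt_pi hy.2.1 hy.2.2).ne'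
    rw [Pre.Dt, h2, h3, Pre.ξ, Pre.h] at h1
    rw [eq_div_iff (mul_ne_zero (l0 y (reg_wd_sub hw)) (η0 y (reg_wd_sub hw)))]
    apply mul_left_cancel₀ hs
    linear_combination h1

theorem reg_K_sub {t1 : ℝ} (h1 : t1 < T) :
    Icc 0 t1 ×ˢ Icc 0 Real.pi ⊆ Ico (0 : ℝ) T ×ˢ (univ : Set ℝ) :=
  prod_mono (Icc_subset_Ico_right h1) (subset_univ _)

theorem reg_rg_sub {t1 : ℝ} : Rg t1 ⊆ Icc 0 t1 ×ˢ Icc 0 Real.pi :=
  prod_mono Subset.rfl Ioo_subset_Icc_self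

theorem reg_bound {t1 : ℝ} (h1 : t1 < T) {u v : ℝ × ℝ → ℝ}
    (hv : ContinuousOn v (Ico 0 T ×ˢ univ)) (h : ∀ p ∈ Wd T, u p = v p) :
    ∃ C : ℝ, 0 ≤ C ∧ ∀ p ∈ Rg t1, |u p| ≤ C := by
  obtain ⟨C, hC⟩ := (isCompact_Icc.prod isCompact_Icc).exists_bound_of_continuousOn
    (hv.mono (reg_K_sub h1))
  refine ⟨max C 0, le_max_right _ _, fun p hp => ?_⟩
  rw [h p (rg_sub_wd h1 hp)]
  exact le_trans (hC p (reg_rg_sub hp)) (le_max_left _ _)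

theorem reg_z (hS : IsSol q T S) {t1 : ℝ} (h1 : t1 < T) :
    ∃ C : ℝ, 0 ≤ C ∧ ∀ p ∈ Rg t1, S.z p ≤ 2 + C * S.h p ^ 2 := by
  have cz : ContinuousOn S.z (Ico 0 T ×ˢ univ) := (a_smooth hS).continuousOn.pow 2
  have hK : IsCompact (Icc (0 : ℝ) t1 ×ˢ Icc (0 : ℝ) Real.pi) := isCompact_Icc.prod isCompact_Icc
  have hcl : IsClosed ((Icc (0 : ℝ) t1 ×ˢ Icc (0 : ℝ) Real.pi) ∩ S.z ⁻¹' Ici 2) :=
    (cz.mono (reg_K_sub h1)).preimage_isClosed_of_isClosed hK.isClosed isClosed_Ici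
  have hK' := hK.of_isClosed_subset hcl inter_subset_left
  have hw : ∀ p ∈ (Icc (0 : ℝ) t1 ×ˢ Icc (0 : ℝ) Real.pi) ∩ S.z ⁻¹' Ici 2, p ∈ Wd T := by
    rintro ⟨t, x⟩ ⟨⟨ht, hx⟩, hz⟩
    have ht' : t ∈ Ico 0 T := Icc_subset_Ico_right h1 ht
    have hz' : 2 ≤ S.a (t, x) ^ 2 := hz
    have a0 := a_zero hS ht'
    refine ⟨ht', lt_of_le_of_ne hx.1 ?_, lt_of_le_of_ne hx.2 ?_⟩
    · intro e
      have e' : x = 0 := e.symm
      rw [e', a0] at hz'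
      norm_num at hz'
    · intro e
      have e' : x = Real.pi - 0 := by rw [sub_zero]; exact e
      have h3 : S.a (t, Real.pi - 0) = -S.a (t, 0) := Ds_refl (h_refl hS t) 0
      rw [e', h3, a0] at hz'
      norm_num at hz'
  have cq : ContinuousOn (fun p => S.z p / S.h p ^ 2)
      ((Icc (0 : ℝ) t1 ×ˢ Icc (0 : ℝ) Real.pi) ∩ S.z ⁻¹' Ici 2) :=
    (cz.mono fun p hp => reg_wd_sub (hw p hp)).div
      (((h_smooth hS).continuousOn.pow 2).mono fun p hp => reg_wd_sub (hw p hp))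
      fun p hp => pow_ne_zero 2 (h_pos hS (hw p hp)).ne'
  obtain ⟨C, hC⟩ := hK'.exists_bound_of_continuousOn cq
  refine ⟨max C 0, le_max_right _ _, fun p hp => ?_⟩
  have hm : 0 ≤ max C 0 * S.h p ^ 2 := mul_nonneg (le_max_right _ _) (sq_nonneg _)
  by_cases hz : 2 ≤ S.z p
  · have h2 := hC p ⟨reg_rg_sub hp, hz⟩
    have h3 : S.z p / S.h p ^ 2 ≤ max C 0 :=
      le_trans (le_trans (le_abs_self _) h2) (le_max_left _ _)
    rw [div_le_iff₀ (pow_pos (h_pos hS (rg_sub_wd h1 hp)) 2)] at h3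
    linarith
  · linarith [not_le.mp hz]

/-- qualitative bounds on compact time intervals -/
theorem reg_bd (hS : IsSol q T S) {t1 : ℝ} (h0 : 0 ≤ t1) (h1 : t1 < T) : ∃ C : ℝ, 1 ≤ C ∧
    ∀ p ∈ Rg t1, |S.ρ0 q p| ≤ C ∧ |S.ρ1 q p| ≤ C ∧ |S.ρ2 q p| ≤ C ∧ |S.X p| ≤ C ∧ |S.a p| ≤ C ∧
      S.h p ≤ C * Real.sin p.2 ∧ S.f p ≤ C ∧ 1 ≤ C * S.f p ∧ S.z p ≤ 2 + C * S.h p ^ 2 := by
  have _ := h0
  obtain ⟨r0, r1, r2, c0, c1, c2, hr⟩ := reg_ext hS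
  have cF := hS.smF.continuousOn
  obtain ⟨C0, n0, b0⟩ := reg_bound h1 c0 fun p hp => (hr p hp).1
  obtain ⟨C1, n1, b1⟩ := reg_bound h1 c1 fun p hp => (hr p hp).2.1
  obtain ⟨C2, n2, b2⟩ := reg_bound h1 c2 fun p hp => (hr p hp).2.2
  obtain ⟨C3, n3, b3⟩ := reg_bound h1 (X_smooth hS).continuousOn fun p _ => rfl
  obtain ⟨C4, n4, b4⟩ := reg_bound h1 (a_smooth hS).continuousOn fun p _ => rfl
  obtain ⟨C5, n5, b5⟩ := reg_bound h1 ((reg_smℓ hS).mul hS.smη).continuousOn fun p _ => rfl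
  obtain ⟨C6, n6, b6⟩ := reg_bound h1 cF.rexp fun p _ => rfl
  obtain ⟨C7, n7, b7⟩ := reg_bound h1 cF.neg.rexp fun p _ => rfl
  obtain ⟨C8, n8, b8⟩ := reg_z hS h1
  refine ⟨1 + C0 + C1 + C2 + C3 + C4 + C5 + C6 + C7 + C8, by linarith, fun p hp => ?_⟩
  have hs : 0 ≤ Real.sin p.2 := (Real.sin_pos_of_pos_of_lt_pi hp.2.1 hp.2.2).le
  have hf := f_pos S p
  refine ⟨by linarith [b0 p hp], by linarith [b1 p hp], by linarith [b2 p hp],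
    by linarith [b3 p hp], by linarith [b4 p hp], ?_, ?_, ?_, ?_⟩
  · have e : S.h p = S.ℓ p.1 * S.η p * Real.sin p.2 := by simp only [Pre.h]; ring
    rw [e]
    refine mul_le_mul_of_nonneg_right ?_ hs
    linarith [le_trans (le_abs_self _) (b5 p hp)]
  · have := le_trans (le_abs_self _) (b6 p hp)
    have e : S.f p = Real.exp (S.F p) := rfl
    rw [e]; linarith
  · have h2 : Real.exp (-S.F p) ≤ C7 := le_trans (le_abs_self _) (b7 p hp)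
    have e : Real.exp (-S.F p) * S.f p = 1 := by
      rw [Pre.f, ← Real.exp_add]; simp
    rw [← e]
    exact mul_le_mul_of_nonneg_right (by linarith) hf.le
  · refine le_trans (b8 p hp) ?_
    have : C8 * S.h p ^ 2 ≤ (1 + C0 + C1 + C2 + C3 + C4 + C5 + C6 + C7 + C8) * S.h p ^ 2 :=
      mul_le_mul_of_nonneg_right (by linarith) (sq_nonneg _)
    linarith

theorem reg_bd' (hS : IsSol q T S) {t1 : ℝ} (h0 : 0 ≤ t1) (h1 : t1 < T) : ∃ C : ℝ, 1 ≤ C ∧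
    ∀ p ∈ Rg t1, |S.σ q p| ≤ C ∧ |S.kt q p| ≤ C ∧ |S.σ' q p| ≤ C ∧ |S.R q p| ≤ C ∧
      |S.y1 p| ≤ C ∧ |S.y2 q p| ≤ C ∧ |S.Θ p| ≤ C ∧ |S.fs p| ≤ C ∧ S.h p ≤ C ∧
      1 / S.f p ^ 2 ≤ C ∧ |S.F p| ≤ C := by
  have _ := h0
  obtain ⟨r0, r1, r2, c0, c1, c2, hr⟩ := reg_ext hS
  have cF := hS.smF.continuousOn
  have ch := (h_smooth hS).continuousOn
  have cX := (X_smooth hS).continuousOn
  have ca := (a_smooth hS).continuousOn
  have cf : ContinuousOn S.f (Ico 0 T ×ˢ univ) := cF.rexp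
  obtain ⟨C0, n0, b0⟩ := reg_bound (u := S.σ q) h1 (c1.sub c2) fun p hp => by
    simp only [Pre.σ, (hr p hp).2.1, (hr p hp).2.2]
    rfl
  obtain ⟨C1, n1, b1⟩ := reg_bound (u := S.kt q) h1 (c0.sub c2) fun p hp => by
    simp only [Pre.kt, (hr p hp).1, (hr p hp).2.2]
    rfl
  obtain ⟨C2, n2, b2⟩ := reg_bound (u := S.σ' q) h1
    ((c1.sub c2).sub ((c0.sub c2).div_const (mm q + 2))) fun p hp => by
      simp only [Pre.σ', Pre.σ, Pre.kt, (hr p hp).1, (hr p hp).2.1, (hr p hp).2.2]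
      rfl
  obtain ⟨C3, n3, b3⟩ := reg_bound (u := S.R q) h1
    ((c0.add (continuousOn_const.mul c1)).add (continuousOn_const.mul c2)) fun p hp => by
      simp only [Pre.R, (hr p hp).1, (hr p hp).2.1, (hr p hp).2.2]
      rfl
  obtain ⟨C4, n4, b4⟩ := reg_bound (u := S.y1) h1 ((ch.mul cX).sub ca) fun p hp => y1_eq hS hp
  obtain ⟨C5, n5, b5⟩ := reg_bound (u := S.y2 q) h1 ((ch.pow 2).mul (c1.sub c2)) fun p hp => by
    simp only [Pre.y2, Pre.σ, (hr p hp).2.1, (hr p hp).2.2]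
    rfl
  obtain ⟨C6, n6, b6⟩ := reg_bound h1 (Θ_smooth hS).continuousOn fun p _ => rfl
  obtain ⟨C7, n7, b7⟩ := reg_bound (u := S.fs) h1 (cf.mul cX) fun p _ => rfl
  obtain ⟨C8, n8, b8⟩ := reg_bound h1 ch fun p _ => rfl
  obtain ⟨C9, n9, b9⟩ := reg_bound (u := fun p => 1 / S.f p ^ 2) h1
    (continuousOn_const.div (cf.pow 2) fun p _ => pow_ne_zero 2 (f_pos S p).ne') fun p _ => rfl
  obtain ⟨C10, n10, b10⟩ := reg_bound h1 cF fun p _ => rfl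
  refine ⟨1 + C0 + C1 + C2 + C3 + C4 + C5 + C6 + C7 + C8 + C9 + C10, by linarith, fun p hp => ?_⟩
  exact ⟨by linarith [b0 p hp], by linarith [b1 p hp], by linarith [b2 p hp],
    by linarith [b3 p hp], by linarith [b4 p hp], by linarith [b5 p hp], by linarith [b6 p hp],
    by linarith [b7 p hp], by linarith [le_trans (le_abs_self _) (b8 p hp)],
    by linarith [le_trans (le_abs_self _) (b9 p hp)], by linarith [b10 p hp]⟩

end Vale.Agent.P244
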