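import Vale.Agent.P244C.Calc

open Set MeasureTheory Filter Topology
open scoped ContDiff

noncomputable section

namespace Vale.Agent.P244

variable {q : ℕ} {T : ℝ} {S : Pre} {u v : ℝ × ℝ → ℝ} {p : ℝ × ℝ}

theorem rules_dx (hu : DifferentiableAt ℝ u p) :
    HasDerivAt (fun x => u (p.1, x)) (fderiv ℝ u p (0, 1)) p.2 :=
  hu.hasFDerivAt.comp_hasDerivAt (f := fun x => (p.1, x)) p.2
    ((hasDerivAt_const p.2 p.1).prodMk (hasDerivAt_id p.2))

theorem rules_dt (hu : DifferentiableAt ℝ u p) :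
    HasDerivAt (fun t => u (t, p.2)) (fderiv ℝ u p (1, 0)) p.1 :=
  hu.hasFDerivAt.comp_hasDerivAt (f := fun t => (t, p.2)) p.1
    ((hasDerivAt_id p.1).prodMk (hasDerivAt_const p.1 p.2))

theorem rules_diff (hu : CA u p) : DifferentiableAt ℝ u p :=
  ContDiffAt.differentiableAt hu (by simp)

theorem rules_hdt (hu : CA u p) : HasDerivAt (fun t => u (t, p.2)) (dt u p) p.1 :=
  (rules_dt (rules_diff hu)).differentiableAt.hasDerivAt

theorem rules_ev (hu : CA u p) : ∀ᶠ y in 𝓝 p, DifferentiableAt ℝ u y :=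
  ((ContDiffAt.of_le hu (m := 1) (by simp)).eventually (by simp)).mono fun _ h =>
    h.differentiableAt one_ne_zero

theorem rules_evx (hu : XA u p) :
    ∀ᶠ x in 𝓝 p.2, HasDerivAt (fun y => u (p.1, y)) (dx u (p.1, x)) x :=
  ((ContDiffAt.of_le hu (m := 1) (by simp)).eventually (by simp)).mono fun _ h =>
    (h.differentiableAt one_ne_zero).hasDerivAt

theorem rules_dx_ev (hu : CA u p) : dx u =ᶠ[𝓝 p] fun y => fderiv ℝ u y (0, 1) :=
  (rules_ev hu).mono fun _ h => (rules_dx h).deriv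

theorem rules_dt_ev (hu : CA u p) : dt u =ᶠ[𝓝 p] fun y => fderiv ℝ u y (1, 0) :=
  (rules_ev hu).mono fun _ h => (rules_dt h).deriv

theorem rules_fd (hu : CA u p) : ContDiffAt ℝ ∞ (fderiv ℝ u) p :=
  ContDiffAt.fderiv_right hu (by simp)

theorem rules_ca_dx (hu : CA u p) : CA (dx u) p :=
  ((rules_fd hu).clm_apply contDiffAt_const).congr_of_eventuallyEq (rules_dx_ev hu)

theorem rules_ca_dt (hu : CA u p) : CA (dt u) p :=
  ((rules_fd hu).clm_apply contDiffAt_const).congr_of_eventuallyEq (rules_dt_ev hu)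

theorem rules_slx (h : u =ᶠ[𝓝 p] v) : (fun x => u (p.1, x)) =ᶠ[𝓝 p.2] fun x => v (p.1, x) :=
  (show Tendsto (fun x => (p.1, x)) (𝓝 p.2) (𝓝 p) from
    (Continuous.prodMk_right p.1).tendsto p.2).eventually h

theorem rules_slt (h : u =ᶠ[𝓝 p] v) : (fun t => u (t, p.2)) =ᶠ[𝓝 p.1] fun t => v (t, p.2) :=
  (show Tendsto (fun t => (t, p.2)) (𝓝 p.1) (𝓝 p) from
    (Continuous.prodMk_left p.2).tendsto p.1).eventually h

theorem rules_symm (hu : CA u p) : dt (dx u) p = dx (dt u) p := by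
  have hd : DifferentiableAt ℝ (fderiv ℝ u) p := (rules_fd hu).differentiableAt (by simp)
  have k : ∀ w : ℝ × ℝ, fderiv ℝ (fun y => fderiv ℝ u y w) p =
      (fderiv ℝ (fderiv ℝ u) p).flip w := fun w => by
    rw [fderiv_clm_apply hd (differentiableAt_const w)]
    simp
  have h1 : dt (dx u) p = fderiv ℝ (dx u) p (1, 0) := (rules_dt (rules_diff (rules_ca_dx hu))).deriv
  have h2 : dx (dt u) p = fderiv ℝ (dt u) p (0, 1) := (rules_dx (rules_diff (rules_ca_dt hu))).deriv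
  rw [h1, h2, (rules_dx_ev hu).fderiv_eq, (rules_dt_ev hu).fderiv_eq, k, k]
  exact (ContDiffAt.isSymmSndFDerivAt hu (by
    rw [minSmoothness_of_isRCLikeNormedField]
    exact WithTop.coe_le_coe.2 le_top)).eq _ _

theorem XA.hasDerivAt (hu : XA u p) : HasDerivAt (fun x => u (p.1, x)) (dx u p) p.2 :=
  (ContDiffAt.differentiableAt hu (by simp)).hasDerivAt
theorem dx_eq_Ds (hS : IsSol q T S) (hp : p.1 ∈ Ico 0 T) : dx u p = S.ℓ p.1 * S.Ds u p := by
  rw [Pre.Ds, mul_div_cancel₀ _ (hS.posℓ _ hp).ne']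
theorem Ds_congr (h : (fun x => u (p.1, x)) =ᶠ[𝓝 p.2] fun x => v (p.1, x)) :
    S.Ds u p = S.Ds v p := by
  rw [Pre.Ds, Pre.Ds, dx, dx, h.deriv_eq]
theorem Ds_congr_wd (hp : p ∈ Wd T) (h : ∀ p ∈ Wd T, u p = v p) : S.Ds u p = S.Ds v p :=
  Ds_congr (Filter.mem_of_superset (Ioo_mem_nhds hp.2.1 hp.2.2) fun x hx => h (p.1, x) ⟨hp.1, hx⟩)
theorem Ds_const (c : ℝ) : S.Ds (fun _ => c) p = 0 := by
  simp [Pre.Ds, dx]
theorem Ds_time (g : ℝ → ℝ) : S.Ds (fun p => g p.1) p = 0 := by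
  simp [Pre.Ds, dx]
theorem Ds_add (hu : XA u p) (hv : XA v p) :
    S.Ds (fun p => u p + v p) p = S.Ds u p + S.Ds v p := by
  have h : dx (fun p => u p + v p) p = _ := (hu.hasDerivAt.add hv.hasDerivAt).deriv
  rw [Pre.Ds, Pre.Ds, Pre.Ds, h, add_div]
theorem Ds_sub (hu : XA u p) (hv : XA v p) :
    S.Ds (fun p => u p - v p) p = S.Ds u p - S.Ds v p := by
  have h : dx (fun p => u p - v p) p = _ := (hu.hasDerivAt.sub hv.hasDerivAt).deriv
  rw [Pre.Ds, Pre.Ds, Pre.Ds, h, sub_div]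
theorem Ds_neg : S.Ds (fun p => -u p) p = -S.Ds u p := by
  have h : dx (fun p => -u p) p = -dx u p := deriv.fun_neg
  rw [Pre.Ds, Pre.Ds, h, neg_div]
theorem Ds_cmul (c : ℝ) : S.Ds (fun p => c * u p) p = c * S.Ds u p := by
  have h : dx (fun p => c * u p) p = c * dx u p := deriv_const_mul_field c
  rw [Pre.Ds, Pre.Ds, h, mul_div_assoc]
theorem Ds_mul (hu : XA u p) (hv : XA v p) :
    S.Ds (fun p => u p * v p) p = u p * S.Ds v p + v p * S.Ds u p := by
  have h : dx (fun p => u p * v p) p = dx u p * v p + u p * dx v p :=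
    (hu.hasDerivAt.mul hv.hasDerivAt).deriv
  rw [Pre.Ds, Pre.Ds, Pre.Ds, h]
  ring
theorem Ds_div (hu : XA u p) (hv : XA v p) (h : v p ≠ 0) :
    S.Ds (fun p => u p / v p) p = (S.Ds u p * v p - u p * S.Ds v p) / v p ^ 2 := by
  have h1 : dx (fun p => u p / v p) p = (dx u p * v p - u p * dx v p) / v p ^ 2 :=
    (hu.hasDerivAt.div hv.hasDerivAt h).deriv
  rw [Pre.Ds, Pre.Ds, Pre.Ds, h1]
  ring
theorem Ds_sq (hu : XA u p) : S.Ds (fun p => u p ^ 2) p = 2 * u p * S.Ds u p := by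
  simp only [sq]
  rw [Ds_mul hu hu]
  ring
theorem Ds_comp {g : ℝ → ℝ} {g' : ℝ} (hu : XA u p) (hg : HasDerivAt g g' (u p)) :
    S.Ds (fun p => g (u p)) p = g' * S.Ds u p := by
  have h : dx (fun p => g (u p)) p = g' * dx u p := (HasDerivAt.comp p.2 hg hu.hasDerivAt).deriv
  rw [Pre.Ds, Pre.Ds, h, mul_div_assoc]

theorem Dt_congr (h : u =ᶠ[𝓝 p] v) : S.Dt u p = S.Dt v p := by
  rw [Pre.Dt, Pre.Dt, dx, dx, dt, dt, (rules_slx h).deriv_eq, (rules_slt h).deriv_eq]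
theorem Dt_const (c : ℝ) : S.Dt (fun _ => c) p = 0 := by
  simp [Pre.Dt, dx, dt]
theorem Dt_time {g : ℝ → ℝ} {g' : ℝ} (hg : HasDerivAt g g' p.1) :
    S.Dt (fun p => g p.1) p = g' := by
  simp [Pre.Dt, dx, dt, hg.deriv]
theorem Dt_add (hu : CA u p) (hv : CA v p) :
    S.Dt (fun p => u p + v p) p = S.Dt u p + S.Dt v p := by
  have h : dx (fun p => u p + v p) p = _ := (hu.xa.hasDerivAt.add hv.xa.hasDerivAt).deriv
  have h' : dt (fun p => u p + v p) p = _ := ((rules_hdt hu).add (rules_hdt hv)).deriv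
  rw [Pre.Dt, Pre.Dt, Pre.Dt, h, h']
  ring
theorem Dt_sub (hu : CA u p) (hv : CA v p) :
    S.Dt (fun p => u p - v p) p = S.Dt u p - S.Dt v p := by
  have h : dx (fun p => u p - v p) p = _ := (hu.xa.hasDerivAt.sub hv.xa.hasDerivAt).deriv
  have h' : dt (fun p => u p - v p) p = _ := ((rules_hdt hu).sub (rules_hdt hv)).deriv
  rw [Pre.Dt, Pre.Dt, Pre.Dt, h, h']
  ring
theorem Dt_neg : S.Dt (fun p => -u p) p = -S.Dt u p := by
  have h : dx (fun p => -u p) p = -dx u p := deriv.fun_neg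
  have h' : dt (fun p => -u p) p = -dt u p := deriv.fun_neg
  rw [Pre.Dt, Pre.Dt, h, h']
  ring
theorem Dt_cmul (c : ℝ) : S.Dt (fun p => c * u p) p = c * S.Dt u p := by
  have h : dx (fun p => c * u p) p = c * dx u p := deriv_const_mul_field c
  have h' : dt (fun p => c * u p) p = c * dt u p := deriv_const_mul_field c
  rw [Pre.Dt, Pre.Dt, h, h']
  ring
theorem Dt_mul (hu : CA u p) (hv : CA v p) :
    S.Dt (fun p => u p * v p) p = u p * S.Dt v p + v p * S.Dt u p := by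
  have h : dx (fun p => u p * v p) p = dx u p * v p + u p * dx v p :=
    (hu.xa.hasDerivAt.mul hv.xa.hasDerivAt).deriv
  have h' : dt (fun p => u p * v p) p = dt u p * v p + u p * dt v p :=
    ((rules_hdt hu).mul (rules_hdt hv)).deriv
  rw [Pre.Dt, Pre.Dt, Pre.Dt, h, h']
  ring
theorem Dt_comp {g : ℝ → ℝ} {g' : ℝ} (hu : CA u p) (hg : HasDerivAt g g' (u p)) :
    S.Dt (fun p => g (u p)) p = g' * S.Dt u p := by
  have h : dx (fun p => g (u p)) p = g' * dx u p :=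
    (HasDerivAt.comp p.2 hg hu.xa.hasDerivAt).deriv
  have h' : dt (fun p => g (u p)) p = g' * dt u p := (HasDerivAt.comp p.1 hg (rules_hdt hu)).deriv
  rw [Pre.Dt, Pre.Dt, h, h']
  ring
theorem CA.Ds (hS : IsSol q T S) (hp : p ∈ Om T) (hu : CA u p) : CA (S.Ds u) p :=
  ContDiffAt.div (rules_ca_dx hu) ((sm_ℓ hS).ca hp) (hS.posℓ _ (om_sub_wd hp).1).ne'
theorem CA.Dt (hS : IsSol q T S) (hp : p ∈ Om T) (hu : CA u p) : CA (S.Dt u) p :=
  ContDiffAt.sub (rules_ca_dt hu) (ContDiffAt.mul ((sm_ξ hS).ca hp) (rules_ca_dx hu))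
/-- the commutator of the two derivations -/
theorem Dt_Ds (hS : IsSol q T S) (hp : p ∈ Om T) (hu : CA u p) :
    S.Dt (S.Ds u) p = S.Ds (S.Dt u) p + S.ρ0 q p * S.Ds u p := by
  have h0 := (hS.posℓ _ (om_sub_wd hp).1).ne'
  have hl : HasDerivAt S.ℓ (deriv S.ℓ p.1) p.1 := rules_hdt ((sm_ℓ hS).ca hp)
  have h1 : dt (S.Ds u) p =
      (dt (dx u) p * S.ℓ p.1 - dx u p * deriv S.ℓ p.1) / S.ℓ p.1 ^ 2 :=
    ((rules_hdt (rules_ca_dx hu)).div hl h0).deriv
  have h2 : dx (S.Ds u) p = dx (dx u) p / S.ℓ p.1 :=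
    ((rules_ca_dx hu).xa.hasDerivAt.div_const (S.ℓ p.1)).deriv
  have h3 : dx (S.Dt u) p = dx (dt u) p - (dx S.ξ p * dx u p + S.ξ p * dx (dx u) p) :=
    ((rules_ca_dt hu).xa.hasDerivAt.sub
      (((sm_ξ hS).ca hp).xa.hasDerivAt.mul (rules_ca_dx hu).xa.hasDerivAt)).deriv
  rw [← hS.eqℓ p hp, Pre.Dt, Pre.Ds, Pre.Ds, h1, h2, h3, rules_symm hu]
  field_simp
  ring

theorem box_congr (h : u =ᶠ[𝓝 p] v) : S.box q u p = S.box q v p := by
  have h1 : S.Ds u =ᶠ[𝓝 p] S.Ds v := h.eventuallyEq_nhds.mono fun _ hy => Ds_congr (rules_slx hy)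
  rw [Pre.box, Pre.box, Pre.lap, Pre.lap, Dt_congr h, Ds_congr (rules_slx h1),
    Ds_congr (rules_slx h)]
theorem box_congr_wd (hp : p ∈ Om T) (h : ∀ p ∈ Wd T, u p = v p) :
    S.box q u p = S.box q v p :=
  box_congr (Filter.mem_of_superset (isOpen_om.mem_nhds hp) fun y hy => h y (om_sub_wd hy))
theorem box_const (c : ℝ) : S.box q (fun _ => c) p = 0 := by
  have h : S.Ds (fun _ => c) = fun _ => 0 := funext fun _ => Ds_const c
  rw [Pre.box, Pre.lap, h, Dt_const, Ds_const]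
  simp
theorem box_time {g : ℝ → ℝ} {g' : ℝ} (hg : HasDerivAt g g' p.1) :
    S.box q (fun p => g p.1) p = g' := by
  have h : S.Ds (fun p => g p.1) = fun _ => 0 := funext fun _ => Ds_time g
  rw [Pre.box, Pre.lap, h, Dt_time hg, Ds_const]
  simp
theorem box_neg : S.box q (fun p => -u p) p = -S.box q u p := by
  have h : S.Ds (fun p => -u p) = fun p => -S.Ds u p := funext fun _ => Ds_neg
  rw [Pre.box, Pre.box, Pre.lap, Pre.lap, h, Dt_neg, Ds_neg]
  ring
theorem box_cmul (c : ℝ) : S.box q (fun p => c * u p) p = c * S.box q u p := by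
  have h : S.Ds (fun p => c * u p) = fun p => c * S.Ds u p := funext fun _ => Ds_cmul c
  rw [Pre.box, Pre.box, Pre.lap, Pre.lap, h, Dt_cmul, Ds_cmul]
  ring
theorem box_add (hS : IsSol q T S) (hp : p ∈ Om T) (hu : CA u p) (hv : CA v p) :
    S.box q (fun p => u p + v p) p = S.box q u p + S.box q v p := by
  have h : S.Ds (S.Ds fun p => u p + v p) p = S.Ds (fun p => S.Ds u p + S.Ds v p) p :=
    Ds_congr (((rules_evx hu.xa).and (rules_evx hv.xa)).mono fun x hx => by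
      have h1 : dx (fun p => u p + v p) (p.1, x) = _ := (hx.1.add hx.2).deriv
      simp only [Pre.Ds, h1, add_div])
  rw [Pre.box, Pre.box, Pre.box, Pre.lap, Pre.lap, Pre.lap, h, Dt_add hu hv,
    Ds_add (hu.Ds hS hp).xa (hv.Ds hS hp).xa, Ds_add hu.xa hv.xa]
  ring
theorem box_sub (hS : IsSol q T S) (hp : p ∈ Om T) (hu : CA u p) (hv : CA v p) :
    S.box q (fun p => u p - v p) p = S.box q u p - S.box q v p := by
  simp only [sub_eq_add_neg]
  rw [box_add hS hp hu (v := fun p => -v p) (ContDiffAt.neg hv), box_neg]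
theorem box_mul (hS : IsSol q T S) (hp : p ∈ Om T) (hu : CA u p) (hv : CA v p) :
    S.box q (fun p => u p * v p) p =
      u p * S.box q v p + v p * S.box q u p - 2 * S.Ds u p * S.Ds v p := by
  have h : S.Ds (S.Ds fun p => u p * v p) p =
      S.Ds (fun p => u p * S.Ds v p + v p * S.Ds u p) p :=
    Ds_congr (((rules_evx hu.xa).and (rules_evx hv.xa)).mono fun x hx => by
      have h1 : dx (fun p => u p * v p) (p.1, x) =
          dx u (p.1, x) * v (p.1, x) + u (p.1, x) * dx v (p.1, x) := (hx.1.mul hx.2).deriv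
      simp only [Pre.Ds, h1]
      ring)
  have h1 := (hu.Ds hS hp).xa
  have h2 := (hv.Ds hS hp).xa
  rw [Pre.box, Pre.box, Pre.box, Pre.lap, Pre.lap, Pre.lap, h, Dt_mul hu hv,
    Ds_add (u := fun p => u p * S.Ds v p) (v := fun p => v p * S.Ds u p)
      (ContDiffAt.mul hu.xa h2) (ContDiffAt.mul hv.xa h1),
    Ds_mul hu.xa h2, Ds_mul hv.xa h1, Ds_mul hu.xa hv.xa]
  ring
theorem box_sq (hS : IsSol q T S) (hp : p ∈ Om T) (hu : CA u p) :
    S.box q (fun p => u p ^ 2) p = 2 * u p * S.box q u p - 2 * S.Ds u p ^ 2 := by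
  simp only [sq]
  rw [box_mul hS hp hu hu]
  ring
theorem box_exp (hS : IsSol q T S) (hp : p ∈ Om T) (hu : CA u p) :
    S.box q (fun p => Real.exp (u p)) p = Real.exp (u p) * (S.box q u p - S.Ds u p ^ 2) := by
  have h : S.Ds (S.Ds fun p => Real.exp (u p)) p =
      S.Ds (fun p => Real.exp (u p) * S.Ds u p) p :=
    Ds_congr ((rules_evx hu.xa).mono fun x hx => by
      have h1 : dx (fun p => Real.exp (u p)) (p.1, x) = _ := hx.exp.deriv
      simp only [Pre.Ds, h1, mul_div_assoc])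
  have h1 := Real.hasDerivAt_exp (u p)
  rw [Pre.box, Pre.box, Pre.lap, Pre.lap, h, Dt_comp hu h1,
    Ds_mul (u := fun p => Real.exp (u p)) (ContDiffAt.exp hu.xa) (hu.Ds hS hp).xa,
    Ds_comp hu.xa h1]
  ring
theorem box_tmul (hS : IsSol q T S) (hp : p ∈ Om T) (hu : CA u p) {g : ℝ → ℝ} {g' : ℝ}
    (hg : HasDerivAt g g' p.1) :
    S.box q (fun p => g p.1 * u p) p = g p.1 * S.box q u p + g' * u p := by
  have k : ∀ (w : ℝ × ℝ → ℝ) (y : ℝ × ℝ), dx (fun p => g p.1 * w p) y = g y.1 * dx w y :=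
    fun w y => deriv_const_mul_field (g y.1)
  have h : ∀ w : ℝ × ℝ → ℝ, S.Ds (fun p => g p.1 * w p) = fun p => g p.1 * S.Ds w p :=
    fun w => funext fun y => by rw [Pre.Ds, Pre.Ds, k, mul_div_assoc]
  have h' : dt (fun p => g p.1 * u p) p = g' * u p + g p.1 * dt u p :=
    (hg.mul (rules_hdt hu)).deriv
  rw [Pre.box, Pre.box, Pre.lap, Pre.lap, h, h, Pre.Dt, Pre.Dt, k, h']
  ring
theorem Ds_tmul (g : ℝ → ℝ) : S.Ds (fun p => g p.1 * u p) p = g p.1 * S.Ds u p := by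
  have h : dx (fun p => g p.1 * u p) p = g p.1 * dx u p := deriv_const_mul_field (g p.1)
  rw [Pre.Ds, Pre.Ds, h, mul_div_assoc]

end Vale.Agent.P244
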