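import Vale.Agent.P244C.BoxW

open Set MeasureTheory Filter Topology
open scoped ContDiff

noncomputable section

namespace Vale.Agent.P244

theorem scalA_near {m s r F N a b c d g e : ℝ} (hm : 10 ^ 8 ≤ m) (hF : 0 < F) (hN : 0 ≤ N)
    (hr : F * r ≤ 20000) (hs : s ≤ 1.2) (ha : a ^ 2 ≤ 80000 * N) (hb0 : 0 ≤ b)
    (hb : F * b ≤ 2000) (hc : c ^ 2 ≤ 8 * N) (hd : N ≤ d / F) (hg : 0 ≤ g)
    (he : b * e ≤ m * (b / F) + 138 * N) :
    2 * r / (m + 4) * (b + d) + 7 * (a + b + c) ^ 2 ≤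
      b * ((4 * m - 16 * s) / F - e) + (g + d * ((m / 2 - s / 4) / F)) := by
  have hB : 0 ≤ b / F := div_nonneg hb0 hF.le
  have hD : 0 ≤ d / F := hN.trans hd
  have h1 : 2 * r / (m + 4) ≤ 1 / F := by
    rw [div_le_div_iff₀ (by linarith) hF]
    linarith
  have h2 : 2 * r / (m + 4) * (b + d) ≤ b / F + d / F := by
    have hd0 : 0 ≤ d := by simpa [hF.ne'] using mul_nonneg hD hF.le
    refine (mul_le_mul_of_nonneg_right h1 (add_nonneg hb0 hd0)).trans_eq ?_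
    ring
  have h3 : b ^ 2 ≤ 2000 * (b / F) := by
    rw [← mul_div_assoc, le_div_iff₀ hF]
    nlinarith
  have h4 : (a + b + c) ^ 2 ≤ 3 * (a ^ 2 + b ^ 2 + c ^ 2) := by
    nlinarith [sq_nonneg (a - b), sq_nonneg (b - c), sq_nonneg (a - c)]
  have h5 := mul_le_mul_of_nonneg_right (show 10 ^ 8 ≤ 3 * m - 16 * s by linarith) hB
  have h6 := mul_le_mul_of_nonneg_right (show 10 ^ 7 ≤ m / 2 - s / 4 by linarith) hD
  have e1 : b * ((4 * m - 16 * s) / F - e) = (3 * m - 16 * s) * (b / F) + m * (b / F) - b * e := by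
    ring
  have e2 : d * ((m / 2 - s / 4) / F) = (m / 2 - s / 4) * (d / F) := by ring
  rw [e1, e2]
  linarith

theorem scalA_far {m s r F K a b c d g e A C D : ℝ} (hm : 0 ≤ m) (hF : 0 < F)
    (hK : 1 / F ≤ K ^ 2) (hK0 : 0 ≤ K) (hr0 : 0 ≤ r) (hr : F * r ≤ 10000 + 2 * K) (hs : s ≤ m)
    (ha0 : 0 ≤ a) (ha : a ≤ A) (hb0 : 0 ≤ b) (hb : F * b ≤ 2000) (hc0 : 0 ≤ c) (hc : c ≤ C)
    (hd0 : 0 ≤ d) (hd : d ≤ D) (he : b * e ≤ 1250 * K ^ 4)
    (hg : (10000 + 2 * K) * K ^ 2 * (2000 * K ^ 2 + D) + 7 * (A + 2000 * K ^ 2 + C) ^ 2 +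
      24000 * m * K ^ 4 + 1250 * K ^ 4 ≤ g) :
    2 * r / (m + 4) * (b + d) + 7 * (a + b + c) ^ 2 ≤
      b * ((4 * m - 16 * s) / F - e) + (g + d * ((m / 2 - s / 4) / F)) := by
  have key : ∀ {x y : ℝ}, 0 ≤ y → F * x ≤ y → x ≤ y * K ^ 2 := fun {x y} h0 h =>
    ((le_div_iff₀' hF).2 h).trans (by rw [div_eq_mul_one_div]; gcongr)
  have h1 : 2 * r / (m + 4) ≤ (10000 + 2 * K) * K ^ 2 := by
    refine le_trans ?_ (key (by positivity) hr)
    rw [div_le_iff₀ (by linarith)]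
    nlinarith
  have h2 := key (by norm_num) hb
  have h3 : 2 * r / (m + 4) * (b + d) ≤ (10000 + 2 * K) * K ^ 2 * (2000 * K ^ 2 + D) := by gcongr
  have h4 : (a + b + c) ^ 2 ≤ (A + 2000 * K ^ 2 + C) ^ 2 := by gcongr
  have h5 : 0 ≤ d * ((m / 2 - s / 4) / F) := mul_nonneg hd0 (div_nonneg (by linarith) hF.le)
  have h6 : 12 * m * (b * (1 / F)) ≤ 12 * m * (2000 * K ^ 2 * K ^ 2) := by gcongr
  have h7 : 0 ≤ (m - s) * (b * (1 / F)) := mul_nonneg (by linarith) (by positivity)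
  have e1 : b * ((4 * m - 16 * s) / F - e) =
      16 * ((m - s) * (b * (1 / F))) - 12 * m * (b * (1 / F)) - b * e := by ring
  rw [e1]
  linarith

/-- the barrier for the scalar curvature is a supersolution -/
theorem scal_bar (q : ℕ) (K K1 K2 : ℝ) : ∃ τ1 > (0 : ℝ), ∀ (e0 T T' : ℝ) (S : Pre) (p : ℝ × ℝ),
    Dim q e0 → 10 ≤ K → 1 ≤ K1 → 10 ≤ K2 → K1 ^ 2 ≤ K2 → 0 < T → T ≤ τ1 → IsSol q T' S →
      p ∈ Om T' → Bas q e0 K T S p → (S.h p ≤ 2 / K → Nr q S p) →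
      2 * |S.R q p| / (mm q + 4) * (S.W2 e0 T p + S.W4 K2 T p) + 7 * S.WW e0 K1 T p ^ 2 ≤
        S.box q (fun p => S.W2 e0 T p + S.W4 K2 T p) p := by
  set C := (10000 + 2 * K) * K ^ 2 * (2000 * K ^ 2 + K2 * 2 * K ^ 2) +
    7 * (1000 * K1 * K ^ 9 + 2000 * K ^ 2 + K1 * 2 * 2) ^ 2 + 24000 * mm q * K ^ 4 + 1250 * K ^ 4
  refine ⟨min (1 / 100) (1 / (|C| + 1)), by positivity, ?_⟩
  intro e0 T T' S p hd hK hK1 hK2 h12 hT hTτ hS hp hb hn
  have T1 : T ≤ 1 / 100 := hTτ.trans (min_le_left _ _)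
  have T2 : |C| + 1 ≤ 1 / T := by
    rw [le_one_div (by positivity) hT]
    exact hTτ.trans (min_le_right _ _)
  have hm := hd.hq
  have τ0 := hb.τ0
  have τT := hb.τT
  have φ0 := hb.φpos
  have f0 := hb.fpos
  have t0 : 0 ≤ p.1 / T := div_nonneg hp.1.1.le hT.le
  have t1 : p.1 / T ≤ 1 := (div_le_one hT).2 (by linarith)
  have φ4 : S.φ p ^ 4 ≤ 1.1 := hb.fφ ▸ hb.f1
  have φ2 : S.φ p ^ 2 ≤ 1.1 := by nlinarith [sq_nonneg (S.φ p ^ 2 - 1)]
  have φ1 : S.φ p ≤ 1.1 := by nlinarith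
  have fe : S.f p ^ 2 = S.φ p ^ 8 := by rw [hb.fφ]; ring
  have l0 : 0 ≤ lam2 e0 T := by unfold lam2; positivity
  have l1 : lam2 e0 T ≤ T ^ 2 / 4 := (lam2_hi hd hT (by linarith)).trans (by
    rw [← Real.rpow_two]
    gcongr ?_ / 4
    exact Real.rpow_le_rpow_of_exponent_ge hT (by linarith) (by norm_num))
  have b0 : 0 ≤ S.W2 e0 T p := by unfold Pre.W2; positivity
  have b1 : S.W2 e0 T p * (5 / (T - p.1)) ≤ 1250 * ((T - p.1) / S.f p ^ 2 * (1 / S.f p ^ 2)) := by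
    have x1 : ((T - p.1) / T) ^ 5 ≤ ((T - p.1) / T) ^ 2 :=
      pow_le_pow_of_le_one (by positivity) ((div_le_one hT).2 τT) (by norm_num)
    calc S.W2 e0 T p * (5 / (T - p.1))
        ≤ 1000 * (T ^ 2 / 4) * ((T - p.1) / T) ^ 2 / S.f p ^ 4 * (5 / (T - p.1)) := by
          unfold Pre.W2
          gcongr
      _ = _ := by field_simp; ring
  rw [box_add hS hp ((sm_W2 hS).ca hp) ((sm_W4 hS).ca hp), box_W2 hS hp τ0, box_W4 hS hp, Pre.WW]
  rcases le_or_gt (S.h p) (2 / K) with h | h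
  · have hn := hn h
    refine scalA_near (N := K2 / S.φ p ^ 10) hm (by positivity) (by positivity) hn.cR
      (hn.fs.trans ?_) ?_ b0 hb.W2f ?_ ?_ (by positivity) ?_
    · have : S.EE p ≤ 1.03 := (div_le_iff₀ (by positivity)).2 hb.E1
      linarith
    · have x1 : (T - p.1) ^ 3 * (T - p.1) ≤ 8 * S.φ p ^ 8 * (1 / 100) := by
        rw [← fe]
        gcongr
        exacts [hb.low, by linarith]
      calc S.W1 K1 T p ^ 2
          = 10 ^ 6 * K1 ^ 2 * ((T - p.1) ^ 3 * (T - p.1)) / S.φ p ^ 18 := by unfold Pre.W1; ring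
        _ ≤ 10 ^ 6 * K2 * (8 * S.φ p ^ 8 * (1 / 100)) / S.φ p ^ 18 := by gcongr
        _ = _ := by field_simp; ring
    · calc S.W3 K1 T p ^ 2
          = K1 ^ 2 * (1 + p.1 / T) ^ 2 * (S.φ p ^ 4) ^ 6 / S.φ p ^ 10 := by
            unfold Pre.W3
            field_simp
        _ ≤ K2 * (1 + 1) ^ 2 * 2 / S.φ p ^ 10 := by
            gcongr
            exact (pow_le_pow_left₀ (by positivity) φ4 6).trans (by norm_num)
        _ = _ := by ring
    · calc K2 / S.φ p ^ 10 = K2 * (1 + 0) / S.φ p ^ 2 / S.f p ^ 2 := by rw [fe]; field_simp; ring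
        _ ≤ _ := by unfold Pre.W4; gcongr
    · rcases le_or_gt (5 / (T - p.1)) (mm q / S.f p ^ 2) with h1 | h1
      · refine le_add_of_le_of_nonneg ((mul_le_mul_of_nonneg_left h1 b0).trans_eq (by ring))
          (by positivity)
      · rw [div_lt_div_iff₀ (by positivity) τ0] at h1
        have x1 : (T - p.1) / S.f p ^ 2 ≤ 1 := (div_le_one (by positivity)).2 (by nlinarith)
        refine le_add_of_nonneg_of_le (mul_nonneg (by linarith) (by positivity)) (b1.trans ?_)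
        calc 1250 * ((T - p.1) / S.f p ^ 2 * (1 / S.f p ^ 2))
            ≤ 1250 * (1 * (1 / S.f p ^ 2)) := by gcongr
          _ = 1250 * S.φ p ^ 2 / S.φ p ^ 10 := by rw [fe]; field_simp
          _ ≤ 138 * K2 / S.φ p ^ 10 := by gcongr ?_ / _; linarith
          _ = _ := by ring
  · have K0 : 0 < K := by linarith
    have x1 : 1 / S.f p ^ 2 ≤ K ^ 2 := by
      rw [div_lt_iff₀ K0] at h
      rw [div_le_iff₀ (by positivity)]
      nlinarith [hb.E1, mul_le_mul_of_nonneg_left hb.E1 (sq_nonneg K)]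
    have x2 : 1 / S.φ p ≤ K := by
      refine le_of_pow_le_pow_left₀ (n := 8) (by norm_num) K0.le ?_
      rw [one_div_pow, ← fe]
      exact x1.trans (pow_le_pow_right₀ (by linarith) (by norm_num))
    refine scalA_far (by linarith) (by positivity) x1 K0.le (abs_nonneg _) hb.cR hb.glob.fs
      (by unfold Pre.W1; positivity) ?_ b0 hb.W2f (by unfold Pre.W3; positivity) ?_
      (by unfold Pre.W4; positivity) ?_ (b1.trans ?_) ((le_abs_self C).trans ?_)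
    · calc S.W1 K1 T p = 1000 * K1 * ((T - p.1) ^ 2 * (1 / S.φ p) ^ 9) := by unfold Pre.W1; ring
        _ ≤ 1000 * K1 * (1 ^ 2 * K ^ 9) := by gcongr; linarith
        _ = _ := by ring
    · unfold Pre.W3
      gcongr
      · linarith
      · exact (pow_le_pow_left₀ φ0.le φ1 7).trans (by norm_num)
    · calc S.W4 K2 T p = K2 * (1 + p.1 / T) * (1 / S.φ p) ^ 2 := by unfold Pre.W4; ring
        _ ≤ _ := by gcongr; linarith
    · calc 1250 * ((T - p.1) / S.f p ^ 2 * (1 / S.f p ^ 2))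
          ≤ 1250 * (1 / S.f p ^ 2 * (1 / S.f p ^ 2)) := by gcongr; linarith
        _ ≤ 1250 * (K ^ 2 * K ^ 2) := by gcongr
        _ = _ := by ring
    · refine le_trans (by linarith) (T2.trans ?_)
      gcongr
      rw [le_div_iff₀ (by positivity)]
      linarith

end Vale.Agent.P244
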