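import Vale.Agent.P244C.Near

open Set MeasureTheory Filter Topology
open scoped ContDiff

noncomputable section

namespace Vale.Agent.P244

section
variable {q : ℕ} {e0 K T T' : ℝ} {S : Pre} {u v : ℝ × ℝ → ℝ} {p : ℝ × ℝ}

theorem thA_add (hS : IsSol q T S) (hp : p ∈ Om T) (hu : Sm T u) (hv : Sm T v) :
    S.box' q (fun p => u p + v p) p = S.box' q u p + S.box' q v p := by
  unfold Pre.box'
  rw [box_add hS hp (hu.ca hp) (hv.ca hp), Ds_add (hu.ca hp).xa (hv.ca hp).xa]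
  ring

theorem thA_cmul (c : ℝ) : S.box' q (fun p => c * u p) p = c * S.box' q u p := by
  unfold Pre.box'
  rw [box_cmul, Ds_cmul]
  ring

theorem thA_tmul (hS : IsSol q T S) (hp : p ∈ Om T) (hu : Sm T u) {g : ℝ → ℝ} {g' : ℝ}
    (hg : HasDerivAt g g' p.1) :
    S.box' q (fun p => g p.1 * u p) p = g p.1 * S.box' q u p + g' * u p := by
  unfold Pre.box'
  rw [box_tmul hS hp (hu.ca hp) hg, Ds_tmul]
  ring

theorem thA_hX (hq : 10 ^ 8 ≤ mm q) (b : Bas q e0 K T S p) : |S.hX p| ≤ mm q / 1000 := by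
  refine abs_le_of_sq_le_sq' ?_ (by linarith) |> abs_le.2
  have := b.hX2
  nlinarith

theorem thA_a (b : Bas q e0 K T S p) : |S.a p| ≤ 1 := by
  have h : S.a p ^ 2 ≤ 1 ^ 2 := by rw [one_pow]; exact b.glob.z1
  exact abs_le.2 (abs_le_of_sq_le_sq' h zero_le_one)

theorem thA_E (b : Bas q e0 K T S p) : 0 ≤ S.EE p ∧ S.EE p ≤ 1.03 :=
  ⟨div_nonneg (sq_nonneg _) (sq_nonneg _), (div_le_iff₀ (pow_pos b.fpos 2)).2 b.E1⟩

theorem thA_z (b : Bas q e0 K T S p) : 0 ≤ S.z p ∧ S.z p ≤ 1 := ⟨sq_nonneg _, b.glob.z1⟩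

theorem thA_zE (b : Bas q e0 K T S p) : 0 ≤ S.z p * S.EE p ∧ S.z p * S.EE p ≤ 1.03 := by
  have h1 := thA_E b
  have h2 := thA_z b
  exact ⟨mul_nonneg h2.1 h1.1, (mul_le_of_le_one_left h1.1 h2.2).trans h1.2⟩

theorem thA_ahX (hq : 10 ^ 8 ≤ mm q) (b : Bas q e0 K T S p) : |S.a p * S.hX p| ≤ mm q / 1000 := by
  rw [abs_mul]
  exact (mul_le_of_le_one_left (abs_nonneg _) (thA_a b)).trans (thA_hX hq b)

theorem thA_pot (b : Bas q e0 K T S p) :
    4 * S.z p / S.f p ^ 2 = 4 * (S.z p * S.EE p) / S.h p ^ 2 := by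
  have h1 := b.hpos.ne'
  have h2 := b.fpos.ne'
  unfold Pre.EE
  field_simp

/-- from the operator of the linear equation to the form needed by the maximum principle -/
theorem thA_mp (hq : 10 ^ 8 ≤ mm q) (b : Bas q e0 K T S p)
    (h : S.h p ^ 2 * S.box' q u p ≤ mm q / 4 * u p) :
    S.box q u p ≤ (0 + mm q / 4 / S.h p ^ 2) * u p + (0 + mm q / 4 / S.h p) * |S.Ds u p| := by
  have h0 := b.hpos
  have h1 : S.box' q u p ≤ mm q / 4 / S.h p ^ 2 * u p := by
    rw [div_mul_eq_mul_div, le_div_iff₀ (pow_pos h0 2)]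
    linarith
  have h2 : 2 * S.X p + 2 * S.h p * S.a p / S.f p ^ 2 =
      (2 * S.hX p + 2 * (S.EE p * S.a p)) / S.h p := by
    have h2 := b.fpos.ne'
    unfold Pre.hX Pre.EE
    field_simp
  have h3 : |S.EE p * S.a p| ≤ 1.03 := by
    rw [abs_mul, abs_of_nonneg (thA_E b).1]
    exact (mul_le_of_le_one_right (thA_E b).1 (thA_a b)).trans (thA_E b).2
  have h4 : |2 * S.X p + 2 * S.h p * S.a p / S.f p ^ 2| ≤ mm q / 4 / S.h p := by
    rw [h2, abs_div, abs_of_pos h0]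
    refine div_le_div_of_nonneg_right ?_ h0.le
    have h5 := abs_le.1 (thA_hX hq b)
    have h6 := abs_le.1 h3
    exact abs_le.2 ⟨by linarith, by linarith⟩
  have h5 := mul_le_mul_of_nonneg_right h4 (abs_nonneg (S.Ds u p))
  rw [← abs_mul] at h5
  have h6 := neg_abs_le ((2 * S.X p + 2 * S.h p * S.a p / S.f p ^ 2) * S.Ds u p)
  unfold Pre.box' at h1
  linarith

theorem thA_k (hS : IsSol q T S) (hp : p ∈ Wd T) : S.k p * S.mono (-(1 / 4)) 0 p = 1 := by
  have h := mono_zpow hS hp (-1) 0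
  rw [zpow_zero, mul_one, zpow_neg_one, Int.cast_zero, zero_div, Int.cast_neg, Int.cast_one,
    neg_div] at h
  rw [h, mul_inv_cancel₀ (k_pos hS hp).ne']

theorem thA_exp (h : 0 < S.h p) : Real.exp (2 * S.G p) = S.h p ^ 2 := by
  rw [two_mul, Real.exp_add, Pre.G, Real.exp_log h, sq]

theorem thA_inv (S : Pre) (ε : ℝ) (p : ℝ × ℝ) : S.mono 0 ε p * S.mono 0 (-ε) p = 1 := by
  unfold Pre.mono
  rw [← Real.exp_add, ← Real.exp_zero]
  congr 1
  ring

theorem thA_cont {t1 : ℝ} (hS : IsSol q T' S) (h1 : t1 < T') (c : ℝ) :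
    ContinuousOn (fun p : ℝ × ℝ => c * (T - p.1) - S.h p ^ 2) (Rg t1) :=
  (((sm_const c).mul ((sm_const T).sub sm_fst)).sub ((sm_h hS).pow 2)).cont.mono (rg_sub_wd h1)

end

theorem theta_up (q : ℕ) : ∃ τ1 > (0 : ℝ), ∀ (e0 Ci K T T' t1 : ℝ) (S : Pre), T ≤ τ1 →
    Hyp q e0 Ci K T T' t1 S → (∀ p ∈ Rg t1, 0 < p.1 → Pz q e0 T S p) →
      ∀ p ∈ Rg t1, S.h p ^ 2 ≤ T - p.1 → S.k p * S.Θ p ≤ (T - p.1) ^ 3 / 200 := by
  refine ⟨Real.exp (-(16 * 2000000)), Real.exp_pos _, fun e0 Ci K T T' t1 S hτ H hz => ?_⟩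
  have hS := H.sol
  have hq := H.dim.hq
  have s1 : Sm T' fun p : ℝ × ℝ => -((T - p.1) ^ 3 / 200) * S.mono (-(1 / 4)) 0 p :=
    ((((sm_const T).sub sm_fst).pow 3).div_const 200).neg.mul (sm_mono hS _ _)
  have key := mpG hS (by linarith) H.ht0 H.ht1
    (fun p => S.Θ p + -((T - p.1) ^ 3 / 200) * S.mono (-(1 / 4)) 0 p)
    (fun p => 1 * (T - p.1) - S.h p ^ 2) ((sm_Θ hS).add s1) (thA_cont hS H.ht1 1) ?_ ?_ ?_ 0 ?_
  · intro p hp h
    have h1 := mul_le_mul_of_nonneg_left (key p hp (by linarith)) (H.bas p hp).kpos.le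
    have h2 := thA_k hS (rg_sub_wd H.ht1 hp)
    linear_combination h1 + (T - p.1) ^ 3 / 200 * h2
  · obtain ⟨C, -, hC⟩ := reg_bd' hS H.ht0 H.ht1
    refine ⟨C, fun p hp _ => ?_⟩
    have h1 := (abs_le.1 (hC p hp).2.2.2.2.2.2.1).2
    have h2 := (H.bas p hp).τ0
    have h3 := mono_pos S (-(1 / 4)) 0 p
    have h4 : 0 ≤ (T - p.1) ^ 3 / 200 * S.mono (-(1 / 4)) 0 p := by positivity
    linarith
  · intro x hx h
    have hp : ((0 : ℝ), x) ∈ Wd T' := ⟨⟨le_rfl, H.ht0.trans_lt H.ht1⟩, hx⟩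
    have h1 := mul_le_mul_of_nonneg_right ((H.ini x hx).up (by linarith))
      (mono_pos S (-(1 / 4)) 0 (0, x)).le
    have h2 := thA_k hS hp
    simp only [sub_zero]
    linear_combination h1 - S.Θ (0, x) * h2
  · intro p hp h0 h
    have b := H.bas p hp
    have hτ0 := b.τ0
    have h1 := (abs_le.1 ((hz p hp h0).up (by linarith) (by nlinarith))).2
    have h2 : S.G p ≤ -(8 * 2000000) := by
      have h3 : Real.exp (2 * S.G p) ≤ Real.exp (-(16 * 2000000)) := by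
        rw [thA_exp b.hpos]
        linarith [b.τT]
      have := Real.exp_le_exp.1 h3
      linarith
    have h3 : 2000000 * S.mono (-e0) 0 p ≤ S.mono (-(1 / 4)) 0 p := by
      have h4 := Real.add_one_le_exp 2000000
      have h5 := mul_le_mul_of_nonneg_right h4 (mono_pos S (-e0) 0 p).le
      have h6 : Real.exp 2000000 * S.mono (-e0) 0 p ≤ S.mono (-(1 / 4)) 0 p := by
        unfold Pre.mono
        rw [← Real.exp_add]
        refine Real.exp_le_exp.2 ?_
        have h7 := H.dim.e0_le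
        have h8 := mul_le_mul_of_nonneg_right (show e0 ≤ 1 / 8 by linarith)
          (show 0 ≤ -S.G p by linarith)
        linarith
      have h7 := mono_pos S (-e0) 0 p
      linarith
    have h4 := mul_le_mul_of_nonneg_left h3 (pow_pos hτ0 3).le
    linarith
  · intro p hp h0 h hQ
    have b := H.bas p hp
    have ho := rg_om H.ht1 hp h0
    refine thA_mp hq b ?_
    have d : HasDerivAt (fun t : ℝ => -((T - t) ^ 3 / 200)) (3 * (T - p.1) ^ 2 / 200) p.1 :=
      (((((hasDerivAt_id p.1).const_sub T).pow 3).div_const 200).neg).congr_deriv (by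
        simp only [id]; push_cast; ring)
    rw [thA_add hS ho (sm_Θ hS) s1, thA_tmul hS ho (sm_mono hS _ _) d, box'_Θ hS ho,
      box'_mono hS ho, thA_pot b]
    have h1 := thA_zE b
    have h2 := thA_z b
    have h3 := abs_le.1 (thA_ahX hq b)
    have h4 := b.hpos.ne'
    have h5 := b.τ0
    have h6 := mono_pos S (-(1 / 4)) 0 p
    generalize S.mono (-(1 / 4)) 0 p = M at *
    generalize S.a p * S.hX p = w at *
    generalize S.z p * S.EE p = y at *
    generalize T - p.1 = τ at *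
    have e : S.h p ^ 2 * (4 * y / S.h p ^ 2 * S.Θ p + (-(τ ^ 3 / 200) * (M / S.h p ^ 2 *
        (-(-(1 / 4) * mm q) - (-(1 / 4)) ^ 2 * S.z p + 2 * -(1 / 4) * (w + y))) +
        3 * τ ^ 2 / 200 * M)) = 4 * y * (S.Θ p + -(τ ^ 3 / 200) * M) +
        τ ^ 3 / 200 * M * (4 * y - mm q / 4 + S.z p / 16 + (w + y) / 2) +
        3 * τ ^ 2 / 200 * M * S.h p ^ 2 := by
      field_simp
      ring
    rw [e]
    have k1 := mul_le_mul_of_nonneg_right (show 4 * y ≤ mm q / 4 by linarith) hQ.le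
    have k2 := mul_le_mul_of_nonneg_left
      (show 4 * y - mm q / 4 + S.z p / 16 + (w + y) / 2 ≤ -3 by linarith)
      (show 0 ≤ τ ^ 3 / 200 * M by positivity)
    have k3 := mul_le_mul_of_nonneg_left (show S.h p ^ 2 ≤ τ by linarith)
      (show 0 ≤ 3 * τ ^ 2 / 200 * M by positivity)
    linarith

theorem theta_lo {q : ℕ} {e0 Ci K T T' t1 : ℝ} {S : Pre} (H : Hyp q e0 Ci K T T' t1 S)
    (hz : ∀ p ∈ Rg t1, 0 < p.1 → Pz q e0 T S p) :
    ∀ p ∈ Rg t1, S.h p ^ 2 ≤ T - p.1 →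
      A0 q e0 T * ((T - p.1) / T) ^ 3 ≤ S.Θ p * S.mono 0 (3 / mm q) p := by
  have hS := H.sol
  have hq := H.dim.hq
  have hT := H.hT
  have hA : 0 < A0 q e0 T := A0_pos hT
  have hm : 0 < mm q := by linarith
  have hε : 0 < 3 / mm q := by positivity
  have s1 : Sm T' fun p : ℝ × ℝ => A0 q e0 T * ((T - p.1) / T) ^ 3 * S.mono 0 (-(3 / mm q)) p :=
    ((sm_const _).mul ((((sm_const T).sub sm_fst).div_const T).pow 3)).mul (sm_mono hS _ _)
  have s2 : Sm T' fun p : ℝ × ℝ => -1 * S.Θ p := (sm_const _).mul (sm_Θ hS)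
  have key := mpG hS (by linarith) H.ht0 H.ht1
    (fun p => -1 * S.Θ p + A0 q e0 T * ((T - p.1) / T) ^ 3 * S.mono 0 (-(3 / mm q)) p)
    (fun p => 1 * (T - p.1) - S.h p ^ 2) (s2.add s1) (thA_cont hS H.ht1 1) ?_ ?_ ?_ 0 ?_
  · intro p hp h
    have h1 := mul_le_mul_of_nonneg_left (key p hp (by linarith)) (mono_pos S 0 (3 / mm q) p).le
    have h2 := thA_inv S (3 / mm q) p
    linear_combination h1 - A0 q e0 T * ((T - p.1) / T) ^ 3 * h2
  · obtain ⟨C, -, hC⟩ := reg_bd' hS H.ht0 H.ht1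
    refine ⟨C + A0 q e0 T * 1 * Real.exp (3 / mm q * C), fun p hp _ => ?_⟩
    have h1 := (abs_le.1 (hC p hp).2.2.2.2.2.2.1).1
    have h2 := (abs_le.1 (hC p hp).2.2.2.2.2.2.2.2.2.2).1
    have h3 : ((T - p.1) / T) ^ 3 ≤ 1 :=
      pow_le_one₀ (div_nonneg (H.bas p hp).τ0.le hT.le) ((div_le_one hT).2 (H.bas p hp).τT)
    have h4 : S.mono 0 (-(3 / mm q)) p ≤ Real.exp (3 / mm q * C) := by
      refine Real.exp_le_exp.2 ?_
      have := mul_le_mul_of_nonneg_left h2 hε.le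
      linarith
    have h5 := mul_le_mul (mul_le_mul_of_nonneg_left h3 hA.le) h4 (mono_pos _ _ _ _).le
      (by positivity)
    linarith
  · intro x hx h
    have h1 := mul_le_mul_of_nonneg_right ((H.ini x hx).lo (by linarith))
      (mono_pos S 0 (-(3 / mm q)) (0, x)).le
    have h2 := thA_inv S (3 / mm q) (0, x)
    simp only [sub_zero, div_self hT.ne', one_pow, mul_one]
    linear_combination h1 + S.Θ (0, x) * h2
  · intro p hp h0 h
    have b := H.bas p hp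
    have hτ0 := b.τ0
    have h1 := (hz p hp h0).lo (by linarith)
    have h2 : 0 < (T - p.1) ^ 3 * S.mono (-e0) 0 p := mul_pos (pow_pos hτ0 3) (mono_pos _ _ _ _)
    have h3 : S.G p ≤ S.F p := by
      have h4 : S.h p ^ 2 ≤ S.f p ^ 2 := by
        have : 0 ≤ S.f p ^ 2 - S.h p ^ 2 := (show 0 ≤ S.Θ p by linarith)
        linarith
      exact (Real.log_le_iff_le_exp b.hpos).2 (le_of_sq_le_sq h4 b.fpos.le)
    have h4 : 2 * S.G p ≤ Real.log T := by
      rw [Real.le_log_iff_exp_le hT, thA_exp b.hpos]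
      linarith [b.τT]
    have h5 : 3 / mm q ≤ e0 := by
      rw [div_le_iff₀ hm]
      linarith [H.dim.lo]
    have h6 : T ^ ((3 / mm q - e0) / 2) * S.mono 0 (-(3 / mm q)) p ≤ S.mono (-e0) 0 p := by
      unfold Pre.mono
      rw [Real.rpow_def_of_pos hT, ← Real.exp_add]
      refine Real.exp_le_exp.2 ?_
      have k1 := mul_le_mul_of_nonneg_left h3 hε.le
      have k2 := mul_le_mul_of_nonneg_left h4 (sub_nonneg.2 h5)
      linarith
    have h7 := A0_le H.dim hT (by linarith [H.T_le])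
    rw [Real.rpow_add hT, show T ^ (3 : ℝ) = T ^ 3 from Real.rpow_ofNat T 3] at h7
    have h8 := mul_le_mul_of_nonneg_right h7 (show 0 ≤ ((T - p.1) / T) ^ 3 *
      S.mono 0 (-(3 / mm q)) p from (mul_pos (pow_pos (div_pos hτ0 hT) 3) (mono_pos _ _ _ _)).le)
    have h9 : T ^ 3 * T ^ ((3 / mm q - e0) / 2) / 4 * (((T - p.1) / T) ^ 3 *
        S.mono 0 (-(3 / mm q)) p) = (T - p.1) ^ 3 *
          (T ^ ((3 / mm q - e0) / 2) * S.mono 0 (-(3 / mm q)) p) / 4 := by
      field_simp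
    have h10 := mul_le_mul_of_nonneg_left h6 (pow_pos hτ0 3).le
    linarith
  · intro p hp h0 h hQ
    have b := H.bas p hp
    have ho := rg_om H.ht1 hp h0
    have hK : 0 < K := by linarith [H.hK]
    have hn : S.h p ≤ 2 / K := by
      rw [le_div_iff₀ hK]
      have k1 := mul_le_mul_of_nonneg_right (show S.h p ^ 2 ≤ T by linarith [b.τT]) (sq_nonneg K)
      have k2 : (S.h p * K) ^ 2 ≤ 2 ^ 2 := by linarith [H.hTK]
      exact le_of_sq_le_sq k2 zero_le_two
    refine thA_mp hq b ?_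
    have d : HasDerivAt (fun t : ℝ => A0 q e0 T * ((T - t) / T) ^ 3)
        (-(A0 q e0 T * (3 * ((T - p.1) / T) ^ 2 / T))) p.1 :=
      (((((hasDerivAt_id p.1).const_sub T).div_const T).pow 3).const_mul _).congr_deriv (by
        simp only [id]; push_cast; ring)
    rw [thA_add hS ho s2 s1, thA_tmul hS ho (sm_mono hS _ _) d, thA_cmul, box'_Θ hS ho,
      box'_monof hS ho, div_mul_cancel₀ 3 hm.ne']
    have h1 := thA_zE b
    have h2 := H.z_near p hp hn
    have h3 := (H.nr p hp hn).J0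
    have h4 := (thA_E b).1
    have h5 := b.τ0
    have h6 := mono_pos S 0 (-(3 / mm q)) p
    have h7 := b.fpos
    have h8 := b.hpos
    have k0 : 0 ≤ ((3 / mm q) ^ 2 + 2 * (3 / mm q)) * S.fs p ^ 2 +
        2 * (3 / mm q) * S.EE p * S.J p := by
      have : 0 ≤ S.J p := by linarith
      positivity
    have k4 : 0 ≤ S.h p ^ 2 * (A0 q e0 T * (3 * ((T - p.1) / T) ^ 2 / T) *
        S.mono 0 (-(3 / mm q)) p) := by positivity
    have k5 : 0 ≤ A0 q e0 T * ((T - p.1) / T) ^ 3 * S.mono 0 (-(3 / mm q)) p * S.EE p := by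
      positivity
    generalize S.mono 0 (-(3 / mm q)) p = M at *
    generalize A0 q e0 T * ((T - p.1) / T) ^ 3 = B at *
    generalize A0 q e0 T * (3 * ((T - p.1) / T) ^ 2 / T) = B' at *
    generalize ((3 / mm q) ^ 2 + 2 * (3 / mm q)) * S.fs p ^ 2 = w at *
    generalize 2 * (3 / mm q) * S.EE p * S.J p = y at *
    have e : S.h p ^ 2 * (-1 * (4 * S.z p / S.f p ^ 2 * S.Θ p) +
        (B * (M / S.f p ^ 2 * (3 - w - y)) + -B' * M)) =
        4 * (S.z p * S.EE p) * (-1 * S.Θ p + B * M) + B * M * S.EE p * (3 - w - y - 4 * S.z p) -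
          S.h p ^ 2 * (B' * M) := by
      unfold Pre.EE
      field_simp
      ring
    rw [e]
    have k1 := mul_le_mul_of_nonneg_right
      (show 4 * (S.z p * S.EE p) ≤ mm q / 4 by linarith) hQ.le
    have k2 := mul_le_mul_of_nonneg_left (show 3 - w - y - 4 * S.z p ≤ 0 by linarith) k5
    linarith

end Vale.Agent.P244
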